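import Mathlib

/-!
# WP Hell: KL chain + Hellinger ≤ KL (classical).
-/

namespace Crest.Agent.PR

open Finset

private lemma sqrt_sub_one_sq_le (r : ℝ) (hr : 0 ≤ r) :
    (Real.sqrt r - 1) ^ 2 ≤ r * Real.log r - r + 1 := by
  rcases hr.eq_or_lt with rfl | hr
  · simp
  have hs : 0 < Real.sqrt r := Real.sqrt_pos.2 hr
  obtain ⟨s, hsdef⟩ : ∃ s, s = Real.sqrt r := ⟨_, rfl⟩
  rw [← hsdef] at hs ⊢
  have hr' : r = s ^ 2 := by rw [hsdef, Real.sq_sqrt hr.le]
  have hlog : Real.log r = 2 * Real.log s := by
    rw [hr', Real.log_pow]; norm_num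
  have h1 : 1 - s⁻¹ ≤ Real.log s := Real.one_sub_inv_le_log_of_pos hs
  have h2 : s ^ 2 * (1 - s⁻¹) ≤ s ^ 2 * Real.log s :=
    mul_le_mul_of_nonneg_left h1 (by positivity)
  have h3 : s ^ 2 * (1 - s⁻¹) = s ^ 2 - s := by
    field_simp
  rw [hlog, hr']
  nlinarith

private lemma prod_erase_mul {k : ℕ} {Zt : Type} (μ : Zt → ℝ) (z : Fin k → Zt) (i : Fin k) :
    μ (z i) * ∏ j ∈ Finset.univ.erase i, μ (z j) = ∏ j, μ (z j) :=
  Finset.mul_prod_erase Finset.univ (fun j => μ (z j)) (Finset.mem_univ i)

/-- KL chain + Hellinger ≤ KL.  `r i e = E[g | z_i = e] / E[g]`. -/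
theorem hellinger_chain {k : ℕ} {Zt : Type} [Fintype Zt] [DecidableEq Zt] (μ : Zt → ℝ) (hμ : ∀ e, 0 ≤ μ e)
    (hμ1 : ∑ e, μ e = 1) (g : (Fin k → Zt) → ℝ) (hg0 : ∀ z, 0 ≤ g z) (hg1 : ∀ z, g z ≤ 1)
    (hZ : 0 < ∑ z, (∏ j, μ (z j)) * g z) (D : Finset (Fin k)) :
    ∑ i ∈ D, ∑ e, μ e * (Real.sqrt
        ((∑ z, (∏ j ∈ Finset.univ.erase i, μ (z j)) * (if z i = e then g z else 0))
          / (∑ z, (∏ j, μ (z j)) * g z)) - 1) ^ 2
      ≤ Real.log (1 / ∑ z, (∏ j, μ (z j)) * g z) := by
  classical
  set P : (Fin k → Zt) → ℝ := fun z => ∏ j, μ (z j) with hP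
  have hP0 : ∀ z, 0 ≤ P z := fun z => Finset.prod_nonneg fun j _ => hμ _
  set Z : ℝ := ∑ z, P z * g z with hZdef
  have hZ' : 0 < Z := hZ
  set r : Fin k → Zt → ℝ := fun i e =>
    (∑ z, (∏ j ∈ Finset.univ.erase i, μ (z j)) * (if z i = e then g z else 0)) / Z with hr
  have hr0 : ∀ i e, 0 ≤ r i e := by
    intro i e
    apply div_nonneg _ hZ'.le
    apply Finset.sum_nonneg
    intro z _
    apply mul_nonneg (Finset.prod_nonneg fun j _ => hμ _)
    split_ifs
    · exact hg0 z
    · exact le_rfl
  -- mass identity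
  have hmass : ∀ i e, μ e * r i e = (∑ z, if z i = e then P z * g z else 0) / Z := by
    intro i e
    simp only [hr]
    rw [← mul_div_assoc, Finset.mul_sum]
    congr 1
    apply Finset.sum_congr rfl
    intro z _
    by_cases hze : z i = e
    · simp only [hze, if_true, hP]
      rw [← prod_erase_mul μ z i, hze]
      ring
    · simp [hze]
  have hsum1 : ∀ i, ∑ e, μ e * r i e = 1 := by
    intro i
    simp_rw [hmass]
    rw [← Finset.sum_div, Finset.sum_comm]
    have : ∀ z : Fin k → Zt, (∑ e, if z i = e then P z * g z else 0) = P z * g z := by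
      intro z
      simp
    simp_rw [this]
    exact div_self hZ'.ne'
  -- product measure of `u`
  set u : (Fin k → Zt) → ℝ := fun z => ∏ i ∈ D, r i (z i) with hu
  have hu0 : ∀ z, 0 ≤ u z := fun z => Finset.prod_nonneg fun i _ => hr0 _ _
  have hPu : ∑ z, P z * u z = 1 := by
    have h1 : ∀ z : Fin k → Zt, P z * u z =
        ∏ j, (μ (z j) * (if j ∈ D then r j (z j) else 1)) := by
      intro z
      rw [Finset.prod_mul_distrib]
      congr 1
      simp only [hu]
      rw [Finset.prod_ite_mem, Finset.univ_inter]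
    simp_rw [h1]
    have h2 := (Finset.prod_univ_sum (fun _ : Fin k => (Finset.univ : Finset Zt))
      (fun j e => μ e * (if j ∈ D then r j e else 1))).symm
    rw [Fintype.piFinset_univ] at h2
    rw [h2]
    apply Finset.prod_eq_one
    intro j _
    by_cases hj : j ∈ D
    · simp only [hj, if_true]
      exact hsum1 j
    · simp only [hj, if_false, mul_one]
      exact hμ1
  -- positivity of `r` on the support
  have hrpos : ∀ z, 0 < P z * g z → ∀ i, 0 < r i (z i) := by
    intro z hz i
    have hgz : 0 < g z := by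
      rcases (hg0 z).eq_or_lt with h | h
      · rw [← h] at hz; simp at hz
      · exact h
    have hPz : 0 < P z := by
      rcases (hP0 z).eq_or_lt with h | h
      · rw [← h] at hz; simp at hz
      · exact h
    have hprod : 0 < ∏ j ∈ Finset.univ.erase i, μ (z j) := by
      have h := prod_erase_mul μ z i
      have h2 : 0 ≤ ∏ j ∈ Finset.univ.erase i, μ (z j) :=
        Finset.prod_nonneg fun j _ => hμ _
      rcases h2.eq_or_lt with h3 | h3
      · rw [← h3, mul_zero] at h
        exact absurd h hPz.ne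
      · exact h3
    apply div_pos _ hZ'
    have hle : (∏ j ∈ Finset.univ.erase i, μ (z j)) * (if z i = z i then g z else 0) ≤
        ∑ z', (∏ j ∈ Finset.univ.erase i, μ (z' j)) * (if z' i = z i then g z' else 0) := by
      apply Finset.single_le_sum (f := fun z' : Fin k → Zt =>
        (∏ j ∈ Finset.univ.erase i, μ (z' j)) * (if z' i = z i then g z' else 0)) _ (Finset.mem_univ z)
      intro z' _
      apply mul_nonneg (Finset.prod_nonneg fun j _ => hμ _)
      split_ifs
      · exact hg0 z'
      · exact le_rfl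
    refine lt_of_lt_of_le ?_ hle
    simp only [if_true]
    exact mul_pos hprod hgz
  -- the pointwise Gibbs bound
  have hpt : ∀ z, (P z * g z / Z) * ∑ i ∈ D, Real.log (r i (z i))
      ≤ P z * u z - P z * g z / Z + (P z * g z / Z) * Real.log (1 / Z) := by
    intro z
    rcases (mul_nonneg (hP0 z) (hg0 z)).eq_or_lt with h0 | hpos
    · rw [← h0]
      simp only [zero_div, zero_mul, sub_zero, add_zero]
      exact mul_nonneg (hP0 z) (hu0 z)
    · have hgz : 0 < g z := by
        rcases (hg0 z).eq_or_lt with h | h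
        · rw [← h] at hpos; simp at hpos
        · exact h
      have hPz : 0 < P z := by
        rcases (hP0 z).eq_or_lt with h | h
        · rw [← h] at hpos; simp at hpos
        · exact h
      have hupos : 0 < u z := Finset.prod_pos fun i _ => hrpos z hpos i
      have hlogu : ∑ i ∈ D, Real.log (r i (z i)) = Real.log (u z) := by
        simp only [hu]
        rw [Real.log_prod]
        intro i _
        exact (hrpos z hpos i).ne'
      rw [hlogu]
      -- `log (u Z) ≤ u Z - 1` is not enough: use `log (u Z) ≤ log (u / h) ≤ u / h - 1`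
      have hh : 0 < g z / Z := div_pos hgz hZ'
      have hlog1 : Real.log (u z / (g z / Z)) ≤ u z / (g z / Z) - 1 :=
        Real.log_le_sub_one_of_pos (div_pos hupos hh)
      have hmono : Real.log (u z * Z) ≤ Real.log (u z / (g z / Z)) := by
        apply Real.log_le_log (mul_pos hupos hZ')
        have : u z / (g z / Z) = u z * Z / g z := by field_simp
        rw [this]
        rw [le_div_iff₀ hgz]
        have h3 : u z * Z * g z ≤ u z * Z * 1 :=
          mul_le_mul_of_nonneg_left (hg1 z) (mul_pos hupos hZ').le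
        linarith
      have hlogsplit : Real.log (u z) = Real.log (u z * Z) + Real.log (1 / Z) := by
        rw [Real.log_mul hupos.ne' hZ'.ne', one_div, Real.log_inv]
        ring
      rw [hlogsplit]
      have hw : 0 ≤ P z * g z / Z := (div_pos hpos hZ').le
      have h4 : (P z * g z / Z) * Real.log (u z * Z) ≤ (P z * g z / Z) * (u z / (g z / Z) - 1) :=
        mul_le_mul_of_nonneg_left (hmono.trans hlog1) hw
      have h5 : (P z * g z / Z) * (u z / (g z / Z) - 1) = P z * u z - P z * g z / Z := by
        field_simp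
      rw [h5] at h4
      linarith
  -- sum the Gibbs bound
  have hgibbs : ∑ z, (P z * g z / Z) * ∑ i ∈ D, Real.log (r i (z i)) ≤ Real.log (1 / Z) := by
    have h1 := Finset.sum_le_sum (fun z (_ : z ∈ (Finset.univ : Finset (Fin k → Zt))) => hpt z)
    have hsumh : ∑ z, P z * g z / Z = 1 := by
      rw [← Finset.sum_div]; exact div_self hZ'.ne'
    rw [Finset.sum_add_distrib, Finset.sum_sub_distrib, hPu, hsumh, ← Finset.sum_mul, hsumh] at h1
    linarith
  -- identify with `∑ i ∑ e μ r log r`
  have hident : ∀ i, ∑ e, μ e * r i e * Real.log (r i e)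
      = ∑ z, (P z * g z / Z) * Real.log (r i (z i)) := by
    intro i
    simp_rw [hmass]
    have : ∀ e, (∑ z, if z i = e then P z * g z else 0) / Z * Real.log (r i e)
        = ∑ z, if z i = e then (P z * g z / Z) * Real.log (r i (z i)) else 0 := by
      intro e
      rw [Finset.sum_div, Finset.sum_mul]
      apply Finset.sum_congr rfl
      intro z _
      by_cases hze : z i = e
      · simp [hze]
      · simp [hze]
    simp_rw [this]
    rw [Finset.sum_comm]
    apply Finset.sum_congr rfl
    intro z _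
    simp
  -- pointwise Hellinger bound
  have hcoord : ∀ i, ∑ e, μ e * (Real.sqrt (r i e) - 1) ^ 2 ≤ ∑ e, μ e * r i e * Real.log (r i e) := by
    intro i
    have h1 : ∀ e ∈ (Finset.univ : Finset Zt), μ e * (Real.sqrt (r i e) - 1) ^ 2
        ≤ μ e * r i e * Real.log (r i e) - μ e * r i e + μ e := by
      intro e _
      have := mul_le_mul_of_nonneg_left (sqrt_sub_one_sq_le (r i e) (hr0 i e)) (hμ e)
      calc μ e * (Real.sqrt (r i e) - 1) ^ 2 ≤ _ := this
        _ = _ := by ring
    have h2 := Finset.sum_le_sum h1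
    rw [Finset.sum_add_distrib, Finset.sum_sub_distrib, hsum1, hμ1] at h2
    linarith
  calc ∑ i ∈ D, ∑ e, μ e * (Real.sqrt (r i e) - 1) ^ 2
      ≤ ∑ i ∈ D, ∑ e, μ e * r i e * Real.log (r i e) :=
        Finset.sum_le_sum fun i _ => hcoord i
    _ = ∑ i ∈ D, ∑ z, (P z * g z / Z) * Real.log (r i (z i)) :=
        Finset.sum_congr rfl fun i _ => hident i
    _ = ∑ z, (P z * g z / Z) * ∑ i ∈ D, Real.log (r i (z i)) := by
        rw [Finset.sum_comm]
        apply Finset.sum_congr rfl
        intro z _
        rw [Finset.mul_sum]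
    _ ≤ Real.log (1 / Z) := hgibbs

end Crest.Agent.PR
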