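import Crest.Agent.PR.ChainAsm
import Crest.Agent.PR.Hell

/-!
# WP Chain: `chain_main`.
-/

namespace Crest.Agent.PR.ChainAux

open Crest.MathPhysics.NonlocalGame Matrix
open scoped Kronecker ComplexOrder
open Crest.Agent.PR

variable {G : Game} {k dA dB : ℕ} (St : Strategy G k dA dB)

lemma sum3_comm {α β γ : Type} [Fintype α] [Fintype β] [Fintype γ] (f : α → β → γ → ℝ) :
    ∑ x, ∑ y, ∑ z, f x y z = ∑ z, ∑ x, ∑ y, f x y z := by
  calc ∑ x, ∑ y, ∑ z, f x y z = ∑ x, ∑ z, ∑ y, f x y z :=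
        Finset.sum_congr rfl fun x _ => Finset.sum_comm
    _ = ∑ z, ∑ x, ∑ y, f x y z := Finset.sum_comm

/-- the weight of coordinate `i` -/
noncomputable def wc (C : Finset (Fin k)) (i : Fin k) (ω : Fin k → Kst G) : ℝ := Wt (Wm C (i : ℕ)) ω

lemma wc_nonneg (C : Finset (Fin k)) (i : Fin k) (ω : Fin k → Kst G) : 0 ≤ wc C i ω :=
  Wt_nonneg (Wm_nonneg C _) ω

/-- resampling with total mass one -/
lemma resample_one {C : Finset (Fin k)} {i : Fin k} (hi : i ∉ C) (V : Kst G → ℝ)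
    (F : (Fin k → Kst G) → ℝ) :
    ∑ ω, wc C i ω * ∑ κ, V κ * F (Function.update ω i κ)
      = ∑ ω, Wt (Function.update (Wm C (i : ℕ)) i V) ω * F ω := by
  have h := resample (Wm (G := G) C (i : ℕ)) i V F
  rw [sum_Wm_self hi, one_mul] at h
  exact h

lemma coordZ_eq {C : Finset (Fin k)} {i : Fin k} (hi : i ∉ C) :
    coordZ (G := G) St.ψ (wc C i) (Tc St i) (Sc St i) = winSub St C := by
  rw [← sum_evK_Wm St C ((i : ℕ) + 1), ← Wm_update_full hi, ← resample_one hi]
  unfold coordZ coordMass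
  simp only [sum_wFull_mul, evK_kFull, Finset.mul_sum]
  rw [sum3_comm]
  refine Finset.sum_congr rfl fun ω _ => Finset.sum_congr rfl fun x _ => Finset.sum_congr rfl fun y _ => ?_
  ring

lemma coordWin_eq {C : Finset (Fin k)} {i : Fin k} (hi : i ∉ C) :
    coordWin (G := G) St.ψ (wc C i) (Tc St i) (Sc St i) = winSub St (insert i C) := by
  have hW : ∀ j x y a b, cc (Function.update (Wm (G := G) C (i : ℕ)) i wAcc j) x y a b =
      if j ∈ insert i C then (if G.accept x y a b = true then G.prob x y else 0) else G.prob x y := by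
    intro j x y a b
    by_cases h : j = i
    · subst h
      simp [cc_wAcc]
    · rw [Function.update_of_ne h, cc_Wm]
      simp [h]
  rw [← sum_evK_eq_winSub St _ _ hW, ← resample_one hi]
  unfold coordWin
  simp only [sum_wAcc_mul, evK_kAcc]
  simp only [Finset.mul_sum]
  rw [sum3_comm]
  refine Finset.sum_congr rfl fun ω _ => Finset.sum_congr rfl fun x _ => Finset.sum_congr rfl fun y _ =>
    Finset.sum_congr rfl fun a _ => Finset.sum_congr rfl fun b _ => ?_
  split_ifs <;> ring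

lemma coordMass_eq {C : Finset (Fin k)} {i : Fin k} (hi : i ∉ C) (x : Fin G.nX) (y : Fin G.nY) :
    coordMass (G := G) St.ψ (wc C i) (Tc St i) (Sc St i) x y
      = ∑ ω, Wt (Function.update (Wm C (i : ℕ)) i (wDel x y)) ω * evK St ω := by
  rw [← resample_one hi]
  unfold coordMass
  simp only [sum_wDel_mul, evK_kFull]

lemma step {C : Finset (Fin k)} {i : Fin k} (hi : i ∉ C) :
    Pot St (Wm C (i : ℕ)) - Pot St (Wm C ((i : ℕ) + 1))
      = (1 / 2) * aTerm (G := G) St.ψ (wc C i) (Tc St i) (Sc St i)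
        + (1 / 2) * bTerm (G := G) St.ψ (wc C i) (Tc St i) (Sc St i) := by
  have h1 : Pot St (Wm C (i : ℕ)) = ∑ ω, wc C i ω * ∑ κ, wHalf κ * PhiK St (Function.update ω i κ) := by
    rw [resample_one hi, Wm_update_half hi]
    rfl
  have h2 : Pot St (Wm C ((i : ℕ) + 1)) = ∑ ω, wc C i ω * ∑ κ, wFull κ * PhiK St (Function.update ω i κ) := by
    rw [resample_one hi, Wm_update_full hi]
    rfl
  have h3 : aTerm (G := G) St.ψ (wc C i) (Tc St i) (Sc St i)
      = ∑ ω, wc C i ω * ∑ x, muX G x * ev St.ψ (sumA (Tc St i) x ω)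
          ((∑ y, ((condY G x y : ℝ) : ℂ) • xlog (sumB (Sc St i) y ω)) - xlog (barS (Sc St i) x ω)) := by
    unfold aTerm
    simp only [Finset.mul_sum]
    rw [Finset.sum_comm]
    refine Finset.sum_congr rfl fun ω _ => Finset.sum_congr rfl fun x _ => ?_
    ring
  have h4 : bTerm (G := G) St.ψ (wc C i) (Tc St i) (Sc St i)
      = ∑ ω, wc C i ω * ∑ y, muY G y * ev St.ψ
          ((∑ x, ((condX G y x : ℝ) : ℂ) • xlog (sumA (Tc St i) x ω)) - xlog (barT (Tc St i) y ω))
          (sumB (Sc St i) y ω) := by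
    unfold bTerm
    simp only [Finset.mul_sum]
    rw [Finset.sum_comm]
    refine Finset.sum_congr rfl fun ω _ => Finset.sum_congr rfl fun y _ => ?_
    ring
  rw [h1, h2, h3, h4, ← Finset.sum_sub_distrib, Finset.mul_sum, Finset.mul_sum, ← Finset.sum_add_distrib]
  refine Finset.sum_congr rfl fun ω _ => ?_
  rw [← mul_sub, mul_left_comm, mul_left_comm (1 / 2 : ℝ), ← mul_add]
  congr 1
  simp only [sum_wHalf_mul, sum_wFull_mul, PhiK_kHX, PhiK_kHY, PhiK_kFull]
  exact half_sub_full St.ψ (fun x => sumA (Tc St i) x ω) (fun y => sumB (Sc St i) y ω)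
    (fun x => barS (Sc St i) x ω) (fun y => barT (Tc St i) y ω) (fun x => rfl) (fun y => rfl)

lemma Pot_nonneg (W : Fin k → Kst G → ℝ) (hW : ∀ j κ, 0 ≤ W j κ) : 0 ≤ Pot St W :=
  Finset.sum_nonneg fun ω _ => mul_nonneg (Wt_nonneg hW ω) (PhiK_nonneg St ω)

lemma Wm_le_top (C : Finset (Fin k)) :
    Wm (G := G) C 0 = Wm C 0 := rfl

/-- Telescoping. -/
lemma tele (C : Finset (Fin k)) :
    Pot St (Wm C 0) - Pot St (Wm C k)
      = ∑ i ∈ Cᶜ, ((1 / 2) * aTerm (G := G) St.ψ (wc C i) (Tc St i) (Sc St i)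
        + (1 / 2) * bTerm (G := G) St.ψ (wc C i) (Tc St i) (Sc St i)) := by
  have h1 : ∑ i : Fin k, (Pot St (Wm (G := G) C (i : ℕ)) - Pot St (Wm C ((i : ℕ) + 1)))
      = Pot St (Wm C 0) - Pot St (Wm C k) := by
    rw [Fin.sum_univ_eq_sum_range (fun m => Pot St (Wm (G := G) C m) - Pot St (Wm C (m + 1))) k,
      Finset.sum_range_sub']
  rw [← h1]
  symm
  rw [← Finset.sum_subset (Finset.subset_univ Cᶜ)]
  · refine Finset.sum_congr rfl fun i hi => ?_
    exact (step St (Finset.mem_compl.mp hi)).symm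
  · intro i _ hi
    have hi' : i ∈ C := by simpa using hi
    rw [Wm_succ_of_mem hi', sub_self]

/-- Chain bound. -/
lemma chain_bound (C : Finset (Fin k)) (hnA : 0 < G.nA) (hnB : 0 < G.nB) (hZ : 0 < winSub St C) :
    ∑ i ∈ Cᶜ, (aTerm (G := G) St.ψ (wc C i) (Tc St i) (Sc St i) + bTerm (G := G) St.ψ (wc C i) (Tc St i) (Sc St i))
      ≤ 2 * winSub St C * ((C.card : ℝ) * Real.log ((G.nA * G.nB : ℕ) : ℝ) + Real.log (1 / winSub St C)) := by
  have h1 := tele St C
  have h2 := Pot_nonneg St (Wm (G := G) C k) (Wm_nonneg C k)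
  have hN : (0 : ℝ) < ((G.nA * G.nB : ℕ) : ℝ) := by
    exact_mod_cast Nat.mul_pos hnA hnB
  have h3 := Pot_le St (Wm (G := G) C 0) (Wm_nonneg C 0) (pow_pos hN C.card)
    (mass_Wm_le C 0 (fun j => Nat.not_lt_zero _)) hZ (sum_evK_Wm St C 0)
  rw [Real.log_pow] at h3
  have h4 : ∑ i ∈ Cᶜ, (aTerm (G := G) St.ψ (wc C i) (Tc St i) (Sc St i) + bTerm (G := G) St.ψ (wc C i) (Tc St i) (Sc St i))
      = 2 * ∑ i ∈ Cᶜ, ((1 / 2) * aTerm (G := G) St.ψ (wc C i) (Tc St i) (Sc St i)
        + (1 / 2) * bTerm (G := G) St.ψ (wc C i) (Tc St i) (Sc St i)) := by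
    rw [Finset.mul_sum]
    refine Finset.sum_congr rfl fun i _ => ?_
    ring
  rw [h4, ← h1]
  nlinarith

/-! ### The Hellinger application -/

/-- conditional winning probability of question strings -/
noncomputable def gz (C : Finset (Fin k)) (z : Fin k → Fin G.nX × Fin G.nY) : ℝ :=
  ∑ a : Fin k → Fin G.nA, ∑ b : Fin k → Fin G.nB,
    if ∀ i ∈ C, G.accept (z i).1 (z i).2 (a i) (b i) = true
      then St.answerProb (fun j => (z j).1) (fun j => (z j).2) a b else 0

lemma answerProb_eq (x y a b) : St.answerProb x y a b = ev St.ψ (St.M x a) (St.N y b) := rfl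

lemma answerProb_nonneg (x y a b) : 0 ≤ St.answerProb x y a b :=
  ev_nonneg' (St.M_posSemidef x a) (St.N_posSemidef y b)

lemma sum_answerProb (x y) : ∑ a, ∑ b, St.answerProb x y a b = 1 := by
  have h1 : ∀ a, ∑ b, St.answerProb x y a b = ev St.ψ (St.M x a) 1 := by
    intro a
    rw [← St.N_sum y, ev_sum_right]
    rfl
  simp only [h1]
  rw [← ev_sum_left, St.M_sum x, ev_one_one]
  exact nsq_psi St

lemma gz_nonneg (C : Finset (Fin k)) (z : Fin k → Fin G.nX × Fin G.nY) : 0 ≤ gz St C z :=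
  Finset.sum_nonneg fun a _ => Finset.sum_nonneg fun b _ => by
    split_ifs
    · exact answerProb_nonneg St _ _ _ _
    · exact le_refl _

lemma gz_le_one (C : Finset (Fin k)) (z : Fin k → Fin G.nX × Fin G.nY) : gz St C z ≤ 1 := by
  rw [← sum_answerProb St (fun j => (z j).1) (fun j => (z j).2)]
  refine Finset.sum_le_sum fun a _ => Finset.sum_le_sum fun b _ => ?_
  split_ifs
  · exact le_refl _
  · exact answerProb_nonneg St _ _ _ _

lemma sum_z (F : (Fin k → Fin G.nX × Fin G.nY) → ℝ) :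
    ∑ z, F z = ∑ x : Fin k → Fin G.nX, ∑ y : Fin k → Fin G.nY, F (fun j => (x j, y j)) := by
  calc ∑ z, F z = ∑ p : (Fin k → Fin G.nX) × (Fin k → Fin G.nY), F (fun j => (p.1 j, p.2 j)) :=
        ((Equiv.arrowProdEquivProdArrow (Fin k) (fun _ => Fin G.nX) (fun _ => Fin G.nY)).symm.sum_comp F).symm
    _ = _ := Fintype.sum_prod_type _

lemma hell_den (C : Finset (Fin k)) :
    ∑ z : Fin k → Fin G.nX × Fin G.nY, (∏ j, (fun e : Fin G.nX × Fin G.nY => G.prob e.1 e.2) (z j)) * gz St C z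
      = winSub St C := by
  rw [sum_z]
  rfl

lemma hell_num {C : Finset (Fin k)} {i : Fin k} (hi : i ∉ C) (x₀ : Fin G.nX) (y₀ : Fin G.nY) :
    ∑ z : Fin k → Fin G.nX × Fin G.nY,
        (∏ j ∈ Finset.univ.erase i, (fun e : Fin G.nX × Fin G.nY => G.prob e.1 e.2) (z j))
          * (if z i = (x₀, y₀) then gz St C z else 0)
      = coordMass (G := G) St.ψ (wc C i) (Tc St i) (Sc St i) x₀ y₀ := by
  rw [coordMass_eq St hi]
  unfold evK Tw Sw
  rw [expansion St, sum_z]
  refine Finset.sum_congr rfl fun x _ => Finset.sum_congr rfl fun y _ => ?_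
  have hprod : ∀ (a : Fin k → Fin G.nA) (b : Fin k → Fin G.nB),
      ∏ j, cc (Function.update (Wm (G := G) C (i : ℕ)) i (wDel x₀ y₀) j) (x j) (y j) (a j) (b j)
        = (∏ j ∈ Finset.univ.erase i, G.prob (x j) (y j))
          * ((if x i = x₀ ∧ y i = y₀ then 1 else 0) * (if ∀ l ∈ C, G.accept (x l) (y l) (a l) (b l) = true then 1 else 0)) := by
    intro a b
    rw [← Finset.mul_prod_erase Finset.univ _ (Finset.mem_univ i)]
    rw [Function.update_self, cc_wDel]
    by_cases hall : ∀ l ∈ C, G.accept (x l) (y l) (a l) (b l) = true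
    · rw [if_pos hall, mul_one, mul_comm]
      congr 1
      refine Finset.prod_congr rfl fun j hj => ?_
      rw [Function.update_of_ne (Finset.ne_of_mem_erase hj), cc_Wm]
      by_cases hjC : j ∈ C
      · rw [if_pos hjC, if_pos (hall j hjC)]
      · rw [if_neg hjC]
    · rw [if_neg hall, mul_zero, mul_zero]
      obtain ⟨l, hl, hacc⟩ : ∃ l ∈ C, ¬ G.accept (x l) (y l) (a l) (b l) = true := by
        simpa using hall
      have hli : l ≠ i := fun h => hi (h ▸ hl)
      rw [Finset.prod_eq_zero (Finset.mem_erase.mpr ⟨hli, Finset.mem_univ l⟩), mul_zero]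
      rw [Function.update_of_ne hli, cc_Wm, if_pos hl, if_neg hacc]
  simp only [hprod]
  unfold gz
  by_cases hxy : x i = x₀ ∧ y i = y₀
  · have h1 : ((fun j => (x j, y j)) i : Fin G.nX × Fin G.nY) = (x₀, y₀) := by
      simp [hxy.1, hxy.2]
    simp only [if_true, hxy, and_self]
    rw [Finset.mul_sum]
    refine Finset.sum_congr rfl fun a _ => ?_
    rw [Finset.mul_sum]
    refine Finset.sum_congr rfl fun b _ => ?_
    split_ifs <;> simp
  · have h1 : ¬ (((fun j => (x j, y j)) i : Fin G.nX × Fin G.nY) = (x₀, y₀)) := by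
      intro h
      exact hxy (by simpa using h)
    simp only [h1, if_false, hxy, zero_mul, mul_zero, Finset.sum_const_zero]

end Crest.Agent.PR.ChainAux

namespace Crest.Agent.PR

open Crest.MathPhysics.NonlocalGame Matrix
open scoped Kronecker ComplexOrder
open Crest.Agent.PR.ChainAux

/-- The chain potential: for a `k`-fold strategy and a set `C` of coordinates. -/
theorem chain_main {G : Game} {k dA dB : ℕ} (St : Strategy G k dA dB) (C : Finset (Fin k))
    (hnA : 0 < G.nA) (hnB : 0 < G.nB) (hZ : 0 < winSub St C) :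
    ∃ (Ω : Type) (_ : Fintype Ω) (_ : DecidableEq Ω) (w : Fin k → Ω → ℝ)
      (T : Fin k → Fin G.nX → Ω → Fin G.nA → Matrix (Fin dA) (Fin dA) ℂ)
      (S : Fin k → Fin G.nY → Ω → Fin G.nB → Matrix (Fin dB) (Fin dB) ℂ),
      (∀ i ω, 0 ≤ w i ω) ∧ (∀ i x ω a, (T i x ω a).PosSemidef) ∧ (∀ i y ω b, (S i y ω b).PosSemidef) ∧
      (∀ i ∉ C, coordZ (G := G) St.ψ (w i) (T i) (S i) = winSub St C) ∧
      (∀ i ∉ C, coordWin (G := G) St.ψ (w i) (T i) (S i) = winSub St (insert i C)) ∧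
      (∑ i ∈ Cᶜ, (aTerm (G := G) St.ψ (w i) (T i) (S i) + bTerm (G := G) St.ψ (w i) (T i) (S i))
        ≤ 2 * winSub St C * ((C.card : ℝ) * Real.log ((G.nA * G.nB : ℕ) : ℝ) + Real.log (1 / winSub St C))) ∧
      (∑ i ∈ Cᶜ, ∑ x, ∑ y, G.prob x y *
          (Real.sqrt (coordMass (G := G) St.ψ (w i) (T i) (S i) x y / winSub St C) - 1) ^ 2
        ≤ Real.log (1 / winSub St C)) := by
  refine ⟨Fin k → Kst G, inferInstance, inferInstance, fun i => wc C i, fun i => Tc St i,
    fun i => Sc St i, fun i ω => wc_nonneg C i ω, fun i x ω a => Tc_psd St i x ω a,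
    fun i y ω b => Sc_psd St i y ω b, fun i hi => coordZ_eq St hi, fun i hi => coordWin_eq St hi,
    chain_bound St C hnA hnB hZ, ?_⟩
  have hZ' : 0 < ∑ z : Fin k → Fin G.nX × Fin G.nY,
      (∏ j, (fun e : Fin G.nX × Fin G.nY => G.prob e.1 e.2) (z j)) * gz St C z := by
    rw [hell_den]; exact hZ
  have h := hellinger_chain (fun e : Fin G.nX × Fin G.nY => G.prob e.1 e.2)
    (fun e => G.prob_nonneg e.1 e.2) (by rw [Fintype.sum_prod_type]; exact G.prob_sum)
    (gz St C) (gz_nonneg St C) (gz_le_one St C) hZ' Cᶜ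
  rw [hell_den] at h
  refine le_trans (le_of_eq ?_) h
  refine Finset.sum_congr rfl fun i hi => ?_
  rw [Fintype.sum_prod_type]
  refine Finset.sum_congr rfl fun x _ => Finset.sum_congr rfl fun y _ => ?_
  rw [hell_num St (Finset.mem_compl.mp hi)]

end Crest.Agent.PR
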