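import Crest.Agent.PR.ChainPot

/-!
# Assembly pieces of the chain (Chain WP): modes, `winSub`, one coordinate.
-/

namespace Crest.Agent.PR.ChainAux

open Crest.MathPhysics.NonlocalGame Matrix
open scoped Kronecker ComplexOrder
open Crest.Agent.PR

variable {G : Game} {k dA dB : ℕ} (St : Strategy G k dA dB)

/-- identification of a weighted sum with `winSub` -/
lemma sum_evK_eq_winSub (D : Finset (Fin k)) (W : Fin k → Kst G → ℝ)
    (hW : ∀ j x y a b, cc (W j) x y a b =
      if j ∈ D then (if G.accept x y a b = true then G.prob x y else 0) else G.prob x y) :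
    ∑ ω, Wt W ω * evK St ω = winSub St D := by
  have h := expansion St W
  unfold evK Tw Sw
  rw [h]
  unfold winSub
  refine Finset.sum_congr rfl fun x _ => Finset.sum_congr rfl fun y _ => ?_
  rw [Finset.mul_sum]
  refine Finset.sum_congr rfl fun a _ => ?_
  rw [Finset.mul_sum]
  refine Finset.sum_congr rfl fun b _ => ?_
  simp only [hW]
  by_cases hall : ∀ i ∈ D, G.accept (x i) (y i) (a i) (b i) = true
  · rw [if_pos hall]
    congr 1
    refine Finset.prod_congr rfl fun j _ => ?_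
    by_cases hj : j ∈ D
    · rw [if_pos hj, if_pos (hall j hj)]
    · rw [if_neg hj]
  · rw [if_neg hall, mul_zero]
    obtain ⟨i, hi, hacc⟩ : ∃ i ∈ D, ¬ G.accept (x i) (y i) (a i) (b i) = true := by
      simpa using hall
    rw [Finset.prod_eq_zero (Finset.mem_univ i) (by rw [if_pos hi, if_neg hacc]), zero_mul]

/-- the weight pattern with the first `m` coordinates off `C` fully revealed -/
noncomputable def Wm (C : Finset (Fin k)) (m : ℕ) : Fin k → Kst G → ℝ :=
  fun j => if j ∈ C then wAcc else if (j : ℕ) < m then wFull else wHalf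

lemma Wm_nonneg (C : Finset (Fin k)) (m : ℕ) (j : Fin k) (κ : Kst G) : 0 ≤ Wm C m j κ := by
  unfold Wm
  split_ifs
  · exact wAcc_nonneg κ
  · exact wFull_nonneg κ
  · exact wHalf_nonneg κ

lemma cc_Wm (C : Finset (Fin k)) (m : ℕ) (j : Fin k) (x y a b) :
    cc (G := G) (Wm C m j) x y a b =
      if j ∈ C then (if G.accept x y a b = true then G.prob x y else 0) else G.prob x y := by
  unfold Wm
  by_cases h1 : j ∈ C
  · simp only [h1, if_true, cc_wAcc]
  · by_cases h2 : (j : ℕ) < m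
    · simp only [h1, h2, if_true, if_false, cc_wFull]
    · simp only [h1, h2, if_false, cc_wHalf]

lemma sum_evK_Wm (C : Finset (Fin k)) (m : ℕ) :
    ∑ ω, Wt (Wm C m) ω * evK St ω = winSub St C :=
  sum_evK_eq_winSub St C _ (fun j x y a b => cc_Wm C m j x y a b)

lemma Wm_self {C : Finset (Fin k)} {i : Fin k} (hi : i ∉ C) (κ : Kst G) :
    Wm C (i : ℕ) i κ = wHalf κ := by
  simp [Wm, hi]

lemma Wm_update_half {C : Finset (Fin k)} {i : Fin k} (hi : i ∉ C) :
    Function.update (Wm (G := G) C (i : ℕ)) i wHalf = Wm C (i : ℕ) := by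
  funext j
  by_cases h : j = i
  · subst h
    rw [Function.update_self]
    funext κ
    rw [Wm_self hi]
  · rw [Function.update_of_ne h]

lemma Wm_update_full {C : Finset (Fin k)} {i : Fin k} (hi : i ∉ C) :
    Function.update (Wm (G := G) C (i : ℕ)) i wFull = Wm C ((i : ℕ) + 1) := by
  funext j
  by_cases h : j = i
  · subst h
    rw [Function.update_self]
    simp [Wm, hi]
  · rw [Function.update_of_ne h]
    have h' : (j : ℕ) ≠ i := fun h2 => h (Fin.ext h2)
    unfold Wm
    by_cases h1 : j ∈ C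
    · simp [h1]
    · have : (j : ℕ) < i ↔ (j : ℕ) < (i : ℕ) + 1 := by omega
      simp only [h1, if_false, this]

lemma Wm_succ_of_mem {C : Finset (Fin k)} {i : Fin k} (hi : i ∈ C) :
    Wm (G := G) C (i : ℕ) = Wm C ((i : ℕ) + 1) := by
  funext j
  unfold Wm
  by_cases h1 : j ∈ C
  · simp [h1]
  · have h' : (j : ℕ) ≠ i := fun h2 => h1 (by rwa [Fin.ext h2])
    have : (j : ℕ) < i ↔ (j : ℕ) < (i : ℕ) + 1 := by omega
    simp only [h1, if_false, this]

lemma sum_Wm_self {C : Finset (Fin k)} {i : Fin k} (hi : i ∉ C) :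
    ∑ κ, Wm (G := G) C (i : ℕ) i κ = 1 := by
  simp only [Wm_self hi]
  exact sum_wHalf

/-- the total mass at the start of the chain -/
lemma mass_Wm_le (C : Finset (Fin k)) (m : ℕ) (hm : ∀ j : Fin k, ¬ (j : ℕ) < m) :
    ∑ ω, Wt (Wm (G := G) C m) ω ≤ ((G.nA * G.nB : ℕ) : ℝ) ^ C.card := by
  rw [sum_Wt]
  have h : ∀ j : Fin k, ∑ κ, Wm (G := G) C m j κ ≤ if j ∈ C then ((G.nA * G.nB : ℕ) : ℝ) else 1 := by
    intro j
    unfold Wm
    by_cases h1 : j ∈ C
    · simp only [h1, if_true]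
      exact sum_wAcc_le
    · simp only [h1, if_false, hm j]
      exact sum_wHalf.le
  calc ∏ j, ∑ κ, Wm (G := G) C m j κ ≤ ∏ j : Fin k, (if j ∈ C then ((G.nA * G.nB : ℕ) : ℝ) else 1) :=
        Finset.prod_le_prod (fun j _ => Finset.sum_nonneg fun κ _ => Wm_nonneg C m j κ) (fun j _ => h j)
    _ = ((G.nA * G.nB : ℕ) : ℝ) ^ C.card := by
        rw [Finset.prod_ite, Finset.prod_const, Finset.prod_const_one, mul_one]
        congr 2
        ext j
        simp

/-! ### One coordinate -/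

/-- `T^a_{x,ω}` at coordinate `i` -/
noncomputable def Tc (i : Fin k) (x : Fin G.nX) (ω : Fin k → Kst G) (a : Fin G.nA) :
    Matrix (Fin dA) (Fin dA) ℂ :=
  Top St (Function.update (fun j => PK (ω j)) i (dXA x a))

/-- `S^b_{y,ω}` at coordinate `i` -/
noncomputable def Sc (i : Fin k) (y : Fin G.nY) (ω : Fin k → Kst G) (b : Fin G.nB) :
    Matrix (Fin dB) (Fin dB) ℂ :=
  Sop St (Function.update (fun j => QK (ω j)) i (dYB y b))

lemma Tc_psd (i : Fin k) (x : Fin G.nX) (ω : Fin k → Kst G) (a : Fin G.nA) : (Tc St i x ω a).PosSemidef := by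
  refine Top_psd St fun j x' a' => ?_
  by_cases h : j = i
  · subst h
    rw [Function.update_self]
    simp only [dXA]
    split_ifs <;> norm_num
  · rw [Function.update_of_ne h]
    exact PK_nonneg _ _ _

lemma Sc_psd (i : Fin k) (y : Fin G.nY) (ω : Fin k → Kst G) (b : Fin G.nB) : (Sc St i y ω b).PosSemidef := by
  refine Sop_psd St fun j y' b' => ?_
  by_cases h : j = i
  · subst h
    rw [Function.update_self]
    simp only [dYB]
    split_ifs <;> norm_num
  · rw [Function.update_of_ne h]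
    exact QK_nonneg _ _ _

lemma upd_PK (ω : Fin k → Kst G) (i : Fin k) (κ : Kst G) :
    Function.update (fun j => PK (ω j)) i (PK κ) = fun j => PK (Function.update ω i κ j) := by
  funext j
  by_cases h : j = i
  · subst h; simp
  · simp [Function.update_of_ne h]

lemma upd_QK (ω : Fin k → Kst G) (i : Fin k) (κ : Kst G) :
    Function.update (fun j => QK (ω j)) i (QK κ) = fun j => QK (Function.update ω i κ j) := by
  funext j
  by_cases h : j = i
  · subst h; simp
  · simp [Function.update_of_ne h]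

lemma Tw_update (ω : Fin k → Kst G) (i : Fin k) (κ : Kst G) :
    Tw St (Function.update ω i κ) = Top St (Function.update (fun j => PK (ω j)) i (PK κ)) := by
  rw [upd_PK]; rfl

lemma Sw_update (ω : Fin k → Kst G) (i : Fin k) (κ : Kst G) :
    Sw St (Function.update ω i κ) = Sop St (Function.update (fun j => QK (ω j)) i (QK κ)) := by
  rw [upd_QK]; rfl

lemma dX_eq_sum (x : Fin G.nX) :
    (dX x : Fin G.nX → Fin G.nA → ℝ) = fun x' a' => ∑ a : Fin G.nA, (1 : ℝ) * dXA x a x' a' := by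
  funext x' a'
  simp only [dX, dXA, one_mul]
  by_cases h : x' = x
  · simp [h]
  · simp [h]

lemma dY_eq_sum (y : Fin G.nY) :
    (dY y : Fin G.nY → Fin G.nB → ℝ) = fun y' b' => ∑ b : Fin G.nB, (1 : ℝ) * dYB y b y' b' := by
  funext y' b'
  simp only [dY, dYB, one_mul]
  by_cases h : y' = y
  · simp [h]
  · simp [h]

lemma cY_eq_sum (x : Fin G.nX) :
    (cY x : Fin G.nY → Fin G.nB → ℝ) = fun y' b' => ∑ y, condY G x y * dY y y' b' := by
  funext y' b'
  simp [cY, dY]

lemma cX_eq_sum (y : Fin G.nY) :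
    (cX y : Fin G.nX → Fin G.nA → ℝ) = fun x' a' => ∑ x, condX G y x * dX x x' a' := by
  funext x' a'
  simp [cX, dX]

lemma sumA_Tc (i : Fin k) (x : Fin G.nX) (ω : Fin k → Kst G) :
    sumA (Tc St i) x ω = Top St (Function.update (fun j => PK (ω j)) i (dX x)) := by
  unfold sumA Tc
  rw [dX_eq_sum, Top_update_sum]
  simp

lemma sumB_Sc (i : Fin k) (y : Fin G.nY) (ω : Fin k → Kst G) :
    sumB (Sc St i) y ω = Sop St (Function.update (fun j => QK (ω j)) i (dY y)) := by
  unfold sumB Sc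
  rw [dY_eq_sum, Sop_update_sum]
  simp

lemma barS_Sc (i : Fin k) (x : Fin G.nX) (ω : Fin k → Kst G) :
    barS (Sc St i) x ω = Sop St (Function.update (fun j => QK (ω j)) i (cY x)) := by
  unfold barS
  simp only [sumB_Sc]
  rw [cY_eq_sum, Sop_update_sum]

lemma barT_Tc (i : Fin k) (y : Fin G.nY) (ω : Fin k → Kst G) :
    barT (Tc St i) y ω = Top St (Function.update (fun j => PK (ω j)) i (cX y)) := by
  unfold barT
  simp only [sumA_Tc]
  rw [cX_eq_sum, Top_update_sum]

/-- The four evaluations of `Φ` at the states of coordinate `i`. -/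
lemma PhiK_kHX (i : Fin k) (x : Fin G.nX) (ω : Fin k → Kst G) :
    PhiK St (Function.update ω i (kHX x)) = Phi St.ψ (sumA (Tc St i) x ω) (barS (Sc St i) x ω) := by
  unfold PhiK
  rw [Tw_update, Sw_update, sumA_Tc, barS_Sc]
  rfl

lemma PhiK_kHY (i : Fin k) (y : Fin G.nY) (ω : Fin k → Kst G) :
    PhiK St (Function.update ω i (kHY y)) = Phi St.ψ (barT (Tc St i) y ω) (sumB (Sc St i) y ω) := by
  unfold PhiK
  rw [Tw_update, Sw_update, sumB_Sc, barT_Tc]
  rfl

lemma PhiK_kFull (i : Fin k) (x : Fin G.nX) (y : Fin G.nY) (ω : Fin k → Kst G) :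
    PhiK St (Function.update ω i (kFull x y)) = Phi St.ψ (sumA (Tc St i) x ω) (sumB (Sc St i) y ω) := by
  unfold PhiK
  rw [Tw_update, Sw_update, sumA_Tc, sumB_Sc]
  rfl

lemma evK_kFull (i : Fin k) (x : Fin G.nX) (y : Fin G.nY) (ω : Fin k → Kst G) :
    evK St (Function.update ω i (kFull x y)) = ev St.ψ (sumA (Tc St i) x ω) (sumB (Sc St i) y ω) := by
  unfold evK
  rw [Tw_update, Sw_update, sumA_Tc, sumB_Sc]
  rfl

lemma evK_kAcc (i : Fin k) (x : Fin G.nX) (y : Fin G.nY) (a b) (ω : Fin k → Kst G) :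
    evK St (Function.update ω i (kAcc x y a b)) = ev St.ψ (Tc St i x ω a) (Sc St i y ω b) := by
  unfold evK
  rw [Tw_update, Sw_update]
  rfl

/-- sum over states with the half weight -/
lemma sum_wHalf_mul (F : Kst G → ℝ) :
    ∑ κ, wHalf κ * F κ = ∑ x, (muX G x / 2) * F (kHX x) + ∑ y, (muY G y / 2) * F (kHY y) := by
  rw [sum_Kst]
  simp [wHalf]

lemma sum_wFull_mul (F : Kst G → ℝ) :
    ∑ κ, wFull κ * F κ = ∑ x, ∑ y, G.prob x y * F (kFull x y) := by
  rw [sum_Kst]
  simp [wFull]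

lemma sum_wAcc_mul (F : Kst G → ℝ) :
    ∑ κ, wAcc κ * F κ = ∑ x, ∑ y, ∑ a, ∑ b, (if G.accept x y a b = true then G.prob x y else 0) * F (kAcc x y a b) := by
  rw [sum_Kst]
  simp [wAcc]

lemma sum_wDel_mul (x₀ : Fin G.nX) (y₀ : Fin G.nY) (F : Kst G → ℝ) :
    ∑ κ, wDel x₀ y₀ κ * F κ = F (kFull x₀ y₀) := by
  rw [sum_Kst]
  simp only [wDel, zero_mul, Finset.sum_const_zero, add_zero, zero_add]
  rw [Finset.sum_eq_single x₀ (fun x _ hx => Finset.sum_eq_zero fun y _ => by simp [hx]) (by simp)]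
  rw [Finset.sum_eq_single y₀ (fun y _ hy => by simp [hy]) (by simp)]
  simp

end Crest.Agent.PR.ChainAux
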