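import Crest.Agent.PR.Defs

/-!
# `ev`: bilinearity and spectral expansion (used by the Chain WP, usable by all).
Namespace `Crest.Agent.PR.ChainAux`.
-/

namespace Crest.Agent.PR.ChainAux

open Crest.MathPhysics.NonlocalGame Matrix
open scoped Kronecker ComplexOrder
open Crest.Agent.PR

section bilin

variable {I J : Type} [Fintype I] [Fintype J]

lemma ev_add_left (ψ : I × J → ℂ) (M M' : Matrix I I ℂ) (N : Matrix J J ℂ) :
    ev ψ (M + M') N = ev ψ M N + ev ψ M' N := by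
  simp [ev, add_kronecker, add_mulVec, dotProduct_add]

lemma ev_add_right (ψ : I × J → ℂ) (M : Matrix I I ℂ) (N N' : Matrix J J ℂ) :
    ev ψ M (N + N') = ev ψ M N + ev ψ M N' := by
  simp [ev, kronecker_add, add_mulVec, dotProduct_add]

lemma ev_smul_left (ψ : I × J → ℂ) (c : ℝ) (M : Matrix I I ℂ) (N : Matrix J J ℂ) :
    ev ψ ((c : ℂ) • M) N = c * ev ψ M N := by
  simp [ev, smul_kronecker, smul_mulVec, dotProduct_smul]

lemma ev_smul_right (ψ : I × J → ℂ) (c : ℝ) (M : Matrix I I ℂ) (N : Matrix J J ℂ) :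
    ev ψ M ((c : ℂ) • N) = c * ev ψ M N := by
  simp [ev, kronecker_smul, smul_mulVec, dotProduct_smul]

lemma ev_zero_left (ψ : I × J → ℂ) (N : Matrix J J ℂ) : ev ψ (0 : Matrix I I ℂ) N = 0 := by
  simp [ev]

lemma ev_zero_right (ψ : I × J → ℂ) (M : Matrix I I ℂ) : ev ψ M (0 : Matrix J J ℂ) = 0 := by
  simp [ev]

lemma ev_sum_left {ι : Type*} (ψ : I × J → ℂ) (s : Finset ι) (f : ι → Matrix I I ℂ)
    (N : Matrix J J ℂ) : ev ψ (∑ l ∈ s, f l) N = ∑ l ∈ s, ev ψ (f l) N := by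
  classical
  induction s using Finset.induction_on with
  | empty => simp [ev_zero_left]
  | insert a s ha ih => rw [Finset.sum_insert ha, Finset.sum_insert ha, ev_add_left, ih]

lemma ev_sum_right {ι : Type*} (ψ : I × J → ℂ) (s : Finset ι) (f : ι → Matrix J J ℂ)
    (M : Matrix I I ℂ) : ev ψ M (∑ l ∈ s, f l) = ∑ l ∈ s, ev ψ M (f l) := by
  classical
  induction s using Finset.induction_on with
  | empty => simp [ev_zero_right]
  | insert a s ha ih => rw [Finset.sum_insert ha, Finset.sum_insert ha, ev_add_right, ih]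

lemma ev_sub_left (ψ : I × J → ℂ) (M M' : Matrix I I ℂ) (N : Matrix J J ℂ) :
    ev ψ (M - M') N = ev ψ M N - ev ψ M' N := by
  have h := ev_add_left ψ (M - M') M' N
  rw [sub_add_cancel] at h
  linarith

lemma ev_sub_right (ψ : I × J → ℂ) (M : Matrix I I ℂ) (N N' : Matrix J J ℂ) :
    ev ψ M (N - N') = ev ψ M N - ev ψ M N' := by
  have h := ev_add_right ψ M (N - N') N'
  rw [sub_add_cancel] at h
  linarith

lemma ev_nonneg' {ψ : I × J → ℂ} {M : Matrix I I ℂ} {N : Matrix J J ℂ}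
    (hM : M.PosSemidef) (hN : N.PosSemidef) : 0 ≤ ev ψ M N := by
  classical
  have h := (hM.kronecker hN).dotProduct_mulVec_nonneg ψ
  have h' := (Complex.le_def.mp h).1
  simpa [ev] using h'

end bilin

section spectral

variable {I J : Type} [Fintype I] [Fintype J] [DecidableEq I] [DecidableEq J]

/-- amplitudes of `ψ` in the two eigenbases -/
noncomputable def rot {T : Matrix I I ℂ} {S : Matrix J J ℂ} (hT : T.IsHermitian)
    (hS : S.IsHermitian) (ψ : I × J → ℂ) : I × J → ℂ :=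
  ((star (hT.eigenvectorUnitary : Matrix I I ℂ)) ⊗ₖ (star (hS.eigenvectorUnitary : Matrix J J ℂ))).mulVec ψ

lemma ev_conj (ψ : I × J → ℂ) (U D : Matrix I I ℂ) (V E : Matrix J J ℂ) :
    ev ψ (U * D * star U) (V * E * star V) =
      (dotProduct (star (((star U) ⊗ₖ (star V)).mulVec ψ))
        ((D ⊗ₖ E).mulVec (((star U) ⊗ₖ (star V)).mulVec ψ))).re := by
  unfold ev
  congr 1
  have h1 : (U * D * star U) ⊗ₖ (V * E * star V)
      = (U ⊗ₖ V) * (D ⊗ₖ E) * ((star U) ⊗ₖ (star V)) := by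
    rw [mul_kronecker_mul, mul_kronecker_mul]
  have h2 : star (((star U) ⊗ₖ (star V)).mulVec ψ) = vecMul (star ψ) (U ⊗ₖ V) := by
    rw [star_mulVec]
    congr 1
    rw [conjTranspose_kronecker]
    simp [star_eq_conjTranspose]
  rw [h1, h2, ← dotProduct_mulVec, mulVec_mulVec, mulVec_mulVec]

lemma ev_cfc_cfc {T : Matrix I I ℂ} {S : Matrix J J ℂ} (hT : T.IsHermitian)
    (hS : S.IsHermitian) (ψ : I × J → ℂ) (f g : ℝ → ℝ) :
    ev ψ (cfc f T) (cfc g S) =
      ∑ i, ∑ j, ‖rot hT hS ψ (i, j)‖ ^ 2 * (f (hT.eigenvalues i) * g (hS.eigenvalues j)) := by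
  rw [hT.cfc_eq, hS.cfc_eq]
  unfold Matrix.IsHermitian.cfc
  simp only [Unitary.conjStarAlgAut_apply]
  rw [ev_conj]
  rw [diagonal_kronecker_diagonal]
  change (dotProduct (star (rot hT hS ψ)) ((diagonal _).mulVec (rot hT hS ψ))).re = _
  rw [dotProduct, Complex.re_sum, Fintype.sum_prod_type]
  refine Finset.sum_congr rfl fun i _ => Finset.sum_congr rfl fun j _ => ?_
  rw [mulVec_diagonal]
  simp only [Function.comp_apply, Pi.star_apply]
  have h3 : star (rot hT hS ψ (i, j)) * rot hT hS ψ (i, j) = ((‖rot hT hS ψ (i, j)‖ ^ 2 : ℝ) : ℂ) := by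
    rw [Complex.star_def, Complex.conj_mul']
    push_cast
    rfl
  have : star (rot hT hS ψ (i, j)) * (((f (hT.eigenvalues i) : ℝ) : ℂ) * ((g (hS.eigenvalues j) : ℝ) : ℂ) * rot hT hS ψ (i, j))
      = ((‖rot hT hS ψ (i, j)‖ ^ 2 * (f (hT.eigenvalues i) * g (hS.eigenvalues j)) : ℝ) : ℂ) := by
    push_cast at h3 ⊢
    rw [← h3]
    ring
  have h4 := congrArg Complex.re this
  rw [Complex.ofReal_re] at h4
  simpa using h4

lemma ev_one_one (ψ : I × J → ℂ) : ev ψ (1 : Matrix I I ℂ) (1 : Matrix J J ℂ) = nsq ψ := by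
  unfold ev nsq
  rw [one_kronecker_one, one_mulVec, dotProduct, Complex.re_sum]
  refine Finset.sum_congr rfl fun p _ => ?_
  have h3 : star (ψ p) * ψ p = ((‖ψ p‖ ^ 2 : ℝ) : ℂ) := by
    rw [Complex.star_def, Complex.conj_mul']
    push_cast
    rfl
  simp only [Pi.star_apply]
  rw [h3, Complex.ofReal_re]

lemma sum_rot {T : Matrix I I ℂ} {S : Matrix J J ℂ} (hT : T.IsHermitian)
    (hS : S.IsHermitian) (ψ : I × J → ℂ) :
    ∑ i, ∑ j, ‖rot hT hS ψ (i, j)‖ ^ 2 = nsq ψ := by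
  have h := ev_cfc_cfc hT hS ψ (fun _ => 1) (fun _ => 1)
  rw [cfc_const_one ℝ T, cfc_const_one ℝ S, ev_one_one] at h
  simpa using h.symm

end spectral

end Crest.Agent.PR.ChainAux
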