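import Crest.Agent.PR.ChainPhi

/-!
# Operators with coordinate kernels (Chain WP).
`Top P = ∑_{x,a} (∏_j P_j(x_j,a_j)) M_x^a`, `Sop Q` likewise.
-/

namespace Crest.Agent.PR.ChainAux

open Crest.MathPhysics.NonlocalGame Matrix
open scoped Kronecker ComplexOrder
open Crest.Agent.PR

section gen

lemma psd_real_smul {I : Type} [Fintype I] {M : Matrix I I ℂ} (hM : M.PosSemidef) {c : ℝ}
    (hc : 0 ≤ c) : ((c : ℂ) • M).PosSemidef :=
  hM.smul (Complex.zero_le_real.mpr hc)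

lemma psd_sum {I ι : Type} [Fintype I] (s : Finset ι) (f : ι → Matrix I I ℂ)
    (h : ∀ l ∈ s, (f l).PosSemidef) : (∑ l ∈ s, f l).PosSemidef := by
  classical
  induction s using Finset.induction_on with
  | empty => simpa using Matrix.PosSemidef.zero
  | insert a s ha ih =>
    rw [Finset.sum_insert ha]
    exact (h a (Finset.mem_insert_self _ _)).add (ih fun l hl => h l (Finset.mem_insert_of_mem hl))

lemma prod_update_eq {k : ℕ} {α : Type} (f : Fin k → α → ℝ) (i : Fin k) (g : α → ℝ)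
    (z : Fin k → α) :
    ∏ j, (Function.update f i g) j (z j) = g (z i) * ∏ j ∈ Finset.univ.erase i, f j (z j) := by
  rw [← Finset.mul_prod_erase Finset.univ _ (Finset.mem_univ i)]
  congr 1
  · simp
  · refine Finset.prod_congr rfl fun j hj => ?_
    rw [Function.update_of_ne (Finset.ne_of_mem_erase hj)]

lemma prod_update_eq2 {k : ℕ} {α β : Type} (f : Fin k → α → β → ℝ) (i : Fin k) (g : α → β → ℝ)
    (x : Fin k → α) (a : Fin k → β) :
    ∏ j, (Function.update f i g) j (x j) (a j)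
      = g (x i) (a i) * ∏ j ∈ Finset.univ.erase i, f j (x j) (a j) := by
  rw [← Finset.mul_prod_erase Finset.univ _ (Finset.mem_univ i)]
  congr 1
  · simp
  · refine Finset.prod_congr rfl fun j hj => ?_
    rw [Function.update_of_ne (Finset.ne_of_mem_erase hj)]

end gen

variable {G : Game} {k dA dB : ℕ} (St : Strategy G k dA dB)

/-- Alice's operator for coordinate kernels -/
noncomputable def Top (P : Fin k → Fin G.nX → Fin G.nA → ℝ) : Matrix (Fin dA) (Fin dA) ℂ :=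
  ∑ x : Fin k → Fin G.nX, ∑ a : Fin k → Fin G.nA, ((∏ j, P j (x j) (a j) : ℝ) : ℂ) • St.M x a

/-- Bob's operator for coordinate kernels -/
noncomputable def Sop (Q : Fin k → Fin G.nY → Fin G.nB → ℝ) : Matrix (Fin dB) (Fin dB) ℂ :=
  ∑ y : Fin k → Fin G.nY, ∑ b : Fin k → Fin G.nB, ((∏ j, Q j (y j) (b j) : ℝ) : ℂ) • St.N y b

lemma Top_psd {P : Fin k → Fin G.nX → Fin G.nA → ℝ} (hP : ∀ j x a, 0 ≤ P j x a) :
    (Top St P).PosSemidef :=
  psd_sum _ _ fun x _ => psd_sum _ _ fun a _ =>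
    psd_real_smul (St.M_posSemidef x a) (Finset.prod_nonneg fun j _ => hP j _ _)

lemma Sop_psd {Q : Fin k → Fin G.nY → Fin G.nB → ℝ} (hQ : ∀ j y b, 0 ≤ Q j y b) :
    (Sop St Q).PosSemidef :=
  psd_sum _ _ fun x _ => psd_sum _ _ fun a _ =>
    psd_real_smul (St.N_posSemidef x a) (Finset.prod_nonneg fun j _ => hQ j _ _)

lemma one_sub_Top_psd {P : Fin k → Fin G.nX → Fin G.nA → ℝ} (hP : ∀ j x a, 0 ≤ P j x a)
    (p : Fin k → Fin G.nX → ℝ) (hp0 : ∀ j x, 0 ≤ p j x) (hPp : ∀ j x a, P j x a ≤ p j x)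
    (hp1 : ∀ j, ∑ x, p j x ≤ 1) : (1 - Top St P).PosSemidef := by
  have h1 : (1 - Top St P) = (((1 - ∏ j, ∑ x, p j x : ℝ) : ℂ)) • (1 : Matrix (Fin dA) (Fin dA) ℂ)
      + ∑ x : Fin k → Fin G.nX, ∑ a : Fin k → Fin G.nA,
        (((∏ j, p j (x j)) - ∏ j, P j (x j) (a j) : ℝ) : ℂ) • St.M x a := by
    have h2 : ∑ x : Fin k → Fin G.nX, ∑ a : Fin k → Fin G.nA,
        (((∏ j, p j (x j)) : ℝ) : ℂ) • St.M x a
        = (((∏ j, ∑ x, p j x : ℝ) : ℂ)) • (1 : Matrix (Fin dA) (Fin dA) ℂ) := by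
      rw [Finset.prod_univ_sum, Fintype.piFinset_univ]
      push_cast
      rw [Finset.sum_smul]
      refine Finset.sum_congr rfl fun x _ => ?_
      rw [← Finset.smul_sum, St.M_sum x]
    unfold Top
    simp only [Complex.ofReal_sub, sub_smul, Finset.sum_sub_distrib, Complex.ofReal_one, one_smul]
    rw [h2]
    simp [sub_smul]
  rw [h1]
  refine Matrix.PosSemidef.add ?_ ?_
  · refine psd_real_smul Matrix.PosSemidef.one ?_
    exact sub_nonneg.mpr (Finset.prod_le_one (fun j _ => Finset.sum_nonneg fun x _ => hp0 j x)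
      (fun j _ => hp1 j))
  · refine psd_sum _ _ fun x _ => psd_sum _ _ fun a _ => psd_real_smul (St.M_posSemidef x a) ?_
    exact sub_nonneg.mpr (Finset.prod_le_prod (fun j _ => hP j _ _) (fun j _ => hPp j _ _))

lemma one_sub_Sop_psd {Q : Fin k → Fin G.nY → Fin G.nB → ℝ} (hQ : ∀ j y b, 0 ≤ Q j y b)
    (p : Fin k → Fin G.nY → ℝ) (hp0 : ∀ j y, 0 ≤ p j y) (hQp : ∀ j y b, Q j y b ≤ p j y)
    (hp1 : ∀ j, ∑ y, p j y ≤ 1) : (1 - Sop St Q).PosSemidef := by
  have h1 : (1 - Sop St Q) = (((1 - ∏ j, ∑ y, p j y : ℝ) : ℂ)) • (1 : Matrix (Fin dB) (Fin dB) ℂ)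
      + ∑ y : Fin k → Fin G.nY, ∑ b : Fin k → Fin G.nB,
        (((∏ j, p j (y j)) - ∏ j, Q j (y j) (b j) : ℝ) : ℂ) • St.N y b := by
    have h2 : ∑ y : Fin k → Fin G.nY, ∑ b : Fin k → Fin G.nB,
        (((∏ j, p j (y j)) : ℝ) : ℂ) • St.N y b
        = (((∏ j, ∑ y, p j y : ℝ) : ℂ)) • (1 : Matrix (Fin dB) (Fin dB) ℂ) := by
      rw [Finset.prod_univ_sum, Fintype.piFinset_univ]
      push_cast
      rw [Finset.sum_smul]
      refine Finset.sum_congr rfl fun y _ => ?_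
      rw [← Finset.smul_sum, St.N_sum y]
    unfold Sop
    simp only [Complex.ofReal_sub, sub_smul, Finset.sum_sub_distrib, Complex.ofReal_one, one_smul]
    rw [h2]
    simp [sub_smul]
  rw [h1]
  refine Matrix.PosSemidef.add ?_ ?_
  · refine psd_real_smul Matrix.PosSemidef.one ?_
    exact sub_nonneg.mpr (Finset.prod_le_one (fun j _ => Finset.sum_nonneg fun y _ => hp0 j y)
      (fun j _ => hp1 j))
  · refine psd_sum _ _ fun y _ => psd_sum _ _ fun b _ => psd_real_smul (St.N_posSemidef y b) ?_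
    exact sub_nonneg.mpr (Finset.prod_le_prod (fun j _ => hQ j _ _) (fun j _ => hQp j _ _))

/-- linearity of `Top` in one coordinate kernel -/
lemma Top_update_sum {ι : Type} (s : Finset ι) (c : ι → ℝ) (P : Fin k → Fin G.nX → Fin G.nA → ℝ)
    (i : Fin k) (R : ι → Fin G.nX → Fin G.nA → ℝ) :
    Top St (Function.update P i (fun x a => ∑ l ∈ s, c l * R l x a))
      = ∑ l ∈ s, ((c l : ℝ) : ℂ) • Top St (Function.update P i (R l)) := by
  unfold Top
  simp only [Finset.smul_sum, prod_update_eq2, smul_smul]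
  conv_rhs => rw [Finset.sum_comm]
  refine Finset.sum_congr rfl fun x _ => ?_
  conv_rhs => rw [Finset.sum_comm]
  refine Finset.sum_congr rfl fun a _ => ?_
  rw [← Finset.sum_smul]
  congr 1
  push_cast
  rw [Finset.sum_mul]
  refine Finset.sum_congr rfl fun l _ => ?_
  ring

/-- linearity of `Sop` in one coordinate kernel -/
lemma Sop_update_sum {ι : Type} (s : Finset ι) (c : ι → ℝ) (Q : Fin k → Fin G.nY → Fin G.nB → ℝ)
    (i : Fin k) (R : ι → Fin G.nY → Fin G.nB → ℝ) :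
    Sop St (Function.update Q i (fun y b => ∑ l ∈ s, c l * R l y b))
      = ∑ l ∈ s, ((c l : ℝ) : ℂ) • Sop St (Function.update Q i (R l)) := by
  unfold Sop
  simp only [Finset.smul_sum, prod_update_eq2, smul_smul]
  conv_rhs => rw [Finset.sum_comm]
  refine Finset.sum_congr rfl fun x _ => ?_
  conv_rhs => rw [Finset.sum_comm]
  refine Finset.sum_congr rfl fun a _ => ?_
  rw [← Finset.sum_smul]
  congr 1
  push_cast
  rw [Finset.sum_mul]
  refine Finset.sum_congr rfl fun l _ => ?_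
  ring

/-- expansion of `ev` of `Top`, `Sop` -/
lemma ev_Top_Sop (P : Fin k → Fin G.nX → Fin G.nA → ℝ) (Q : Fin k → Fin G.nY → Fin G.nB → ℝ) :
    ev St.ψ (Top St P) (Sop St Q) =
      ∑ x : Fin k → Fin G.nX, ∑ y : Fin k → Fin G.nY, ∑ a : Fin k → Fin G.nA, ∑ b : Fin k → Fin G.nB,
        (∏ j, P j (x j) (a j)) * (∏ j, Q j (y j) (b j)) * St.answerProb x y a b := by
  unfold Top Sop
  rw [ev_sum_left]
  refine Finset.sum_congr rfl fun x _ => ?_
  rw [ev_sum_left]
  have h1 : ∀ a, ev St.ψ (((∏ j, P j (x j) (a j) : ℝ) : ℂ) • St.M x a)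
      (∑ y : Fin k → Fin G.nY, ∑ b : Fin k → Fin G.nB, ((∏ j, Q j (y j) (b j) : ℝ) : ℂ) • St.N y b)
      = ∑ y : Fin k → Fin G.nY, ∑ b : Fin k → Fin G.nB,
        (∏ j, P j (x j) (a j)) * (∏ j, Q j (y j) (b j)) * St.answerProb x y a b := by
    intro a
    rw [ev_smul_left, ev_sum_right, Finset.mul_sum]
    refine Finset.sum_congr rfl fun y _ => ?_
    rw [ev_sum_right, Finset.mul_sum]
    refine Finset.sum_congr rfl fun b _ => ?_
    rw [ev_smul_right, ← mul_assoc]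
    rfl
  simp only [h1]
  rw [Finset.sum_comm]

end Crest.Agent.PR.ChainAux
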