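import Crest.Agent.PR.ChainEv

/-!
# The one-state potential `Φ(T,S) = -⟨xlog T ⊗ S⟩ - ⟨T ⊗ xlog S⟩`.
-/

namespace Crest.Agent.PR.ChainAux

open Crest.MathPhysics.NonlocalGame Matrix
open scoped Kronecker ComplexOrder
open Crest.Agent.PR

variable {I J : Type} [Fintype I] [Fintype J] [DecidableEq I] [DecidableEq J]

/-- the one-state potential -/
noncomputable def Phi (ψ : I × J → ℂ) (T : Matrix I I ℂ) (S : Matrix J J ℂ) : ℝ :=
  -ev ψ (xlog T) S - ev ψ T (xlog S)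

lemma cfc_id_herm {T : Matrix I I ℂ} (hT : T.IsHermitian) : cfc (fun t : ℝ => t) T = T := by
  rw [hT.cfc_eq]
  unfold Matrix.IsHermitian.cfc
  conv_rhs => rw [hT.spectral_theorem]
  rfl

lemma ev_eq_sum {T : Matrix I I ℂ} {S : Matrix J J ℂ} (hT : T.IsHermitian)
    (hS : S.IsHermitian) (ψ : I × J → ℂ) :
    ev ψ T S = ∑ i, ∑ j, ‖rot hT hS ψ (i, j)‖ ^ 2 * (hT.eigenvalues i * hS.eigenvalues j) := by
  have h := ev_cfc_cfc hT hS ψ (fun t => t) (fun t => t)
  rwa [cfc_id_herm hT, cfc_id_herm hS] at h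

lemma ev_xlog_left {T : Matrix I I ℂ} {S : Matrix J J ℂ} (hT : T.IsHermitian)
    (hS : S.IsHermitian) (ψ : I × J → ℂ) :
    ev ψ (xlog T) S = ∑ i, ∑ j, ‖rot hT hS ψ (i, j)‖ ^ 2 *
      ((hT.eigenvalues i * Real.log (hT.eigenvalues i)) * hS.eigenvalues j) := by
  have h := ev_cfc_cfc hT hS ψ (fun t => t * Real.log t) (fun t => t)
  rwa [cfc_id_herm hS] at h

lemma ev_xlog_right {T : Matrix I I ℂ} {S : Matrix J J ℂ} (hT : T.IsHermitian)
    (hS : S.IsHermitian) (ψ : I × J → ℂ) :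
    ev ψ T (xlog S) = ∑ i, ∑ j, ‖rot hT hS ψ (i, j)‖ ^ 2 *
      (hT.eigenvalues i * (hS.eigenvalues j * Real.log (hS.eigenvalues j))) := by
  have h := ev_cfc_cfc hT hS ψ (fun t => t) (fun t => t * Real.log t)
  rwa [cfc_id_herm hT] at h

/-- `Φ(T,S) ≤ -N log N`, `N = ⟨T ⊗ S⟩` (eigenbases + Jensen). -/
lemma Phi_le {T : Matrix I I ℂ} {S : Matrix J J ℂ} (hT : T.PosSemidef) (hS : S.PosSemidef)
    {ψ : I × J → ℂ} (hψ : nsq ψ = 1) :
    Phi ψ T S ≤ -(ev ψ T S * Real.log (ev ψ T S)) := by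
  have hTH := hT.isHermitian
  have hSH := hS.isHermitian
  set p : I × J → ℝ := fun q => ‖rot hTH hSH ψ q‖ ^ 2 with hp
  set x : I × J → ℝ := fun q => hTH.eigenvalues q.1 * hSH.eigenvalues q.2 with hx
  have hp0 : ∀ q ∈ (Finset.univ : Finset (I × J)), 0 ≤ p q := fun q _ => by positivity
  have hp1 : ∑ q ∈ (Finset.univ : Finset (I × J)), p q = 1 := by
    rw [Fintype.sum_prod_type, ← hψ, ← sum_rot hTH hSH ψ]
  have hxmem : ∀ q ∈ (Finset.univ : Finset (I × J)), x q ∈ Set.Ici (0 : ℝ) := fun q _ =>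
    mul_nonneg (hT.eigenvalues_nonneg q.1) (hS.eigenvalues_nonneg q.2)
  have hJ := Real.convexOn_mul_log.map_sum_le hp0 hp1 hxmem
  have hN : ev ψ T S = ∑ q ∈ (Finset.univ : Finset (I × J)), p q • x q := by
    rw [ev_eq_sum hTH hSH ψ, Fintype.sum_prod_type]
    rfl
  have hPhi : Phi ψ T S = -∑ q ∈ (Finset.univ : Finset (I × J)), p q • (x q * Real.log (x q)) := by
    unfold Phi
    rw [ev_xlog_left hTH hSH ψ, ev_xlog_right hTH hSH ψ, Fintype.sum_prod_type]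
    rw [neg_sub_left, neg_inj, ← Finset.sum_add_distrib]
    refine Finset.sum_congr rfl fun i _ => ?_
    rw [← Finset.sum_add_distrib]
    refine Finset.sum_congr rfl fun j _ => ?_
    have hti := hT.eigenvalues_nonneg i
    have htj := hS.eigenvalues_nonneg j
    simp only [hx, hp, smul_eq_mul]
    by_cases h0 : hTH.eigenvalues i = 0
    · simp [h0]
    by_cases h1 : hSH.eigenvalues j = 0
    · simp [h1]
    rw [Real.log_mul h0 h1]
    ring
  rw [hPhi, hN]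
  exact neg_le_neg hJ

/-- eigenvalues of `T ≤ 1` are at most `1` -/
lemma eigenvalues_le_one {T : Matrix I I ℂ} (hT : T.IsHermitian) (h1 : (1 - T).PosSemidef) (i : I) :
    hT.eigenvalues i ≤ 1 := by
  have h := h1.dotProduct_mulVec_nonneg (⇑(hT.eigenvectorBasis i))
  rw [sub_mulVec, one_mulVec, hT.mulVec_eigenvectorBasis, dotProduct_sub, dotProduct_smul] at h
  have hn : star (⇑(hT.eigenvectorBasis i)) ⬝ᵥ (⇑(hT.eigenvectorBasis i)) = (1 : ℂ) := by
    have hnorm := hT.eigenvectorBasis.orthonormal.1 i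
    rw [dotProduct_comm, ← EuclideanSpace.inner_eq_star_dotProduct, inner_self_eq_norm_sq_to_K, hnorm]
    simp
  rw [hn] at h
  have h' := (Complex.le_def.mp h).1
  simpa using h'

/-- `Φ(T,S) ≥ 0` for `0 ≤ T, S ≤ 1`. -/
lemma Phi_nonneg {T : Matrix I I ℂ} {S : Matrix J J ℂ} (hT : T.PosSemidef) (hS : S.PosSemidef)
    (hT1 : (1 - T).PosSemidef) (hS1 : (1 - S).PosSemidef) (ψ : I × J → ℂ) :
    0 ≤ Phi ψ T S := by
  have hTH := hT.isHermitian
  have hSH := hS.isHermitian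
  unfold Phi
  rw [ev_xlog_left hTH hSH ψ, ev_xlog_right hTH hSH ψ, sub_eq_add_neg]
  rw [← Finset.sum_neg_distrib, ← Finset.sum_neg_distrib, ← Finset.sum_add_distrib]
  refine Finset.sum_nonneg fun i _ => ?_
  rw [← Finset.sum_neg_distrib, ← Finset.sum_neg_distrib, ← Finset.sum_add_distrib]
  refine Finset.sum_nonneg fun j _ => ?_
  have hti := hT.eigenvalues_nonneg i
  have htj := hS.eigenvalues_nonneg j
  have hti1 := eigenvalues_le_one hTH hT1 i
  have htj1 := eigenvalues_le_one hSH hS1 j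
  have h1 : hTH.eigenvalues i * Real.log (hTH.eigenvalues i) ≤ 0 :=
    mul_nonpos_of_nonneg_of_nonpos hti (Real.log_nonpos hti hti1)
  have h2 : hSH.eigenvalues j * Real.log (hSH.eigenvalues j) ≤ 0 :=
    mul_nonpos_of_nonneg_of_nonpos htj (Real.log_nonpos htj htj1)
  have hp : 0 ≤ ‖rot hTH hSH ψ (i, j)‖ ^ 2 := by positivity
  have h3 := mul_nonneg hp (mul_nonneg (neg_nonneg.mpr h1) htj)
  have h4 := mul_nonneg hp (mul_nonneg hti (neg_nonneg.mpr h2))
  nlinarith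

end Crest.Agent.PR.ChainAux
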