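import Crest.Agent.PR.ChainState

/-!
# The chain potential (Chain WP).
-/

namespace Crest.Agent.PR.ChainAux

open Crest.MathPhysics.NonlocalGame Matrix
open scoped Kronecker ComplexOrder
open Crest.Agent.PR

section alg

variable {G : Game} {I J : Type} [Fintype I] [Fintype J] [DecidableEq I] [DecidableEq J]

lemma sum_muX_condY (c : Fin G.nX → Fin G.nY → ℝ) :
    ∑ x, muX G x * ∑ y, condY G x y * c x y = ∑ x, ∑ y, G.prob x y * c x y := by
  refine Finset.sum_congr rfl fun x _ => ?_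
  rw [Finset.mul_sum]
  refine Finset.sum_congr rfl fun y _ => ?_
  rw [← mul_assoc, muX_mul_condY]

lemma sum_muY_condX (c : Fin G.nX → Fin G.nY → ℝ) :
    ∑ y, muY G y * ∑ x, condX G y x * c x y = ∑ x, ∑ y, G.prob x y * c x y := by
  rw [Finset.sum_comm (s := Finset.univ) (t := Finset.univ) (f := fun x y => G.prob x y * c x y)]
  refine Finset.sum_congr rfl fun y _ => ?_
  rw [Finset.mul_sum]
  refine Finset.sum_congr rfl fun x _ => ?_
  rw [← mul_assoc, muY_mul_condX]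

/-- The resampling identity at a fixed point of the other coordinates: abstract algebra. -/
lemma half_sub_full (ψ : I × J → ℂ) (Tx : Fin G.nX → Matrix I I ℂ) (Sy : Fin G.nY → Matrix J J ℂ)
    (bS : Fin G.nX → Matrix J J ℂ) (bT : Fin G.nY → Matrix I I ℂ)
    (hbS : ∀ x, bS x = ∑ y, ((condY G x y : ℝ) : ℂ) • Sy y)
    (hbT : ∀ y, bT y = ∑ x, ((condX G y x : ℝ) : ℂ) • Tx x) :
    (∑ x, (muX G x / 2) * Phi ψ (Tx x) (bS x) + ∑ y, (muY G y / 2) * Phi ψ (bT y) (Sy y))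
      - ∑ x, ∑ y, G.prob x y * Phi ψ (Tx x) (Sy y)
    = (1 / 2) * ∑ x, muX G x * ev ψ (Tx x) ((∑ y, ((condY G x y : ℝ) : ℂ) • xlog (Sy y)) - xlog (bS x))
      + (1 / 2) * ∑ y, muY G y * ev ψ ((∑ x, ((condX G y x : ℝ) : ℂ) • xlog (Tx x)) - xlog (bT y)) (Sy y) := by
  have h1 : ∀ x, Phi ψ (Tx x) (bS x) = -(∑ y, condY G x y * ev ψ (xlog (Tx x)) (Sy y))
      - ev ψ (Tx x) (xlog (bS x)) := by
    intro x
    unfold Phi
    congr 2
    rw [hbS x, ev_sum_right]
    exact Finset.sum_congr rfl fun y _ => ev_smul_right _ _ _ _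
  have h2 : ∀ y, Phi ψ (bT y) (Sy y) = -ev ψ (xlog (bT y)) (Sy y)
      - ∑ x, condX G y x * ev ψ (Tx x) (xlog (Sy y)) := by
    intro y
    unfold Phi
    congr 1
    rw [hbT y, ev_sum_left]
    exact Finset.sum_congr rfl fun x _ => ev_smul_left _ _ _ _
  have h3 : ∀ x, ev ψ (Tx x) ((∑ y, ((condY G x y : ℝ) : ℂ) • xlog (Sy y)) - xlog (bS x))
      = ∑ y, condY G x y * ev ψ (Tx x) (xlog (Sy y)) - ev ψ (Tx x) (xlog (bS x)) := by
    intro x
    rw [ev_sub_right, ev_sum_right]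
    congr 1
    exact Finset.sum_congr rfl fun y _ => ev_smul_right _ _ _ _
  have h4 : ∀ y, ev ψ ((∑ x, ((condX G y x : ℝ) : ℂ) • xlog (Tx x)) - xlog (bT y)) (Sy y)
      = ∑ x, condX G y x * ev ψ (xlog (Tx x)) (Sy y) - ev ψ (xlog (bT y)) (Sy y) := by
    intro y
    rw [ev_sub_left, ev_sum_left]
    congr 1
    exact Finset.sum_congr rfl fun x _ => ev_smul_left _ _ _ _
  have e1 := sum_muX_condY (G := G) (fun x y => ev ψ (xlog (Tx x)) (Sy y))
  have e2 := sum_muX_condY (G := G) (fun x y => ev ψ (Tx x) (xlog (Sy y)))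
  have e3 := sum_muY_condX (G := G) (fun x y => ev ψ (xlog (Tx x)) (Sy y))
  have e4 := sum_muY_condX (G := G) (fun x y => ev ψ (Tx x) (xlog (Sy y)))
  have L1 : ∑ x, (muX G x / 2) * Phi ψ (Tx x) (bS x)
      = -(1 / 2) * (∑ x, muX G x * ∑ y, condY G x y * ev ψ (xlog (Tx x)) (Sy y))
        - (1 / 2) * ∑ x, muX G x * ev ψ (Tx x) (xlog (bS x)) := by
    rw [Finset.mul_sum, Finset.mul_sum, ← Finset.sum_sub_distrib]
    refine Finset.sum_congr rfl fun x _ => ?_
    rw [h1 x]; ring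
  have L2 : ∑ y, (muY G y / 2) * Phi ψ (bT y) (Sy y)
      = -(1 / 2) * (∑ y, muY G y * ev ψ (xlog (bT y)) (Sy y))
        - (1 / 2) * ∑ y, muY G y * ∑ x, condX G y x * ev ψ (Tx x) (xlog (Sy y)) := by
    rw [Finset.mul_sum, Finset.mul_sum, ← Finset.sum_sub_distrib]
    refine Finset.sum_congr rfl fun y _ => ?_
    rw [h2 y]; ring
  have L3 : ∑ x, ∑ y, G.prob x y * Phi ψ (Tx x) (Sy y)
      = -(∑ x, ∑ y, G.prob x y * ev ψ (xlog (Tx x)) (Sy y))
        - ∑ x, ∑ y, G.prob x y * ev ψ (Tx x) (xlog (Sy y)) := by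
    rw [← Finset.sum_neg_distrib, ← Finset.sum_sub_distrib]
    refine Finset.sum_congr rfl fun x _ => ?_
    rw [← Finset.sum_neg_distrib, ← Finset.sum_sub_distrib]
    refine Finset.sum_congr rfl fun y _ => ?_
    unfold Phi
    ring
  have R1 : ∑ x, muX G x * ev ψ (Tx x) ((∑ y, ((condY G x y : ℝ) : ℂ) • xlog (Sy y)) - xlog (bS x))
      = (∑ x, muX G x * ∑ y, condY G x y * ev ψ (Tx x) (xlog (Sy y)))
        - ∑ x, muX G x * ev ψ (Tx x) (xlog (bS x)) := by
    rw [← Finset.sum_sub_distrib]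
    refine Finset.sum_congr rfl fun x _ => ?_
    rw [h3 x]; ring
  have R2 : ∑ y, muY G y * ev ψ ((∑ x, ((condX G y x : ℝ) : ℂ) • xlog (Tx x)) - xlog (bT y)) (Sy y)
      = (∑ y, muY G y * ∑ x, condX G y x * ev ψ (xlog (Tx x)) (Sy y))
        - ∑ y, muY G y * ev ψ (xlog (bT y)) (Sy y) := by
    rw [← Finset.sum_sub_distrib]
    refine Finset.sum_congr rfl fun y _ => ?_
    rw [h4 y]; ring
  rw [L1, L2, L3, R1, R2]
  linarith

end alg

section pot

variable {G : Game} {k dA dB : ℕ} (St : Strategy G k dA dB)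

/-- `T[ω]` -/
noncomputable def Tw (ω : Fin k → Kst G) : Matrix (Fin dA) (Fin dA) ℂ := Top St (fun j => PK (ω j))
/-- `S[ω]` -/
noncomputable def Sw (ω : Fin k → Kst G) : Matrix (Fin dB) (Fin dB) ℂ := Sop St (fun j => QK (ω j))

/-- `ev` at a state -/
noncomputable def evK (ω : Fin k → Kst G) : ℝ := ev St.ψ (Tw St ω) (Sw St ω)
/-- `Φ` at a state -/
noncomputable def PhiK (ω : Fin k → Kst G) : ℝ := Phi St.ψ (Tw St ω) (Sw St ω)
/-- the potential of a weight pattern -/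
noncomputable def Pot (W : Fin k → Kst G → ℝ) : ℝ := ∑ ω, Wt W ω * PhiK St ω

lemma Tw_psd (ω : Fin k → Kst G) : (Tw St ω).PosSemidef :=
  Top_psd St fun j x a => PK_nonneg (ω j) x a

lemma Sw_psd (ω : Fin k → Kst G) : (Sw St ω).PosSemidef :=
  Sop_psd St fun j y b => QK_nonneg (ω j) y b

lemma one_sub_Tw_psd (ω : Fin k → Kst G) : (1 - Tw St ω).PosSemidef := by
  choose p hp0 hpP hp1 using fun j => PK_bound (ω j)
  exact one_sub_Top_psd St (fun j x a => PK_nonneg (ω j) x a) p hp0 hpP hp1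

lemma one_sub_Sw_psd (ω : Fin k → Kst G) : (1 - Sw St ω).PosSemidef := by
  choose p hp0 hpP hp1 using fun j => QK_bound (ω j)
  exact one_sub_Sop_psd St (fun j x a => QK_nonneg (ω j) x a) p hp0 hpP hp1

lemma nsq_psi : nsq St.ψ = 1 := St.ψ_norm

lemma PhiK_nonneg (ω : Fin k → Kst G) : 0 ≤ PhiK St ω :=
  Phi_nonneg (Tw_psd St ω) (Sw_psd St ω) (one_sub_Tw_psd St ω) (one_sub_Sw_psd St ω) _

lemma PhiK_le (ω : Fin k → Kst G) : PhiK St ω ≤ -(evK St ω * Real.log (evK St ω)) :=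
  Phi_le (Tw_psd St ω) (Sw_psd St ω) (nsq_psi St)

lemma evK_nonneg (ω : Fin k → Kst G) : 0 ≤ evK St ω :=
  ev_nonneg' (Tw_psd St ω) (Sw_psd St ω)

/-- the tangent line inequality for `-x log x` -/
lemma neg_xlog_le {x lam : ℝ} (hx : 0 ≤ x) (hlam : 0 < lam) :
    -(x * Real.log x) ≤ -(x * Real.log lam) - x + lam := by
  rcases hx.eq_or_lt with rfl | hx'
  · simp; linarith
  · have h := Real.log_le_sub_one_of_pos (div_pos hlam hx')
    rw [Real.log_div hlam.ne' hx'.ne'] at h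
    have h2 := mul_le_mul_of_nonneg_left h hx'.le
    have h3 : x * (lam / x - 1) = lam - x := by field_simp
    rw [h3] at h2
    nlinarith

/-- Start of the chain: if the total mass is at most `M`, the potential is at most `Z log (M/Z)`. -/
lemma Pot_le (W : Fin k → Kst G → ℝ) (hW : ∀ j κ, 0 ≤ W j κ) {M : ℝ} (hM : 0 < M)
    (hmass : ∑ ω, Wt W ω ≤ M) {Z : ℝ} (hZ : 0 < Z) (hZe : ∑ ω, Wt W ω * evK St ω = Z) :
    Pot St W ≤ Z * (Real.log M + Real.log (1 / Z)) := by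
  set lam := Z / M with hlam
  have hlam0 : 0 < lam := div_pos hZ hM
  have h1 : ∀ ω, Wt W ω * PhiK St ω ≤ Wt W ω * (-(evK St ω * Real.log lam) - evK St ω + lam) := by
    intro ω
    refine mul_le_mul_of_nonneg_left ?_ (Wt_nonneg hW ω)
    exact (PhiK_le St ω).trans (neg_xlog_le (evK_nonneg St ω) hlam0)
  have h2 : Pot St W ≤ ∑ ω, Wt W ω * (-(evK St ω * Real.log lam) - evK St ω + lam) :=
    Finset.sum_le_sum fun ω _ => h1 ω
  have h3 : ∑ ω, Wt W ω * (-(evK St ω * Real.log lam) - evK St ω + lam)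
      = -(Z * Real.log lam) - Z + lam * ∑ ω, Wt W ω := by
    rw [← hZe, Finset.sum_mul, Finset.mul_sum, ← Finset.sum_neg_distrib, ← Finset.sum_sub_distrib,
      ← Finset.sum_add_distrib]
    refine Finset.sum_congr rfl fun ω _ => ?_
    ring
  have h4 : lam * ∑ ω, Wt W ω ≤ Z := by
    calc lam * ∑ ω, Wt W ω ≤ lam * M := mul_le_mul_of_nonneg_left hmass hlam0.le
      _ = Z := by rw [hlam]; field_simp
  have h5 : Real.log lam = -(Real.log M + Real.log (1 / Z)) := by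
    rw [hlam, Real.log_div hZ.ne' hM.ne', one_div, Real.log_inv]
    ring
  rw [h3, h5] at h2
  nlinarith

end pot

end Crest.Agent.PR.ChainAux
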