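import Crest.Agent.PR.ChainOp

/-!
# Knowledge states of one coordinate, weights, resampling, expansion (Chain WP).
-/

namespace Crest.Agent.PR.ChainAux

open Crest.MathPhysics.NonlocalGame Matrix
open scoped Kronecker ComplexOrder
open Crest.Agent.PR

section game
variable (G : Game)

lemma muX_nonneg (x) : 0 ≤ muX G x := Finset.sum_nonneg fun y _ => G.prob_nonneg x y
lemma muY_nonneg (y) : 0 ≤ muY G y := Finset.sum_nonneg fun x _ => G.prob_nonneg x y
lemma condY_nonneg (x y) : 0 ≤ condY G x y := div_nonneg (G.prob_nonneg x y) (muX_nonneg G x)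
lemma condX_nonneg (y x) : 0 ≤ condX G y x := div_nonneg (G.prob_nonneg x y) (muY_nonneg G y)

lemma muX_mul_condY (x y) : muX G x * condY G x y = G.prob x y := by
  unfold condY
  by_cases h : muX G x = 0
  · have h0 : G.prob x y = 0 := by
      have := (Finset.sum_eq_zero_iff_of_nonneg (fun y _ => G.prob_nonneg x y)).mp h y (Finset.mem_univ y)
      exact this
    simp [h, h0]
  · field_simp

lemma muY_mul_condX (y x) : muY G y * condX G y x = G.prob x y := by
  unfold condX
  by_cases h : muY G y = 0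
  · have h0 : G.prob x y = 0 := by
      have := (Finset.sum_eq_zero_iff_of_nonneg (fun x _ => G.prob_nonneg x y)).mp h x (Finset.mem_univ x)
      exact this
    simp [h, h0]
  · field_simp

lemma sum_condY_le_one (x) : ∑ y, condY G x y ≤ 1 := by
  unfold condY
  rw [← Finset.sum_div]
  exact div_self_le_one _

lemma sum_condX_le_one (y) : ∑ x, condX G y x ≤ 1 := by
  unfold condX
  rw [← Finset.sum_div]
  exact div_self_le_one _

lemma sum_muX : ∑ x, muX G x = 1 := G.prob_sum
lemma sum_muY : ∑ y, muY G y = 1 := by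
  unfold muY
  rw [Finset.sum_comm]
  exact G.prob_sum

/-- knowledge state of one coordinate: accepted transcript, revealed pair, one side revealed -/
abbrev Kst : Type := (Fin G.nX × Fin G.nY × Fin G.nA × Fin G.nB) ⊕ (Fin G.nX × Fin G.nY) ⊕ Fin G.nX ⊕ Fin G.nY

/-- state: whole transcript -/
abbrev kAcc {G : Game} (x : Fin G.nX) (y : Fin G.nY) (a : Fin G.nA) (b : Fin G.nB) : Kst G := Sum.inl (x, y, a, b)
/-- state: pair revealed -/
abbrev kFull {G : Game} (x : Fin G.nX) (y : Fin G.nY) : Kst G := Sum.inr (Sum.inl (x, y))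
/-- state: Alice's question revealed -/
abbrev kHX {G : Game} (x : Fin G.nX) : Kst G := Sum.inr (Sum.inr (Sum.inl x))
/-- state: Bob's question revealed -/
abbrev kHY {G : Game} (y : Fin G.nY) : Kst G := Sum.inr (Sum.inr (Sum.inr y))

/-- Alice's kernel: `x`, `a` known -/
noncomputable def dXA {G : Game} (x : Fin G.nX) (a : Fin G.nA) : Fin G.nX → Fin G.nA → ℝ :=
  fun x' a' => if x' = x ∧ a' = a then 1 else 0
/-- Alice's kernel: `x` known -/
noncomputable def dX {G : Game} (x : Fin G.nX) : Fin G.nX → Fin G.nA → ℝ :=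
  fun x' _ => if x' = x then 1 else 0
/-- Alice's kernel: `y` known -/
noncomputable def cX {G : Game} (y : Fin G.nY) : Fin G.nX → Fin G.nA → ℝ :=
  fun x' _ => condX G y x'
/-- Bob's kernel: `y`, `b` known -/
noncomputable def dYB {G : Game} (y : Fin G.nY) (b : Fin G.nB) : Fin G.nY → Fin G.nB → ℝ :=
  fun y' b' => if y' = y ∧ b' = b then 1 else 0
/-- Bob's kernel: `y` known -/
noncomputable def dY {G : Game} (y : Fin G.nY) : Fin G.nY → Fin G.nB → ℝ :=
  fun y' _ => if y' = y then 1 else 0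
/-- Bob's kernel: `x` known -/
noncomputable def cY {G : Game} (x : Fin G.nX) : Fin G.nY → Fin G.nB → ℝ :=
  fun y' _ => condY G x y'

/-- Alice's kernel of a state -/
noncomputable def PK {G : Game} : Kst G → Fin G.nX → Fin G.nA → ℝ
  | Sum.inl (x, _, a, _) => dXA x a
  | Sum.inr (Sum.inl (x, _)) => dX x
  | Sum.inr (Sum.inr (Sum.inl x)) => dX x
  | Sum.inr (Sum.inr (Sum.inr y)) => cX y

/-- Bob's kernel of a state -/
noncomputable def QK {G : Game} : Kst G → Fin G.nY → Fin G.nB → ℝ
  | Sum.inl (_, y, _, b) => dYB y b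
  | Sum.inr (Sum.inl (_, y)) => dY y
  | Sum.inr (Sum.inr (Sum.inl x)) => cY x
  | Sum.inr (Sum.inr (Sum.inr y)) => dY y

lemma PK_nonneg {G : Game} (κ : Kst G) (x a) : 0 ≤ PK κ x a := by
  rcases κ with ⟨x', y', a', b'⟩ | ⟨x', y'⟩ | x' | y'
  · simp only [PK, dXA]; split_ifs <;> norm_num
  · simp only [PK, dX]; split_ifs <;> norm_num
  · simp only [PK, dX]; split_ifs <;> norm_num
  · exact condX_nonneg G _ _

lemma QK_nonneg {G : Game} (κ : Kst G) (y b) : 0 ≤ QK κ y b := by
  rcases κ with ⟨x', y', a', b'⟩ | ⟨x', y'⟩ | x' | y'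
  · simp only [QK, dYB]; split_ifs <;> norm_num
  · simp only [QK, dY]; split_ifs <;> norm_num
  · exact condY_nonneg G _ _
  · simp only [QK, dY]; split_ifs <;> norm_num

/-- the bound needed for `T ≤ 1` -/
lemma PK_bound {G : Game} (κ : Kst G) : ∃ p : Fin G.nX → ℝ, (∀ x, 0 ≤ p x) ∧ (∀ x a, PK κ x a ≤ p x) ∧
    ∑ x, p x ≤ 1 := by
  rcases κ with ⟨x', y', a', b'⟩ | ⟨x', y'⟩ | x' | y'
  · refine ⟨fun x => if x = x' then 1 else 0, fun x => by dsimp only; split_ifs <;> norm_num, fun x a => ?_, by simp⟩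
    simp only [PK, dXA]
    by_cases h : x = x' <;> by_cases h2 : a = a' <;> simp [h, h2]
  · refine ⟨fun x => if x = x' then 1 else 0, fun x => by dsimp only; split_ifs <;> norm_num, fun x a => ?_, by simp⟩
    simp only [PK, dX, le_refl]
  · refine ⟨fun x => if x = x' then 1 else 0, fun x => by dsimp only; split_ifs <;> norm_num, fun x a => ?_, by simp⟩
    simp only [PK, dX, le_refl]
  · exact ⟨fun x => condX G y' x, fun x => condX_nonneg G _ _, fun x a => le_refl _, sum_condX_le_one G y'⟩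

lemma QK_bound {G : Game} (κ : Kst G) : ∃ p : Fin G.nY → ℝ, (∀ y, 0 ≤ p y) ∧ (∀ y b, QK κ y b ≤ p y) ∧
    ∑ y, p y ≤ 1 := by
  rcases κ with ⟨x', y', a', b'⟩ | ⟨x', y'⟩ | x' | y'
  · refine ⟨fun y => if y = y' then 1 else 0, fun y => by dsimp only; split_ifs <;> norm_num, fun y b => ?_, by simp⟩
    simp only [QK, dYB]
    by_cases h : y = y' <;> by_cases h2 : b = b' <;> simp [h, h2]
  · refine ⟨fun y => if y = y' then 1 else 0, fun y => by dsimp only; split_ifs <;> norm_num, fun y b => ?_, by simp⟩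
    simp only [QK, dY, le_refl]
  · exact ⟨fun y => condY G x' y, fun y => condY_nonneg G _ _, fun y b => le_refl _, sum_condY_le_one G x'⟩
  · refine ⟨fun y => if y = y' then 1 else 0, fun y => by dsimp only; split_ifs <;> norm_num, fun y b => ?_, by simp⟩
    simp only [QK, dY, le_refl]

/-- weights: accepted transcript -/
noncomputable def wAcc {G : Game} : Kst G → ℝ
  | Sum.inl (x, y, a, b) => if G.accept x y a b = true then G.prob x y else 0
  | _ => 0
/-- weights: revealed pair -/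
noncomputable def wFull {G : Game} : Kst G → ℝ
  | Sum.inr (Sum.inl (x, y)) => G.prob x y
  | _ => 0
/-- weights: half reveal -/
noncomputable def wHalf {G : Game} : Kst G → ℝ
  | Sum.inr (Sum.inr (Sum.inl x)) => muX G x / 2
  | Sum.inr (Sum.inr (Sum.inr y)) => muY G y / 2
  | _ => 0
/-- weights: the point mass at a revealed pair -/
noncomputable def wDel {G : Game} (x₀ : Fin G.nX) (y₀ : Fin G.nY) : Kst G → ℝ
  | Sum.inr (Sum.inl (x, y)) => if x = x₀ ∧ y = y₀ then 1 else 0
  | _ => 0

lemma wAcc_nonneg {G : Game} (κ : Kst G) : 0 ≤ wAcc κ := by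
  rcases κ with ⟨x', y', a', b'⟩ | ⟨x', y'⟩ | x' | y' <;> simp only [wAcc, le_refl]
  split_ifs
  · exact G.prob_nonneg _ _
  · exact le_refl _

lemma wFull_nonneg {G : Game} (κ : Kst G) : 0 ≤ wFull κ := by
  rcases κ with ⟨x', y', a', b'⟩ | ⟨x', y'⟩ | x' | y' <;> simp only [wFull, le_refl]
  exact G.prob_nonneg _ _

lemma wHalf_nonneg {G : Game} (κ : Kst G) : 0 ≤ wHalf κ := by
  rcases κ with ⟨x', y', a', b'⟩ | ⟨x', y'⟩ | x' | y' <;> simp only [wHalf, le_refl]
  · exact div_nonneg (muX_nonneg G _) (by norm_num)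
  · exact div_nonneg (muY_nonneg G _) (by norm_num)

/-- general sum over states -/
lemma sum_Kst {G : Game} (F : Kst G → ℝ) : ∑ κ, F κ =
    ∑ x, ∑ y, ∑ a, ∑ b, F (kAcc x y a b) + ∑ x, ∑ y, F (kFull x y) + ∑ x, F (kHX x) + ∑ y, F (kHY y) := by
  rw [Fintype.sum_sum_type, Fintype.sum_sum_type, Fintype.sum_sum_type, Fintype.sum_prod_type,
    Fintype.sum_prod_type]
  simp only [Fintype.sum_prod_type]
  ring

lemma sum_wAcc_le {G : Game} : ∑ κ : Kst G, wAcc κ ≤ ((G.nA * G.nB : ℕ) : ℝ) := by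
  rw [sum_Kst]
  simp only [wAcc, Finset.sum_const_zero, add_zero]
  have h : ∀ x y, ∑ a : Fin G.nA, ∑ b : Fin G.nB, (if G.accept x y a b = true then G.prob x y else 0)
      ≤ ((G.nA * G.nB : ℕ) : ℝ) * G.prob x y := by
    intro x y
    calc ∑ a : Fin G.nA, ∑ b : Fin G.nB, (if G.accept x y a b = true then G.prob x y else 0)
        ≤ ∑ a : Fin G.nA, ∑ b : Fin G.nB, G.prob x y := by
          refine Finset.sum_le_sum fun a _ => Finset.sum_le_sum fun b _ => ?_
          split_ifs
          · exact le_refl _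
          · exact G.prob_nonneg x y
      _ = ((G.nA * G.nB : ℕ) : ℝ) * G.prob x y := by
          simp [Finset.sum_const, Finset.card_univ]
          ring
  calc ∑ x, ∑ y, ∑ a : Fin G.nA, ∑ b : Fin G.nB, (if G.accept x y a b = true then G.prob x y else 0)
      ≤ ∑ x, ∑ y, ((G.nA * G.nB : ℕ) : ℝ) * G.prob x y :=
        Finset.sum_le_sum fun x _ => Finset.sum_le_sum fun y _ => h x y
    _ = ((G.nA * G.nB : ℕ) : ℝ) := by
        simp only [← Finset.mul_sum]
        rw [G.prob_sum, mul_one]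

lemma sum_wFull {G : Game} : ∑ κ : Kst G, wFull κ = 1 := by
  rw [sum_Kst]
  simp only [wFull, Finset.sum_const_zero, add_zero, zero_add]
  exact G.prob_sum

lemma sum_wHalf {G : Game} : ∑ κ : Kst G, wHalf κ = 1 := by
  rw [sum_Kst]
  simp only [wHalf, Finset.sum_const_zero, add_zero, zero_add]
  rw [← Finset.sum_div, ← Finset.sum_div, sum_muX, sum_muY]
  norm_num

/-- the per-coordinate coefficient of an expansion -/
noncomputable def cc {G : Game} (V : Kst G → ℝ) (x : Fin G.nX) (y : Fin G.nY) (a : Fin G.nA) (b : Fin G.nB) : ℝ :=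
  ∑ κ, V κ * PK κ x a * QK κ y b

lemma cc_wAcc {G : Game} (x y a b) : cc (G := G) wAcc x y a b =
    if G.accept x y a b = true then G.prob x y else 0 := by
  simp only [cc, sum_Kst, wAcc, zero_mul, Finset.sum_const_zero, add_zero, PK, QK, dXA, dYB]
  rw [Finset.sum_eq_single x (fun x' _ hx => Finset.sum_eq_zero fun y' _ => Finset.sum_eq_zero fun a' _ =>
      Finset.sum_eq_zero fun b' _ => by simp [Ne.symm hx]) (by simp)]
  rw [Finset.sum_eq_single y (fun y' _ hy => Finset.sum_eq_zero fun a' _ =>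
      Finset.sum_eq_zero fun b' _ => by simp [Ne.symm hy]) (by simp)]
  rw [Finset.sum_eq_single a (fun a' _ ha => Finset.sum_eq_zero fun b' _ => by simp [Ne.symm ha]) (by simp)]
  rw [Finset.sum_eq_single b (fun b' _ hb => by simp [Ne.symm hb]) (by simp)]
  simp

lemma cc_wFull {G : Game} (x y a b) : cc (G := G) wFull x y a b = G.prob x y := by
  simp only [cc, sum_Kst, wFull, zero_mul, Finset.sum_const_zero, add_zero, zero_add, PK, QK, dX, dY]
  rw [Finset.sum_eq_single x (fun x' _ hx => Finset.sum_eq_zero fun y' _ => by simp [Ne.symm hx]) (by simp)]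
  rw [Finset.sum_eq_single y (fun y' _ hy => by simp [Ne.symm hy]) (by simp)]
  simp

lemma cc_wHalf {G : Game} (x y a b) : cc (G := G) wHalf x y a b = G.prob x y := by
  simp only [cc, sum_Kst, wHalf, zero_mul, Finset.sum_const_zero, add_zero, zero_add, PK, QK, dX, dY, cX, cY]
  rw [Finset.sum_eq_single x (fun x' _ hx => by simp [Ne.symm hx]) (by simp)]
  rw [Finset.sum_eq_single y (fun y' _ hy => by simp [Ne.symm hy]) (by simp)]
  simp only [if_true, mul_one]
  have h1 := muX_mul_condY G x y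
  have h2 := muY_mul_condX G y x
  linarith

lemma cc_wDel {G : Game} (x₀ y₀ x y a b) : cc (G := G) (wDel x₀ y₀) x y a b =
    if x = x₀ ∧ y = y₀ then 1 else 0 := by
  simp only [cc, sum_Kst, wDel, zero_mul, Finset.sum_const_zero, add_zero, zero_add, PK, QK, dX, dY]
  rw [Finset.sum_eq_single x (fun x' _ hx => Finset.sum_eq_zero fun y' _ => by simp [Ne.symm hx]) (by simp)]
  rw [Finset.sum_eq_single y (fun y' _ hy => by simp [Ne.symm hy]) (by simp)]
  simp

end game

section omega

variable {G : Game} {k : ℕ}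

/-- product weight -/
noncomputable def Wt (W : Fin k → Kst G → ℝ) (ω : Fin k → Kst G) : ℝ := ∏ j, W j (ω j)

lemma Wt_nonneg {W : Fin k → Kst G → ℝ} (hW : ∀ j κ, 0 ≤ W j κ) (ω : Fin k → Kst G) : 0 ≤ Wt W ω :=
  Finset.prod_nonneg fun j _ => hW j _

lemma sum_Wt (W : Fin k → Kst G → ℝ) : ∑ ω, Wt W ω = ∏ j, ∑ κ, W j κ := by
  rw [Finset.prod_univ_sum, Fintype.piFinset_univ]
  rfl

/-- The resampling identity: the involution `(κ, ω) ↦ (ω i, update ω i κ)`. -/
lemma resample (W : Fin k → Kst G → ℝ) (i : Fin k) (V : Kst G → ℝ) (F : (Fin k → Kst G) → ℝ) :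
    ∑ ω, Wt W ω * ∑ κ, V κ * F (Function.update ω i κ)
      = (∑ κ, W i κ) * ∑ ω, Wt (Function.update W i V) ω * F ω := by
  classical
  set R : (Fin k → Kst G) → ℝ := fun ω => ∏ j ∈ Finset.univ.erase i, W j (ω j) with hR
  have hR1 : ∀ ω κ, R (Function.update ω i κ) = R ω := by
    intro ω κ
    refine Finset.prod_congr rfl fun j hj => ?_
    rw [Function.update_of_ne (Finset.ne_of_mem_erase hj)]
  have hWt : ∀ ω, Wt W ω = W i (ω i) * R ω := fun ω =>
    (Finset.mul_prod_erase Finset.univ _ (Finset.mem_univ i)).symm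
  have hWt' : ∀ ω, Wt (Function.update W i V) ω = V (ω i) * R ω := by
    intro ω
    unfold Wt
    rw [← Finset.mul_prod_erase Finset.univ _ (Finset.mem_univ i)]
    congr 1
    · simp
    · refine Finset.prod_congr rfl fun j hj => ?_
      rw [Function.update_of_ne (Finset.ne_of_mem_erase hj)]
  let φ : (Kst G × (Fin k → Kst G)) → (Kst G × (Fin k → Kst G)) :=
    fun p => (p.2 i, Function.update p.2 i p.1)
  have hφ : Function.Involutive φ := by
    intro p
    simp only [φ]
    ext <;> simp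
  have h1 : ∑ ω, Wt W ω * ∑ κ, V κ * F (Function.update ω i κ)
      = ∑ p : Kst G × (Fin k → Kst G), W i (φ p).1 * (R (φ p).2 * (V ((φ p).2 i) * F (φ p).2)) := by
    rw [Fintype.sum_prod_type_right]
    refine Finset.sum_congr rfl fun ω _ => ?_
    rw [Finset.mul_sum]
    refine Finset.sum_congr rfl fun κ _ => ?_
    simp only [φ, hWt, hR1]
    simp
    ring
  have h2 := Equiv.sum_comp (hφ.toPerm) (fun p : Kst G × (Fin k → Kst G) => W i p.1 * (R p.2 * (V (p.2 i) * F p.2)))
  have h2' : ∑ p : Kst G × (Fin k → Kst G), W i (φ p).1 * (R (φ p).2 * (V ((φ p).2 i) * F (φ p).2))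
      = ∑ p : Kst G × (Fin k → Kst G), W i p.1 * (R p.2 * (V (p.2 i) * F p.2)) := h2
  rw [h1, h2', Fintype.sum_prod_type, Finset.sum_mul]
  refine Finset.sum_congr rfl fun κ _ => ?_
  rw [Finset.mul_sum]
  refine Finset.sum_congr rfl fun ω _ => ?_
  rw [hWt']
  ring

/-- expansion of a weighted sum of `ev`s of kernel operators -/
lemma expansion {dA dB : ℕ} (St : Strategy G k dA dB) (W : Fin k → Kst G → ℝ) :
    ∑ ω, Wt W ω * ev St.ψ (Top St (fun j => PK (ω j))) (Sop St (fun j => QK (ω j)))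
      = ∑ x : Fin k → Fin G.nX, ∑ y : Fin k → Fin G.nY, ∑ a : Fin k → Fin G.nA, ∑ b : Fin k → Fin G.nB,
        (∏ j, cc (W j) (x j) (y j) (a j) (b j)) * St.answerProb x y a b := by
  simp only [ev_Top_Sop, Finset.mul_sum]
  rw [Finset.sum_comm]
  refine Finset.sum_congr rfl fun x _ => ?_
  rw [Finset.sum_comm]
  refine Finset.sum_congr rfl fun y _ => ?_
  rw [Finset.sum_comm]
  refine Finset.sum_congr rfl fun a _ => ?_
  rw [Finset.sum_comm]
  refine Finset.sum_congr rfl fun b _ => ?_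
  simp only [cc]
  rw [Finset.prod_univ_sum, Fintype.piFinset_univ, Finset.sum_mul]
  refine Finset.sum_congr rfl fun ω _ => ?_
  unfold Wt
  rw [← mul_assoc, ← mul_assoc, ← Finset.prod_mul_distrib, ← Finset.prod_mul_distrib]

end omega

end Crest.Agent.PR.ChainAux
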