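import Mathlib
import Crest.Prelude.Def_NonlocalGame

/-!
# Parallel repetition (S0536, S0537): shared definitions

All modules of `Crest/Agent/PR/` use these.  See `results.approach` of row S0536 for the blueprint.
No proofs of anything deep here.
-/

namespace Crest.Agent.PR

open Crest.MathPhysics.NonlocalGame Matrix
open scoped Kronecker ComplexOrder

/-- squared norm of a vector over a finite type -/
noncomputable def nsq {ι : Type} [Fintype ι] (v : ι → ℂ) : ℝ := ∑ i, ‖v i‖ ^ 2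

/-- norm of a vector over a finite type -/
noncomputable def nrm {ι : Type} [Fintype ι] (v : ι → ℂ) : ℝ := Real.sqrt (nsq v)

/-- Real part of `⟨ψ, (M ⊗ N) ψ⟩`; the statement's `answerProb` is this. -/
noncomputable def ev {I J : Type} [Fintype I] [Fintype J] (ψ : I × J → ℂ)
    (M : Matrix I I ℂ) (N : Matrix J J ℂ) : ℝ :=
  (dotProduct (star ψ) ((M ⊗ₖ N).mulVec ψ)).re

/-- A positive operator-valued measure indexed by `α`. -/
def IsPOVM {I α : Type} [Fintype I] [DecidableEq I] [Fintype α] (E : α → Matrix I I ℂ) : Prop :=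
  (∀ a, (E a).PosSemidef) ∧ ∑ a, E a = 1

/-- marginal of the first question -/
noncomputable def muX (G : Game) (x : Fin G.nX) : ℝ := ∑ y, G.prob x y
/-- marginal of the second question -/
noncomputable def muY (G : Game) (y : Fin G.nY) : ℝ := ∑ x, G.prob x y
/-- conditional `μ(y|x)`, with `0/0 = 0` -/
noncomputable def condY (G : Game) (x : Fin G.nX) (y : Fin G.nY) : ℝ := G.prob x y / muX G x
/-- conditional `μ(x|y)`, with `0/0 = 0` -/
noncomputable def condX (G : Game) (y : Fin G.nY) (x : Fin G.nX) : ℝ := G.prob x y / muY G y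

/-- One-play strategy on arbitrary finite index types (Kronecker convention of the statement). -/
structure OneStrat (G : Game) (I J : Type) [Fintype I] [Fintype J] [DecidableEq I]
    [DecidableEq J] where
  ψ : I × J → ℂ
  ψ_norm : nsq ψ = 1
  M : Fin G.nX → Fin G.nA → Matrix I I ℂ
  N : Fin G.nY → Fin G.nB → Matrix J J ℂ
  M_povm : ∀ x, IsPOVM (M x)
  N_povm : ∀ y, IsPOVM (N y)

/-- the accepted part of a pair of measurements, as a quadratic form in the vector `K`. -/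
noncomputable def wq (G : Game) {I J : Type} [Fintype I] [Fintype J]
    (Ex : Fin G.nX → Fin G.nA → Matrix I I ℂ) (Ey : Fin G.nY → Fin G.nB → Matrix J J ℂ)
    (x : Fin G.nX) (y : Fin G.nY) (K : I × J → ℂ) : ℝ :=
  ∑ a, ∑ b, if G.accept x y a b = true then ev K (Ex x a) (Ey y b) else 0

/-- value of a one-play strategy -/
noncomputable def OneStrat.val {G : Game} {I J : Type} [Fintype I] [Fintype J] [DecidableEq I]
    [DecidableEq J] (S : OneStrat G I J) : ℝ :=
  ∑ x, ∑ y, G.prob x y * wq G S.M S.N x y S.ψ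

/-- The operator `t log t` of a Hermitian matrix. -/
noncomputable def xlog {I : Type} [Fintype I] [DecidableEq I] (S : Matrix I I ℂ) : Matrix I I ℂ :=
  cfc (fun t : ℝ => t * Real.log t) S

/-- the probability of winning all coordinates of `C` (under `k` independent question pairs) -/
noncomputable def winSub {G : Game} {k dA dB : ℕ} (S : Strategy G k dA dB) (C : Finset (Fin k)) : ℝ :=
  ∑ x : Fin k → Fin G.nX, ∑ y : Fin k → Fin G.nY, (∏ i, G.prob (x i) (y i)) *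
    ∑ a : Fin k → Fin G.nA, ∑ b : Fin k → Fin G.nB,
      if ∀ i ∈ C, G.accept (x i) (y i) (a i) (b i) = true then S.answerProb x y a b else 0

/-! ### Data of one coordinate -/

section Coord
variable {G : Game} {dA dB : ℕ} {Ω : Type} [Fintype Ω]

/-- `T_x^ω = ∑_a T^a_{x,ω}` -/
noncomputable def sumA (T : Fin G.nX → Ω → Fin G.nA → Matrix (Fin dA) (Fin dA) ℂ)
    (x : Fin G.nX) (ω : Ω) : Matrix (Fin dA) (Fin dA) ℂ := ∑ a, T x ω a
/-- `S_y^ω = ∑_b S^b_{y,ω}` -/
noncomputable def sumB (S : Fin G.nY → Ω → Fin G.nB → Matrix (Fin dB) (Fin dB) ℂ)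
    (y : Fin G.nY) (ω : Ω) : Matrix (Fin dB) (Fin dB) ℂ := ∑ b, S y ω b
/-- `S̄_x^ω = ∑_y μ(y|x) S_y^ω` -/
noncomputable def barS (S : Fin G.nY → Ω → Fin G.nB → Matrix (Fin dB) (Fin dB) ℂ)
    (x : Fin G.nX) (ω : Ω) : Matrix (Fin dB) (Fin dB) ℂ :=
  ∑ y, ((condY G x y : ℝ) : ℂ) • sumB S y ω
/-- `T̄_y^ω = ∑_x μ(x|y) T_x^ω` -/
noncomputable def barT (T : Fin G.nX → Ω → Fin G.nA → Matrix (Fin dA) (Fin dA) ℂ)
    (y : Fin G.nY) (ω : Ω) : Matrix (Fin dA) (Fin dA) ℂ :=
  ∑ x, ((condX G y x : ℝ) : ℂ) • sumA T x ω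

/-- `P(W, z_i = (x,y)) / μ(x,y)`, unnormalised -/
noncomputable def coordMass (ψ : Fin dA × Fin dB → ℂ) (w : Ω → ℝ)
    (T : Fin G.nX → Ω → Fin G.nA → Matrix (Fin dA) (Fin dA) ℂ)
    (S : Fin G.nY → Ω → Fin G.nB → Matrix (Fin dB) (Fin dB) ℂ) (x : Fin G.nX) (y : Fin G.nY) : ℝ :=
  ∑ ω, w ω * ev ψ (sumA T x ω) (sumB S y ω)

/-- `P(W)`: the normalisation -/
noncomputable def coordZ (ψ : Fin dA × Fin dB → ℂ) (w : Ω → ℝ)
    (T : Fin G.nX → Ω → Fin G.nA → Matrix (Fin dA) (Fin dA) ℂ)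
    (S : Fin G.nY → Ω → Fin G.nB → Matrix (Fin dB) (Fin dB) ℂ) : ℝ :=
  ∑ x, ∑ y, G.prob x y * coordMass ψ w T S x y

/-- `P(W and win at this coordinate)` -/
noncomputable def coordWin (ψ : Fin dA × Fin dB → ℂ) (w : Ω → ℝ)
    (T : Fin G.nX → Ω → Fin G.nA → Matrix (Fin dA) (Fin dA) ℂ)
    (S : Fin G.nY → Ω → Fin G.nB → Matrix (Fin dB) (Fin dB) ℂ) : ℝ :=
  ∑ x, ∑ y, G.prob x y * ∑ ω, w ω *
    ∑ a, ∑ b, if G.accept x y a b = true then ev ψ (T x ω a) (S y ω b) else 0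

/-- the entropy increment when Bob's side is revealed, first question known -/
noncomputable def aTerm (ψ : Fin dA × Fin dB → ℂ) (w : Ω → ℝ)
    (T : Fin G.nX → Ω → Fin G.nA → Matrix (Fin dA) (Fin dA) ℂ)
    (S : Fin G.nY → Ω → Fin G.nB → Matrix (Fin dB) (Fin dB) ℂ) : ℝ :=
  ∑ x, muX G x * ∑ ω, w ω * ev ψ (sumA T x ω)
    ((∑ y, ((condY G x y : ℝ) : ℂ) • xlog (sumB S y ω)) - xlog (barS S x ω))

/-- the entropy increment when Alice's side is revealed, second question known -/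
noncomputable def bTerm (ψ : Fin dA × Fin dB → ℂ) (w : Ω → ℝ)
    (T : Fin G.nX → Ω → Fin G.nA → Matrix (Fin dA) (Fin dA) ℂ)
    (S : Fin G.nY → Ω → Fin G.nB → Matrix (Fin dB) (Fin dB) ℂ) : ℝ :=
  ∑ y, muY G y * ∑ ω, w ω * ev ψ
    ((∑ x, ((condX G y x : ℝ) : ℂ) • xlog (sumA T x ω)) - xlog (barT T y ω)) (sumB S y ω)

end Coord

end Crest.Agent.PR

namespace Crest.Agent.PR

open Crest.MathPhysics.NonlocalGame Matrix
open scoped Kronecker ComplexOrder

/-- a matrix seen as a vector on the product index set: `(M ⊗ₖ N) (vecM Z) = vecM (M * Z * Nᵀ)`. -/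
def vecM {I J : Type} (Z : Matrix I J ℂ) : I × J → ℂ := fun p => Z p.1 p.2

/-- the absolute value `(Lᴴ L)^{1/2}` of a rectangular matrix -/
noncomputable def absM {I J : Type} [Fintype I] [Fintype J] [DecidableEq J] (L : Matrix I J ℂ) : Matrix J J ℂ :=
  cfc Real.sqrt (Lᴴ * L)

/-- the step size `log(1+1/K')/K'` of the fine logarithmic grid -/
noncomputable def qStep (K' : ℕ) : ℝ := Real.log (1 + 1 / (K' : ℝ)) / (K' : ℝ)

/-- fine grid cell of `t > 0` -/
noncomputable def qCell (K' : ℕ) (t : ℝ) : ℤ := ⌊Real.log t / qStep K'⌋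

/-- bucket of `t > 0` for the offset `l` (integer floor division) -/
noncomputable def qBucket (K' : ℕ) (l : ℕ) (t : ℝ) : ℤ := (qCell K' t + (l : ℤ)) / (K' : ℤ)

/-- amplitude of the bucket `g` for the offset `l`, i.e. `(1+1/K')^((g - l/K')/2)`; for `t > 0`
`qAmp K' l (qBucket K' l t) ^ 2 ≤ t < (1+1/K') * qAmp K' l (qBucket K' l t) ^ 2`. -/
noncomputable def qAmp (K' : ℕ) (l : ℕ) (g : ℤ) : ℝ :=
  Real.sqrt (Real.rpow (1 + 1 / (K' : ℝ)) ((g : ℝ) - (l : ℝ) / (K' : ℝ)))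

end Crest.Agent.PR
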