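import Crest.Agent.PR.Defs

/-!
# WP Gauge: the resolvent dilation gauge

`gauge_exists`: a simultaneous square root `Gm c` of a finite family of positive semidefinite
matrices `S c` such that, whenever `S c₀` is a convex combination of the `S c`,
`∑ π_c xlog (S c) - xlog (S c₀) ≥ ∑ π_c (Gm c - Gm c₀)ᴴ (Gm c - Gm c₀)`.

The `Gm c` realise the functions `s ↦ S_c (S_c + s)⁻¹` of `L²((0,∞); Matrix)`, in a finite-dimensional
model obtained by factoring their Gram matrix.  Uses the identities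
`∫₀^∞ (t/(t+s))² ds = t` and `∫₀^∞ (t/(1+s) - t/(t+s)) ds = t log t`.
-/

open MeasureTheory Set Filter Topology Matrix
open scoped ComplexOrder

namespace Crest.Agent.PR
namespace GaugeAux


noncomputable def pf (t s : ℝ) : ℝ := t / (t + s)
noncomputable def lf (t s : ℝ) : ℝ := t / (1 + s) - t / (t + s)

lemma pf_sq_hasDeriv {t : ℝ} (ht : 0 < t) (s : ℝ) (hs : s ∈ Ici (0:ℝ)) :
    HasDerivAt (fun s => - t^2 * (t + s)⁻¹) (pf t s ^ 2) s := by
  have hs0 : (0:ℝ) ≤ s := hs
  have hs' : (t + s) ≠ 0 := by positivity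
  have h := (((hasDerivAt_id s).const_add t).inv hs').const_mul (- t^2)
  refine h.congr_deriv ?_
  simp only [pf, id]
  field_simp

lemma pf_sq_tendsto (t : ℝ) :
    Tendsto (fun s : ℝ => - t^2 * (t + s)⁻¹) atTop (𝓝 0) := by
  have h1 : Tendsto (fun s : ℝ => t + s) atTop atTop := tendsto_atTop_add_const_left _ _ tendsto_id
  have h2 := (tendsto_inv_atTop_zero.comp h1).const_mul (- t^2)
  simpa using h2

lemma pf_sq_integrable {t : ℝ} (ht : 0 ≤ t) : IntegrableOn (fun s => pf t s ^ 2) (Ioi 0) := by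
  rcases ht.eq_or_lt with rfl | ht
  · simp [pf]
  · exact integrableOn_Ioi_deriv_of_nonneg' (pf_sq_hasDeriv ht) (fun _ _ => by positivity)
      (pf_sq_tendsto t)

lemma pf_sq_integral {t : ℝ} (ht : 0 ≤ t) : ∫ s in Ioi (0:ℝ), pf t s ^ 2 = t := by
  rcases ht.eq_or_lt with rfl | ht
  · simp [pf]
  · rw [integral_Ioi_of_hasDerivAt_of_nonneg' (pf_sq_hasDeriv ht) (fun _ _ => by positivity)
      (pf_sq_tendsto t)]
    field_simp
    simp
    ring

lemma pf_continuousOn {t : ℝ} (ht : 0 ≤ t) : ContinuousOn (fun s => pf t s) (Ioi 0) := by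
  refine ContinuousOn.div continuousOn_const (by fun_prop) ?_
  intro s hs
  have : (0:ℝ) < s := hs
  positivity

lemma pf_mul_integrable {t t' : ℝ} (ht : 0 ≤ t) (ht' : 0 ≤ t') :
    IntegrableOn (fun s => pf t s * pf t' s) (Ioi 0) := by
  have hsum : IntegrableOn (fun s => pf t s ^ 2 + pf t' s ^ 2) (Ioi 0) :=
    (pf_sq_integrable ht).add (pf_sq_integrable ht')
  refine Integrable.mono' hsum ?_ ?_
  · exact ((pf_continuousOn ht).mul (pf_continuousOn ht')).aestronglyMeasurable measurableSet_Ioi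
  · refine Eventually.of_forall fun s => ?_
    rw [Real.norm_eq_abs, abs_le]
    constructor <;> nlinarith [sq_nonneg (pf t s - pf t' s), sq_nonneg (pf t s + pf t' s),
      sq_nonneg (pf t s), sq_nonneg (pf t' s)]

lemma lf_hasDeriv {t : ℝ} (ht : 0 < t) (s : ℝ) (hs : s ∈ Ici (0:ℝ)) :
    HasDerivAt (fun s => t * (Real.log (1 + s) - Real.log (t + s))) (lf t s) s := by
  have hs0 : (0:ℝ) ≤ s := hs
  have h1 : (1 + s) ≠ 0 := by positivity
  have h2 : (t + s) ≠ 0 := by positivity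
  have h := ((((hasDerivAt_id s).const_add 1).log h1).sub
    (((hasDerivAt_id s).const_add t).log h2)).const_mul t
  refine h.congr_deriv ?_
  simp only [lf, id]
  field_simp

lemma lf_tendsto {t : ℝ} (ht : 0 < t) :
    Tendsto (fun s : ℝ => t * (Real.log (1 + s) - Real.log (t + s))) atTop (𝓝 0) := by
  have h1 : Tendsto (fun s : ℝ => 1 + (1 - t) * (t + s)⁻¹) atTop (𝓝 (1 + (1 - t) * 0)) := by
    have h0 : Tendsto (fun s : ℝ => t + s) atTop atTop :=
      tendsto_atTop_add_const_left _ _ tendsto_id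
    exact tendsto_const_nhds.add ((tendsto_inv_atTop_zero.comp h0).const_mul _)
  have h2 : Tendsto (fun s : ℝ => Real.log (1 + (1 - t) * (t + s)⁻¹)) atTop (𝓝 (Real.log 1)) := by
    have : (1 + (1 - t) * 0 : ℝ) = 1 := by ring
    rw [this] at h1
    exact h1.log one_ne_zero
  have h3 := h2.const_mul t
  simp only [Real.log_one, mul_zero] at h3
  refine h3.congr' ?_
  filter_upwards [eventually_gt_atTop (0:ℝ)] with s hs
  congr 1
  have h4 : (1 + s) ≠ 0 := by positivity
  have h5 : (t + s) ≠ 0 := by positivity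
  rw [← Real.log_div h4 h5]
  congr 1
  field_simp
  ring

lemma lf_eq {t s : ℝ} (ht : 0 < t) (hs : 0 < s) :
    lf t s = t * (t - 1) / ((1 + s) * (t + s)) := by
  have h4 : (1 + s) ≠ 0 := by positivity
  have h5 : (t + s) ≠ 0 := by positivity
  simp only [lf]
  field_simp
  ring

lemma lf_integrable {t : ℝ} (ht : 0 ≤ t) : IntegrableOn (fun s => lf t s) (Ioi 0) := by
  rcases ht.eq_or_lt with rfl | ht
  · simp [lf]
  rcases le_total 1 t with h1 | h1
  · refine integrableOn_Ioi_deriv_of_nonneg' (lf_hasDeriv ht) (fun s hs => ?_) (lf_tendsto ht)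
    have hs0 : (0:ℝ) < s := hs
    rw [lf_eq ht hs0]
    have : 0 ≤ t - 1 := by linarith
    positivity
  · refine integrableOn_Ioi_deriv_of_nonpos' (lf_hasDeriv ht) (fun s hs => ?_) (lf_tendsto ht)
    have hs0 : (0:ℝ) < s := hs
    rw [lf_eq ht hs0]
    have : t - 1 ≤ 0 := by linarith
    exact div_nonpos_of_nonpos_of_nonneg (mul_nonpos_of_nonneg_of_nonpos ht.le this) (by positivity)

lemma lf_integral {t : ℝ} (ht : 0 ≤ t) : ∫ s in Ioi (0:ℝ), lf t s = t * Real.log t := by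
  rcases ht.eq_or_lt with rfl | ht
  · simp [lf]
  have key : ∫ s in Ioi (0:ℝ), lf t s = 0 - t * (Real.log (1 + 0) - Real.log (t + 0)) := by
    rcases le_total 1 t with h1 | h1
    · refine integral_Ioi_of_hasDerivAt_of_nonneg' (lf_hasDeriv ht) (fun s hs => ?_) (lf_tendsto ht)
      have hs0 : (0:ℝ) < s := hs
      rw [lf_eq ht hs0]
      have : 0 ≤ t - 1 := by linarith
      positivity
    · refine integral_Ioi_of_hasDerivAt_of_nonpos' (lf_hasDeriv ht) (fun s hs => ?_) (lf_tendsto ht)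
      have hs0 : (0:ℝ) < s := hs
      rw [lf_eq ht hs0]
      have : t - 1 ≤ 0 := by linarith
      exact div_nonpos_of_nonpos_of_nonneg (mul_nonpos_of_nonneg_of_nonpos ht.le this) (by positivity)
  rw [key]
  simp



section Mint
set_option linter.unusedSectionVars false
variable {m n p : Type} [Fintype m] [Fintype n] [Fintype p]

/-- entrywise integrability on `(0,∞)` -/
def MInt (X : ℝ → Matrix m n ℂ) : Prop := ∀ i j, IntegrableOn (fun s => X s i j) (Ioi 0)

/-- entrywise integral on `(0,∞)` -/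
noncomputable def mint (X : ℝ → Matrix m n ℂ) : Matrix m n ℂ :=
  Matrix.of fun i j => ∫ s in Ioi (0:ℝ), X s i j

lemma mint_apply (X : ℝ → Matrix m n ℂ) (i : m) (j : n) :
    mint X i j = ∫ s in Ioi (0:ℝ), X s i j := rfl

lemma MInt.add {X Y : ℝ → Matrix m n ℂ} (hX : MInt X) (hY : MInt Y) :
    MInt (fun s => X s + Y s) := fun i j => (hX i j).add (hY i j)

lemma mint_add {X Y : ℝ → Matrix m n ℂ} (hX : MInt X) (hY : MInt Y) :
    mint (fun s => X s + Y s) = mint X + mint Y := by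
  ext i j
  simp only [mint_apply, Matrix.add_apply]
  exact integral_add (hX i j) (hY i j)

lemma MInt.sub {X Y : ℝ → Matrix m n ℂ} (hX : MInt X) (hY : MInt Y) :
    MInt (fun s => X s - Y s) := fun i j => (hX i j).sub (hY i j)

lemma mint_sub {X Y : ℝ → Matrix m n ℂ} (hX : MInt X) (hY : MInt Y) :
    mint (fun s => X s - Y s) = mint X - mint Y := by
  ext i j
  simp only [mint_apply, Matrix.sub_apply]
  exact integral_sub (hX i j) (hY i j)

lemma MInt.smul {X : ℝ → Matrix m n ℂ} (c : ℂ) (hX : MInt X) :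
    MInt (fun s => c • X s) := fun i j => (hX i j).const_mul c

lemma mint_smul (X : ℝ → Matrix m n ℂ) (c : ℂ) :
    mint (fun s => c • X s) = c • mint X := by
  ext i j
  simp only [mint_apply, Matrix.smul_apply, smul_eq_mul]
  exact integral_const_mul c _

lemma MInt.sum {ι : Type} (t : Finset ι) {X : ι → ℝ → Matrix m n ℂ} (hX : ∀ c ∈ t, MInt (X c)) :
    MInt (fun s => ∑ c ∈ t, X c s) := fun i j => by
  simp only [Matrix.sum_apply]
  exact integrable_finsetSum _ fun c hc => hX c hc i j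

lemma mint_sum {ι : Type} (t : Finset ι) {X : ι → ℝ → Matrix m n ℂ} (hX : ∀ c ∈ t, MInt (X c)) :
    mint (fun s => ∑ c ∈ t, X c s) = ∑ c ∈ t, mint (X c) := by
  ext i j
  simp only [mint_apply, Matrix.sum_apply]
  exact integral_finsetSum _ fun c hc => hX c hc i j

lemma MInt.const_mul {X : ℝ → Matrix n p ℂ} (A : Matrix m n ℂ) (hX : MInt X) :
    MInt (fun s => A * X s) := fun i j => by
  simp only [Matrix.mul_apply]
  exact integrable_finsetSum _ fun k _ => (hX k j).const_mul _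

lemma mint_const_mul {X : ℝ → Matrix n p ℂ} (A : Matrix m n ℂ) (hX : MInt X) :
    mint (fun s => A * X s) = A * mint X := by
  ext i j
  simp only [mint_apply, Matrix.mul_apply]
  rw [integral_finsetSum _ fun k _ => (hX k j).const_mul _]
  exact Finset.sum_congr rfl fun k _ => integral_const_mul _ _

lemma MInt.mul_const {X : ℝ → Matrix m n ℂ} (A : Matrix n p ℂ) (hX : MInt X) :
    MInt (fun s => X s * A) := fun i j => by
  simp only [Matrix.mul_apply]
  exact integrable_finsetSum _ fun k _ => (hX i k).mul_const _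

lemma mint_mul_const {X : ℝ → Matrix m n ℂ} (A : Matrix n p ℂ) (hX : MInt X) :
    mint (fun s => X s * A) = mint X * A := by
  ext i j
  simp only [mint_apply, Matrix.mul_apply]
  rw [integral_finsetSum _ fun k _ => (hX i k).mul_const _]
  exact Finset.sum_congr rfl fun k _ => integral_mul_const _ _

lemma MInt.congr {X Y : ℝ → Matrix m n ℂ} (hX : MInt X) (h : ∀ s, 0 < s → Y s = X s) :
    MInt Y := fun i j => by
  refine (hX i j).congr_fun (fun s hs => ?_) measurableSet_Ioi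
  simp only [h s hs]

lemma mint_congr {X Y : ℝ → Matrix m n ℂ} (h : ∀ s, 0 < s → Y s = X s) :
    mint Y = mint X := by
  ext i j
  simp only [mint_apply]
  refine setIntegral_congr_fun measurableSet_Ioi fun s hs => ?_
  simp only [h s hs]

lemma quad_eq [DecidableEq n] (M : Matrix n n ℂ) (x : n → ℂ) :
    star x ⬝ᵥ (M *ᵥ x) = ∑ i, ∑ j, star (x i) * (M i j * x j) := by
  simp [dotProduct, mulVec, Finset.mul_sum]

lemma integral_nonneg_complex {f : ℝ → ℂ} (hf : ∀ s, 0 < s → 0 ≤ f s) :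
    0 ≤ ∫ s in Ioi (0:ℝ), f s := by
  have h1 : ∫ s in Ioi (0:ℝ), f s = ∫ s in Ioi (0:ℝ), (((f s).re : ℝ) : ℂ) := by
    refine setIntegral_congr_fun measurableSet_Ioi fun s hs => ?_
    have := (Complex.nonneg_iff.1 (hf s hs)).2
    apply Complex.ext <;> simp [← this]
  rw [h1, integral_complex_ofReal]
  have h2 : 0 ≤ ∫ s in Ioi (0:ℝ), (f s).re :=
    setIntegral_nonneg measurableSet_Ioi fun s hs => (Complex.nonneg_iff.1 (hf s hs)).1
  exact_mod_cast h2

lemma mint_psd [DecidableEq n] {X : ℝ → Matrix n n ℂ} (hX : MInt X)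
    (hpsd : ∀ s, 0 < s → (X s).PosSemidef) : (mint X).PosSemidef := by
  refine PosSemidef.of_dotProduct_mulVec_nonneg ?_ fun x => ?_
  · ext i j
    simp only [conjTranspose_apply, mint_apply]
    show (starRingEnd ℂ) (∫ s in Ioi (0:ℝ), X s j i) = _
    rw [← integral_conj]
    refine setIntegral_congr_fun measurableSet_Ioi fun s hs => ?_
    exact (hpsd s hs).1.apply i j
  · have h1 : star x ⬝ᵥ (mint X *ᵥ x) = ∫ s in Ioi (0:ℝ), star x ⬝ᵥ (X s *ᵥ x) := by
      simp only [quad_eq]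
      rw [integral_finsetSum]
      · refine Finset.sum_congr rfl fun i _ => ?_
        rw [integral_finsetSum]
        · refine Finset.sum_congr rfl fun j _ => ?_
          rw [integral_const_mul, integral_mul_const, mint_apply]
        · exact fun j _ => ((hX i j).mul_const _).const_mul _
      · exact fun i _ => integrable_finsetSum _ fun j _ => ((hX i j).mul_const _).const_mul _
    rw [h1]
    exact integral_nonneg_complex fun s hs => (hpsd s hs).dotProduct_mulVec_nonneg x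

end Mint



section FM
variable {d : Type} [Fintype d] [DecidableEq d]

/-- spectral data: a unitary and nonnegative eigenvalues -/
structure SD (d : Type) [Fintype d] [DecidableEq d] where
  U : Matrix d d ℂ
  lam : d → ℝ
  hU : Uᴴ * U = 1
  hU' : U * Uᴴ = 1
  hlam : ∀ k, 0 ≤ lam k

/-- the diagonal part of a function of the spectral data -/
noncomputable def SD.dg (D : SD d) (f : ℝ → ℝ) : Matrix d d ℂ :=
  diagonal fun k => ((f (D.lam k) : ℝ) : ℂ)

/-- a function of the spectral data -/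
noncomputable def SD.fm (D : SD d) (f : ℝ → ℝ) : Matrix d d ℂ :=
  D.U * D.dg f * D.Uᴴ

lemma SD.fm_congr (D : SD d) {f g : ℝ → ℝ} (h : ∀ t, 0 ≤ t → f t = g t) : D.fm f = D.fm g := by
  have : D.dg f = D.dg g := by
    simp only [SD.dg]
    congr 1
    funext k
    rw [h _ (D.hlam k)]
  simp only [SD.fm, this]

lemma SD.fm_add (D : SD d) (f g : ℝ → ℝ) : D.fm (fun t => f t + g t) = D.fm f + D.fm g := by
  simp only [SD.fm, SD.dg, Complex.ofReal_add, ← diagonal_add, Matrix.mul_add, Matrix.add_mul]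

lemma SD.fm_sub (D : SD d) (f g : ℝ → ℝ) : D.fm (fun t => f t - g t) = D.fm f - D.fm g := by
  have : (diagonal fun k => (((f (D.lam k) - g (D.lam k) : ℝ)) : ℂ))
      = diagonal (fun k => ((f (D.lam k) : ℝ) : ℂ)) - diagonal (fun k => ((g (D.lam k) : ℝ) : ℂ)) := by
    ext i j
    by_cases h : i = j <;> simp [h]
  simp only [SD.fm, SD.dg, this, Matrix.mul_sub, Matrix.sub_mul]

lemma SD.fm_smul (D : SD d) (c : ℝ) (f : ℝ → ℝ) :
    D.fm (fun t => c * f t) = (c : ℂ) • D.fm f := by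
  have : (diagonal fun k => (((c * f (D.lam k) : ℝ)) : ℂ))
      = (c : ℂ) • diagonal (fun k => ((f (D.lam k) : ℝ) : ℂ)) := by
    ext i j
    by_cases h : i = j <;> simp [h]
  simp only [SD.fm, SD.dg, this, Matrix.mul_smul, Matrix.smul_mul]

lemma SD.fm_mul (D : SD d) (f g : ℝ → ℝ) : D.fm (fun t => f t * g t) = D.fm f * D.fm g := by
  have h : D.dg (fun t => f t * g t) = D.dg f * D.dg g := by
    simp [SD.dg, diagonal_mul_diagonal]
  calc D.fm (fun t => f t * g t) = D.U * (D.dg f * (D.Uᴴ * D.U) * D.dg g) * D.Uᴴ := by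
        simp [SD.fm, h, D.hU]
    _ = D.fm f * D.fm g := by
        simp only [SD.fm, Matrix.mul_assoc]

lemma SD.fm_const (D : SD d) (c : ℝ) : D.fm (fun _ => c) = (c : ℂ) • (1 : Matrix d d ℂ) := by
  have : (diagonal fun _ : d => ((c : ℝ) : ℂ)) = (c : ℂ) • (1 : Matrix d d ℂ) := by
    ext i j
    by_cases h : i = j <;> simp [h]
  simp only [SD.fm, SD.dg, this, Matrix.mul_smul, Matrix.smul_mul, Matrix.mul_one, D.hU']

lemma SD.fm_herm (D : SD d) (f : ℝ → ℝ) : (D.fm f)ᴴ = D.fm f := by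
  simp only [SD.fm, SD.dg, conjTranspose_mul, conjTranspose_conjTranspose, diagonal_conjTranspose,
    Matrix.mul_assoc]
  congr 3
  funext k
  simp

/-- The spectral data of a positive semidefinite matrix. -/
noncomputable def SD.ofPSD (S : Matrix d d ℂ) (hS : S.PosSemidef) : SD d where
  U := hS.1.eigenvectorUnitary
  lam := hS.1.eigenvalues
  hU := by
    have := Unitary.coe_star_mul_self hS.1.eigenvectorUnitary
    simpa [star_eq_conjTranspose] using this
  hU' := by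
    have := Unitary.coe_mul_star_self hS.1.eigenvectorUnitary
    simpa [star_eq_conjTranspose] using this
  hlam := hS.eigenvalues_nonneg

lemma SD.ofPSD_fm (S : Matrix d d ℂ) (hS : S.PosSemidef) (f : ℝ → ℝ) :
    (SD.ofPSD S hS).fm f = cfc f S := by
  rw [hS.1.cfc_eq]
  rfl

lemma SD.ofPSD_fm_id (S : Matrix d d ℂ) (hS : S.PosSemidef) :
    (SD.ofPSD S hS).fm id = S := by
  rw [SD.ofPSD_fm]
  exact cfc_id ℝ S hS.1

lemma exists_factor (A : Matrix d d ℂ) (hA : A.PosSemidef) : ∃ B : Matrix d d ℂ, A = Bᴴ * B := by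
  refine ⟨(SD.ofPSD A hA).fm Real.sqrt, ?_⟩
  rw [SD.fm_herm, ← SD.fm_mul]
  conv_lhs => rw [← SD.ofPSD_fm_id A hA]
  exact SD.fm_congr _ fun t ht => by simp [Real.mul_self_sqrt ht]

end FM


section Int
variable {d : Type} [Fintype d] [DecidableEq d]

lemma SD.dg_MInt (D : SD d) (f : ℝ → ℝ → ℝ) (hf : ∀ t, 0 ≤ t → IntegrableOn (f t) (Ioi 0)) :
    MInt (fun s => D.dg (fun t => f t s)) := by
  intro i j
  by_cases h : i = j
  · subst h
    simp only [SD.dg, diagonal_apply_eq]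
    exact (hf _ (D.hlam i)).ofReal
  · simp [SD.dg, diagonal_apply_ne _ h]

lemma SD.dg_mint (D : SD d) (f : ℝ → ℝ → ℝ) :
    mint (fun s => D.dg (fun t => f t s)) = D.dg (fun t => ∫ s in Ioi (0:ℝ), f t s) := by
  ext i j
  by_cases h : i = j
  · subst h
    simp only [mint_apply, SD.dg, diagonal_apply_eq]
    exact integral_complex_ofReal
  · simp [mint_apply, SD.dg, diagonal_apply_ne _ h]

lemma SD.fm_MInt (D : SD d) (f : ℝ → ℝ → ℝ) (hf : ∀ t, 0 ≤ t → IntegrableOn (f t) (Ioi 0)) :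
    MInt (fun s => D.fm (fun t => f t s)) :=
  ((D.dg_MInt f hf).const_mul D.U).mul_const D.Uᴴ

lemma SD.fm_mint (D : SD d) (f : ℝ → ℝ → ℝ) (hf : ∀ t, 0 ≤ t → IntegrableOn (f t) (Ioi 0)) :
    mint (fun s => D.fm (fun t => f t s)) = D.fm (fun t => ∫ s in Ioi (0:ℝ), f t s) := by
  simp only [SD.fm]
  rw [mint_mul_const _ ((D.dg_MInt f hf).const_mul D.U), mint_const_mul _ (D.dg_MInt f hf),
    D.dg_mint]

lemma cross_MInt (D D' : SD d) :
    MInt (fun s => (D.fm (fun t => pf t s))ᴴ * D'.fm (fun t => pf t s)) := by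
  have hmid : MInt (fun s => D.dg (fun t => pf t s) * (D.Uᴴ * D'.U) * D'.dg (fun t => pf t s)) := by
    intro k k'
    simp only [SD.dg, diagonal_mul, mul_diagonal]
    have h1 := (Complex.ofRealCLM.integrable_comp
      (pf_mul_integrable (D.hlam k) (D'.hlam k'))).const_mul ((D.Uᴴ * D'.U) k k')
    refine h1.congr (Eventually.of_forall fun s => ?_)
    simp only [Complex.ofRealCLM_apply, Complex.ofReal_mul]
    ring
  refine (((hmid).const_mul D.U).mul_const D'.Uᴴ).congr fun s _ => ?_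
  rw [SD.fm_herm]
  simp only [SD.fm, Matrix.mul_assoc]

lemma SD.fm_shift (D : SD d) (s : ℝ) : D.fm id + (s : ℂ) • 1 = D.fm (fun t => t + s) := by
  rw [← D.fm_const s]
  exact (D.fm_add id (fun _ => s)).symm

lemma SD.fm_one (D : SD d) : D.fm (fun _ => 1) = 1 := by
  rw [D.fm_const]
  simp

lemma SD.res_left (D : SD d) {s : ℝ} (hs : 0 < s) :
    D.fm (fun t => (t + s)⁻¹) * (D.fm id + (s : ℂ) • 1) = 1 := by
  rw [D.fm_shift, ← D.fm_mul, ← D.fm_one]
  refine D.fm_congr fun t ht => ?_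
  have : t + s ≠ 0 := by positivity
  field_simp

lemma SD.res_right (D : SD d) {s : ℝ} (hs : 0 < s) :
    (D.fm id + (s : ℂ) • 1) * D.fm (fun t => (t + s)⁻¹) = 1 := by
  rw [D.fm_shift, ← D.fm_mul, ← D.fm_one]
  refine D.fm_congr fun t ht => ?_
  have : t + s ≠ 0 := by positivity
  field_simp

lemma SD.pf_eq (D : SD d) {s : ℝ} (hs : 0 < s) :
    D.fm (fun t => pf t s) = 1 - (s : ℂ) • D.fm (fun t => (t + s)⁻¹) := by
  rw [← D.fm_smul, ← D.fm_one, ← D.fm_sub]
  refine D.fm_congr fun t ht => ?_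
  have : t + s ≠ 0 := by positivity
  simp only [pf]
  field_simp
  ring

lemma SD.lf_eq (D : SD d) (s : ℝ) :
    D.fm (fun t => lf t s) = (((1 + s)⁻¹ : ℝ) : ℂ) • D.fm id - D.fm (fun t => pf t s) := by
  rw [← D.fm_smul, ← D.fm_sub]
  refine D.fm_congr fun t ht => ?_
  simp only [pf, lf, id]
  rw [div_eq_inv_mul]

end Int

section Gram
variable {d : Type} [Fintype d] [DecidableEq d]

theorem gram_factor {ι : Type} [Fintype ι] [DecidableEq ι] (h : ι → ℝ → Matrix d d ℂ)
    (hint : ∀ c c', MInt (fun s => (h c s)ᴴ * h c' s)) :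
    ∃ Gm : ι → Matrix (ι × d) d ℂ,
      ∀ c c', (Gm c)ᴴ * Gm c' = mint (fun s => (h c s)ᴴ * h c' s) := by
  let H : ℝ → Matrix d (ι × d) ℂ := fun s => Matrix.of fun l p => h p.1 s l p.2
  have hH : ∀ s p q, ((H s)ᴴ * H s) p q = ((h p.1 s)ᴴ * h q.1 s) p.2 q.2 := by
    intro s p q
    simp [Matrix.mul_apply, H]
  have hMInt : MInt (fun s => (H s)ᴴ * H s) := fun p q => by
    simp_rw [hH]
    exact hint _ _ _ _
  have hpsd : (mint fun s => (H s)ᴴ * H s).PosSemidef :=
    mint_psd hMInt fun s _ => posSemidef_conjTranspose_mul_self _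
  obtain ⟨B, hB⟩ := exists_factor _ hpsd
  refine ⟨fun c => Matrix.of fun j i => B j (c, i), fun c c' => ?_⟩
  ext i j
  have h1 := congrFun (congrFun hB (c, i)) (c', j)
  simp only [mint_apply, hH] at h1
  rw [mint_apply, h1]
  simp [Matrix.mul_apply]

end Gram

section Key
variable {d : Type} [Fintype d] [DecidableEq d]

lemma key_psd {ι : Type} [Fintype ι] (S B h F : ι → Matrix d d ℂ) (s : ℝ) (hs : 0 < s)
    (π : ι → ℝ) (c₀ : ι) (hπ0 : ∀ c, 0 ≤ π c) (hπ : ∑ c, π c = 1)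
    (hS0 : ∀ c, (S c).PosSemidef)
    (hSavg : S c₀ = ∑ c, ((π c : ℝ) : ℂ) • S c)
    (hB : ∀ c, B c * (S c + (s : ℂ) • 1) = 1) (hB' : ∀ c, (S c + (s : ℂ) • 1) * B c = 1)
    (hBh : ∀ c, (B c)ᴴ = B c)
    (hh : ∀ c, h c = 1 - (s : ℂ) • B c)
    (hF : ∀ c, F c = (((1 + s)⁻¹ : ℝ) : ℂ) • S c - h c) :
    ((∑ c, ((π c : ℝ) : ℂ) • F c) - F c₀
      - ∑ c, ((π c : ℝ) : ℂ) • ((h c - h c₀)ᴴ * (h c - h c₀))).PosSemidef := by
  have hπC : ∑ c, ((π c : ℝ) : ℂ) = 1 := by exact_mod_cast hπ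
  set R : ι → Matrix d d ℂ := fun c => B c - B c₀ with hR
  have hRh : ∀ c, (R c)ᴴ = R c := fun c => by simp [hR, conjTranspose_sub, hBh]
  have hdiff : ∀ c, h c - h c₀ = -((s : ℂ) • R c) := fun c => by
    simp only [hh, hR, smul_sub]; abel
  have hP : ∀ c, (h c - h c₀)ᴴ * (h c - h c₀) = ((s : ℂ) * (s : ℂ)) • (R c * R c) := fun c => by
    rw [hdiff, conjTranspose_neg, conjTranspose_smul, hRh, Complex.star_def, Complex.conj_ofReal,
      Matrix.neg_mul, Matrix.mul_neg, neg_neg, Matrix.smul_mul, Matrix.mul_smul, smul_smul]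
  -- the expansion of `R A R`
  have hexp : ∀ c, R c * (S c + (s : ℂ) • 1) * R c
      = B c - (2 : ℂ) • B c₀ + B c₀ * (S c + (s : ℂ) • 1) * B c₀ := fun c => by
    have e1 : B c₀ * (S c + (s : ℂ) • 1) * B c = B c₀ := by
      rw [Matrix.mul_assoc, hB' c, Matrix.mul_one]
    simp only [hR, Matrix.sub_mul, Matrix.mul_sub, hB c, Matrix.one_mul, e1, two_smul]
    abel
  have hT : ∑ c, ((π c : ℝ) : ℂ) • (S c + (s : ℂ) • 1) = S c₀ + (s : ℂ) • 1 := by
    simp only [smul_add]
    rw [Finset.sum_add_distrib, ← hSavg, ← Finset.sum_smul, hπC, one_smul]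
  have hT2 : ∑ c, ((π c : ℝ) : ℂ) • (B c₀ * (S c + (s : ℂ) • 1) * B c₀) = B c₀ := by
    have : ∀ c, ((π c : ℝ) : ℂ) • (B c₀ * (S c + (s : ℂ) • 1) * B c₀)
        = B c₀ * (((π c : ℝ) : ℂ) • (S c + (s : ℂ) • 1)) * B c₀ := fun c => by
      rw [Matrix.mul_smul, Matrix.smul_mul]
    simp only [this]
    rw [← Finset.sum_mul, ← Finset.mul_sum, hT, Matrix.mul_assoc, hB' c₀, Matrix.mul_one]
  have hsum : ∑ c, ((π c : ℝ) : ℂ) • (R c * (S c + (s : ℂ) • 1) * R c)
      = (∑ c, ((π c : ℝ) : ℂ) • B c) - B c₀ := by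
    simp only [hexp, smul_add, smul_sub]
    rw [Finset.sum_add_distrib, Finset.sum_sub_distrib, hT2, ← Finset.sum_smul, hπC, one_smul,
      two_smul]
    abel
  -- the main identity
  have hmain : (∑ c, ((π c : ℝ) : ℂ) • F c) - F c₀
      - ∑ c, ((π c : ℝ) : ℂ) • ((h c - h c₀)ᴴ * (h c - h c₀))
      = ∑ c, (((π c * s : ℝ)) : ℂ) • ((R c)ᴴ * S c * R c) := by
    have h1 : (∑ c, ((π c : ℝ) : ℂ) • F c) - F c₀
        = (s : ℂ) • ((∑ c, ((π c : ℝ) : ℂ) • B c) - B c₀) := by
      simp only [hF, hh, smul_sub]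
      simp only [Finset.sum_sub_distrib]
      have h2 : ∑ c, ((π c : ℝ) : ℂ) • (((1 + s)⁻¹ : ℝ) : ℂ) • S c
          = (((1 + s)⁻¹ : ℝ) : ℂ) • S c₀ := by
        rw [hSavg, Finset.smul_sum]
        exact Finset.sum_congr rfl fun c _ => smul_comm _ _ _
      have h3 : ∑ c, ((π c : ℝ) : ℂ) • (1 : Matrix d d ℂ) = 1 := by
        rw [← Finset.sum_smul, hπC, one_smul]
      have h4 : ∑ c, ((π c : ℝ) : ℂ) • (s : ℂ) • B c = (s : ℂ) • ∑ c, ((π c : ℝ) : ℂ) • B c := by
        rw [Finset.smul_sum]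
        exact Finset.sum_congr rfl fun c _ => smul_comm _ _ _
      rw [h2, h3, h4]
      abel
    have h5 : ∀ c, (((π c * s : ℝ)) : ℂ) • ((R c)ᴴ * S c * R c)
        = ((s : ℂ)) • (((π c : ℝ) : ℂ) • (R c * (S c + (s : ℂ) • 1) * R c))
          - ((π c : ℝ) : ℂ) • (((s : ℂ) * (s : ℂ)) • (R c * R c)) := fun c => by
      rw [hRh]
      simp only [Matrix.mul_add, Matrix.add_mul, Matrix.mul_smul, Matrix.smul_mul, Matrix.mul_one,
        smul_add, smul_smul]
      push_cast
      rw [show (s : ℂ) * (π c : ℂ) = (π c : ℂ) * s from mul_comm _ _,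
        show (s : ℂ) * ((π c : ℂ) * s) = (π c : ℂ) * (s * s) by ring]
      abel
    rw [h1]
    simp only [hP, h5]
    rw [Finset.sum_sub_distrib, ← Finset.smul_sum, hsum]
  rw [hmain]
  refine Matrix.posSemidef_sum _ fun c _ => ?_
  refine PosSemidef.smul ((hS0 c).conjTranspose_mul_mul_same _) ?_
  have : 0 ≤ π c * s := mul_nonneg (hπ0 c) hs.le
  exact_mod_cast this

end Key

end GaugeAux

open GaugeAux in
theorem gauge_exists {d : Type} [Fintype d] [DecidableEq d] {ι : Type} [Fintype ι] [DecidableEq ι]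
    (S : ι → Matrix d d ℂ) (hS : ∀ c, (S c).PosSemidef) :
    ∃ (J : Type) (_ : Fintype J) (_ : DecidableEq J) (Gm : ι → Matrix J d ℂ),
      (∀ c, (Gm c)ᴴ * Gm c = S c) ∧
      ∀ (π : ι → ℝ) (c₀ : ι), (∀ c, 0 ≤ π c) → ∑ c, π c = 1 → S c₀ = ∑ c, ((π c : ℝ) : ℂ) • S c →
        ((∑ c, ((π c : ℝ) : ℂ) • xlog (S c)) - xlog (S c₀)
          - ∑ c, ((π c : ℝ) : ℂ) • ((Gm c - Gm c₀)ᴴ * (Gm c - Gm c₀))).PosSemidef := by
  let D : ι → SD d := fun c => SD.ofPSD (S c) (hS c)
  have hSD : ∀ c, (D c).fm id = S c := fun c => SD.ofPSD_fm_id _ _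
  have hxlog : ∀ c, (D c).fm (fun t => t * Real.log t) = xlog (S c) := fun c => SD.ofPSD_fm _ _ _
  let h : ι → ℝ → Matrix d d ℂ := fun c s => (D c).fm (fun t => pf t s)
  let F : ι → ℝ → Matrix d d ℂ := fun c s => (D c).fm (fun t => lf t s)
  let B : ι → ℝ → Matrix d d ℂ := fun c s => (D c).fm (fun t => (t + s)⁻¹)
  have hcross : ∀ c c', MInt (fun s => (h c s)ᴴ * h c' s) := fun c c' => cross_MInt (D c) (D c')
  obtain ⟨Gm, hGm⟩ := gram_factor h hcross
  refine ⟨ι × d, inferInstance, inferInstance, Gm, fun c => ?_, ?_⟩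
  · rw [hGm]
    have h1 : ∀ s, 0 < s → (h c s)ᴴ * h c s = (D c).fm (fun t => pf t s ^ 2) := fun s _ => by
      simp only [h]
      rw [SD.fm_herm, ← SD.fm_mul]
      simp only [sq]
    rw [mint_congr h1, (D c).fm_mint (fun t s => pf t s ^ 2) (fun t ht => pf_sq_integrable ht),
      ← hSD c]
    exact (D c).fm_congr fun t ht => pf_sq_integral ht
  · intro π c₀ hπ0 hπ hSavg
    have hFint : ∀ c, MInt (F c) := fun c => (D c).fm_MInt lf (fun t ht => lf_integrable ht)
    have hFmint : ∀ c, mint (F c) = xlog (S c) := fun c => by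
      rw [← hxlog c]
      simp only [F]
      rw [(D c).fm_mint lf (fun t ht => lf_integrable ht)]
      exact (D c).fm_congr fun t ht => lf_integral ht
    have hPexp : ∀ c s, (h c s - h c₀ s)ᴴ * (h c s - h c₀ s)
        = ((h c s)ᴴ * h c s - (h c s)ᴴ * h c₀ s) - ((h c₀ s)ᴴ * h c s - (h c₀ s)ᴴ * h c₀ s) := by
      intro c s
      simp only [conjTranspose_sub, Matrix.sub_mul, Matrix.mul_sub]
      abel
    have hPint : ∀ c, MInt (fun s => (h c s - h c₀ s)ᴴ * (h c s - h c₀ s)) := fun c => by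
      simp only [hPexp]
      exact ((hcross c c).sub (hcross c c₀)).sub ((hcross c₀ c).sub (hcross c₀ c₀))
    have hGexp : ∀ c, (Gm c - Gm c₀)ᴴ * (Gm c - Gm c₀)
        = mint (fun s => (h c s - h c₀ s)ᴴ * (h c s - h c₀ s)) := fun c => by
      simp only [hPexp]
      rw [mint_sub ((hcross c c).sub (hcross c c₀)) ((hcross c₀ c).sub (hcross c₀ c₀)),
        mint_sub (hcross c c) (hcross c c₀), mint_sub (hcross c₀ c) (hcross c₀ c₀),
        ← hGm, ← hGm, ← hGm, ← hGm]
      simp only [conjTranspose_sub, Matrix.sub_mul, Matrix.mul_sub]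
      abel
    have hsF : MInt (fun s => ∑ c, ((π c : ℝ) : ℂ) • F c s) :=
      MInt.sum _ fun c _ => (hFint c).smul _
    have hsP : MInt (fun s => ∑ c, ((π c : ℝ) : ℂ) • ((h c s - h c₀ s)ᴴ * (h c s - h c₀ s))) :=
      MInt.sum _ fun c _ => (hPint c).smul _
    have hQint : MInt (fun s => (∑ c, ((π c : ℝ) : ℂ) • F c s) - F c₀ s
        - ∑ c, ((π c : ℝ) : ℂ) • ((h c s - h c₀ s)ᴴ * (h c s - h c₀ s))) :=
      (hsF.sub (hFint c₀)).sub hsP
    have hQ : (∑ c, ((π c : ℝ) : ℂ) • xlog (S c)) - xlog (S c₀)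
          - ∑ c, ((π c : ℝ) : ℂ) • ((Gm c - Gm c₀)ᴴ * (Gm c - Gm c₀))
        = mint (fun s => (∑ c, ((π c : ℝ) : ℂ) • F c s) - F c₀ s
        - ∑ c, ((π c : ℝ) : ℂ) • ((h c s - h c₀ s)ᴴ * (h c s - h c₀ s))) := by
      rw [mint_sub (hsF.sub (hFint c₀)) hsP, mint_sub hsF (hFint c₀),
        mint_sum _ (fun c _ => (hFint c).smul _), mint_sum _ (fun c _ => (hPint c).smul _)]
      simp only [mint_smul, hFmint, hGexp]
    rw [hQ]
    refine mint_psd hQint fun s hs => ?_
    refine key_psd S (fun c => B c s) (fun c => h c s) (fun c => F c s) s hs π c₀ hπ0 hπ hS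
      hSavg ?_ ?_ ?_ ?_ ?_
    · intro c
      rw [← hSD c]
      exact (D c).res_left hs
    · intro c
      rw [← hSD c]
      exact (D c).res_right hs
    · intro c
      exact (D c).fm_herm _
    · intro c
      exact (D c).pf_eq hs
    · intro c
      rw [← hSD c]
      exact (D c).lf_eq s

end Crest.Agent.PR
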