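import Crest.Agent.PR.Strat

/-!
# WP PartA: the classical reduction of the parallel repetition bound to the main lemma.

`partA` has the same statement as the stub in `PR/Stubs.lean`.  No sorry.
-/

namespace Crest.Agent.PR

open Crest.MathPhysics.NonlocalGame Finset

section Numeric

private lemma den_bound {t t' s : ℝ} (ht : 0 < t) (ht1 : t < 1) (ht' : 0 < t') (htt : t ≤ 2 * t')
    (hs : 0 ≤ s) : t * (s + Real.log (1 / t') + 1) ≤ 2 * (1 + s) := by
  have h1 : Real.log (1 / t') ≤ 1 / t' - 1 := Real.log_le_sub_one_of_pos (by positivity)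
  have h2 : t * (1 / t') ≤ 2 := by
    rw [mul_one_div, div_le_iff₀ ht']; linarith
  have h3 : t * Real.log (1 / t') ≤ t * (1 / t' - 1) := mul_le_mul_of_nonneg_left h1 ht.le
  nlinarith

/-- the factor estimate -/
private lemma factor_bound {t δ k a : ℝ} (ht : 0 < t) (ht1 : t < 1) (hδ : 0 < δ) (hδt : δ ≤ t)
    (ha0 : 0 ≤ a) (ha : a ≤ δ * k / 16) (hk : 0 ≤ k) :
    (t - δ / 2) * (k - a) ≤ (1 - 3 * δ / (8 * t)) * (t * k - a) := by
  have h0 : (3 * δ / (8 * t)) * (t * k - a) = 3 * δ * k / 8 - (3 * δ / (8 * t)) * a := by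
    field_simp
  have h1 : 0 ≤ (3 * δ / (8 * t)) * a := by positivity
  have h2 : (1 - 3 * δ / (8 * t)) * (t * k - a) ≥ t * k - a - 3 * δ * k / 8 := by
    have : (1 - 3 * δ / (8 * t)) * (t * k - a) = (t * k - a) - (3 * δ / (8 * t)) * (t * k - a) := by
      ring
    rw [this, h0]; linarith
  have h3 : 0 ≤ a * (t - δ / 2) := mul_nonneg ha0 (by linarith)
  have h4 : 0 ≤ δ * k := mul_nonneg hδ.le hk
  nlinarith

/-- descending factorial comparison -/
private lemma desc_bound {t δ : ℝ} {k K : ℕ} (ht : 0 < t) (ht1 : t < 1) (hδ : 0 < δ) (hδt : δ ≤ t)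
    (hK : t * k ≤ K) (m : ℕ) (hm : (m : ℝ) ≤ δ * k / 16) (hmk : m ≤ k) (hmK : m ≤ K) :
    (k.descFactorial m : ℝ) * (t - δ / 2) ^ m ≤ (1 - 3 * δ / (8 * t)) ^ m * (K.descFactorial m : ℝ) := by
  have hr : 0 ≤ 1 - 3 * δ / (8 * t) := by
    have : 3 * δ / (8 * t) ≤ 1 := by
      rw [div_le_one (by positivity)]; linarith
    linarith
  induction m with
  | zero => simp
  | succ i ih =>
    have hi : (i : ℝ) ≤ δ * k / 16 := by
      have : (i : ℝ) ≤ ((i + 1 : ℕ) : ℝ) := by push_cast; linarith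
      linarith
    have ih' := ih hi (by omega) (by omega)
    have hik : i < k := by omega
    have hiK : i < K := by omega
    rw [Nat.descFactorial_succ, Nat.descFactorial_succ]
    push_cast
    rw [Nat.cast_sub hik.le, Nat.cast_sub hiK.le]
    have hfac := factor_bound (a := (i : ℝ)) ht ht1 hδ hδt (Nat.cast_nonneg _) hi (k := (k : ℝ))
      (Nat.cast_nonneg _)
    have hfac2 : (t - δ / 2) * ((k : ℝ) - i) ≤ (1 - 3 * δ / (8 * t)) * ((K : ℝ) - i) :=
      hfac.trans (mul_le_mul_of_nonneg_left (by linarith) hr)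
    have hA : 0 ≤ (k : ℝ) - i := by
      have : (i : ℝ) < k := by exact_mod_cast hik
      linarith
    have hB : 0 ≤ (t - δ / 2) := by linarith
    calc ((k : ℝ) - i) * (k.descFactorial i : ℝ) * (t - δ / 2) ^ (i + 1)
        = ((t - δ / 2) * ((k : ℝ) - i)) * ((k.descFactorial i : ℝ) * (t - δ / 2) ^ i) := by ring
      _ ≤ ((1 - 3 * δ / (8 * t)) * ((K : ℝ) - i)) * ((1 - 3 * δ / (8 * t)) ^ i * (K.descFactorial i : ℝ)) := by
          apply mul_le_mul hfac2 ih' (by positivity) (by
            apply mul_nonneg hr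
            have : (i : ℝ) < K := by exact_mod_cast hiK
            linarith)
      _ = (1 - 3 * δ / (8 * t)) ^ (i + 1) * (((K : ℝ) - i) * (K.descFactorial i : ℝ)) := by ring

set_option maxHeartbeats 1000000 in
/-- The numeric heart of PartA. -/
theorem partA_numeric {k : ℕ} (hk : 1 ≤ k) {s v δ c₁ c₂ ε₀ : ℝ} (hs : 0 ≤ s) (hv0 : 0 ≤ v) (hδ : 0 < δ)
    (hδv : δ < 1 - v) (hc₁ : 0 ≤ c₁) (hc₂ : 0 ≤ c₂) (hε₀ : 0 < ε₀) (hε₀δ : ε₀ ≤ δ / 16)
    (hc : c₁ + c₂ * Real.sqrt ε₀ ≤ δ / 2)
    (g : ℕ → ℝ) (hg0 : g 0 = 1) (hgn : ∀ j, 0 ≤ g j) (hmono : ∀ j, j < k → g (j + 1) ≤ g j)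
    (hR : ∀ j, j < k → 0 < g j → g (j + 1) ≤ g j * (v + c₁ + c₂ * Real.sqrt
      (((j : ℝ) * s + Real.log (1 / g j)) / ((k : ℝ) - j))))
    (p : ℝ) (hp0 : 0 ≤ p)
    (hcount : ∀ m, m ≤ k → p * (((⌈(v + δ) * k⌉₊).choose m : ℕ) : ℝ) ≤ ((k.choose m : ℕ) : ℝ) * g m) :
    p ≤ Real.exp (-(3 / 32 * δ * ε₀ * k / (1 + s))) := by
  have hkpos : (0 : ℝ) < k := by exact_mod_cast hk
  have hk1 : (1 : ℝ) ≤ k := by exact_mod_cast hk
  set t := v + δ with ht_def
  set t' := v + δ / 2 with ht'_def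
  have ht0 : 0 < t := by positivity
  have ht1 : t < 1 := by rw [ht_def]; linarith
  have ht'0 : 0 < t' := by positivity
  have ht'1 : t' < 1 := by rw [ht'_def]; linarith
  have htt : t ≤ 2 * t' := by rw [ht_def, ht'_def]; linarith
  have hδt : δ ≤ t := by rw [ht_def]; linarith
  have htt' : t' = t - δ / 2 := by rw [ht_def, ht'_def]; ring
  set L' := Real.log (1 / t') with hL'
  have hL'0 : 0 ≤ L' := Real.log_nonneg (by rw [le_div_iff₀ ht'0]; linarith)
  set Den := s + L' + 1 with hDen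
  have hDen1 : 1 ≤ Den := by rw [hDen]; linarith
  have hDen0 : 0 < Den := by linarith
  have htDen : t * Den ≤ 2 * (1 + s) := den_bound ht0 ht1 ht'0 htt hs
  set X' := ε₀ * k / Den with hX'
  have hX'0 : 0 ≤ X' := by positivity
  set m := ⌊X'⌋₊ with hm
  have hmX : (m : ℝ) ≤ X' := Nat.floor_le hX'0
  have hXlt : X' < m + 1 := Nat.lt_floor_add_one X'
  have hXle : X' ≤ ε₀ * k := by
    rw [hX']; exact div_le_self (by positivity) hDen1
  have hmδ : (m : ℝ) ≤ δ * k / 16 := by
    have : ε₀ * k ≤ δ / 16 * k := mul_le_mul_of_nonneg_right hε₀δ hkpos.le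
    linarith
  have hδ1 : δ < 1 := by linarith
  have hmk : m ≤ k := by
    have h1 : δ * k ≤ 1 * k := mul_le_mul_of_nonneg_right hδ1.le hkpos.le
    have : (m : ℝ) ≤ k := by linarith
    exact_mod_cast this
  set K := ⌈t * k⌉₊ with hK
  have hKge : t * k ≤ K := Nat.le_ceil _
  have hmKr : (m : ℝ) ≤ K := by
    have h1 : δ * k ≤ t * k := mul_le_mul_of_nonneg_right hδt hkpos.le
    have h2 : 0 ≤ δ * k := by positivity
    linarith
  have hmK : m ≤ K := by exact_mod_cast hmKr
  have hsp : 0 < 1 + s := by linarith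
  have hsqrt0 : 0 ≤ c₂ * Real.sqrt ε₀ := by positivity
  rcases Nat.eq_zero_or_pos m with hm0 | hmpos
  · -- `m = 0`
    have hX1 : X' < 1 := by rw [hm0] at hXlt; simpa using hXlt
    have hg1 : g 1 ≤ t' := by
      have h := hR 0 (by omega) (by rw [hg0]; norm_num)
      rw [hg0] at h
      simp only [Nat.cast_zero, zero_mul, one_div, inv_one, Real.log_one, add_zero, zero_div,
        Real.sqrt_zero, mul_zero, one_mul] at h
      rw [ht'_def]
      have : g (0 + 1) = g 1 := by simp
      rw [this] at h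
      linarith
    have hc1 := hcount 1 (by omega)
    simp only [Nat.choose_one_right] at hc1
    have h1 : p * (t * k) ≤ k * t' := by
      calc p * (t * k) ≤ p * K := mul_le_mul_of_nonneg_left hKge hp0
        _ ≤ k * g 1 := hc1
        _ ≤ k * t' := mul_le_mul_of_nonneg_left hg1 hkpos.le
    have h2 : p * t ≤ t' := by
      have : k * (p * t) ≤ k * t' := by linarith
      exact le_of_mul_le_mul_left this hkpos
    have h3 : p ≤ 1 - δ / (2 * t) := by
      have h4 : 1 - δ / (2 * t) = t' / t := by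
        rw [htt']; field_simp
      rw [h4, le_div_iff₀ ht0]; exact h2
    have h5 : 1 - δ / (2 * t) ≤ Real.exp (-(δ / (2 * t))) := by
      have := Real.add_one_le_exp (-(δ / (2 * t)))
      linarith
    refine h3.trans (h5.trans ?_)
    apply Real.exp_le_exp.mpr
    apply neg_le_neg
    -- `3/32 δ ε₀ k /(1+s) ≤ δ/(2t)`
    have hek : ε₀ * k < Den := by
      rw [hX', div_lt_one hDen0] at hX1; exact hX1
    rw [div_le_div_iff₀ hsp (by positivity)]
    have h6 : δ * (3 / 32 * (ε₀ * k)) * (2 * t) ≤ δ * (3 / 32 * Den) * (2 * t) := by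
      apply mul_le_mul_of_nonneg_right _ (by positivity)
      apply mul_le_mul_of_nonneg_left _ hδ.le
      linarith
    have h7 : δ * (3 / 32 * Den) * (2 * t) = δ * (3 / 16) * (t * Den) := by ring
    have h8 : δ * (3 / 16) * (t * Den) ≤ δ * (3 / 16) * (2 * (1 + s)) :=
      mul_le_mul_of_nonneg_left htDen (by positivity)
    have h9 : δ * (3 / 16) * (2 * (1 + s)) ≤ δ * (1 + s) := by nlinarith
    have h10 : 3 / 32 * δ * ε₀ * k * (2 * t) = δ * (3 / 32 * (ε₀ * k)) * (2 * t) := by ring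
    rw [h10]; linarith
  · -- `m ≥ 1`
    have hclaim : ∀ j, j ≤ m → g j ≤ t' ^ j := by
      intro j
      induction j with
      | zero => intro _; rw [hg0]; simp
      | succ j ih =>
        intro hj
        have hjm : j < m := by omega
        have hjk : j < k := by omega
        have hgj := ih hjm.le
        rcases (hgn j).eq_or_lt with hz | hpos
        · have : g (j + 1) ≤ 0 := by
            have h1 := hmono j hjk
            linarith
          exact this.trans (by positivity)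
        · have hjkr : (0 : ℝ) < (k : ℝ) - j := by
            have : (j : ℝ) < k := by exact_mod_cast hjk
            linarith
          by_cases hcase : ((j : ℝ) * s + Real.log (1 / g j)) / ((k : ℝ) - j) ≤ ε₀
          · have h := hR j hjk hpos
            have hq : c₂ * Real.sqrt (((j : ℝ) * s + Real.log (1 / g j)) / ((k : ℝ) - j))
                ≤ c₂ * Real.sqrt ε₀ :=
              mul_le_mul_of_nonneg_left (Real.sqrt_le_sqrt hcase) hc₂
            have h2 : v + c₁ + c₂ * Real.sqrt (((j : ℝ) * s + Real.log (1 / g j)) / ((k : ℝ) - j)) ≤ t' := by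
              rw [ht'_def]; linarith
            calc g (j + 1) ≤ g j * (v + c₁ + c₂ * Real.sqrt
                  (((j : ℝ) * s + Real.log (1 / g j)) / ((k : ℝ) - j))) := h
              _ ≤ g j * t' := mul_le_mul_of_nonneg_left h2 hpos.le
              _ ≤ t' ^ j * t' := mul_le_mul_of_nonneg_right hgj ht'0.le
              _ = t' ^ (j + 1) := by ring
          · push_neg at hcase
            rw [lt_div_iff₀ hjkr] at hcase
            -- `log (1/g j) > m L'`
            have hjmr : (j : ℝ) ≤ m := by exact_mod_cast hjm.le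
            have hmDen : (m : ℝ) * Den ≤ ε₀ * k := by
              have : (m : ℝ) ≤ ε₀ * k / Den := hmX
              rwa [le_div_iff₀ hDen0] at this
            have hε1 : ε₀ ≤ 1 := by linarith
            have hlog : (m : ℝ) * L' < Real.log (1 / g j) := by
              have h1 : (j : ℝ) * s ≤ m * s := mul_le_mul_of_nonneg_right hjmr hs
              have h2 : ε₀ * ((k : ℝ) - m) ≤ ε₀ * ((k : ℝ) - j) :=
                mul_le_mul_of_nonneg_left (by linarith) hε₀.le
              have h3 : (m : ℝ) * Den = m * s + m * L' + m := by rw [hDen]; ring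
              have h4 : ε₀ * m ≤ 1 * m := mul_le_mul_of_nonneg_right hε1 (Nat.cast_nonneg _)
              linarith
            have hlt : g j < t' ^ m := by
              have h1 : Real.log (t' ^ m) = -((m : ℝ) * L') := by
                rw [Real.log_pow, hL', one_div, Real.log_inv]; ring
              have h2 : Real.log (1 / g j) = - Real.log (g j) := by
                rw [one_div, Real.log_inv]
              have h3 : Real.log (g j) < Real.log (t' ^ m) := by
                rw [h1]; linarith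
              exact (Real.log_lt_log_iff hpos (by positivity)).mp h3
            have hpow : t' ^ m ≤ t' ^ (j + 1) :=
              pow_le_pow_of_le_one ht'0.le ht'1.le hj
            exact (hmono j hjk).trans (hlt.le.trans hpow)
    -- the product estimate
    have hr0 : 0 ≤ 1 - 3 * δ / (8 * t) := by
      have : 3 * δ / (8 * t) ≤ 1 := by
        rw [div_le_one (by positivity)]; linarith
      linarith
    have hdesc := desc_bound (k := k) (K := K) ht0 ht1 hδ hδt hKge m hmδ hmk hmK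
    rw [← htt'] at hdesc
    have hcm := hcount m hmk
    have hchoose : ((K.choose m : ℕ) : ℝ) > 0 := by
      exact_mod_cast Nat.choose_pos hmK
    have hmf : (0 : ℝ) < (m.factorial : ℝ) := by exact_mod_cast Nat.factorial_pos m
    have hdk : (k.descFactorial m : ℝ) = m.factorial * (k.choose m : ℕ) := by
      rw [Nat.descFactorial_eq_factorial_mul_choose]; push_cast; ring
    have hdK : (K.descFactorial m : ℝ) = m.factorial * (K.choose m : ℕ) := by
      rw [Nat.descFactorial_eq_factorial_mul_choose]; push_cast; ring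
    rw [hdk, hdK] at hdesc
    have hc2 : ((k.choose m : ℕ) : ℝ) * t' ^ m ≤ (1 - 3 * δ / (8 * t)) ^ m * ((K.choose m : ℕ) : ℝ) := by
      have : (m.factorial : ℝ) * (((k.choose m : ℕ) : ℝ) * t' ^ m)
          ≤ (m.factorial : ℝ) * ((1 - 3 * δ / (8 * t)) ^ m * ((K.choose m : ℕ) : ℝ)) := by
        calc _ = (m.factorial : ℝ) * ((k.choose m : ℕ) : ℝ) * t' ^ m := by ring
          _ ≤ _ := hdesc
          _ = _ := by ring
      exact le_of_mul_le_mul_left this hmf
    have hc3 : p * ((K.choose m : ℕ) : ℝ) ≤ (1 - 3 * δ / (8 * t)) ^ m * ((K.choose m : ℕ) : ℝ) := by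
      calc p * ((K.choose m : ℕ) : ℝ) ≤ ((k.choose m : ℕ) : ℝ) * g m := hcm
        _ ≤ ((k.choose m : ℕ) : ℝ) * t' ^ m :=
            mul_le_mul_of_nonneg_left (hclaim m le_rfl) (Nat.cast_nonneg _)
        _ ≤ _ := hc2
    have hpr : p ≤ (1 - 3 * δ / (8 * t)) ^ m := le_of_mul_le_mul_right hc3 hchoose
    have hexp1 : 1 - 3 * δ / (8 * t) ≤ Real.exp (-(3 * δ / (8 * t))) := by
      have := Real.add_one_le_exp (-(3 * δ / (8 * t)))
      linarith
    have hexp2 : (1 - 3 * δ / (8 * t)) ^ m ≤ Real.exp (-(3 * δ / (8 * t)) * m) := by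
      calc (1 - 3 * δ / (8 * t)) ^ m ≤ (Real.exp (-(3 * δ / (8 * t)))) ^ m :=
            pow_le_pow_left₀ hr0 hexp1 m
        _ = Real.exp (-(3 * δ / (8 * t)) * m) := by
            rw [← Real.exp_nat_mul]; ring_nf
    refine hpr.trans (hexp2.trans ?_)
    apply Real.exp_le_exp.mpr
    -- `3/32 δ ε₀ k/(1+s) ≤ 3δ m/(8t)`, using `m ≥ X'/2`
    have hm1 : (1 : ℝ) ≤ m := by exact_mod_cast hmpos
    have hX2 : X' ≤ 2 * m := by linarith
    have hX3 : ε₀ * k ≤ 2 * m * Den := by
      have : ε₀ * k / Den ≤ 2 * m := hX2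
      rwa [div_le_iff₀ hDen0] at this
    have key : 3 / 32 * δ * ε₀ * k / (1 + s) ≤ 3 * δ / (8 * t) * m := by
      rw [div_le_iff₀ hsp]
      have e1 : 3 * δ / (8 * t) * m * (1 + s) = (3 * δ * m * (1 + s)) / (8 * t) := by ring
      rw [e1, le_div_iff₀ (by positivity)]
      have a1 : 3 / 32 * δ * ε₀ * k * (8 * t) = (3 / 4 * δ * t) * (ε₀ * k) := by ring
      rw [a1]
      have a2 : (3 / 4 * δ * t) * (ε₀ * k) ≤ (3 / 4 * δ * t) * (2 * m * Den) :=
        mul_le_mul_of_nonneg_left hX3 (by positivity)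
      have a3 : (3 / 4 * δ * t) * (2 * m * Den) = (3 / 2 * δ * m) * (t * Den) := by ring
      have a4 : (3 / 2 * δ * m) * (t * Den) ≤ (3 / 2 * δ * m) * (2 * (1 + s)) :=
        mul_le_mul_of_nonneg_left htDen (by positivity)
      have a5 : (3 / 2 * δ * m) * (2 * (1 + s)) = 3 * δ * m * (1 + s) := by ring
      linarith
    linarith

end Numeric

section Comb

variable {k : ℕ}

/-- double counting of pairs `C ⊂ insert i C`. -/
lemma double_count (f : Finset (Fin k) → ℝ) (j : ℕ) :
    ∑ C ∈ powersetCard j (univ : Finset (Fin k)), ∑ i ∈ Cᶜ, f (insert i C)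
      = ((j : ℝ) + 1) * ∑ D ∈ powersetCard (j + 1) (univ : Finset (Fin k)), f D := by
  rw [Finset.mul_sum, Finset.sum_sigma']
  have h : ∀ D ∈ powersetCard (j + 1) (univ : Finset (Fin k)), ((j : ℝ) + 1) * f D = ∑ _i ∈ D, f D := by
    intro D hD
    rw [sum_const, (mem_powersetCard.mp hD).2]; simp
  rw [sum_congr rfl h, sum_sigma']
  refine Finset.sum_bij' (fun x _ => ⟨insert x.2 x.1, x.2⟩) (fun x _ => ⟨x.1.erase x.2, x.2⟩)
    ?_ ?_ ?_ ?_ ?_
  · rintro ⟨C, i⟩ hx
    simp only [mem_sigma, mem_powersetCard, subset_univ, true_and, mem_compl] at hx ⊢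
    refine ⟨?_, mem_insert_self _ _⟩
    rw [card_insert_of_notMem hx.2, hx.1]
  · rintro ⟨D, i⟩ hx
    simp only [mem_sigma, mem_powersetCard, subset_univ, true_and, mem_compl] at hx ⊢
    refine ⟨?_, notMem_erase _ _⟩
    rw [card_erase_of_mem hx.2, hx.1]; simp
  · rintro ⟨C, i⟩ hx
    simp only [mem_sigma, mem_powersetCard, subset_univ, true_and, mem_compl] at hx
    simp [erase_insert hx.2]
  · rintro ⟨D, i⟩ hx
    simp only [mem_sigma, mem_powersetCard, subset_univ, true_and] at hx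
    simp [insert_erase hx.2]
  · rintro ⟨C, i⟩ _
    rfl

/-- Jensen + log-sum inequality. -/
lemma sum_sqrt_le {β : Type} (A : Finset β) (f : β → ℝ) (hf0 : ∀ C ∈ A, 0 ≤ f C) (hf1 : ∀ C ∈ A, f C ≤ 1)
    {s0 d : ℝ} (hs0 : 0 ≤ s0) (hd : 0 < d) (hS : 0 < ∑ C ∈ A, f C) :
    ∑ C ∈ A, f C * Real.sqrt ((s0 + Real.log (1 / f C)) / d)
      ≤ (∑ C ∈ A, f C) * Real.sqrt ((s0 + Real.log ((A.card : ℝ) / ∑ C ∈ A, f C)) / d) := by
  set S := ∑ C ∈ A, f C with hSdef
  have hne : A.Nonempty := by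
    by_contra hne
    rw [not_nonempty_iff_eq_empty] at hne
    simp [hne, hSdef] at hS
  have hn : (0 : ℝ) < A.card := by exact_mod_cast hne.card_pos
  have hlog : ∑ C ∈ A, f C * Real.log (1 / f C) ≤ S * Real.log ((A.card : ℝ) / S) := by
    have hpt : ∀ C ∈ A, f C * Real.log (1 / f C)
        ≤ f C * Real.log ((A.card : ℝ) / S) + (S / (A.card : ℝ) - f C) := by
      intro C hC
      rcases (hf0 C hC).eq_or_lt with hz | hpos
      · rw [← hz]; simp; positivity
      · have h1 : Real.log (1 / f C) - Real.log ((A.card : ℝ) / S)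
            = Real.log (S / ((A.card : ℝ) * f C)) := by
          rw [← Real.log_div (by positivity) (by positivity)]
          congr 1
          field_simp
        have h2 : Real.log (S / ((A.card : ℝ) * f C)) ≤ S / ((A.card : ℝ) * f C) - 1 :=
          Real.log_le_sub_one_of_pos (by positivity)
        have h3 : f C * (S / ((A.card : ℝ) * f C) - 1) = S / (A.card : ℝ) - f C := by
          field_simp
        have h4 : f C * (Real.log (1 / f C) - Real.log ((A.card : ℝ) / S))
            ≤ f C * (S / ((A.card : ℝ) * f C) - 1) := by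
          rw [h1]; exact mul_le_mul_of_nonneg_left h2 hpos.le
        rw [h3] at h4
        linarith
    calc ∑ C ∈ A, f C * Real.log (1 / f C)
        ≤ ∑ C ∈ A, (f C * Real.log ((A.card : ℝ) / S) + (S / (A.card : ℝ) - f C)) :=
          sum_le_sum hpt
      _ = S * Real.log ((A.card : ℝ) / S) := by
          rw [sum_add_distrib, ← sum_mul, sum_sub_distrib, sum_const, nsmul_eq_mul, ← hSdef]
          field_simp
          ring
  have hp0 : ∀ C ∈ A, (s0 + Real.log (1 / f C)) / d ∈ Set.Ici (0 : ℝ) := by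
    intro C hC
    have : 0 ≤ Real.log (1 / f C) := by
      rcases (hf0 C hC).eq_or_lt with hz | hpos
      · rw [← hz]; simp
      · exact Real.log_nonneg (by rw [le_div_iff₀ hpos]; linarith [hf1 C hC])
    exact div_nonneg (by linarith) hd.le
  have hw0 : ∀ C ∈ A, 0 ≤ f C / S := fun C hC => div_nonneg (hf0 C hC) hS.le
  have hw1 : ∑ C ∈ A, f C / S = 1 := by
    rw [← sum_div, ← hSdef, div_self hS.ne']
  have hJ := Real.strictConcaveOn_sqrt.concaveOn.le_map_sum hw0 hw1 hp0
  simp only [smul_eq_mul] at hJ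
  have hmean : ∑ C ∈ A, f C / S * ((s0 + Real.log (1 / f C)) / d)
      ≤ (s0 + Real.log ((A.card : ℝ) / S)) / d := by
    have e : ∑ C ∈ A, f C / S * ((s0 + Real.log (1 / f C)) / d)
        = (s0 + (∑ C ∈ A, f C * Real.log (1 / f C)) / S) / d := by
      have e1 : ∀ C ∈ A, f C / S * ((s0 + Real.log (1 / f C)) / d)
          = (s0 / d) * (f C / S) + (f C * Real.log (1 / f C)) / (S * d) := by
        intro C _
        field_simp
      rw [sum_congr rfl e1, sum_add_distrib, ← mul_sum, hw1, ← sum_div]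
      field_simp
    rw [e]
    apply div_le_div_of_nonneg_right _ hd.le
    have : (∑ C ∈ A, f C * Real.log (1 / f C)) / S ≤ Real.log ((A.card : ℝ) / S) := by
      rw [div_le_iff₀ hS]; linarith
    linarith
  have hJ2 := hJ.trans (Real.sqrt_le_sqrt hmean)
  have e2 : ∑ C ∈ A, f C * Real.sqrt ((s0 + Real.log (1 / f C)) / d)
      = S * ∑ C ∈ A, f C / S * Real.sqrt ((s0 + Real.log (1 / f C)) / d) := by
    rw [mul_sum]
    apply sum_congr rfl
    intro C _
    field_simp
  rw [e2]
  exact mul_le_mul_of_nonneg_left hJ2 hS.le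

/-- passing from the double count to the normalised sequence -/
private lemma g_step {j : ℕ} (hj : j < k) {S1 Y : ℝ}
    (h : ((j : ℝ) + 1) * S1 ≤ ((k : ℝ) - j) * Y) :
    S1 / ((k.choose (j + 1) : ℕ) : ℝ) ≤ Y / ((k.choose j : ℕ) : ℝ) := by
  have hc0 : (0 : ℝ) < ((k.choose j : ℕ) : ℝ) := by
    exact_mod_cast Nat.choose_pos hj.le
  have hc1 : (0 : ℝ) < ((k.choose (j + 1) : ℕ) : ℝ) := by
    exact_mod_cast Nat.choose_pos (by omega)
  have hrel : ((k.choose (j + 1) : ℕ) : ℝ) * ((j : ℝ) + 1) = ((k.choose j : ℕ) : ℝ) * ((k : ℝ) - j) := by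
    have := Nat.choose_succ_right_eq k j
    have h2 : ((k.choose (j + 1) * (j + 1) : ℕ) : ℝ) = ((k.choose j * (k - j) : ℕ) : ℝ) := by
      rw [this]
    push_cast [Nat.cast_sub hj.le] at h2
    exact h2
  rw [div_le_div_iff₀ hc1 hc0]
  have hj1 : (0 : ℝ) < (j : ℝ) + 1 := by positivity
  have : ((j : ℝ) + 1) * (S1 * ((k.choose j : ℕ) : ℝ)) ≤ ((j : ℝ) + 1) * (Y * ((k.choose (j + 1) : ℕ) : ℝ)) := by
    calc ((j : ℝ) + 1) * (S1 * ((k.choose j : ℕ) : ℝ))
        = (((j : ℝ) + 1) * S1) * ((k.choose j : ℕ) : ℝ) := by ring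
      _ ≤ (((k : ℝ) - j) * Y) * ((k.choose j : ℕ) : ℝ) := mul_le_mul_of_nonneg_right h hc0.le
      _ = Y * (((k.choose j : ℕ) : ℝ) * ((k : ℝ) - j)) := by ring
      _ = Y * (((k.choose (j + 1) : ℕ) : ℝ) * ((j : ℝ) + 1)) := by rw [hrel]
      _ = _ := by ring
  exact le_of_mul_le_mul_left this hj1

/-- The abstract PartA: `f` is a monotone set function. -/
theorem partA_abs (hk : 1 ≤ k) (f : Finset (Fin k) → ℝ) (hf0 : ∀ C, 0 ≤ f C) (hfe : f ∅ = 1)
    (hfm : ∀ C i, f (insert i C) ≤ f C)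
    {s v δ c₁ c₂ ε₀ : ℝ} (hs : 0 ≤ s) (hv0 : 0 ≤ v) (hδ : 0 < δ)
    (hδv : δ < 1 - v) (hc₁ : 0 ≤ c₁) (hc₂ : 0 ≤ c₂) (hε₀ : 0 < ε₀) (hε₀δ : ε₀ ≤ δ / 16)
    (hc : c₁ + c₂ * Real.sqrt ε₀ ≤ δ / 2)
    (hML : ∀ C : Finset (Fin k), C.card < k → 0 < f C →
      ∑ i ∈ Cᶜ, f (insert i C) ≤ ((k : ℝ) - C.card) * f C *
        (v + c₁ + c₂ * Real.sqrt (((C.card : ℝ) * s + Real.log (1 / f C)) / ((k : ℝ) - C.card))))
    (p : ℝ) (hp0 : 0 ≤ p)
    (hcount : ∀ m, m ≤ k → p * (((⌈(v + δ) * k⌉₊).choose m : ℕ) : ℝ)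
      ≤ ∑ C ∈ powersetCard m (univ : Finset (Fin k)), f C) :
    p ≤ Real.exp (-(3 / 32 * δ * ε₀ * k / (1 + s))) := by
  have hf1 : ∀ C, f C ≤ 1 := by
    intro C
    induction C using Finset.induction_on with
    | empty => rw [hfe]
    | insert i C _ ih => exact (hfm C i).trans ih
  set SS : ℕ → ℝ := fun j => ∑ C ∈ powersetCard j (univ : Finset (Fin k)), f C with hSS
  set g : ℕ → ℝ := fun j => SS j / ((k.choose j : ℕ) : ℝ) with hg
  have hSS0 : ∀ j, 0 ≤ SS j := fun j => sum_nonneg fun C _ => hf0 C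
  have hcardc : ∀ j, ∀ C ∈ powersetCard j (univ : Finset (Fin k)), ((Cᶜ).card : ℝ) = (k : ℝ) - j := by
    intro j C hC
    have h1 := (mem_powersetCard.mp hC).2
    have h2 : C.card ≤ k := by
      simpa using card_le_univ C
    rw [card_compl, Fintype.card_fin, h1]
    rw [h1] at h2
    push_cast [Nat.cast_sub h2]
    ring
  apply partA_numeric hk hs hv0 hδ hδv hc₁ hc₂ hε₀ hε₀δ hc g ?_ ?_ ?_ ?_ p hp0 ?_
  · -- `g 0 = 1`
    simp [hg, hSS, powersetCard_zero, hfe]
  · intro j
    exact div_nonneg (hSS0 j) (Nat.cast_nonneg _)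
  · -- monotone
    intro j hj
    apply g_step hj
    have h := double_count f j
    rw [← h, mul_sum]
    apply sum_le_sum
    intro C hC
    calc ∑ i ∈ Cᶜ, f (insert i C) ≤ ∑ _i ∈ Cᶜ, f C := sum_le_sum fun i _ => hfm C i
      _ = ((k : ℝ) - j) * f C := by
        rw [sum_const, nsmul_eq_mul, hcardc j C hC]
  · -- the recursion
    intro j hj hgpos
    have hn0 : (0 : ℝ) < ((k.choose j : ℕ) : ℝ) := by exact_mod_cast Nat.choose_pos hj.le
    have hSpos : 0 < SS j := by
      have : 0 < SS j / ((k.choose j : ℕ) : ℝ) := hgpos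
      rwa [div_pos_iff_of_pos_right hn0] at this
    have hd : (0 : ℝ) < (k : ℝ) - j := by
      have : (j : ℝ) < k := by exact_mod_cast hj
      linarith
    set Q : ℝ := Real.sqrt (((j : ℝ) * s + Real.log (1 / g j)) / ((k : ℝ) - j)) with hQ
    have hcard : (((powersetCard j (univ : Finset (Fin k))).card : ℕ) : ℝ) = ((k.choose j : ℕ) : ℝ) := by
      rw [card_powersetCard]; simp
    have hinv : (((powersetCard j (univ : Finset (Fin k))).card : ℕ) : ℝ) / SS j = 1 / g j := by
      rw [hcard, hg]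
      simp only
      field_simp
    have hJ := sum_sqrt_le (powersetCard j (univ : Finset (Fin k))) f (fun C _ => hf0 C) (fun C _ => hf1 C)
      (s0 := (j : ℝ) * s) (d := (k : ℝ) - j) (by positivity) hd hSpos
    change _ ≤ SS j * _ at hJ
    have hJ' : ∑ C ∈ powersetCard j (univ : Finset (Fin k)),
        f C * Real.sqrt (((j : ℝ) * s + Real.log (1 / f C)) / ((k : ℝ) - j)) ≤ SS j * Q := by
      refine hJ.trans (le_of_eq ?_)
      rw [hQ, ← hinv]
    have hpt : ∀ C ∈ powersetCard j (univ : Finset (Fin k)), ∑ i ∈ Cᶜ, f (insert i C)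
        ≤ ((k : ℝ) - j) * ((v + c₁) * f C + c₂ *
            (f C * Real.sqrt (((j : ℝ) * s + Real.log (1 / f C)) / ((k : ℝ) - j)))) := by
      intro C hC
      have hCc := (mem_powersetCard.mp hC).2
      rcases (hf0 C).eq_or_lt with hz | hpos
      · have : ∑ i ∈ Cᶜ, f (insert i C) ≤ 0 := by
          apply sum_nonpos
          intro i _
          have := hfm C i
          linarith
        rw [← hz]
        simpa using this
      · have := hML C (by omega) hpos
        rw [hCc] at this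
        refine this.trans (le_of_eq ?_)
        ring
    have hsum : ((j : ℝ) + 1) * SS (j + 1) ≤ ((k : ℝ) - j) * (SS j * (v + c₁ + c₂ * Q)) := by
      have h := double_count f j
      change _ = ((j : ℝ) + 1) * SS (j + 1) at h
      rw [← h]
      calc ∑ C ∈ powersetCard j (univ : Finset (Fin k)), ∑ i ∈ Cᶜ, f (insert i C)
          ≤ ∑ C ∈ powersetCard j (univ : Finset (Fin k)), ((k : ℝ) - j) * ((v + c₁) * f C + c₂ *
            (f C * Real.sqrt (((j : ℝ) * s + Real.log (1 / f C)) / ((k : ℝ) - j)))) := sum_le_sum hpt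
        _ = ((k : ℝ) - j) * ((v + c₁) * SS j + c₂ * ∑ C ∈ powersetCard j (univ : Finset (Fin k)),
            f C * Real.sqrt (((j : ℝ) * s + Real.log (1 / f C)) / ((k : ℝ) - j))) := by
            rw [← mul_sum, sum_add_distrib, ← mul_sum, ← mul_sum]
        _ ≤ ((k : ℝ) - j) * ((v + c₁) * SS j + c₂ * (SS j * Q)) := by
            apply mul_le_mul_of_nonneg_left _ hd.le
            have := mul_le_mul_of_nonneg_left hJ' hc₂
            linarith
        _ = _ := by ring
    have hstep := g_step hj hsum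
    refine hstep.trans (le_of_eq ?_)
    simp only [hg]
    ring
  · -- counting
    intro m hm
    have hn0 : (0 : ℝ) < ((k.choose m : ℕ) : ℝ) := by exact_mod_cast Nat.choose_pos hm
    refine (hcount m hm).trans (le_of_eq ?_)
    simp only [hg]
    field_simp
    rfl

end Comb

section Final

variable {G : Game} {k dA dB : ℕ} (S : Strategy G k dA dB)

private lemma answerProb_nonneg (x y a b) : 0 ≤ S.answerProb x y a b :=
  ev_nonneg S.ψ (S.M_posSemidef x a) (S.N_posSemidef y b)

private lemma sum_answerProb (x y) : ∑ a, ∑ b, S.answerProb x y a b = 1 := by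
  have h : ∀ a b, S.answerProb x y a b = ev S.ψ (S.M x a) (S.N y b) := fun _ _ => rfl
  simp only [h]
  have h2 : ∀ a, ∑ b, ev S.ψ (S.M x a) (S.N y b) = ev S.ψ (S.M x a) (∑ b, S.N y b) := fun a =>
    (ev_sum_right _ _ _ _).symm
  simp only [h2]
  rw [← ev_sum_left, S.M_sum, S.N_sum, ev_one_one]
  exact S.ψ_norm

private lemma prod_prob_sum (G : Game) (k : ℕ) :
    ∑ x : Fin k → Fin G.nX, ∑ y : Fin k → Fin G.nY, ∏ i, G.prob (x i) (y i) = 1 := by
  have h1 : ∑ z : Fin k → Fin G.nX × Fin G.nY, ∏ i, G.prob (z i).1 (z i).2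
      = ∏ _i : Fin k, ∑ e : Fin G.nX × Fin G.nY, G.prob e.1 e.2 := by
    have := (Finset.prod_univ_sum (fun _ : Fin k => (Finset.univ : Finset (Fin G.nX × Fin G.nY)))
      (fun _ e => G.prob e.1 e.2)).symm
    simpa [Fintype.piFinset_univ] using this
  have h2 : ∑ e : Fin G.nX × Fin G.nY, G.prob e.1 e.2 = 1 := by
    rw [Fintype.sum_prod_type]; exact G.prob_sum
  rw [h2] at h1
  simp only [prod_const_one] at h1
  rw [← h1, ← Fintype.sum_prod_type']
  exact (Equiv.sum_comp (Equiv.arrowProdEquivProdArrow _ _ _)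
    (fun p : (Fin k → Fin G.nX) × (Fin k → Fin G.nY) => ∏ i, G.prob (p.1 i) (p.2 i))).symm

private lemma prod_prob_nonneg (x : Fin k → Fin G.nX) (y : Fin k → Fin G.nY) :
    0 ≤ ∏ i, G.prob (x i) (y i) := prod_nonneg fun i _ => G.prob_nonneg _ _

private lemma winSub_nonneg (C : Finset (Fin k)) : 0 ≤ winSub S C := by
  apply sum_nonneg; intro x _
  apply sum_nonneg; intro y _
  apply mul_nonneg (prod_prob_nonneg x y)
  apply sum_nonneg; intro a _
  apply sum_nonneg; intro b _
  split_ifs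
  · exact answerProb_nonneg S x y a b
  · exact le_rfl

private lemma winSub_empty : winSub S ∅ = 1 := by
  unfold winSub
  simp only [notMem_empty, IsEmpty.forall_iff, implies_true, if_true, sum_answerProb, mul_one]
  exact prod_prob_sum G k

private lemma winSub_insert (C : Finset (Fin k)) (i : Fin k) : winSub S (insert i C) ≤ winSub S C := by
  apply sum_le_sum; intro x _
  apply sum_le_sum; intro y _
  apply mul_le_mul_of_nonneg_left _ (prod_prob_nonneg x y)
  apply sum_le_sum; intro a _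
  apply sum_le_sum; intro b _
  by_cases h : ∀ j ∈ insert i C, G.accept (x j) (y j) (a j) (b j) = true
  · have h2 : ∀ j ∈ C, G.accept (x j) (y j) (a j) (b j) = true :=
      fun j hj => h j (mem_insert_of_mem hj)
    rw [if_pos h, if_pos h2]
  · rw [if_neg h]
    split_ifs
    · exact answerProb_nonneg S x y a b
    · exact le_rfl

private lemma probWins_nonneg (t : ℝ) : 0 ≤ S.probWinsAtLeast t := by
  apply sum_nonneg; intro x _
  apply sum_nonneg; intro y _
  apply mul_nonneg (prod_prob_nonneg x y)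
  apply sum_nonneg; intro a _
  apply sum_nonneg; intro b _
  split_ifs
  · exact answerProb_nonneg S x y a b
  · exact le_rfl

private lemma count_pointwise {t : ℝ} (m : ℕ) (x y a b) :
    (if t ≤ (wins G k x y a b : ℝ) then S.answerProb x y a b else 0) * ((⌈t⌉₊.choose m : ℕ) : ℝ)
      ≤ ∑ C ∈ powersetCard m (univ : Finset (Fin k)),
        if ∀ i ∈ C, G.accept (x i) (y i) (a i) (b i) = true then S.answerProb x y a b else 0 := by
  have hA := answerProb_nonneg S x y a b
  set W := (univ : Finset (Fin k)).filter fun i => G.accept (x i) (y i) (a i) (b i) = true with hW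
  have hsum : ∑ C ∈ powersetCard m (univ : Finset (Fin k)),
        (if ∀ i ∈ C, G.accept (x i) (y i) (a i) (b i) = true then S.answerProb x y a b else 0)
      = S.answerProb x y a b * ((W.card.choose m : ℕ) : ℝ) := by
    rw [← sum_filter, sum_const, nsmul_eq_mul, mul_comm]
    congr 2
    rw [← card_powersetCard]
    congr 1
    ext C
    simp only [mem_filter, mem_powersetCard, subset_univ, true_and, hW, subset_iff, mem_univ]
    tauto
  rw [hsum]
  by_cases ht : t ≤ (wins G k x y a b : ℝ)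
  · rw [if_pos ht, mul_comm]
    have hc : ⌈t⌉₊ ≤ W.card := Nat.ceil_le.mpr ht
    rw [mul_comm]
    apply mul_le_mul_of_nonneg_left _ hA
    exact_mod_cast Nat.choose_le_choose m hc
  · rw [if_neg ht, zero_mul]
    positivity

private lemma count_total {t : ℝ} (m : ℕ) :
    S.probWinsAtLeast t * ((⌈t⌉₊.choose m : ℕ) : ℝ)
      ≤ ∑ C ∈ powersetCard m (univ : Finset (Fin k)), winSub S C := by
  have hswap : ∑ C ∈ powersetCard m (univ : Finset (Fin k)), winSub S C
      = ∑ x : Fin k → Fin G.nX, ∑ y : Fin k → Fin G.nY, (∏ i, G.prob (x i) (y i)) *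
        ∑ a : Fin k → Fin G.nA, ∑ b : Fin k → Fin G.nB, ∑ C ∈ powersetCard m (univ : Finset (Fin k)),
          if ∀ i ∈ C, G.accept (x i) (y i) (a i) (b i) = true then S.answerProb x y a b else 0 := by
    unfold winSub
    rw [sum_comm]; apply sum_congr rfl; intro x _
    rw [sum_comm]; apply sum_congr rfl; intro y _
    rw [← mul_sum]; congr 1
    rw [sum_comm]; apply sum_congr rfl; intro a _
    rw [sum_comm]
  rw [hswap]
  unfold Strategy.probWinsAtLeast
  rw [sum_mul]; apply sum_le_sum; intro x _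
  rw [sum_mul]; apply sum_le_sum; intro y _
  rw [mul_assoc]
  apply mul_le_mul_of_nonneg_left _ (prod_prob_nonneg x y)
  rw [sum_mul]; apply sum_le_sum; intro a _
  rw [sum_mul]; apply sum_le_sum; intro b _
  exact count_pointwise S m x y a b

/-- The classical reduction. -/
theorem partA {G : Game} {k dA dB : ℕ} (S : Strategy G k dA dB) (hk : 1 ≤ k)
    (hnA : 0 < G.nA) (hnB : 0 < G.nB)
    (v δ c₁ c₂ ε₀ : ℝ) (hv0 : 0 ≤ v) (hδ : 0 < δ) (hδv : δ < 1 - v)
    (hc₁ : 0 ≤ c₁) (hc₂ : 0 ≤ c₂) (hε₀ : 0 < ε₀) (hε₀δ : ε₀ ≤ δ / 16)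
    (hc : c₁ + c₂ * Real.sqrt ε₀ ≤ δ / 2)
    (hML : ∀ C : Finset (Fin k), C.card < k → 0 < winSub S C →
      ∑ i ∈ Cᶜ, winSub S (insert i C) ≤ ((k : ℝ) - C.card) * winSub S C *
        (v + c₁ + c₂ * Real.sqrt (((C.card : ℝ) * Real.log ((G.nA * G.nB : ℕ) : ℝ)
          + Real.log (1 / winSub S C)) / ((k : ℝ) - C.card)))) :
    S.probWinsAtLeast ((v + δ) * k) ≤
      Real.exp (-(3 / 32 * δ * ε₀ * k / (1 + Real.log ((G.nA * G.nB : ℕ) : ℝ)))) := by
  have hs : 0 ≤ Real.log ((G.nA * G.nB : ℕ) : ℝ) := by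
    apply Real.log_nonneg
    have : 1 ≤ G.nA * G.nB := Nat.mul_pos hnA hnB
    exact_mod_cast this
  exact partA_abs hk (winSub S) (winSub_nonneg S) (winSub_empty S) (winSub_insert S) hs hv0 hδ hδv
    hc₁ hc₂ hε₀ hε₀δ hc hML _ (probWins_nonneg S _) (fun m _ => count_total S m)

end Final

end Crest.Agent.PR
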