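import Crest.Agent.PR.Strat

/-!
# WP Paths (S0537): rounding along paths of the support graph.
-/

namespace Crest.Agent.PR

open Crest.MathPhysics.NonlocalGame Matrix
open scoped Kronecker ComplexOrder

namespace PathsAux

section Vec
variable {ι : Type} [Fintype ι]

lemma nsq_nn (v : ι → ℂ) : 0 ≤ nsq v := Finset.sum_nonneg (fun _ _ => by positivity)

lemma nrm_nn (v : ι → ℂ) : 0 ≤ nrm v := Real.sqrt_nonneg _

lemma nrm_sq' (v : ι → ℂ) : nrm v ^ 2 = nsq v := Real.sq_sqrt (nsq_nn v)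

lemma nrm_eq_norm (v : ι → ℂ) : nrm v = ‖(WithLp.toLp 2 v : EuclideanSpace ℂ ι)‖ := by
  rw [EuclideanSpace.norm_eq]; simp [nrm, nsq]

lemma nrm_add_le' (v w : ι → ℂ) : nrm (v + w) ≤ nrm v + nrm w := by
  simp only [nrm_eq_norm]
  have : (WithLp.toLp 2 (v + w) : EuclideanSpace ℂ ι) = WithLp.toLp 2 v + WithLp.toLp 2 w := rfl
  rw [this]; exact norm_add_le _ _

lemma nrm_tri (u v w : ι → ℂ) : nrm (u - w) ≤ nrm (u - v) + nrm (v - w) := by
  have : u - w = (u - v) + (v - w) := by abel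
  rw [this]; exact nrm_add_le' _ _

lemma nsq_neg' (v : ι → ℂ) : nsq (-v) = nsq v := by simp [nsq]

lemma nrm_sub_comm' (v w : ι → ℂ) : nrm (v - w) = nrm (w - v) := by
  have : v - w = -(w - v) := by abel
  simp only [nrm]; rw [this, nsq_neg']

lemma nsq_zero' : nsq (0 : ι → ℂ) = 0 := by simp [nsq]

lemma nsq_eq_zero {v : ι → ℂ} (h : nsq v = 0) : v = 0 := by
  have := (Finset.sum_eq_zero_iff_of_nonneg (fun i _ => by positivity)).1 h
  funext i
  have h2 := this i (Finset.mem_univ i)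
  simpa using h2

lemma nsq_smul' (c : ℂ) (v : ι → ℂ) : nsq (c • v) = ‖c‖ ^ 2 * nsq v := by
  simp [nsq, Finset.mul_sum, mul_pow]

lemma nsq_single [DecidableEq ι] (i : ι) : nsq (Pi.single i (1 : ℂ) : ι → ℂ) = 1 := by
  unfold nsq
  rw [Finset.sum_eq_single i]
  · simp
  · intro b _ hb; simp [Pi.single_apply, hb]
  · simp

/-- every vector is within `|‖v‖-1|` of a unit vector -/
lemma exists_unit [Nonempty ι] [DecidableEq ι] (v : ι → ℂ) :
    ∃ u : ι → ℂ, nsq u = 1 ∧ nrm (v - u) = |nrm v - 1| := by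
  by_cases h : nsq v = 0
  · obtain ⟨i⟩ := ‹Nonempty ι›
    refine ⟨Pi.single i 1, ?_, ?_⟩
    · exact nsq_single i
    · have hv := nsq_eq_zero h
      subst hv
      simp [nrm, nsq_zero', nsq_neg', nsq_single]
  · have hm : 0 < nrm v := Real.sqrt_pos.2 (lt_of_le_of_ne (nsq_nn v) (Ne.symm h))
    have hm2 : nrm v ^ 2 = nsq v := nrm_sq' v
    refine ⟨((nrm v : ℂ)⁻¹) • v, ?_, ?_⟩
    · rw [nsq_smul', ← hm2]
      simp only [norm_inv, Complex.norm_real, Real.norm_eq_abs, abs_of_pos hm]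
      field_simp
    · have : v - ((nrm v : ℂ)⁻¹) • v = ((1 - (nrm v : ℂ)⁻¹)) • v := by
        rw [sub_smul, one_smul]
      rw [this]
      have hn : nrm (((1 - (nrm v : ℂ)⁻¹)) • v) = ‖(1 - (nrm v : ℂ)⁻¹)‖ * nrm v := by
        simp only [nrm]
        rw [nsq_smul', Real.sqrt_mul (by positivity), Real.sqrt_sq (norm_nonneg _)]
      rw [hn]
      have hc : (1 - (nrm v : ℂ)⁻¹) = ((1 - (nrm v)⁻¹ : ℝ) : ℂ) := by push_cast; ring
      rw [hc, Complex.norm_real, Real.norm_eq_abs]
      have : nrm v - 1 = (1 - (nrm v)⁻¹) * nrm v := by field_simp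
      rw [this, abs_mul, abs_of_pos hm]

end Vec

section Chain
variable {ι : Type} [Fintype ι] {V : Type} [Fintype V] [DecidableEq V]

/-- A path in a graph with edge weights controlled by vertex weights. -/
lemma chain_bound (H : SimpleGraph V) (P : V → ι → ℂ) (s : V → ℝ) (hs : ∀ f, 0 ≤ s f)
    (hadj : ∀ f f', H.Adj f f' → nrm (P f - P f') ^ 2 ≤ 2 * (s f + s f'))
    (c : Finset V) {e0 e : V} (hc : ∀ f, H.Reachable e0 f → f ∈ c) (hr : H.Reachable e0 e) :
    nrm (P e - P e0) ^ 2 ≤ 4 * ((c.card : ℝ) - 1) * ∑ f ∈ c, s f := by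
  classical
  obtain ⟨p, hp⟩ := hr.exists_isPath
  set l := p.length with hl
  set F : ℕ → V := p.getVert with hF
  have hF0 : F 0 = e0 := p.getVert_zero
  have hFl : F l = e := p.getVert_length
  have hAdj : ∀ j, j < l → H.Adj (F j) (F (j + 1)) := fun j hj => p.adj_getVert_succ hj
  have hinj : Set.InjOn F {i | i ≤ l} := hp.getVert_injOn
  have hreach : ∀ j, j ≤ l → H.Reachable e0 (F j) := by
    intro j hj
    induction j with
    | zero => rw [hF0]
    | succ j ih => exact (ih (by omega)).trans (hAdj j (by omega)).reachable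
  -- telescoping
  have htel : ∀ j, j ≤ l → nrm (P (F j) - P (F 0)) ≤
      ∑ i ∈ Finset.range j, nrm (P (F (i + 1)) - P (F i)) := by
    intro j hj
    induction j with
    | zero => simp [nrm, nsq]
    | succ j ih =>
      rw [Finset.sum_range_succ]
      have h1 := ih (by omega)
      have h2 := nrm_tri (P (F (j + 1))) (P (F j)) (P (F 0))
      linarith
  have himg : (Finset.range (l + 1)).image F ⊆ c := by
    intro v hv
    obtain ⟨j, hj, rfl⟩ := Finset.mem_image.1 hv
    exact hc _ (hreach j (by simpa [Nat.lt_succ_iff] using hj))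
  have hcard : ((Finset.range (l + 1)).image F).card = l + 1 := by
    rw [Finset.card_image_of_injOn, Finset.card_range]
    intro i hi j hj hij
    exact hinj (by simpa [Nat.lt_succ_iff] using hi) (by simpa [Nat.lt_succ_iff] using hj) hij
  have hlc : (l : ℝ) ≤ (c.card : ℝ) - 1 := by
    have := Finset.card_le_card himg
    rw [hcard] at this
    have h2 : ((l + 1 : ℕ) : ℝ) ≤ (c.card : ℝ) := by exact_mod_cast this
    push_cast at h2; linarith
  have hsum : ∑ j ∈ Finset.range (l + 1), s (F j) ≤ ∑ f ∈ c, s f := by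
    calc ∑ j ∈ Finset.range (l + 1), s (F j) = ∑ f ∈ (Finset.range (l + 1)).image F, s f := by
          rw [Finset.sum_image]
          intro i hi j hj hij
          exact hinj (by simpa [Nat.lt_succ_iff] using hi) (by simpa [Nat.lt_succ_iff] using hj) hij
      _ ≤ ∑ f ∈ c, s f := Finset.sum_le_sum_of_subset_of_nonneg himg (fun _ _ _ => hs _)
  have hsq : (∑ i ∈ Finset.range l, nrm (P (F (i + 1)) - P (F i))) ^ 2 ≤
      (l : ℝ) * ∑ i ∈ Finset.range l, nrm (P (F (i + 1)) - P (F i)) ^ 2 := by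
    have := sq_sum_le_card_mul_sum_sq (s := Finset.range l)
      (f := fun i => nrm (P (F (i + 1)) - P (F i)))
    simpa using this
  have hedge : ∑ i ∈ Finset.range l, nrm (P (F (i + 1)) - P (F i)) ^ 2 ≤
      4 * ∑ j ∈ Finset.range (l + 1), s (F j) := by
    have h1 : ∑ i ∈ Finset.range l, nrm (P (F (i + 1)) - P (F i)) ^ 2 ≤
        ∑ i ∈ Finset.range l, 2 * (s (F i) + s (F (i + 1))) := by
      apply Finset.sum_le_sum
      intro i hi
      have hi' := Finset.mem_range.1 hi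
      rw [nrm_sub_comm']
      exact hadj _ _ (hAdj i hi')
    have h2 : ∑ i ∈ Finset.range l, 2 * (s (F i) + s (F (i + 1))) =
        2 * ∑ i ∈ Finset.range l, s (F i) + 2 * ∑ i ∈ Finset.range l, s (F (i + 1)) := by
      rw [← Finset.mul_sum, Finset.sum_add_distrib]; ring
    have h3 : ∑ i ∈ Finset.range l, s (F i) ≤ ∑ j ∈ Finset.range (l + 1), s (F j) := by
      rw [Finset.sum_range_succ]; linarith [hs (F l)]
    have h4 : ∑ i ∈ Finset.range l, s (F (i + 1)) ≤ ∑ j ∈ Finset.range (l + 1), s (F j) := by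
      rw [Finset.sum_range_succ']; linarith [hs (F 0)]
    linarith
  have hn0 : 0 ≤ nrm (P (F l) - P (F 0)) := nrm_nn _
  have hT := htel l le_rfl
  have hmain : nrm (P (F l) - P (F 0)) ^ 2 ≤
      (∑ i ∈ Finset.range l, nrm (P (F (i + 1)) - P (F i))) ^ 2 :=
    pow_le_pow_left₀ hn0 hT 2
  rw [hFl, hF0] at hmain
  have hss : 0 ≤ ∑ f ∈ c, s f := Finset.sum_nonneg (fun _ _ => hs _)
  have hl0 : (0 : ℝ) ≤ l := Nat.cast_nonneg _
  calc nrm (P e - P e0) ^ 2 ≤ (l : ℝ) * ∑ i ∈ Finset.range l, nrm (P (F (i + 1)) - P (F i)) ^ 2 :=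
        hmain.trans hsq
    _ ≤ (l : ℝ) * (4 * ∑ f ∈ c, s f) := by
        apply mul_le_mul_of_nonneg_left _ hl0
        linarith
    _ ≤ ((c.card : ℝ) - 1) * (4 * ∑ f ∈ c, s f) :=
        mul_le_mul_of_nonneg_right hlc (by positivity)
    _ = _ := by ring

end Chain

section Cauchy
variable {E : Type} [Fintype E]

lemma weighted_cs (μ t r : E → ℝ) (hμ : ∀ e, 0 ≤ μ e) (hr : ∑ e, μ e * r e ^ 2 ≤ 4) :
    ∑ e, μ e * (t e * r e) ≤ 2 * Real.sqrt (∑ e, μ e * t e ^ 2) := by
  have h := Finset.sum_mul_sq_le_sq_mul_sq Finset.univ (fun e => Real.sqrt (μ e) * t e)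
    (fun e => Real.sqrt (μ e) * r e)
  have h1 : ∀ e, (Real.sqrt (μ e) * t e) * (Real.sqrt (μ e) * r e) = μ e * (t e * r e) := by
    intro e
    have := Real.mul_self_sqrt (hμ e)
    calc _ = (Real.sqrt (μ e) * Real.sqrt (μ e)) * (t e * r e) := by ring
      _ = _ := by rw [this]
  have h2 : ∀ (e : E) (w : E → ℝ), (Real.sqrt (μ e) * w e) ^ 2 = μ e * w e ^ 2 := by
    intro e w
    rw [mul_pow, Real.sq_sqrt (hμ e)]
  simp only [h1, h2] at h
  have hA : 0 ≤ ∑ e, μ e * t e ^ 2 := Finset.sum_nonneg (fun e _ => mul_nonneg (hμ e) (sq_nonneg _))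
  have h3 : (∑ e, μ e * (t e * r e)) ^ 2 ≤ (∑ e, μ e * t e ^ 2) * 4 :=
    h.trans (mul_le_mul_of_nonneg_left hr hA)
  have h4 : ∑ e, μ e * (t e * r e) ≤ Real.sqrt ((∑ e, μ e * t e ^ 2) * 4) := Real.le_sqrt_of_sq_le h3
  have h5 : Real.sqrt ((∑ e, μ e * t e ^ 2) * 4) = 2 * Real.sqrt (∑ e, μ e * t e ^ 2) := by
    rw [Real.sqrt_mul hA]
    have : Real.sqrt 4 = 2 := by
      rw [show (4 : ℝ) = 2 ^ 2 by norm_num, Real.sqrt_sq (by norm_num)]
    rw [this]; ring
  rw [h5] at h4
  exact h4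

end Cauchy

section Graph
variable (G : Game)

lemma mem_comp_iff (z w : Fin G.nX × Fin G.nY) :
    w ∈ G.supportComponent z ↔ G.supportGraph.Reachable z w := by
  simp [Game.supportComponent]

lemma mem_comp_self (z : Fin G.nX × Fin G.nY) : z ∈ G.supportComponent z :=
  (mem_comp_iff G z z).2 (SimpleGraph.Reachable.refl _)

lemma comp_eq_of_mem {z w : Fin G.nX × Fin G.nY} (h : w ∈ G.supportComponent z) :
    G.supportComponent w = G.supportComponent z := by
  have hr := (mem_comp_iff G z w).1 h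
  ext u
  rw [mem_comp_iff, mem_comp_iff]
  exact ⟨fun h' => hr.trans h', fun h' => hr.symm.trans h'⟩

lemma pos_of_reachable {z w : Fin G.nX × Fin G.nY} (h0 : 0 < G.prob z.1 z.2)
    (h : G.supportGraph.Reachable z w) : 0 < G.prob w.1 w.2 := by
  obtain ⟨p⟩ := h
  induction p with
  | nil => exact h0
  | cons hadj _ ih => exact ih hadj.2.2.1

/-- label of a first question -/
noncomputable def lx (x : Fin G.nX) : Finset (Fin G.nX × Fin G.nY) :=
  open Classical in if h : ∃ y, 0 < G.prob x y then G.supportComponent (x, h.choose) else ∅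

/-- label of a second question -/
noncomputable def ly (y : Fin G.nY) : Finset (Fin G.nX × Fin G.nY) :=
  open Classical in if h : ∃ x, 0 < G.prob x y then G.supportComponent (h.choose, y) else ∅

lemma lx_eq {x : Fin G.nX} {y : Fin G.nY} (h : 0 < G.prob x y) :
    lx G x = G.supportComponent (x, y) := by
  have hex : ∃ y, 0 < G.prob x y := ⟨y, h⟩
  unfold lx
  rw [dif_pos hex]
  have hy' := hex.choose_spec
  by_cases hyy : hex.choose = y
  · rw [hyy]
  · have hadj : G.supportGraph.Adj (x, y) (x, hex.choose) :=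
      ⟨fun e => hyy (by simpa using e.symm), h, hy', Or.inl rfl⟩
    exact comp_eq_of_mem G ((mem_comp_iff G _ _).2 hadj.reachable)

lemma ly_eq {x : Fin G.nX} {y : Fin G.nY} (h : 0 < G.prob x y) :
    ly G y = G.supportComponent (x, y) := by
  have hex : ∃ x, 0 < G.prob x y := ⟨x, h⟩
  unfold ly
  rw [dif_pos hex]
  have hy' := hex.choose_spec
  by_cases hyy : hex.choose = x
  · rw [hyy]
  · have hadj : G.supportGraph.Adj (x, y) (hex.choose, y) :=
      ⟨fun e => hyy (by simpa using e.symm), h, hy', Or.inr rfl⟩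
    exact comp_eq_of_mem G ((mem_comp_iff G _ _).2 hadj.reachable)

/-- the double counting over components -/
lemma component_sum (κ : ℝ) (s : Fin G.nX × Fin G.nY → ℝ) (hs : ∀ e, 0 ≤ s e)
    (hκ : ∀ z : Fin G.nX × Fin G.nY, 0 < G.prob z.1 z.2 → ∀ w ∈ G.supportComponent z,
      8 * ((G.supportComponent z).card - 1 : ℝ) * (∑ u ∈ G.supportComponent z, G.prob u.1 u.2)
        ≤ κ * G.prob w.1 w.2) :
    ∑ e : Fin G.nX × Fin G.nY, G.prob e.1 e.2 *
        (8 * (((G.supportComponent e).card : ℝ) - 1) * ∑ f ∈ G.supportComponent e, s f)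
      ≤ κ * ∑ e : Fin G.nX × Fin G.nY, G.prob e.1 e.2 * s e := by
  classical
  set Ep := Finset.univ.filter (fun e : Fin G.nX × Fin G.nY => 0 < G.prob e.1 e.2) with hEp
  have hzero : ∀ e : Fin G.nX × Fin G.nY, e ∉ Ep → G.prob e.1 e.2 = 0 := by
    intro e he
    have h1 : ¬ 0 < G.prob e.1 e.2 := by simpa [hEp] using he
    exact le_antisymm (not_lt.1 h1) (G.prob_nonneg _ _)
  have h1 : ∑ e : Fin G.nX × Fin G.nY, G.prob e.1 e.2 *
        (8 * (((G.supportComponent e).card : ℝ) - 1) * ∑ f ∈ G.supportComponent e, s f)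
      = ∑ e ∈ Ep, ∑ f ∈ G.supportComponent e,
          G.prob e.1 e.2 * (8 * (((G.supportComponent e).card : ℝ) - 1) * s f) := by
    rw [← Finset.sum_subset (Finset.subset_univ Ep)
      (fun e _ he => by rw [hzero e he, zero_mul])]
    apply Finset.sum_congr rfl
    intro e _
    rw [Finset.mul_sum, Finset.mul_sum]
  have h2 : ∑ e ∈ Ep, ∑ f ∈ G.supportComponent e,
          G.prob e.1 e.2 * (8 * (((G.supportComponent e).card : ℝ) - 1) * s f)
      = ∑ f ∈ Ep, ∑ e ∈ G.supportComponent f,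
          G.prob e.1 e.2 * (8 * (((G.supportComponent e).card : ℝ) - 1) * s f) := by
    apply Finset.sum_comm'
    intro e f
    simp only [hEp, Finset.mem_filter, Finset.mem_univ, true_and, mem_comp_iff]
    constructor
    · rintro ⟨he, hr⟩
      exact ⟨hr.symm, pos_of_reachable G he hr⟩
    · rintro ⟨hr, hf⟩
      exact ⟨pos_of_reachable G hf hr, hr.symm⟩
  have h3 : ∑ f ∈ Ep, ∑ e ∈ G.supportComponent f,
          G.prob e.1 e.2 * (8 * (((G.supportComponent e).card : ℝ) - 1) * s f)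
      ≤ ∑ f ∈ Ep, κ * (G.prob f.1 f.2 * s f) := by
    apply Finset.sum_le_sum
    intro f hf
    have hf0 : 0 < G.prob f.1 f.2 := by simpa [hEp] using hf
    have h4 : ∑ e ∈ G.supportComponent f,
          G.prob e.1 e.2 * (8 * (((G.supportComponent e).card : ℝ) - 1) * s f)
        = ∑ e ∈ G.supportComponent f,
          G.prob e.1 e.2 * (8 * (((G.supportComponent f).card : ℝ) - 1) * s f) := by
      apply Finset.sum_congr rfl
      intro e he
      rw [comp_eq_of_mem G he]
    rw [h4]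
    have h5 : ∑ e ∈ G.supportComponent f,
          G.prob e.1 e.2 * (8 * (((G.supportComponent f).card : ℝ) - 1) * s f)
        = (8 * (((G.supportComponent f).card : ℝ) - 1) *
            (∑ e ∈ G.supportComponent f, G.prob e.1 e.2)) * s f := by
      rw [Finset.mul_sum, Finset.sum_mul]
      apply Finset.sum_congr rfl
      intro e _
      ring
    rw [h5]
    have h6 := hκ f hf0 f (mem_comp_self G f)
    have h7 := mul_le_mul_of_nonneg_right h6 (hs f)
    calc _ ≤ κ * G.prob f.1 f.2 * s f := h7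
      _ = _ := by ring
  have h8 : ∑ f ∈ Ep, κ * (G.prob f.1 f.2 * s f)
      = κ * ∑ e : Fin G.nX × Fin G.nY, G.prob e.1 e.2 * s e := by
    rw [← Finset.mul_sum]
    congr 1
    exact Finset.sum_subset (Finset.subset_univ Ep) (fun e _ he => by rw [hzero e he, zero_mul])
  rw [h1, h2, ← h8]
  exact h3

end Graph

end PathsAux

open PathsAux in
/-- Rounding for S0537. -/
theorem round_paths (G : Game) (v : ℝ)
    (hv : ∀ (dA dB : ℕ) (S : Strategy G 1 dA dB), S.probWinsAtLeast 1 ≤ v) (κ : ℝ)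
    (hκ : ∀ z : Fin G.nX × Fin G.nY, 0 < G.prob z.1 z.2 → ∀ w ∈ G.supportComponent z,
      8 * ((G.supportComponent z).card - 1 : ℝ) * (∑ u ∈ G.supportComponent z, G.prob u.1 u.2)
        ≤ κ * G.prob w.1 w.2)
    {I J : Type} [Fintype I] [Fintype J] [DecidableEq I] [DecidableEq J] [Nonempty (I × J)]
    (Ex : Fin G.nX → Fin G.nA → Matrix I I ℂ) (Ey : Fin G.nY → Fin G.nB → Matrix J J ℂ)
    (hEx : ∀ x, IsPOVM (Ex x)) (hEy : ∀ y, IsPOVM (Ey y))
    (K : Fin G.nX → Fin G.nY → I × J → ℂ) (L : Fin G.nX → I × J → ℂ) (M : Fin G.nY → I × J → ℂ)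
    (hK : ∑ x, ∑ y, G.prob x y * nsq (K x y) = 1) :
    ∑ x, ∑ y, G.prob x y * wq G Ex Ey x y (K x y) ≤ v + 2 * Real.sqrt
      (κ * (∑ x, ∑ y, G.prob x y * (nsq (K x y - L x) + nsq (K x y - M y)))
        + 2 * ∑ x, ∑ y, G.prob x y * (nrm (K x y) - 1) ^ 2) := by
  classical
  let P : Fin G.nX × Fin G.nY → I × J → ℂ := fun e => K e.1 e.2
  let m : Fin G.nX × Fin G.nY → ℝ := fun e => nrm (P e)
  let s : Fin G.nX × Fin G.nY → ℝ := fun e => nsq (K e.1 e.2 - L e.1) + nsq (K e.1 e.2 - M e.2)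
  have hs0 : ∀ e, 0 ≤ s e := fun e => add_nonneg (nsq_nn _) (nsq_nn _)
  -- adjacent vertices
  have hstep : ∀ (A B C : I × J → ℂ), nrm (A - B) ^ 2 ≤ 2 * (nsq (A - C) + nsq (B - C)) := by
    intro A B C
    have h1 := nrm_tri A C B
    have h2 : nrm (C - B) = nrm (B - C) := nrm_sub_comm' _ _
    rw [h2] at h1
    have h3 := nrm_sq' (A - C)
    have h4 := nrm_sq' (B - C)
    have h5 := nrm_nn (A - B)
    have h6 := nrm_nn (A - C)
    have h7 := nrm_nn (B - C)
    rw [← h3, ← h4]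
    have h8 : nrm (A - B) ^ 2 ≤ (nrm (A - C) + nrm (B - C)) ^ 2 := pow_le_pow_left₀ h5 h1 2
    nlinarith [sq_nonneg (nrm (A - C) - nrm (B - C))]
  have hadj : ∀ f f', G.supportGraph.Adj f f' → nrm (P f - P f') ^ 2 ≤ 2 * (s f + s f') := by
    rintro ⟨x, y⟩ ⟨x', y'⟩ ⟨_, _, _, h⟩
    have hnn : ∀ (A : I × J → ℂ), 0 ≤ nsq A := nsq_nn
    rcases h with h | h
    · simp only at h
      subst h
      have := hstep (K x y) (K x y') (L x)
      simp only [P, s]
      nlinarith [hnn (K x y - M y), hnn (K x y' - M y')]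
    · simp only at h
      subst h
      have := hstep (K x y) (K x' y) (M y)
      simp only [P, s]
      nlinarith [hnn (K x y - L x), hnn (K x' y - L x')]
  -- the choice of unit vectors
  have hroot : ∀ c : Finset (Fin G.nX × Fin G.nY), ∃ u : I × J → ℂ, nsq u = 1 ∧
      ∀ e ∈ c, c = G.supportComponent e →
        nrm (P e - u) ^ 2 ≤ 8 * ((c.card : ℝ) - 1) * ∑ f ∈ c, s f + 2 * (m e - 1) ^ 2 := by
    intro c
    by_cases hc : c.Nonempty
    · obtain ⟨r, hr, hmin⟩ := Finset.exists_min_image c (fun f => (m f - 1) ^ 2) hc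
      obtain ⟨u, hu1, hu2⟩ := exists_unit (P r)
      refine ⟨u, hu1, ?_⟩
      intro e he hce
      have hr' : G.supportGraph.Reachable e r := by
        rw [hce] at hr
        exact (mem_comp_iff G e r).1 hr
      have hb := chain_bound G.supportGraph P s hs0 hadj c (e0 := r) (e := e)
        (fun f hf => by
          rw [hce]
          exact (mem_comp_iff G e f).2 (hr'.trans hf)) hr'.symm
      have h1 := nrm_tri (P e) (P r) u
      rw [hu2] at h1
      have h2 := nrm_nn (P e - u)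
      have h3 := nrm_nn (P e - P r)
      have h4 : nrm (P e - u) ^ 2 ≤ (nrm (P e - P r) + |nrm (P r) - 1|) ^ 2 :=
        pow_le_pow_left₀ h2 h1 2
      have h5 : |nrm (P r) - 1| ^ 2 = (m r - 1) ^ 2 := sq_abs _
      have h6 : (m r - 1) ^ 2 ≤ (m e - 1) ^ 2 := hmin e he
      nlinarith [sq_nonneg (nrm (P e - P r) - |nrm (P r) - 1|)]
    · refine ⟨Pi.single (Classical.arbitrary (I × J)) 1, nsq_single _, ?_⟩
      intro e he
      exact absurd ⟨e, he⟩ hc
  choose u hu1 hu2 using hroot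
  -- the strategy
  obtain ⟨I', J', _, _, _, _, St, hSt⟩ :=
    combine_components G (lx G) (ly G) u hu1 Ex Ey hEx hEy
  have hval : St.val ≤ v := OneStrat.val_le hv St
  have hwq : ∑ x, ∑ y, G.prob x y * wq G Ex Ey x y (u (G.supportComponent (x, y))) = St.val := by
    unfold OneStrat.val
    apply Finset.sum_congr rfl; intro x _
    apply Finset.sum_congr rfl; intro y _
    by_cases h0 : G.prob x y = 0
    · rw [h0, zero_mul, zero_mul]
    · have hpos : 0 < G.prob x y := lt_of_le_of_ne (G.prob_nonneg x y) (Ne.symm h0)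
      congr 1
      unfold wq
      apply Finset.sum_congr rfl; intro a _
      apply Finset.sum_congr rfl; intro b _
      have hl : lx G x = ly G y := (lx_eq G hpos).trans (ly_eq G hpos).symm
      rw [hSt x y a b hl, lx_eq G hpos]
  -- sums over pairs
  let μ : Fin G.nX × Fin G.nY → ℝ := fun e => G.prob e.1 e.2
  have hμ : ∀ e, 0 ≤ μ e := fun e => G.prob_nonneg _ _
  let t : Fin G.nX × Fin G.nY → ℝ := fun e => nrm (P e - u (G.supportComponent e))
  have hsumE : ∀ f : Fin G.nX × Fin G.nY → ℝ, ∑ e, f e = ∑ x, ∑ y, f (x, y) := fun f =>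
    Fintype.sum_prod_type f
  -- Lipschitz step
  have hlip : ∑ e, μ e * wq G Ex Ey e.1 e.2 (P e) ≤
      St.val + ∑ e, μ e * (t e * (m e + 1)) := by
    rw [← hwq]
    have : ∑ x, ∑ y, G.prob x y * wq G Ex Ey x y (u (G.supportComponent (x, y))) =
        ∑ e, μ e * wq G Ex Ey e.1 e.2 (u (G.supportComponent e)) := by
      rw [hsumE]
    rw [this, ← Finset.sum_add_distrib]
    apply Finset.sum_le_sum
    intro e _
    rw [← mul_add]
    apply mul_le_mul_of_nonneg_left _ (hμ e)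
    have h := wq_sub_le hEx hEy e.1 e.2 (P e) (u (G.supportComponent e))
    have h1 : nrm (u (G.supportComponent e)) = 1 := by
      simp [nrm, hu1]
    rw [h1] at h
    exact h
  -- Cauchy-Schwarz
  have hK' : ∑ e, μ e * m e ^ 2 = 1 := by
    rw [hsumE]
    rw [← hK]
    apply Finset.sum_congr rfl; intro x _
    apply Finset.sum_congr rfl; intro y _
    simp only [μ, m, P, nrm_sq']
  have hμ1 : ∑ e, μ e = 1 := by
    rw [hsumE]
    exact G.prob_sum
  have hr4 : ∑ e, μ e * (m e + 1) ^ 2 ≤ 4 := by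
    have h1 : ∑ e, μ e * (m e + 1) ^ 2 ≤ ∑ e, (2 * (μ e * m e ^ 2) + 2 * μ e) := by
      apply Finset.sum_le_sum
      intro e _
      have := hμ e
      nlinarith [mul_nonneg this (sq_nonneg (m e - 1))]
    rw [Finset.sum_add_distrib, ← Finset.mul_sum, ← Finset.mul_sum, hK', hμ1] at h1
    linarith
  have hcs := weighted_cs μ t (fun e => m e + 1) hμ hr4
  -- the main bound
  have hT : ∑ e, μ e * t e ^ 2 ≤
      κ * (∑ e, μ e * s e) + 2 * ∑ e, μ e * (m e - 1) ^ 2 := by
    have hc := component_sum G κ s hs0 hκ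
    have h1 : ∑ e, μ e * t e ^ 2 ≤ ∑ e, (G.prob e.1 e.2 *
        (8 * (((G.supportComponent e).card : ℝ) - 1) * ∑ f ∈ G.supportComponent e, s f)
        + 2 * (μ e * (m e - 1) ^ 2)) := by
      apply Finset.sum_le_sum
      intro e _
      have := hu2 _ e (mem_comp_self G e) rfl
      have hh := mul_le_mul_of_nonneg_left this (hμ e)
      simp only [μ, t] at hh ⊢
      linarith
    rw [Finset.sum_add_distrib, ← Finset.mul_sum] at h1
    linarith
  -- conclusion
  have hA : ∑ e, μ e * s e =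
      ∑ x, ∑ y, G.prob x y * (nsq (K x y - L x) + nsq (K x y - M y)) := by
    rw [hsumE]
  have hD : ∑ e, μ e * (m e - 1) ^ 2 = ∑ x, ∑ y, G.prob x y * (nrm (K x y) - 1) ^ 2 := by
    rw [hsumE]
  have hW : ∑ e, μ e * wq G Ex Ey e.1 e.2 (P e) =
      ∑ x, ∑ y, G.prob x y * wq G Ex Ey x y (K x y) := by
    rw [hsumE]
  rw [← hW, ← hA, ← hD]
  have hsq := Real.sqrt_le_sqrt hT
  linarith

end Crest.Agent.PR
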