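import Crest.Agent.PR.Defs

/-!
# (Q1) Araki-type inequality for absolute values and the polar pull-back of a POVM.
-/

namespace Crest.Agent.PR

open Matrix
open scoped Kronecker ComplexOrder

namespace QArakiAux

set_option linter.unusedSectionVars false

section Frob

variable {I J : Type} [Fintype I] [Fintype J]

lemma nsq_vecM_eq_sum (Z : Matrix I J ℂ) : nsq (vecM Z) = ∑ i, ∑ j, ‖Z i j‖ ^ 2 := by
  unfold nsq vecM
  rw [Fintype.sum_prod_type]

lemma nsq_vecM_eq_trace (Z : Matrix I J ℂ) : nsq (vecM Z) = (trace (Zᴴ * Z)).re := by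
  rw [nsq_vecM_eq_sum]
  simp only [trace, diag_apply, mul_apply, conjTranspose_apply, Complex.re_sum, Finset.sum_comm (s := (Finset.univ : Finset J))]
  refine Finset.sum_congr rfl fun i _ => Finset.sum_congr rfl fun j _ => ?_
  rw [Complex.star_def, ← Complex.normSq_eq_conj_mul_self, Complex.ofReal_re, Complex.normSq_eq_norm_sq]

lemma nsq_vecM_sub_eq_sum (Z W : Matrix I J ℂ) :
    nsq (vecM (Z - W)) = ∑ i, ∑ j, ‖Z i j - W i j‖ ^ 2 := by
  rw [nsq_vecM_eq_sum]; rfl

end Frob

section Unit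

variable {I J : Type} [Fintype I] [Fintype J] [DecidableEq I] [DecidableEq J]

/-- Frobenius norm is unitarily invariant. -/
lemma nsq_vecM_unitary (U : Matrix I I ℂ) (U' : Matrix J J ℂ) (hU : U * Uᴴ = 1) (hU' : U' * U'ᴴ = 1)
    (Z : Matrix I J ℂ) : nsq (vecM (Uᴴ * Z * U')) = nsq (vecM Z) := by
  rw [nsq_vecM_eq_trace, nsq_vecM_eq_trace]
  congr 1
  have : (Uᴴ * Z * U')ᴴ * (Uᴴ * Z * U') = U'ᴴ * (Zᴴ * (U * Uᴴ) * Z) * U' := by
    simp only [conjTranspose_mul, conjTranspose_conjTranspose]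
    simp only [Matrix.mul_assoc]
  rw [this, hU, Matrix.mul_one, trace_mul_comm, ← Matrix.mul_assoc, hU', Matrix.one_mul]

/-- The Schur computation for two spectral decompositions with real eigenvalues. -/
lemma nsq_spec_sub (U U' : Matrix I I ℂ) (hU : U * Uᴴ = 1) (hU2 : Uᴴ * U = 1) (hU' : U' * U'ᴴ = 1)
    (hU2' : U'ᴴ * U' = 1) (h k : I → ℝ) :
    nsq (vecM (U * diagonal (fun i => (h i : ℂ)) * Uᴴ - U' * diagonal (fun i => (k i : ℂ)) * U'ᴴ))
      = ∑ i, ∑ j, ‖(Uᴴ * U') i j‖ ^ 2 * (h i - k j) ^ 2 := by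
  rw [← nsq_vecM_unitary U U' hU hU', nsq_vecM_eq_sum]
  have key : Uᴴ * (U * diagonal (fun i => (h i : ℂ)) * Uᴴ - U' * diagonal (fun i => (k i : ℂ)) * U'ᴴ) * U'
      = diagonal (fun i => (h i : ℂ)) * (Uᴴ * U') - (Uᴴ * U') * diagonal (fun i => (k i : ℂ)) := by
    rw [Matrix.mul_sub, Matrix.sub_mul]
    congr 1
    · calc Uᴴ * (U * diagonal (fun i => (h i : ℂ)) * Uᴴ) * U'
          = (Uᴴ * U) * diagonal (fun i => (h i : ℂ)) * (Uᴴ * U') := by simp only [Matrix.mul_assoc]
        _ = _ := by rw [hU2, Matrix.one_mul]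
    · calc Uᴴ * (U' * diagonal (fun i => (k i : ℂ)) * U'ᴴ) * U'
          = (Uᴴ * U') * diagonal (fun i => (k i : ℂ)) * (U'ᴴ * U') := by simp only [Matrix.mul_assoc]
        _ = _ := by rw [hU2', Matrix.mul_one]
  rw [key]
  refine Finset.sum_congr rfl fun i _ => Finset.sum_congr rfl fun j _ => ?_
  simp only [Matrix.sub_apply, diagonal_mul, mul_diagonal]
  have e : (h i : ℂ) * (Uᴴ * U') i j - (Uᴴ * U') i j * (k j : ℂ) = ((h i - k j : ℝ) : ℂ) * (Uᴴ * U') i j := by
    push_cast; ring
  rw [e, norm_mul, mul_pow, Complex.norm_real, Real.norm_eq_abs, sq_abs]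
  ring

/-- uniqueness of positive semidefinite square roots -/
lemma psd_eq_of_sq_eq {X Y : Matrix I I ℂ} (hX : X.PosSemidef) (hY : Y.PosSemidef) (h : X * X = Y * Y) :
    X = Y := by
  have hD : (X - Y).IsHermitian := hX.1.sub hY.1
  have hcomm : X * (X - Y) + (X - Y) * Y = 0 := by
    rw [Matrix.mul_sub, Matrix.sub_mul, h]; abel
  have : X - Y = 0 := by
    rw [← hD.eigenvalues_eq_zero_iff]
    funext i
    by_contra hne
    set v : I → ℂ := ⇑(hD.eigenvectorBasis i) with hv
    have hDv : (X - Y) *ᵥ v = ((hD.eigenvalues i : ℝ) : ℂ) • v := by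
      have := hD.mulVec_eigenvectorBasis i
      simpa [Pi.smul_def, Complex.real_smul, smul_eq_mul] using this
    have hlam : ((hD.eigenvalues i : ℝ) : ℂ) ≠ 0 := by
      simpa using hne
    have hv0 : v ≠ 0 := by
      intro h0
      have hn := hD.eigenvectorBasis.orthonormal.1 i
      have : hD.eigenvectorBasis i = 0 := by
        ext j
        have := congrFun h0 j
        simpa [hv] using this
      rw [this] at hn
      simp at hn
    -- the key identity
    have h1 : star v ⬝ᵥ (X *ᵥ v) + star v ⬝ᵥ (Y *ᵥ v) = 0 := by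
      have h2 : star v ⬝ᵥ ((X * (X - Y) + (X - Y) * Y) *ᵥ v) = 0 := by
        rw [hcomm]; simp
      have h3 : star v ᵥ* (X - Y) = star ((X - Y) *ᵥ v) := by
        rw [Matrix.star_mulVec, hD.eq]
      have h5 : star v ⬝ᵥ ((X * (X - Y)) *ᵥ v) = ((hD.eigenvalues i : ℝ) : ℂ) * (star v ⬝ᵥ (X *ᵥ v)) := by
        rw [← Matrix.mulVec_mulVec, hDv, Matrix.mulVec_smul, dotProduct_smul, smul_eq_mul]
      have h6 : star v ⬝ᵥ (((X - Y) * Y) *ᵥ v) = ((hD.eigenvalues i : ℝ) : ℂ) * (star v ⬝ᵥ (Y *ᵥ v)) := by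
        rw [← Matrix.mulVec_mulVec, Matrix.dotProduct_mulVec, h3, hDv, star_smul, smul_dotProduct]
        simp only [Complex.star_def, Complex.conj_ofReal, smul_eq_mul]
      rw [Matrix.add_mulVec, dotProduct_add, h5, h6, ← mul_add] at h2
      exact (mul_eq_zero.1 h2).resolve_left hlam
    have hXn := hX.re_dotProduct_nonneg v
    have hYn := hY.re_dotProduct_nonneg v
    have hre := congrArg Complex.re h1
    simp only [Complex.add_re, Complex.zero_re] at hre
    have hX0 : RCLike.re (star v ⬝ᵥ (X *ᵥ v)) = 0 := by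
      have : RCLike.re (star v ⬝ᵥ (X *ᵥ v)) = (star v ⬝ᵥ (X *ᵥ v)).re := rfl
      have : RCLike.re (star v ⬝ᵥ (Y *ᵥ v)) = (star v ⬝ᵥ (Y *ᵥ v)).re := rfl
      linarith
    have hY0 : RCLike.re (star v ⬝ᵥ (Y *ᵥ v)) = 0 := by
      have : RCLike.re (star v ⬝ᵥ (X *ᵥ v)) = (star v ⬝ᵥ (X *ᵥ v)).re := rfl
      have : RCLike.re (star v ⬝ᵥ (Y *ᵥ v)) = (star v ⬝ᵥ (Y *ᵥ v)).re := rfl
      linarith
    have hX1 : star v ⬝ᵥ (X *ᵥ v) = 0 := by
      have himX := hX.1.im_star_dotProduct_mulVec_self v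
      apply RCLike.ext
      · simpa using hX0
      · simpa using himX
    have hY1 : star v ⬝ᵥ (Y *ᵥ v) = 0 := by
      have himY := hY.1.im_star_dotProduct_mulVec_self v
      apply RCLike.ext
      · simpa using hY0
      · simpa using himY
    have hXv : X *ᵥ v = 0 := (hX.dotProduct_mulVec_zero_iff v).1 hX1
    have hYv : Y *ᵥ v = 0 := (hY.dotProduct_mulVec_zero_iff v).1 hY1
    have : ((hD.eigenvalues i : ℝ) : ℂ) • v = 0 := by
      rw [← hDv, Matrix.sub_mulVec, hXv, hYv, sub_zero]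
    exact hv0 ((smul_eq_zero.1 this).resolve_left hlam)
  exact sub_eq_zero.1 this

end Unit

section Abs

variable {I J : Type} [Fintype I] [Fintype J] [DecidableEq I] [DecidableEq J]

lemma spec_mul (U : Matrix J J ℂ) (hU2 : Uᴴ * U = 1) (f g : J → ℂ) :
    (U * diagonal f * Uᴴ) * (U * diagonal g * Uᴴ) = U * diagonal (fun i => f i * g i) * Uᴴ := by
  calc (U * diagonal f * Uᴴ) * (U * diagonal g * Uᴴ)
      = U * diagonal f * (Uᴴ * U) * diagonal g * Uᴴ := by simp only [Matrix.mul_assoc]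
    _ = U * (diagonal f * diagonal g) * Uᴴ := by rw [hU2, Matrix.mul_one]; simp only [Matrix.mul_assoc]
    _ = _ := by rw [diagonal_mul_diagonal]

/-- the spectral data of a Hermitian matrix -/
lemma herm_spec {H : Matrix J J ℂ} (hH : H.IsHermitian) :
    ∃ (U : Matrix J J ℂ) (h : J → ℝ), U * Uᴴ = 1 ∧ Uᴴ * U = 1 ∧
      H = U * diagonal (fun i => (h i : ℂ)) * Uᴴ ∧ ∀ f : ℝ → ℝ,
        hH.cfc f = U * diagonal (fun i => ((f (h i) : ℝ) : ℂ)) * Uᴴ := by
  refine ⟨hH.eigenvectorUnitary, hH.eigenvalues, ?_, ?_, ?_, ?_⟩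
  · exact Unitary.coe_mul_star_self hH.eigenvectorUnitary
  · exact Unitary.coe_star_mul_self hH.eigenvectorUnitary
  · conv_lhs => rw [hH.spectral_theorem]
    rfl
  · intro f
    rfl

lemma absM_spec (L : Matrix I J ℂ) :
    ∃ (U : Matrix J J ℂ) (h : J → ℝ), U * Uᴴ = 1 ∧ Uᴴ * U = 1 ∧ (∀ i, 0 ≤ h i) ∧
      Lᴴ * L = U * diagonal (fun i => (h i : ℂ)) * Uᴴ ∧
      absM L = U * diagonal (fun i => ((Real.sqrt (h i) : ℝ) : ℂ)) * Uᴴ := by
  have hH : (Lᴴ * L).IsHermitian := isHermitian_conjTranspose_mul_self L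
  have hpsd : (Lᴴ * L).PosSemidef := posSemidef_conjTranspose_mul_self L
  refine ⟨hH.eigenvectorUnitary, hH.eigenvalues, Unitary.coe_mul_star_self hH.eigenvectorUnitary,
    Unitary.coe_star_mul_self hH.eigenvectorUnitary, hpsd.eigenvalues_nonneg, ?_, ?_⟩
  · conv_lhs => rw [hH.spectral_theorem]
    rfl
  · unfold absM
    rw [hH.cfc_eq]
    rfl

lemma absM_psd_aux (L : Matrix I J ℂ) : (absM L).PosSemidef := by
  obtain ⟨U, h, h1, h2, h3, h4, h5⟩ := absM_spec L
  rw [h5]
  apply PosSemidef.mul_mul_conjTranspose_same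
  apply PosSemidef.diagonal
  intro i
  simp only [Pi.zero_apply]
  exact_mod_cast Real.sqrt_nonneg _

lemma absM_mul_self (L : Matrix I J ℂ) : absM L * absM L = Lᴴ * L := by
  obtain ⟨U, h, h1, h2, h3, h4, h5⟩ := absM_spec L
  rw [h5, h4, spec_mul U h2]
  have : (fun i => ((Real.sqrt (h i) : ℝ) : ℂ) * ((Real.sqrt (h i) : ℝ) : ℂ)) = fun i => (h i : ℂ) := by
    funext i
    rw [← Complex.ofReal_mul, Real.mul_self_sqrt (h3 i)]
  rw [this]

/-- dilation -/
def dil (L : Matrix I J ℂ) : Matrix (I ⊕ J) (I ⊕ J) ℂ := fromBlocks 0 L Lᴴ 0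

/-- the block-diagonal absolute value of the dilation -/
noncomputable def dabs (L : Matrix I J ℂ) : Matrix (I ⊕ J) (I ⊕ J) ℂ :=
  fromBlocks (absM Lᴴ) 0 0 (absM L)

lemma dil_herm (L : Matrix I J ℂ) : (dil L).IsHermitian := by
  unfold dil
  apply IsHermitian.fromBlocks
  · simp [IsHermitian]
  · rfl
  · simp [IsHermitian]

lemma dabs_psd (L : Matrix I J ℂ) : (dabs L).PosSemidef := by
  have h1 := absM_psd_aux Lᴴ
  have h2 := absM_psd_aux L
  unfold dabs
  have : fromBlocks (absM Lᴴ) 0 0 (absM L)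
      = (fromRows (1 : Matrix I I ℂ) (0 : Matrix J I ℂ)) * absM Lᴴ * (fromRows (1 : Matrix I I ℂ) (0 : Matrix J I ℂ))ᴴ
        + (fromRows (0 : Matrix I J ℂ) (1 : Matrix J J ℂ)) * absM L * (fromRows (0 : Matrix I J ℂ) (1 : Matrix J J ℂ))ᴴ := by
    ext s t
    rcases s with s | s <;> rcases t with t | t <;>
      simp [Matrix.mul_apply, fromRows_apply_inl, fromRows_apply_inr, one_apply, Matrix.add_apply, conjTranspose_apply]
  rw [this]
  exact (h1.mul_mul_conjTranspose_same _).add (h2.mul_mul_conjTranspose_same _)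

lemma dabs_mul_self (L : Matrix I J ℂ) : dabs L * dabs L = dil L * dil L := by
  unfold dabs dil
  rw [fromBlocks_multiply, fromBlocks_multiply, absM_mul_self, absM_mul_self]
  simp

/-- the core inequality -/
lemma nsq_dabs_le (L M : Matrix I J ℂ) :
    nsq (vecM (dabs L - dabs M)) ≤ nsq (vecM (dil L - dil M)) := by
  have hL := dil_herm L
  have hM := dil_herm M
  obtain ⟨U, h, h1, h2, h3, -⟩ := herm_spec hL
  obtain ⟨U', k, k1, k2, k3, -⟩ := herm_spec hM
  have e1 : dabs L = U * diagonal (fun i => ((|h i| : ℝ) : ℂ)) * Uᴴ := by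
    apply psd_eq_of_sq_eq (dabs_psd L)
    · apply PosSemidef.mul_mul_conjTranspose_same
      apply PosSemidef.diagonal
      intro i
      simp only [Pi.zero_apply]
      exact_mod_cast abs_nonneg _
    · rw [dabs_mul_self, spec_mul U h2]
      conv_lhs => rw [h3]
      rw [spec_mul U h2]
      have : (fun i => (h i : ℂ) * (h i : ℂ)) = fun i => ((|h i| : ℝ) : ℂ) * ((|h i| : ℝ) : ℂ) := by
        funext i
        rw [← Complex.ofReal_mul, ← Complex.ofReal_mul, abs_mul_abs_self]
      rw [this]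
  have e2 : dabs M = U' * diagonal (fun i => ((|k i| : ℝ) : ℂ)) * U'ᴴ := by
    apply psd_eq_of_sq_eq (dabs_psd M)
    · apply PosSemidef.mul_mul_conjTranspose_same
      apply PosSemidef.diagonal
      intro i
      simp only [Pi.zero_apply]
      exact_mod_cast abs_nonneg _
    · rw [dabs_mul_self, spec_mul U' k2]
      conv_lhs => rw [k3]
      rw [spec_mul U' k2]
      have : (fun i => (k i : ℂ) * (k i : ℂ)) = fun i => ((|k i| : ℝ) : ℂ) * ((|k i| : ℝ) : ℂ) := by
        funext i
        rw [← Complex.ofReal_mul, ← Complex.ofReal_mul, abs_mul_abs_self]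
      rw [this]
  rw [e1, e2, nsq_spec_sub U U' h1 h2 k1 k2]
  conv_rhs => rw [h3, k3]
  rw [nsq_spec_sub U U' h1 h2 k1 k2]
  refine Finset.sum_le_sum fun i _ => Finset.sum_le_sum fun j _ => ?_
  apply mul_le_mul_of_nonneg_left _ (by positivity)
  exact sq_le_sq.2 (abs_abs_sub_abs_le (h i) (k j))

lemma nsq_dil_sub (L M : Matrix I J ℂ) :
    nsq (vecM (dil L - dil M)) = 2 * nsq (vecM (L - M)) := by
  rw [nsq_vecM_eq_sum, nsq_vecM_eq_sum]
  simp only [Fintype.sum_sum_type]
  simp only [dil, Matrix.sub_apply, fromBlocks_apply₁₁, fromBlocks_apply₁₂, fromBlocks_apply₂₁, fromBlocks_apply₂₂,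
    Matrix.zero_apply, sub_self, norm_zero, ne_eq, OfNat.ofNat_ne_zero, not_false_eq_true, zero_pow,
    Finset.sum_const_zero, zero_add, add_zero, conjTranspose_apply]
  have e : ∑ x, ∑ x_1, ‖star (L x_1 x) - star (M x_1 x)‖ ^ 2 = ∑ i, ∑ j, ‖L i j - M i j‖ ^ 2 := by
    rw [Finset.sum_comm]
    refine Finset.sum_congr rfl fun i _ => Finset.sum_congr rfl fun j _ => ?_
    rw [← star_sub, norm_star]
  rw [e, two_mul]

lemma nsq_dabs_sub (L M : Matrix I J ℂ) :
    nsq (vecM (absM L - absM M)) ≤ nsq (vecM (dabs L - dabs M)) := by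
  rw [nsq_vecM_eq_sum, nsq_vecM_eq_sum]
  simp only [Fintype.sum_sum_type]
  simp [dabs, Matrix.sub_apply]
  exact Finset.sum_nonneg fun i _ => Finset.sum_nonneg fun j _ => by positivity

end Abs

section Ev

variable {I J : Type} [Fintype I] [Fintype J] [DecidableEq I] [DecidableEq J]

lemma ev_vecM (Z : Matrix I J ℂ) (M : Matrix I I ℂ) (N : Matrix J J ℂ) :
    ev (vecM Z) M N = (trace (Zᴴ * M * Z * Nᵀ)).re := by
  unfold ev
  congr 1
  have : (M ⊗ₖ N) *ᵥ vecM Z = vecM (M * Z * Nᵀ) := by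
    funext p
    simp only [mulVec, dotProduct, kroneckerMap_apply, vecM, Fintype.sum_prod_type, Matrix.mul_apply,
      transpose_apply, Finset.sum_mul]
    rw [Finset.sum_comm]
    refine Finset.sum_congr rfl fun j _ => Finset.sum_congr rfl fun i _ => ?_
    ring
  rw [this]
  simp only [dotProduct, trace, diag_apply, Fintype.sum_prod_type, vecM, Pi.star_apply, Matrix.mul_apply,
    conjTranspose_apply, transpose_apply, Finset.sum_mul, Finset.mul_sum]
  rw [Finset.sum_comm]
  refine Finset.sum_congr rfl fun j _ => ?_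
  rw [Finset.sum_comm]
  refine Finset.sum_congr rfl fun j' _ => ?_
  rw [Finset.sum_comm]
  refine Finset.sum_congr rfl fun i _ => Finset.sum_congr rfl fun i' _ => ?_
  ring

end Ev

end QArakiAux

open QArakiAux

/-- (Q1) Araki-type inequality for absolute values. -/
theorem araki_abs {I J : Type} [Fintype I] [Fintype J] [DecidableEq I] [DecidableEq J]
    (L M : Matrix I J ℂ) :
    nsq (vecM (absM L - absM M)) ≤ 2 * nsq (vecM (L - M)) :=
  (nsq_dabs_sub L M).trans ((nsq_dabs_le L M).trans_eq (nsq_dil_sub L M))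

/-- `|L|` is positive semidefinite, with the same Hilbert-Schmidt norm as `L`. -/
theorem absM_psd {I J : Type} [Fintype I] [Fintype J] [DecidableEq I] [DecidableEq J] (L : Matrix I J ℂ) :
    (absM L).PosSemidef ∧ nsq (vecM (absM L)) = nsq (vecM L) := by
  refine ⟨absM_psd_aux L, ?_⟩
  rw [nsq_vecM_eq_trace, nsq_vecM_eq_trace, (absM_psd_aux L).1.eq, absM_mul_self]

/-- (Q1) polar pull-back: a POVM on `I` turns into a POVM on `J` giving the same statistics on `|L|`.
The POVM is `W^H E^a W + (1 - W^H W) 1[a = a₀]`, `W = L |L|⁺`. -/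
theorem polar_povm {I J α : Type} [Fintype I] [Fintype J] [DecidableEq I] [DecidableEq J]
    [Fintype α] [DecidableEq α] [Nonempty α] (L : Matrix I J ℂ) (E : α → Matrix I I ℂ) (hE : IsPOVM E) :
    ∃ F : α → Matrix J J ℂ, IsPOVM F ∧ ∀ (a : α) (N : Matrix J J ℂ),
      ev (vecM L) (E a) N = ev (vecM (absM L)) (F a) N := by
  obtain ⟨U, h, h1, h2, h3, h4, h5⟩ := absM_spec L
  set r : J → ℝ := fun i => Real.sqrt (h i) with hr
  set s : J → ℝ := fun i => (r i)⁻¹ with hs
  set p : J → ℝ := fun i => r i * s i with hp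
  have hr0 : ∀ i, 0 ≤ r i := fun i => Real.sqrt_nonneg _
  have hrr : ∀ i, r i * r i = h i := fun i => Real.mul_self_sqrt (h3 i)
  have hp01 : ∀ i, p i = 0 ∨ p i = 1 := by
    intro i
    by_cases hi : r i = 0
    · left; simp [hp, hi]
    · right; simp only [hp, hs]; exact mul_inv_cancel₀ hi
  have hrp : ∀ i, r i * p i = r i := by
    intro i
    by_cases hi : r i = 0
    · simp [hi]
    · simp only [hp, hs]; rw [mul_inv_cancel₀ hi, mul_one]
  -- the matrices
  let Ap : Matrix J J ℂ := U * diagonal (fun i => (s i : ℂ)) * Uᴴ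
  let Pr : Matrix J J ℂ := U * diagonal (fun i => (p i : ℂ)) * Uᴴ
  let R : Matrix J J ℂ := U * diagonal (fun i => ((1 - p i : ℝ) : ℂ)) * Uᴴ
  have hA : absM L = U * diagonal (fun i => (r i : ℂ)) * Uᴴ := h5
  have hApH : Apᴴ = Ap := by
    simp only [Ap, conjTranspose_mul, conjTranspose_conjTranspose, diagonal_conjTranspose, Matrix.mul_assoc]
    congr 3
    funext i
    simp
  have hPiR : Pr + R = 1 := by
    simp only [Pr, R]
    rw [← Matrix.add_mul, ← Matrix.mul_add, diagonal_add]
    have : (fun i => (p i : ℂ) + ((1 - p i : ℝ) : ℂ)) = fun _ => (1 : ℂ) := by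
      funext i; push_cast; ring
    rw [this, diagonal_one, Matrix.mul_one, h1]
  set W : Matrix I J ℂ := L * Ap with hW
  have hWW : Wᴴ * W = Pr := by
    rw [hW, conjTranspose_mul, hApH]
    calc Ap * Lᴴ * (L * Ap) = Ap * (Lᴴ * L) * Ap := by simp only [Matrix.mul_assoc]
      _ = Pr := by
        rw [h4]
        simp only [Ap, Pr]
        rw [spec_mul U h2, spec_mul U h2]
        have : (fun i => (s i : ℂ) * (h i : ℂ) * (s i : ℂ)) = fun i => (p i : ℂ) := by
          funext i
          have e : s i * h i * s i = p i := by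
            rw [← hrr i]
            have e2 : s i * (r i * r i) * s i = (r i * s i) * (r i * s i) := by ring
            rw [e2]
            rcases hp01 i with h0 | h0 <;> simp only [hp] at h0 ⊢ <;> rw [h0] <;> norm_num
          rw [← e]; push_cast; ring
        rw [this]
  have hLR : L * R = 0 := by
    have : (L * R)ᴴ * (L * R) = 0 := by
      have hRH : Rᴴ = R := by
        simp only [R, conjTranspose_mul, conjTranspose_conjTranspose, diagonal_conjTranspose, Matrix.mul_assoc]
        congr 3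
        funext i
        simp
      rw [conjTranspose_mul, hRH]
      calc R * Lᴴ * (L * R) = R * (Lᴴ * L) * R := by simp only [Matrix.mul_assoc]
        _ = 0 := by
          rw [h4]
          simp only [R]
          rw [spec_mul U h2, spec_mul U h2]
          have : (fun i => ((1 - p i : ℝ) : ℂ) * (h i : ℂ) * ((1 - p i : ℝ) : ℂ)) = fun _ => (0 : ℂ) := by
            funext i
            have e : (1 - p i) * h i * (1 - p i) = 0 := by
              rw [← hrr i]
              have e2 : (1 - p i) * (r i * r i) * (1 - p i) = (r i - r i * p i) * (r i - r i * p i) := by ring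
              rw [e2, hrp i]; ring
            rw [← Complex.ofReal_mul, ← Complex.ofReal_mul, e]; simp
          rw [this]
          simp
    exact conjTranspose_mul_self_eq_zero.1 this
  have hLPi : L * Pr = L := by
    have : L * (Pr + R) = L := by rw [hPiR, Matrix.mul_one]
    rw [Matrix.mul_add, hLR, add_zero] at this
    exact this
  have hWA : W * absM L = L := by
    rw [hW, Matrix.mul_assoc]
    have : Ap * absM L = Pr := by
      rw [hA]
      simp only [Ap, Pr]
      rw [spec_mul U h2]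
      have : (fun i => (s i : ℂ) * (r i : ℂ)) = fun i => (p i : ℂ) := by
        funext i; simp only [hp]; push_cast; ring
      rw [this]
    rw [this, hLPi]
  have hRA : R * absM L = 0 := by
    rw [hA]
    simp only [R]
    rw [spec_mul U h2]
    have : (fun i => ((1 - p i : ℝ) : ℂ) * (r i : ℂ)) = fun _ => (0 : ℂ) := by
      funext i
      rw [← Complex.ofReal_mul]
      have : (1 - p i) * r i = r i - r i * p i := by ring
      rw [this, hrp i]; simp
    rw [this]
    simp
  have hRpsd : R.PosSemidef := by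
    apply PosSemidef.mul_mul_conjTranspose_same
    apply PosSemidef.diagonal
    intro i
    simp only [Pi.zero_apply]
    have : 0 ≤ 1 - p i := by
      rcases hp01 i with h0 | h0 <;> rw [h0] <;> norm_num
    exact_mod_cast this
  classical
  let a₀ : α := Classical.arbitrary α
  refine ⟨fun a => Wᴴ * E a * W + (if a = a₀ then R else 0), ⟨?_, ?_⟩, ?_⟩
  · intro a
    have h1 : (Wᴴ * E a * W).PosSemidef := (hE.1 a).conjTranspose_mul_mul_same W
    by_cases ha : a = a₀
    · simp only [ha, if_true]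
      have h1' : (Wᴴ * E a₀ * W).PosSemidef := (hE.1 a₀).conjTranspose_mul_mul_same W
      exact h1'.add hRpsd
    · simp only [ha, if_false, add_zero]
      exact h1
  · rw [Finset.sum_add_distrib, Finset.sum_ite_eq' Finset.univ a₀]
    simp only [Finset.mem_univ, if_true]
    have : ∑ a, Wᴴ * E a * W = Wᴴ * W := by
      rw [← Matrix.sum_mul, ← Matrix.mul_sum, hE.2, Matrix.mul_one]
    rw [this, hWW, hPiR]
  · intro a N
    rw [ev_vecM, ev_vecM]
    congr 1
    have hAH : (absM L)ᴴ = absM L := (absM_psd_aux L).1.eq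
    conv_lhs => rw [← hWA]
    rw [conjTranspose_mul, hAH]
    congr 1
    have e : absM L * (Wᴴ * E a * W + (if a = a₀ then R else 0)) * absM L
        = absM L * Wᴴ * E a * (W * absM L) := by
      rw [Matrix.mul_add, Matrix.add_mul]
      have : absM L * (if a = a₀ then R else 0) * absM L = 0 := by
        by_cases ha : a = a₀
        · simp only [ha, if_true]
          rw [Matrix.mul_assoc, hRA, Matrix.mul_zero]
        · simp [ha]
      rw [this, add_zero]
      simp only [Matrix.mul_assoc]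
    rw [e]



end Crest.Agent.PR
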