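import Crest.Agent.PR.Defs

/-!
# Scalar estimates (Q4), (Q5) of the quantum correlated sampling step

`qAmp_bounds`, `qLadder`, `qKernel`.
-/

namespace Crest.Agent.PR

open Finset

section basics

variable {K' : ℕ}

private lemma b_gt_one (hK' : 1 ≤ K') : (1 : ℝ) < 1 + 1 / (K' : ℝ) := by
  have : (0 : ℝ) < K' := by exact_mod_cast hK'
  have : (0 : ℝ) < 1 / (K' : ℝ) := by positivity
  linarith

private lemma logb_pos (hK' : 1 ≤ K') : 0 < Real.log (1 + 1 / (K' : ℝ)) :=
  Real.log_pos (b_gt_one hK')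

private lemma logb_le (hK' : 1 ≤ K') : Real.log (1 + 1 / (K' : ℝ)) ≤ 1 / (K' : ℝ) := by
  have h := Real.log_le_sub_one_of_pos (show (0 : ℝ) < 1 + 1 / (K' : ℝ) by linarith [b_gt_one hK'])
  linarith

private lemma logb_ge (hK' : 1 ≤ K') : 1 / (2 * (K' : ℝ)) ≤ Real.log (1 + 1 / (K' : ℝ)) := by
  have hK : (1 : ℝ) ≤ K' := by exact_mod_cast hK'
  have hb := b_gt_one hK'
  have h := Real.one_sub_inv_le_log_of_pos (show (0 : ℝ) < 1 + 1 / (K' : ℝ) by linarith)
  refine le_trans ?_ h
  have hK0 : (0 : ℝ) < K' := by linarith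
  have : (1 + 1 / (K' : ℝ))⁻¹ = K' / (K' + 1) := by
    field_simp
  rw [this, div_le_iff₀ (by positivity)]
  have : (1 - (K' : ℝ) / (K' + 1)) * (2 * K') = 2 * K' / (K' + 1) := by
    field_simp
    ring
  rw [this, le_div_iff₀ (by positivity)]
  linarith

private lemma qStep_pos (hK' : 1 ≤ K') : 0 < qStep K' := by
  have : (0 : ℝ) < K' := by exact_mod_cast hK'
  exact div_pos (logb_pos hK') this

private lemma qStep_mul (hK' : 1 ≤ K') : qStep K' * K' = Real.log (1 + 1 / (K' : ℝ)) := by
  have : (K' : ℝ) ≠ 0 := by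
    have : (0 : ℝ) < K' := by exact_mod_cast hK'
    exact this.ne'
  unfold qStep
  field_simp

private lemma qAmp_sq (K' l : ℕ) (hK' : 1 ≤ K') (g : ℤ) :
    qAmp K' l g ^ 2 = (1 + 1 / (K' : ℝ)) ^ ((g : ℝ) - (l : ℝ) / (K' : ℝ)) := by
  unfold qAmp
  rw [Real.sq_sqrt]
  · rfl
  · exact Real.rpow_nonneg (by linarith [b_gt_one hK']) _

private lemma qAmp_nonneg (K' l : ℕ) (g : ℤ) : 0 ≤ qAmp K' l g := Real.sqrt_nonneg _

end basics

/-- (Q4) amplitude bounds: `φ² ≤ t < b φ²`. -/
theorem qAmp_bounds (K' : ℕ) (hK' : 1 ≤ K') (l : ℕ) (hl : l < K') {t : ℝ} (ht : 0 < t) :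
    qAmp K' l (qBucket K' l t) ^ 2 ≤ t ∧ t < (1 + 1 / (K' : ℝ)) * qAmp K' l (qBucket K' l t) ^ 2 := by
  have _ := hl
  have hK : (0 : ℝ) < K' := by exact_mod_cast hK'
  have hKz : (0 : ℤ) < (K' : ℤ) := by exact_mod_cast hK'
  have hb := b_gt_one hK'
  have hb0 : (0 : ℝ) < 1 + 1 / (K' : ℝ) := by linarith
  have hlogb := logb_pos hK'
  have hρ := qStep_pos hK'
  rw [qAmp_sq K' l hK']
  set c : ℤ := qCell K' t with hc
  set g : ℤ := qBucket K' l t with hg
  have hg' : g = (c + (l : ℤ)) / (K' : ℤ) := rfl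
  have h1 : g * (K' : ℤ) ≤ c + l := by
    rw [hg']; exact Int.ediv_mul_le _ hKz.ne'
  have h2 : c + l + 1 ≤ (g + 1) * (K' : ℤ) := by
    have : c + l < (g + 1) * (K' : ℤ) := by
      rw [hg']; exact Int.lt_ediv_add_one_mul_self _ hKz
    omega
  have h1r : (g : ℝ) * K' ≤ c + l := by exact_mod_cast h1
  have h2r : (c : ℝ) + l + 1 ≤ (g + 1) * K' := by exact_mod_cast h2
  have hc1 : (c : ℝ) ≤ Real.log t / qStep K' := Int.floor_le _
  have hc2 : Real.log t / qStep K' < c + 1 := Int.lt_floor_add_one _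
  have hc1' : (c : ℝ) * qStep K' ≤ Real.log t := (le_div_iff₀ hρ).1 hc1
  have hc2' : Real.log t < (c + 1) * qStep K' := (div_lt_iff₀ hρ).1 hc2
  have hρK : qStep K' * K' = Real.log (1 + 1 / (K' : ℝ)) := qStep_mul hK'
  -- exponent bounds
  have he1 : ((g : ℝ) - l / K') * Real.log (1 + 1 / (K' : ℝ)) ≤ Real.log t := by
    refine le_trans ?_ hc1'
    rw [← hρK]
    have : ((g : ℝ) - l / K') * (qStep K' * K') = (g * K' - l) * qStep K' := by
      field_simp
    rw [this]
    exact mul_le_mul_of_nonneg_right (by linarith) hρ.le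
  have he2 : Real.log t < (((g : ℝ) - l / K') + 1) * Real.log (1 + 1 / (K' : ℝ)) := by
    refine lt_of_lt_of_le hc2' ?_
    rw [← hρK]
    have : (((g : ℝ) - l / K') + 1) * (qStep K' * K') = ((g + 1) * K' - l) * qStep K' := by
      field_simp
      ring
    rw [this]
    exact mul_le_mul_of_nonneg_right (by linarith) hρ.le
  constructor
  · rw [Real.rpow_def_of_pos hb0]
    calc Real.exp (Real.log (1 + 1 / (K' : ℝ)) * ((g : ℝ) - l / K'))
        ≤ Real.exp (Real.log t) := by
          apply Real.exp_le_exp.2; linarith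
      _ = t := Real.exp_log ht
  · have : (1 + 1 / (K' : ℝ)) * (1 + 1 / (K' : ℝ)) ^ ((g : ℝ) - l / K')
        = (1 + 1 / (K' : ℝ)) ^ (((g : ℝ) - l / K') + 1) := by
      rw [Real.rpow_add hb0, Real.rpow_one, mul_comm]
    rw [this, Real.rpow_def_of_pos hb0]
    calc t = Real.exp (Real.log t) := (Real.exp_log ht).symm
      _ < _ := by
          apply Real.exp_lt_exp.2; linarith

/-- (Q4) the exact integer ladder: on `[g₀,g₁]`, `n_g = c_l φ²`. -/
theorem qLadder (K' : ℕ) (hK' : 1 ≤ K') (l : ℕ) (g₀ g₁ : ℤ) :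
    ∃ c : ℝ, 0 < c ∧ ∀ g : ℤ, g₀ ≤ g → g ≤ g₁ →
      (((K' + 1) ^ (g - g₀).toNat * K' ^ (g₁ - g).toNat : ℕ) : ℝ) = c * qAmp K' l g ^ 2 := by
  have hK : (0 : ℝ) < K' := by exact_mod_cast hK'
  have hb := b_gt_one hK'
  have hb0 : (0 : ℝ) < 1 + 1 / (K' : ℝ) := by linarith
  refine ⟨(K' : ℝ) ^ (g₁ - g₀).toNat * (1 + 1 / (K' : ℝ)) ^ ((l : ℝ) / K' - g₀), by positivity, ?_⟩
  intro g h0 h1
  rw [qAmp_sq K' l hK']
  have hsplit : (g₁ - g₀).toNat = (g - g₀).toNat + (g₁ - g).toNat := by omega
  have hrp : (1 + 1 / (K' : ℝ)) ^ ((l : ℝ) / K' - g₀) * (1 + 1 / (K' : ℝ)) ^ ((g : ℝ) - l / K')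
      = (1 + 1 / (K' : ℝ)) ^ ((g - g₀).toNat : ℕ) := by
    rw [← Real.rpow_add hb0, ← Real.rpow_natCast]
    congr 1
    have : (((g - g₀).toNat : ℕ) : ℝ) = (g : ℝ) - g₀ := by
      have h2 : (((g - g₀).toNat : ℕ) : ℤ) = g - g₀ := Int.toNat_of_nonneg (by omega)
      have h3 : (((g - g₀).toNat : ℕ) : ℝ) = (((g - g₀).toNat : ℕ) : ℤ) := by push_cast; rfl
      rw [h3, h2]; push_cast; ring
    rw [this]; ring
  have hKb : (K' : ℝ) * (1 + 1 / (K' : ℝ)) = K' + 1 := by field_simp
  calc (((K' + 1) ^ (g - g₀).toNat * K' ^ (g₁ - g).toNat : ℕ) : ℝ)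
      = ((K' : ℝ) + 1) ^ (g - g₀).toNat * (K' : ℝ) ^ (g₁ - g).toNat := by push_cast; ring
    _ = ((K' : ℝ) * (1 + 1 / (K' : ℝ))) ^ (g - g₀).toNat * (K' : ℝ) ^ (g₁ - g).toNat := by rw [hKb]
    _ = (K' : ℝ) ^ (g₁ - g₀).toNat * (1 + 1 / (K' : ℝ)) ^ ((g - g₀).toNat : ℕ) := by
        rw [hsplit, mul_pow, pow_add]; ring
    _ = _ := by rw [← hrp]; ring

section count

/-- moving the cell by one changes the bucket for at most one offset. -/
private lemma bad_step (K : ℕ) (hK : 0 < K) (c : ℤ) :
    ((range K).filter (fun l : ℕ => (c + (l : ℤ)) / (K : ℤ) ≠ (c + 1 + (l : ℤ)) / (K : ℤ))).card ≤ 1 := by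
  have hKz : (0 : ℤ) < (K : ℤ) := by exact_mod_cast hK
  have key : ∀ l : ℕ, (c + (l : ℤ)) / (K : ℤ) ≠ (c + 1 + (l : ℤ)) / (K : ℤ) → (K : ℤ) ∣ (c + 1 + (l : ℤ)) := by
    intro l hne
    by_contra hnd
    apply hne
    set x : ℤ := c + l with hx
    have e : c + 1 + (l : ℤ) = x + 1 := by rw [hx]; ring
    rw [e] at hnd ⊢
    set q : ℤ := x / (K : ℤ) with hq
    have h1 : q * (K : ℤ) ≤ x := Int.ediv_mul_le _ hKz.ne'
    have h2 : x < (q + 1) * (K : ℤ) := Int.lt_ediv_add_one_mul_self _ hKz
    have h3 : x + 1 ≠ (q + 1) * (K : ℤ) := by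
      intro h
      apply hnd
      rw [h]
      exact Dvd.intro_left _ rfl
    have h4 : x + 1 < (q + 1) * (K : ℤ) := by omega
    have huniq := (Int.ediv_emod_unique (a := x + 1) (q := q) (r := x + 1 - (K : ℤ) * q) hKz).2
      ⟨by ring, by nlinarith, by nlinarith⟩
    exact huniq.1.symm
  rw [Finset.card_le_one]
  intro a ha b hb
  rw [Finset.mem_filter, Finset.mem_range] at ha hb
  have da := key a ha.2
  have db := key b hb.2
  have dd : (K : ℤ) ∣ (a : ℤ) - (b : ℤ) := by
    have := dvd_sub da db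
    have e : c + 1 + (a : ℤ) - (c + 1 + (b : ℤ)) = (a : ℤ) - b := by ring
    rwa [e] at this
  have ha' : (a : ℤ) < K := by exact_mod_cast ha.1
  have hb' : (b : ℤ) < K := by exact_mod_cast hb.1
  have := Int.eq_zero_of_abs_lt_dvd dd (by rw [abs_lt]; constructor <;> omega)
  omega

/-- number of offsets at which two cells fall in different buckets. -/
private lemma bad_count (K : ℕ) (hK : 0 < K) (c : ℤ) (d : ℕ) :
    (((range K).filter (fun l : ℕ => (c + (l : ℤ)) / (K : ℤ) ≠ (c + d + (l : ℤ)) / (K : ℤ))).card : ℕ) ≤ d := by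
  induction d with
  | zero => simp
  | succ d ih =>
    have hsub : (range K).filter (fun l : ℕ => (c + (l : ℤ)) / (K : ℤ) ≠ (c + ((d + 1 : ℕ) : ℤ) + (l : ℤ)) / (K : ℤ))
        ⊆ (range K).filter (fun l : ℕ => (c + (l : ℤ)) / (K : ℤ) ≠ (c + d + (l : ℤ)) / (K : ℤ))
          ∪ (range K).filter (fun l : ℕ => ((c + d) + (l : ℤ)) / (K : ℤ) ≠ ((c + d) + 1 + (l : ℤ)) / (K : ℤ)) := by
      intro l hl
      rw [Finset.mem_filter] at hl
      rw [Finset.mem_union, Finset.mem_filter, Finset.mem_filter]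
      by_cases h : (c + (l : ℤ)) / (K : ℤ) = (c + d + (l : ℤ)) / (K : ℤ)
      · right
        refine ⟨hl.1, ?_⟩
        rw [← h]
        have e : c + (d : ℤ) + 1 + (l : ℤ) = c + ((d + 1 : ℕ) : ℤ) + (l : ℤ) := by push_cast; ring
        rw [e]
        exact hl.2
      · left
        exact ⟨hl.1, h⟩
    calc _ ≤ _ := Finset.card_le_card hsub
      _ ≤ _ := Finset.card_union_le _ _
      _ ≤ d + 1 := add_le_add ih (bad_step K hK (c + d))

end count

/-- (Q5) the averaged kernel is close to `α`. -/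
theorem qKernel (K' : ℕ) (hK' : 1 ≤ K') {α β : ℝ} (hα : 0 ≤ α) (hβ : 0 ≤ β) :
    |(∑ l ∈ Finset.range K', (if 0 < α ∧ 0 < β ∧ qBucket K' l (α ^ 2) = qBucket K' l (β ^ 2)
          then qAmp K' l (qBucket K' l (α ^ 2)) else 0)) / (K' : ℝ) - α|
      ≤ 3 / (2 * (K' : ℝ)) * α + 8 * K' * |α - β| := by
  have hK : (0 : ℝ) < K' := by exact_mod_cast hK'
  have hK1 : (1 : ℝ) ≤ K' := by exact_mod_cast hK'
  have hdiv0 : (0 : ℝ) ≤ 3 / (2 * (K' : ℝ)) := by positivity
  by_cases hα0 : α = 0
  · subst hα0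
    simp only [lt_irrefl, false_and, if_false, Finset.sum_const_zero, zero_div, sub_zero, abs_zero, mul_zero, zero_add]
    positivity
  have hαp : 0 < α := lt_of_le_of_ne hα (Ne.symm hα0)
  by_cases hβ0 : β = 0
  · subst hβ0
    simp only [lt_irrefl, false_and, and_false, if_false, Finset.sum_const_zero, zero_div, zero_sub, abs_neg, sub_zero]
    rw [abs_of_pos hαp]
    have : α ≤ 8 * K' * α := by nlinarith
    have h2 : 0 ≤ 3 / (2 * (K' : ℝ)) * α := by positivity
    linarith
  have hβp : 0 < β := lt_of_le_of_ne hβ (Ne.symm hβ0)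
  -- notation
  set t : ℝ := α ^ 2 with ht
  set τ : ℝ := β ^ 2 with hτ
  have htp : 0 < t := by positivity
  have hτp : 0 < τ := by positivity
  set κ : ℕ → ℝ := fun l => if 0 < α ∧ 0 < β ∧ qBucket K' l t = qBucket K' l τ
          then qAmp K' l (qBucket K' l t) else 0 with hκ
  set bad : Finset ℕ := (range K').filter (fun l => qBucket K' l t ≠ qBucket K' l τ) with hbad
  -- per-offset bound
  have hlogb := logb_le hK'
  have hone : ∀ l ∈ range K', |κ l - α| ≤ α / (2 * K') + (if l ∈ bad then α else 0) := by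
    intro l hl
    have hl' := Finset.mem_range.1 hl
    by_cases h : qBucket K' l t = qBucket K' l τ
    · have hnb : l ∉ bad := by
        simp [hbad, h]
      rw [if_neg hnb, add_zero]
      have hk : κ l = qAmp K' l (qBucket K' l t) := by
        simp only [hκ]; rw [if_pos ⟨hαp, hβp, h⟩]
      rw [hk]
      obtain ⟨b1, b2⟩ := qAmp_bounds K' hK' l hl' htp
      set φ := qAmp K' l (qBucket K' l t) with hφ
      have hφ0 : 0 ≤ φ := qAmp_nonneg _ _ _
      have hle : φ ≤ α := by
        have : φ ^ 2 ≤ α ^ 2 := b1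
        exact abs_le_of_sq_le_sq' this hα |>.2
      have hb := b_gt_one hK'
      set s : ℝ := Real.sqrt (1 + 1 / (K' : ℝ)) with hs
      have hs1 : 1 < s := by
        rw [hs]; exact Real.lt_sqrt_of_sq_lt (by simpa using hb)
      have hss : s ^ 2 = 1 + 1 / (K' : ℝ) := Real.sq_sqrt (by linarith)
      have hαs : α < s * φ := by
        have : α ^ 2 < (s * φ) ^ 2 := by
          rw [mul_pow, hss]; exact b2
        exact lt_of_pow_lt_pow_left₀ 2 (by positivity) this
      have hlogs : 1 - s⁻¹ ≤ Real.log s := Real.one_sub_inv_le_log_of_pos (by linarith)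
      have hlogs2 : Real.log s = Real.log (1 + 1 / (K' : ℝ)) / 2 := by
        rw [hs, Real.log_sqrt (by linarith)]
      have hrat : 1 - s⁻¹ ≤ 1 / (2 * K') := by
        rw [hlogs2] at hlogs
        have : (1 : ℝ) / (2 * K') = (1 / (K' : ℝ)) / 2 := by field_simp
        rw [this]
        linarith
      have hs0 : 0 < s := by linarith
      have : α - φ ≤ α * (1 - s⁻¹) := by
        have : α * s⁻¹ ≤ φ := by
          rw [← div_eq_mul_inv, div_le_iff₀ hs0]; linarith
        linarith
      rw [abs_sub_comm, abs_of_nonneg (by linarith)]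
      calc α - φ ≤ α * (1 - s⁻¹) := this
        _ ≤ α * (1 / (2 * K')) := mul_le_mul_of_nonneg_left hrat hα
        _ = α / (2 * K') := by ring
    · have hb : l ∈ bad := by
        simp only [hbad, Finset.mem_filter]
        exact ⟨hl, h⟩
      rw [if_pos hb]
      have hk : κ l = 0 := by
        simp only [hκ]; rw [if_neg]; tauto
      rw [hk, zero_sub, abs_neg, abs_of_pos hαp]
      have : 0 ≤ α / (2 * K') := by positivity
      linarith
  -- sum
  have hsum : |(∑ l ∈ range K', κ l) - K' * α| ≤ K' * (α / (2 * K')) + bad.card * α := by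
    have h1 : (∑ l ∈ range K', κ l) - K' * α = ∑ l ∈ range K', (κ l - α) := by
      rw [Finset.sum_sub_distrib]; simp
    rw [h1]
    refine le_trans (Finset.abs_sum_le_sum_abs _ _) ?_
    refine le_trans (Finset.sum_le_sum hone) ?_
    rw [Finset.sum_add_distrib]
    have h2 : ∑ l ∈ range K', (α / (2 * K')) = K' * (α / (2 * K')) := by simp
    have h3 : ∑ l ∈ range K', (if l ∈ bad then α else 0) = (bad.card : ℝ) * α := by
      rw [← Finset.sum_filter]
      have : (range K').filter (fun l => l ∈ bad) = bad := by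
        ext l; simp only [Finset.mem_filter, hbad, Finset.mem_range]; tauto
      rw [this]; simp
    rw [h2, h3]
  have hrew : (∑ l ∈ range K', κ l) / (K' : ℝ) - α = ((∑ l ∈ range K', κ l) - K' * α) / K' := by
    field_simp
  have hmain : |(∑ l ∈ range K', κ l) / (K' : ℝ) - α| ≤ α / (2 * K') + bad.card * α / K' := by
    rw [hrew, abs_div, abs_of_pos hK, div_le_iff₀ hK]
    refine le_trans hsum (le_of_eq ?_)
    field_simp
  -- counting the bad offsets
  have hKnat : 0 < K' := hK'
  have hbadK : (bad.card : ℝ) ≤ K' := by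
    have : bad.card ≤ K' := by
      calc bad.card ≤ (range K').card := Finset.card_filter_le _ _
        _ = K' := Finset.card_range _
    exact_mod_cast this
  have hρ := qStep_pos hK'
  set c₁ : ℤ := qCell K' t with hc₁
  set c₂ : ℤ := qCell K' τ with hc₂
  have hmem : ∀ l, l ∈ bad ↔ l ∈ range K' ∧ qBucket K' l t ≠ qBucket K' l τ := fun l => by
    rw [hbad, Finset.mem_filter]
  have e₁ : ∀ l : ℕ, qBucket K' l t = (c₁ + (l : ℤ)) / (K' : ℤ) := fun l => rfl
  have e₂ : ∀ l : ℕ, qBucket K' l τ = (c₂ + (l : ℤ)) / (K' : ℤ) := fun l => rfl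
  have hbadabs : (bad.card : ℝ) ≤ |(c₁ : ℝ) - c₂| := by
    rcases le_total c₁ c₂ with h | h
    · obtain ⟨d, hd⟩ := Int.le.dest h
      have hcount := bad_count K' hKnat c₁ d
      have hbadeq : bad = (range K').filter (fun l : ℕ => (c₁ + (l : ℤ)) / (K' : ℤ) ≠ (c₁ + d + (l : ℤ)) / (K' : ℤ)) := by
        ext l
        rw [hmem, Finset.mem_filter, e₁, e₂, ← hd]
      have : bad.card ≤ d := by rw [hbadeq]; exact hcount
      have h2 : (bad.card : ℝ) ≤ d := by exact_mod_cast this
      have h3 : (c₂ : ℝ) = c₁ + d := by rw [← hd]; push_cast; ring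
      rw [h3, abs_sub_comm]
      have : (c₁ : ℝ) + d - c₁ = d := by ring
      rw [this, abs_of_nonneg (by positivity)]
      exact h2
    · obtain ⟨d, hd⟩ := Int.le.dest h
      have hcount := bad_count K' hKnat c₂ d
      have hbadeq : bad = (range K').filter (fun l : ℕ => (c₂ + (l : ℤ)) / (K' : ℤ) ≠ (c₂ + d + (l : ℤ)) / (K' : ℤ)) := by
        ext l
        rw [hmem, Finset.mem_filter, e₁, e₂, ← hd, ne_comm]
      have : bad.card ≤ d := by rw [hbadeq]; exact hcount
      have h2 : (bad.card : ℝ) ≤ d := by exact_mod_cast this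
      have h3 : (c₁ : ℝ) = c₂ + d := by rw [← hd]; push_cast; ring
      rw [h3]
      have : (c₂ : ℝ) + d - c₂ = d := by ring
      rw [this, abs_of_nonneg (by positivity)]
      exact h2
  have hfloor : |(c₁ : ℝ) - c₂| ≤ |Real.log t - Real.log τ| / qStep K' + 1 := by
    have a1 : (c₁ : ℝ) ≤ Real.log t / qStep K' := Int.floor_le _
    have a2 : Real.log t / qStep K' < c₁ + 1 := Int.lt_floor_add_one _
    have b1 : (c₂ : ℝ) ≤ Real.log τ / qStep K' := Int.floor_le _
    have b2 : Real.log τ / qStep K' < c₂ + 1 := Int.lt_floor_add_one _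
    have e : |Real.log t - Real.log τ| / qStep K' = |Real.log t / qStep K' - Real.log τ / qStep K'| := by
      rw [← sub_div, abs_div, abs_of_pos hρ]
    rw [e, abs_le]
    have h1 := le_abs_self (Real.log t / qStep K' - Real.log τ / qStep K')
    have h2 := neg_abs_le (Real.log t / qStep K' - Real.log τ / qStep K')
    constructor <;> linarith
  have hlogt : Real.log t = 2 * Real.log α := by
    rw [ht, Real.log_pow]; norm_num
  have hlogτ : Real.log τ = 2 * Real.log β := by
    rw [hτ, Real.log_pow]; norm_num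
  -- target for the bad term
  have hgoalbad : bad.card * α / K' ≤ α / K' + 8 * K' * |α - β| := by
    by_cases hsmall : β < α / 2
    · have h1 : bad.card * α / K' ≤ α := by
        rw [div_le_iff₀ hK]
        nlinarith
      have h2 : α ≤ 2 * |α - β| := by
        have := le_abs_self (α - β)
        linarith
      have h3 : 2 * |α - β| ≤ 8 * K' * |α - β| := by
        have := abs_nonneg (α - β)
        nlinarith
      have h4 : 0 ≤ α / K' := by positivity
      linarith
    · rw [not_lt] at hsmall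
      have hlogdiff : |Real.log α - Real.log β| ≤ 2 * |α - β| / α := by
        have hr : 0 ≤ 2 * |α - β| / α := by positivity
        rw [abs_le]
        have e1 : Real.log α - Real.log β = Real.log (α / β) := (Real.log_div hα0 hβ0).symm
        have e2 : Real.log β - Real.log α = Real.log (β / α) := (Real.log_div hβ0 hα0).symm
        have l1 : Real.log (α / β) ≤ α / β - 1 := Real.log_le_sub_one_of_pos (by positivity)
        have l2 : Real.log (β / α) ≤ β / α - 1 := Real.log_le_sub_one_of_pos (by positivity)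
        have u1 : α / β - 1 ≤ 2 * |α - β| / α := by
          have : α / β - 1 = (α - β) / β := by field_simp
          rw [this]
          have h5 : (α - β) / β ≤ |α - β| / β :=
            div_le_div_of_nonneg_right (le_abs_self _) hβp.le
          refine le_trans h5 ?_
          rw [div_le_div_iff₀ hβp hαp]
          have := abs_nonneg (α - β)
          nlinarith
        have u2 : β / α - 1 ≤ 2 * |α - β| / α := by
          have : β / α - 1 = (β - α) / α := by field_simp
          rw [this]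
          apply div_le_div_of_nonneg_right _ hαp.le
          have h5 : β - α ≤ |α - β| := by
            rw [abs_sub_comm]; exact le_abs_self _
          have := abs_nonneg (α - β)
          linarith
        constructor
        · linarith
        · linarith
      have hρK : qStep K' * K' = Real.log (1 + 1 / (K' : ℝ)) := qStep_mul hK'
      have hlb := logb_ge hK'
      have hinv : 1 / (qStep K' * K') ≤ 2 * K' := by
        rw [hρK, div_le_iff₀ (logb_pos hK')]
        have : (1 : ℝ) = 2 * K' * (1 / (2 * K')) := by field_simp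
        calc (1 : ℝ) = 2 * K' * (1 / (2 * K')) := this
          _ ≤ 2 * K' * Real.log (1 + 1 / (K' : ℝ)) := by
            apply mul_le_mul_of_nonneg_left hlb; positivity
      have hbd : (bad.card : ℝ) ≤ |Real.log t - Real.log τ| / qStep K' + 1 := hbadabs.trans hfloor
      have hlogts : |Real.log t - Real.log τ| = 2 * |Real.log α - Real.log β| := by
        rw [hlogt, hlogτ, ← mul_sub, abs_mul]; norm_num
      have step1 : (bad.card : ℝ) * α / K' ≤ (|Real.log t - Real.log τ| / qStep K' + 1) * α / K' := by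
        apply div_le_div_of_nonneg_right _ hK.le
        exact mul_le_mul_of_nonneg_right hbd hα
      have step2 : (|Real.log t - Real.log τ| / qStep K' + 1) * α / K'
          = α / K' + α * |Real.log t - Real.log τ| * (1 / (qStep K' * K')) := by
        field_simp
        ring
      have step3 : α * |Real.log t - Real.log τ| * (1 / (qStep K' * K')) ≤ 8 * K' * |α - β| := by
        have h1 : α * |Real.log t - Real.log τ| ≤ 4 * |α - β| := by
          rw [hlogts]
          have : α * (2 * |Real.log α - Real.log β|) ≤ α * (2 * (2 * |α - β| / α)) := by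
            apply mul_le_mul_of_nonneg_left _ hα
            linarith
          refine le_trans this (le_of_eq ?_)
          field_simp
          ring
        have h0 : 0 ≤ α * |Real.log t - Real.log τ| := by positivity
        calc α * |Real.log t - Real.log τ| * (1 / (qStep K' * K'))
            ≤ α * |Real.log t - Real.log τ| * (2 * K') := mul_le_mul_of_nonneg_left hinv h0
          _ ≤ 4 * |α - β| * (2 * K') := by
              apply mul_le_mul_of_nonneg_right h1; positivity
          _ = 8 * K' * |α - β| := by ring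
      linarith
  -- conclude
  have hfinal : α / (2 * K') + α / K' = 3 / (2 * (K' : ℝ)) * α := by
    field_simp
    ring
  have : |(∑ l ∈ range K', κ l) / (K' : ℝ) - α| ≤ 3 / (2 * (K' : ℝ)) * α + 8 * K' * |α - β| := by
    linarith
  simpa only [hκ] using this

end Crest.Agent.PR
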