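import Crest.Agent.PR.Defs

/-!
# WP Strat: basic facts on `nsq`, `nrm`, `ev`, `wq`, one-play strategies.

No sorry.  Interface (see `PR/Stubs.lean`): `ev_nonneg`, `OneStrat.val_le`, `v_nonneg`, `wq_nonneg`, `wq_le_nsq`,
`wq_sub_le`, `wq_avg_le`, `attempt_strategy`, `combine_components`.
Reusable extras: `nsq_nonneg`, `nrm_nonneg`, `nrm_sq`, `nrm_add_le`, `nrm_sub_comm`, `evC`, `ev_add_left`,
`ev_add_right`, `ev_sum_left`, `ev_sum_right`, `ev_sub_left`, `ev_sub_right`, `ev_one_one`, `ev_reindex`, `evC_prod`, `ev_prod`.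
-/

namespace Crest.Agent.PR

open Crest.MathPhysics.NonlocalGame Matrix
open scoped Kronecker ComplexOrder

section Norms
variable {I : Type} [Fintype I]

lemma nsq_nonneg (v : I → ℂ) : 0 ≤ nsq v := Finset.sum_nonneg fun _ _ => by positivity

lemma nrm_nonneg (v : I → ℂ) : 0 ≤ nrm v := Real.sqrt_nonneg _

lemma nrm_sq (v : I → ℂ) : nrm v ^ 2 = nsq v := Real.sq_sqrt (nsq_nonneg v)

lemma nrm_eq_norm (v : I → ℂ) : nrm v = ‖(WithLp.toLp 2 v : EuclideanSpace ℂ I)‖ := by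
  rw [EuclideanSpace.norm_eq]; simp [nrm, nsq]

lemma nrm_add_le (u v : I → ℂ) : nrm (u + v) ≤ nrm u + nrm v := by
  simp only [nrm_eq_norm, WithLp.toLp_add]
  exact norm_add_le _ _

lemma nrm_sub_comm (u v : I → ℂ) : nrm (u - v) = nrm (v - u) := by
  simp only [nrm_eq_norm]
  rw [WithLp.toLp_sub, WithLp.toLp_sub, norm_sub_rev]

lemma nrm_zero : nrm (0 : I → ℂ) = 0 := by simp [nrm, nsq]

lemma nsq_eq_dotProduct (v : I → ℂ) : ((nsq v : ℝ) : ℂ) = dotProduct (star v) v := by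
  simp only [nsq, dotProduct, Pi.star_apply]
  push_cast
  refine Finset.sum_congr rfl fun i _ => ?_
  rw [RCLike.star_def, Complex.conj_mul']

end Norms

section Ev
variable {I J : Type} [Fintype I] [Fintype J]

/-- the complex number whose real part is `ev` -/
noncomputable def evC (ψ : I × J → ℂ) (M : Matrix I I ℂ) (N : Matrix J J ℂ) : ℂ :=
  dotProduct (star ψ) ((M ⊗ₖ N).mulVec ψ)

lemma ev_eq_re (ψ : I × J → ℂ) (M : Matrix I I ℂ) (N : Matrix J J ℂ) : ev ψ M N = (evC ψ M N).re := rfl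

lemma evC_eq_sum (ψ : I × J → ℂ) (M : Matrix I I ℂ) (N : Matrix J J ℂ) :
    evC ψ M N = ∑ p, star (ψ p) * ∑ q, (M p.1 q.1 * N p.2 q.2) * ψ q := by
  simp only [evC, dotProduct, mulVec, Pi.star_apply, kroneckerMap_apply]

/-- (Strat-1) `ev` of positive operators is nonnegative. -/
theorem evC_nonneg [DecidableEq I] [DecidableEq J]
    (ψ : I × J → ℂ) {M : Matrix I I ℂ} {N : Matrix J J ℂ} (hM : M.PosSemidef) (hN : N.PosSemidef) :
    0 ≤ evC ψ M N := (hM.kronecker hN).dotProduct_mulVec_nonneg ψ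

/-- (Strat-1) `ev` of positive operators is nonnegative. -/
theorem ev_nonneg [DecidableEq I] [DecidableEq J]
    (ψ : I × J → ℂ) {M : Matrix I I ℂ} {N : Matrix J J ℂ} (hM : M.PosSemidef) (hN : N.PosSemidef) :
    0 ≤ ev ψ M N := (Complex.le_def.mp (evC_nonneg ψ hM hN)).1

lemma evC_im_eq_zero [DecidableEq I] [DecidableEq J]
    (ψ : I × J → ℂ) {M : Matrix I I ℂ} {N : Matrix J J ℂ} (hM : M.PosSemidef) (hN : N.PosSemidef) :
    (evC ψ M N).im = 0 := ((Complex.le_def.mp (evC_nonneg ψ hM hN)).2).symm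

lemma evC_eq_ofReal [DecidableEq I] [DecidableEq J]
    (ψ : I × J → ℂ) {M : Matrix I I ℂ} {N : Matrix J J ℂ} (hM : M.PosSemidef) (hN : N.PosSemidef) :
    evC ψ M N = ((ev ψ M N : ℝ) : ℂ) := by
  apply Complex.ext
  · simp [ev_eq_re]
  · simp [evC_im_eq_zero ψ hM hN]

lemma ev_add_left (ψ : I × J → ℂ) (M M' : Matrix I I ℂ) (N : Matrix J J ℂ) :
    ev ψ (M + M') N = ev ψ M N + ev ψ M' N := by
  simp [ev, add_kronecker, add_mulVec, dotProduct_add]

lemma ev_add_right (ψ : I × J → ℂ) (M : Matrix I I ℂ) (N N' : Matrix J J ℂ) :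
    ev ψ M (N + N') = ev ψ M N + ev ψ M N' := by
  simp [ev, kronecker_add, add_mulVec, dotProduct_add]

lemma ev_sub_left (ψ : I × J → ℂ) (M M' : Matrix I I ℂ) (N : Matrix J J ℂ) :
    ev ψ (M - M') N = ev ψ M N - ev ψ M' N := by
  have h : M - M' = M + (-1 : ℝ) • M' := by simp [sub_eq_add_neg]
  have h2 : (M' ⊗ₖ N) = (M' ⊗ₖ N) := rfl
  simp only [ev, sub_eq_add_neg, add_kronecker, add_mulVec, dotProduct_add, Complex.add_re]
  have : ((-M') ⊗ₖ N) = -(M' ⊗ₖ N) := by ext; simp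
  rw [this, neg_mulVec, dotProduct_neg, Complex.neg_re]

lemma ev_sub_right (ψ : I × J → ℂ) (M : Matrix I I ℂ) (N N' : Matrix J J ℂ) :
    ev ψ M (N - N') = ev ψ M N - ev ψ M N' := by
  simp only [ev, sub_eq_add_neg, kronecker_add, add_mulVec, dotProduct_add, Complex.add_re]
  have : (M ⊗ₖ (-N')) = -(M ⊗ₖ N') := by ext; simp
  rw [this, neg_mulVec, dotProduct_neg, Complex.neg_re]

lemma ev_zero_left (ψ : I × J → ℂ) (N : Matrix J J ℂ) : ev ψ (0 : Matrix I I ℂ) N = 0 := by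
  simp [ev, zero_kronecker]

lemma ev_zero_right (ψ : I × J → ℂ) (M : Matrix I I ℂ) : ev ψ M (0 : Matrix J J ℂ) = 0 := by
  simp [ev, kronecker_zero]

lemma ev_sum_left {ι : Type} (s : Finset ι) (ψ : I × J → ℂ) (M : ι → Matrix I I ℂ) (N : Matrix J J ℂ) :
    ev ψ (∑ i ∈ s, M i) N = ∑ i ∈ s, ev ψ (M i) N := by
  classical
  induction s using Finset.induction_on with
  | empty => simp [ev_zero_left]
  | insert a s ha ih => rw [Finset.sum_insert ha, Finset.sum_insert ha, ev_add_left, ih]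

lemma ev_sum_right {ι : Type} (s : Finset ι) (ψ : I × J → ℂ) (M : Matrix I I ℂ) (N : ι → Matrix J J ℂ) :
    ev ψ M (∑ i ∈ s, N i) = ∑ i ∈ s, ev ψ M (N i) := by
  classical
  induction s using Finset.induction_on with
  | empty => simp [ev_zero_right]
  | insert a s ha ih => rw [Finset.sum_insert ha, Finset.sum_insert ha, ev_add_right, ih]

lemma ev_smul_left (c : ℝ) (ψ : I × J → ℂ) (M : Matrix I I ℂ) (N : Matrix J J ℂ) :
    ev ψ (((c : ℝ) : ℂ) • M) N = c * ev ψ M N := by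
  simp [ev, smul_kronecker, smul_mulVec, dotProduct_smul, smul_eq_mul]

lemma ev_smul_right (c : ℝ) (ψ : I × J → ℂ) (M : Matrix I I ℂ) (N : Matrix J J ℂ) :
    ev ψ M (((c : ℝ) : ℂ) • N) = c * ev ψ M N := by
  simp [ev, kronecker_smul, smul_mulVec, dotProduct_smul, smul_eq_mul]

lemma evC_one_one [DecidableEq I] [DecidableEq J] (ψ : I × J → ℂ) :
    evC ψ (1 : Matrix I I ℂ) (1 : Matrix J J ℂ) = ((nsq ψ : ℝ) : ℂ) := by
  rw [evC, one_kronecker_one, one_mulVec, nsq_eq_dotProduct]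

lemma ev_one_one [DecidableEq I] [DecidableEq J] (ψ : I × J → ℂ) :
    ev ψ (1 : Matrix I I ℂ) (1 : Matrix J J ℂ) = nsq ψ := by
  rw [ev_eq_re, evC_one_one, Complex.ofReal_re]

variable {I' J' : Type} [Fintype I'] [Fintype J']

/-- Invariance under relabelling of both tensor factors. -/
lemma evC_reindex (e : I' ≃ I) (f : J' ≃ J) (ψ : I × J → ℂ) (M : Matrix I I ℂ) (N : Matrix J J ℂ) :
    evC (ψ ∘ Prod.map e f) (M.submatrix e e) (N.submatrix f f) = evC ψ M N := by
  rw [evC_eq_sum, evC_eq_sum]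
  refine Fintype.sum_equiv (Equiv.prodCongr e f) _ _ fun p => ?_
  simp only [Function.comp_apply, Equiv.prodCongr_apply]
  congr 1
  refine Fintype.sum_equiv (Equiv.prodCongr e f) _ _ fun q => ?_
  simp [Prod.map]

lemma ev_reindex (e : I' ≃ I) (f : J' ≃ J) (ψ : I × J → ℂ) (M : Matrix I I ℂ) (N : Matrix J J ℂ) :
    ev (ψ ∘ Prod.map e f) (M.submatrix e e) (N.submatrix f f) = ev ψ M N := by
  rw [ev_eq_re, ev_eq_re, evC_reindex]

lemma nsq_comp_equiv {K L : Type} [Fintype K] [Fintype L] (e : L ≃ K) (ψ : K → ℂ) :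
    nsq (ψ ∘ e) = nsq ψ := by
  simp only [nsq, Function.comp_apply]
  exact e.sum_comp fun p => ‖ψ p‖ ^ 2

/-- The tensor product of two states. -/
noncomputable def prodState (Ψ : I × J → ℂ) (φ : I' × J' → ℂ) : (I × I') × (J × J') → ℂ :=
  fun p => Ψ (p.1.1, p.2.1) * φ (p.1.2, p.2.2)

lemma nsq_prodState (Ψ : I × J → ℂ) (φ : I' × J' → ℂ) :
    nsq (prodState Ψ φ) = nsq Ψ * nsq φ := by
  simp only [nsq, prodState]
  rw [Finset.sum_mul_sum, ← Finset.sum_product']
  refine Fintype.sum_equiv (Equiv.prodProdProdComm I I' J J') _ _ fun p => ?_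
  simp [Equiv.prodProdProdComm, norm_mul, mul_pow]

/-- The expectation of a product operator in a product state. -/
lemma evC_prod (Ψ : I × J → ℂ) (φ : I' × J' → ℂ)
    (A : Matrix I I ℂ) (A' : Matrix I' I' ℂ) (B : Matrix J J ℂ) (B' : Matrix J' J' ℂ) :
    evC (prodState Ψ φ) (A ⊗ₖ A') (B ⊗ₖ B') = evC Ψ A B * evC φ A' B' := by
  simp only [evC_eq_sum]
  rw [Finset.sum_mul_sum, ← Finset.sum_product']
  refine Fintype.sum_equiv (Equiv.prodProdProdComm I I' J J') _ _ fun p => ?_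
  simp only [prodState, Equiv.prodProdProdComm, Equiv.coe_fn_mk, kroneckerMap_apply, star_mul']
  rw [mul_mul_mul_comm, Finset.sum_mul_sum, ← Finset.sum_product']
  congr 1
  refine Fintype.sum_equiv (Equiv.prodProdProdComm I I' J J') _ _ fun q => ?_
  simp only [Equiv.prodProdProdComm, Equiv.coe_fn_mk]
  ring

lemma ev_prod [DecidableEq I] [DecidableEq J] [DecidableEq I'] [DecidableEq J']
    (Ψ : I × J → ℂ) (φ : I' × J' → ℂ)
    {A : Matrix I I ℂ} {A' : Matrix I' I' ℂ} {B : Matrix J J ℂ} {B' : Matrix J' J' ℂ}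
    (hA : A.PosSemidef) (hB : B.PosSemidef) :
    ev (prodState Ψ φ) (A ⊗ₖ A') (B ⊗ₖ B') = ev Ψ A B * ev φ A' B' := by
  rw [ev_eq_re, evC_prod, evC_eq_ofReal Ψ hA hB, Complex.re_ofReal_mul, ev_eq_re φ]

end Ev

section Wq
variable {G : Game} {I J : Type} [Fintype I] [Fintype J] [DecidableEq I] [DecidableEq J]
  {Ex : Fin G.nX → Fin G.nA → Matrix I I ℂ} {Ey : Fin G.nY → Fin G.nB → Matrix J J ℂ}

/-- the accepted part of the measurement, as an operator -/
noncomputable def acceptOp (G : Game) (Ex : Fin G.nX → Fin G.nA → Matrix I I ℂ)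
    (Ey : Fin G.nY → Fin G.nB → Matrix J J ℂ) (x : Fin G.nX) (y : Fin G.nY) :
    Matrix (I × J) (I × J) ℂ :=
  ∑ a, ∑ b, if G.accept x y a b = true then Ex x a ⊗ₖ Ey y b else 0

/-- the rejected part of the measurement, as an operator -/
noncomputable def rejectOp (G : Game) (Ex : Fin G.nX → Fin G.nA → Matrix I I ℂ)
    (Ey : Fin G.nY → Fin G.nB → Matrix J J ℂ) (x : Fin G.nX) (y : Fin G.nY) :
    Matrix (I × J) (I × J) ℂ :=
  ∑ a, ∑ b, if G.accept x y a b = true then 0 else Ex x a ⊗ₖ Ey y b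

lemma wq_eq (x : Fin G.nX) (y : Fin G.nY) (K : I × J → ℂ) :
    wq G Ex Ey x y K = (dotProduct (star K) ((acceptOp G Ex Ey x y).mulVec K)).re := by
  simp only [wq, acceptOp, sum_mulVec, dotProduct_sum, Complex.re_sum]
  refine Finset.sum_congr rfl fun a _ => Finset.sum_congr rfl fun b _ => ?_
  split_ifs <;> simp [ev]

lemma acceptOp_add_rejectOp (hEx : ∀ x, IsPOVM (Ex x)) (hEy : ∀ y, IsPOVM (Ey y))
    (x : Fin G.nX) (y : Fin G.nY) : acceptOp G Ex Ey x y + rejectOp G Ex Ey x y = 1 := by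
  have h1 : ∑ a, ∑ b, (Ex x a ⊗ₖ Ey y b) = (1 : Matrix (I × J) (I × J) ℂ) := by
    rw [← one_kronecker_one, ← (hEx x).2, ← (hEy y).2]
    ext p q
    simp only [Matrix.sum_apply, kroneckerMap_apply, Finset.sum_mul, Finset.mul_sum]
    rw [Finset.sum_comm]
  rw [← h1, acceptOp, rejectOp, ← Finset.sum_add_distrib]
  refine Finset.sum_congr rfl fun a _ => ?_
  rw [← Finset.sum_add_distrib]
  refine Finset.sum_congr rfl fun b _ => ?_
  split_ifs <;> simp

lemma acceptOp_posSemidef (hEx : ∀ x, IsPOVM (Ex x)) (hEy : ∀ y, IsPOVM (Ey y))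
    (x : Fin G.nX) (y : Fin G.nY) : (acceptOp G Ex Ey x y).PosSemidef := by
  refine posSemidef_sum _ fun a _ => posSemidef_sum _ fun b _ => ?_
  split_ifs
  · exact ((hEx x).1 a).kronecker ((hEy y).1 b)
  · exact PosSemidef.zero

lemma rejectOp_posSemidef (hEx : ∀ x, IsPOVM (Ex x)) (hEy : ∀ y, IsPOVM (Ey y))
    (x : Fin G.nX) (y : Fin G.nY) : (rejectOp G Ex Ey x y).PosSemidef := by
  refine posSemidef_sum _ fun a _ => posSemidef_sum _ fun b _ => ?_
  split_ifs
  · exact PosSemidef.zero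
  · exact ((hEx x).1 a).kronecker ((hEy y).1 b)

end Wq

section Factor
variable {K : Type} [Fintype K] [DecidableEq K]

open scoped MatrixOrder Matrix.Norms.L2Operator in
lemma exists_factor {W : Matrix K K ℂ} (hW : W.PosSemidef) : ∃ L : Matrix K K ℂ, W = Lᴴ * L := by
  obtain ⟨B, hB⟩ := CStarAlgebra.nonneg_iff_eq_star_mul_self.mp hW.nonneg
  exact ⟨B, by simpa [star_eq_conjTranspose] using hB⟩

lemma qf_factor (L : Matrix K K ℂ) (v : K → ℂ) :
    dotProduct (star v) ((Lᴴ * L).mulVec v) = ((nsq (L.mulVec v) : ℝ) : ℂ) := by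
  rw [nsq_eq_dotProduct, star_mulVec, ← mulVec_mulVec, dotProduct_mulVec]

/-- `‖Lv‖ ≤ ‖v‖` when `LᴴL ≤ 1` -/
lemma nsq_le_of_factor {L : Matrix K K ℂ} (h : (1 - Lᴴ * L).PosSemidef) (v : K → ℂ) :
    nsq (L.mulVec v) ≤ nsq v := by
  have h1 := h.dotProduct_mulVec_nonneg v
  rw [sub_mulVec, one_mulVec, dotProduct_sub, qf_factor, ← nsq_eq_dotProduct] at h1
  have h2 := (Complex.le_def.mp h1).1
  simpa using h2

lemma nsq_smul_sum_le {ι : Type} [Fintype ι] [Nonempty ι] (u : ι → K → ℂ) :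
    nsq (fun p => (Fintype.card ι : ℂ)⁻¹ * ∑ l, u l p) ≤ (Fintype.card ι : ℝ)⁻¹ * ∑ l, nsq (u l) := by
  have hn : (0 : ℝ) < Fintype.card ι := by exact_mod_cast Fintype.card_pos
  simp only [nsq]
  rw [Finset.sum_comm, Finset.mul_sum]
  refine Finset.sum_le_sum fun p _ => ?_
  rw [norm_mul, mul_pow, norm_inv, Complex.norm_natCast]
  have h1 : ‖∑ l, u l p‖ ^ 2 ≤ (Fintype.card ι : ℝ) * ∑ l, ‖u l p‖ ^ 2 := by
    calc ‖∑ l, u l p‖ ^ 2 ≤ (∑ l, ‖u l p‖) ^ 2 := by
          gcongr; exact norm_sum_le _ _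
      _ ≤ _ := by
          have := sq_sum_le_card_mul_sum_sq (s := Finset.univ) (f := fun l => ‖u l p‖)
          simpa using this
  calc ((Fintype.card ι : ℝ)⁻¹) ^ 2 * ‖∑ l, u l p‖ ^ 2
      ≤ ((Fintype.card ι : ℝ)⁻¹) ^ 2 * ((Fintype.card ι : ℝ) * ∑ l, ‖u l p‖ ^ 2) := by gcongr
    _ = _ := by field_simp

lemma mulVec_avg (L : Matrix K K ℂ) {ι : Type} [Fintype ι] (u : ι → K → ℂ) (c : ℂ) :
    L.mulVec (fun p => c * ∑ l, u l p) = fun p => c * ∑ l, (L.mulVec (u l)) p := by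
  ext p
  simp only [mulVec, dotProduct, Finset.mul_sum]
  rw [Finset.sum_comm]
  refine Finset.sum_congr rfl fun l _ => Finset.sum_congr rfl fun q _ => ?_
  ring

end Factor

section WqThm
variable {G : Game} {I J : Type} [Fintype I] [Fintype J] [DecidableEq I] [DecidableEq J]
  {Ex : Fin G.nX → Fin G.nA → Matrix I I ℂ} {Ey : Fin G.nY → Fin G.nB → Matrix J J ℂ}

/-- (Strat-4) -/
theorem wq_nonneg (hEx : ∀ x, IsPOVM (Ex x)) (hEy : ∀ y, IsPOVM (Ey y)) (x y) (K : I × J → ℂ) :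
    0 ≤ wq G Ex Ey x y K := by
  refine Finset.sum_nonneg fun a _ => Finset.sum_nonneg fun b _ => ?_
  split_ifs
  · exact ev_nonneg K ((hEx x).1 a) ((hEy y).1 b)
  · exact le_rfl

/-- the factor of the accepted operator -/
lemma exists_wq_factor (hEx : ∀ x, IsPOVM (Ex x)) (hEy : ∀ y, IsPOVM (Ey y)) (x y) :
    ∃ L : Matrix (I × J) (I × J) ℂ, (∀ K, wq G Ex Ey x y K = nsq (L.mulVec K)) ∧
      ∀ K, nsq (L.mulVec K) ≤ nsq K := by
  obtain ⟨L, hL⟩ := exists_factor (acceptOp_posSemidef hEx hEy x y)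
  have h1 : ∀ K, wq G Ex Ey x y K = nsq (L.mulVec K) := fun K => by
    rw [wq_eq, hL, qf_factor, Complex.ofReal_re]
  refine ⟨L, h1, nsq_le_of_factor ?_⟩
  rw [← hL, ← acceptOp_add_rejectOp hEx hEy x y, add_sub_cancel_left]
  exact rejectOp_posSemidef hEx hEy x y

/-- (Strat-5) -/
theorem wq_le_nsq (hEx : ∀ x, IsPOVM (Ex x)) (hEy : ∀ y, IsPOVM (Ey y)) (x y) (K : I × J → ℂ) :
    wq G Ex Ey x y K ≤ nsq K := by
  obtain ⟨L, h1, h2⟩ := exists_wq_factor hEx hEy x y
  rw [h1]; exact h2 K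

/-- (Strat-6) The quadratic form is Lipschitz: `|⟨K|W|K⟩ - ⟨K'|W|K'⟩| ≤ ‖K-K'‖ (‖K‖+‖K'‖)` for `0 ≤ W ≤ 1`. -/
theorem wq_sub_le (hEx : ∀ x, IsPOVM (Ex x)) (hEy : ∀ y, IsPOVM (Ey y)) (x y) (K K' : I × J → ℂ) :
    wq G Ex Ey x y K ≤ wq G Ex Ey x y K' + nrm (K - K') * (nrm K + nrm K') := by
  obtain ⟨L, h1, h2⟩ := exists_wq_factor hEx hEy x y
  have h3 : ∀ v, nrm (L.mulVec v) ≤ nrm v := fun v => Real.sqrt_le_sqrt (h2 v)
  rw [h1, h1]
  set a := nrm (L.mulVec K) with ha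
  set b := nrm (L.mulVec K') with hb
  have ha0 : 0 ≤ a := nrm_nonneg _
  have hb0 : 0 ≤ b := nrm_nonneg _
  have hd : a - b ≤ nrm (K - K') := by
    have : L.mulVec K = L.mulVec (K - K') + L.mulVec K' := by
      rw [← mulVec_add]; simp
    have h4 : a ≤ nrm (L.mulVec (K - K')) + b := by
      rw [ha, hb]; conv_lhs => rw [this]
      exact nrm_add_le _ _
    linarith [h3 (K - K')]
  have hd0 : 0 ≤ nrm (K - K') := nrm_nonneg _
  have e1 : nsq (L.mulVec K) = a ^ 2 := (nrm_sq _).symm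
  have e2 : nsq (L.mulVec K') = b ^ 2 := (nrm_sq _).symm
  rw [e1, e2]
  have h5 : a + b ≤ nrm K + nrm K' := add_le_add (h3 K) (h3 K')
  nlinarith [mul_le_mul_of_nonneg_right hd (add_nonneg ha0 hb0),
    mul_le_mul_of_nonneg_left h5 hd0]

/-- (Strat-7) convexity: for a finite average. -/
theorem wq_avg_le (hEx : ∀ x, IsPOVM (Ex x)) (hEy : ∀ y, IsPOVM (Ey y)) (x y)
    {ι : Type} [Fintype ι] [Nonempty ι] (K : ι → I × J → ℂ) :
    wq G Ex Ey x y (fun p => (Fintype.card ι : ℂ)⁻¹ * ∑ l, K l p)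
      ≤ (Fintype.card ι : ℝ)⁻¹ * ∑ l, wq G Ex Ey x y (K l) := by
  obtain ⟨L, h1, -⟩ := exists_wq_factor hEx hEy x y
  simp only [h1]
  rw [mulVec_avg]
  exact nsq_smul_sum_le _

end WqThm

section OnePlay

lemma sum_fin1 {α β : Type} [Fintype α] [AddCommMonoid β] (f : α → β) :
    ∑ a : Fin 1 → α, f (a 0) = ∑ a, f a :=
  (Equiv.funUnique (Fin 1) α).sum_comp f

variable {G : Game} {I J : Type} [Fintype I] [Fintype J] [DecidableEq I] [DecidableEq J]

/-- A one-play strategy on arbitrary finite types as a `Strategy G 1 _ _`. -/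
noncomputable def OneStrat.toStrategy (St : OneStrat G I J) :
    Strategy G 1 (Fintype.card I) (Fintype.card J) where
  ψ := St.ψ ∘ Prod.map (Fintype.equivFin I).symm (Fintype.equivFin J).symm
  ψ_norm := by
    have h := nsq_comp_equiv (Equiv.prodCongr (Fintype.equivFin I).symm (Fintype.equivFin J).symm) St.ψ
    rw [St.ψ_norm] at h
    exact h
  M := fun x a => (St.M (x 0) (a 0)).submatrix (Fintype.equivFin I).symm (Fintype.equivFin I).symm
  N := fun y b => (St.N (y 0) (b 0)).submatrix (Fintype.equivFin J).symm (Fintype.equivFin J).symm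
  M_posSemidef := fun x a => ((St.M_povm (x 0)).1 (a 0)).submatrix _
  N_posSemidef := fun y b => ((St.N_povm (y 0)).1 (b 0)).submatrix _
  M_sum := fun x => by
    have h1 : ∀ (A : Fin G.nA → Matrix I I ℂ),
        ∑ a : Fin 1 → Fin G.nA, (A (a 0)).submatrix (Fintype.equivFin I).symm (Fintype.equivFin I).symm
          = (∑ a, A a).submatrix (Fintype.equivFin I).symm (Fintype.equivFin I).symm := fun A => by
      rw [sum_fin1 (fun a => (A a).submatrix (Fintype.equivFin I).symm (Fintype.equivFin I).symm)]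
      ext i j; simp [Matrix.sum_apply]
    rw [h1, (St.M_povm (x 0)).2, submatrix_one_equiv]
  N_sum := fun y => by
    have h1 : ∀ (A : Fin G.nB → Matrix J J ℂ),
        ∑ a : Fin 1 → Fin G.nB, (A (a 0)).submatrix (Fintype.equivFin J).symm (Fintype.equivFin J).symm
          = (∑ a, A a).submatrix (Fintype.equivFin J).symm (Fintype.equivFin J).symm := fun A => by
      rw [sum_fin1 (fun a => (A a).submatrix (Fintype.equivFin J).symm (Fintype.equivFin J).symm)]
      ext i j; simp [Matrix.sum_apply]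
    rw [h1, (St.N_povm (y 0)).2, submatrix_one_equiv]

lemma one_le_wins_iff (x : Fin 1 → Fin G.nX) (y : Fin 1 → Fin G.nY) (a : Fin 1 → Fin G.nA)
    (b : Fin 1 → Fin G.nB) :
    ((1 : ℝ) ≤ (wins G 1 x y a b : ℝ)) ↔ G.accept (x 0) (y 0) (a 0) (b 0) = true := by
  have h : wins G 1 x y a b = if G.accept (x 0) (y 0) (a 0) (b 0) = true then 1 else 0 := by
    simp only [wins, Finset.card_filter, Fin.sum_univ_one]
  rw [h]
  split_ifs with h1
  · simp [h1]
  · simp [h1]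

lemma OneStrat.toStrategy_prob (St : OneStrat G I J) : St.toStrategy.probWinsAtLeast 1 = St.val := by
  simp only [Strategy.probWinsAtLeast, OneStrat.val, wq]
  rw [← sum_fin1 (fun x => ∑ y, G.prob x y * ∑ a, ∑ b,
    if G.accept x y a b = true then ev St.ψ (St.M x a) (St.N y b) else 0)]
  refine Finset.sum_congr rfl fun x _ => ?_
  rw [← sum_fin1 (fun y => G.prob (x 0) y * ∑ a, ∑ b,
    if G.accept (x 0) y a b = true then ev St.ψ (St.M (x 0) a) (St.N y b) else 0)]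
  refine Finset.sum_congr rfl fun y _ => ?_
  rw [Fin.prod_univ_one]
  congr 1
  rw [← sum_fin1 (fun a => ∑ b,
    if G.accept (x 0) (y 0) a b = true then ev St.ψ (St.M (x 0) a) (St.N (y 0) b) else 0)]
  refine Finset.sum_congr rfl fun a _ => ?_
  rw [← sum_fin1 (fun b =>
    if G.accept (x 0) (y 0) (a 0) b = true then ev St.ψ (St.M (x 0) (a 0)) (St.N (y 0) b) else 0)]
  refine Finset.sum_congr rfl fun b _ => ?_
  have h2 : St.toStrategy.answerProb x y a b = ev St.ψ (St.M (x 0) (a 0)) (St.N (y 0) (b 0)) :=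
    ev_reindex (Fintype.equivFin I).symm (Fintype.equivFin J).symm St.ψ _ _
  simp only [one_le_wins_iff, h2]

/-- (Strat-2) every one-play strategy on arbitrary finite types has value at most `v`. -/
theorem OneStrat.val_le {v : ℝ}
    (hv : ∀ (dA dB : ℕ) (S : Strategy G 1 dA dB), S.probWinsAtLeast 1 ≤ v)
    (St : OneStrat G I J) : St.val ≤ v := by
  rw [← St.toStrategy_prob]
  exact hv _ _ _

/-- The trivial measurements on a given state. -/
noncomputable def trivialStrat (G : Game) (hnA : 0 < G.nA) (hnB : 0 < G.nB)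
    (Ψ : I × J → ℂ) (hΨ : nsq Ψ = 1) : OneStrat G I J where
  ψ := Ψ
  ψ_norm := hΨ
  M := fun _ a => if a = ⟨0, hnA⟩ then 1 else 0
  N := fun _ b => if b = ⟨0, hnB⟩ then 1 else 0
  M_povm := fun _ => ⟨fun a => by
    dsimp only
    split_ifs
    · exact PosSemidef.one
    · exact PosSemidef.zero, by simp⟩
  N_povm := fun _ => ⟨fun a => by
    dsimp only
    split_ifs
    · exact PosSemidef.one
    · exact PosSemidef.zero, by simp⟩

lemma OneStrat.val_nonneg (St : OneStrat G I J) : 0 ≤ St.val :=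
  Finset.sum_nonneg fun x _ => Finset.sum_nonneg fun y _ =>
    mul_nonneg (G.prob_nonneg x y) (wq_nonneg St.M_povm St.N_povm x y St.ψ)

/-- (Strat-3) `0 ≤ v` and answers exist as soon as a strategy for `k ≥ 1` exists. -/
theorem v_nonneg {v : ℝ}
    (hv : ∀ (dA dB : ℕ) (S : Strategy G 1 dA dB), S.probWinsAtLeast 1 ≤ v)
    {k dA dB : ℕ} (S : Strategy G k dA dB) (hk : 1 ≤ k) : 0 ≤ v ∧ 0 < G.nA ∧ 0 < G.nB := by
  have hX : 0 < G.nX := by
    by_contra h
    have h0 : G.nX = 0 := by omega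
    have := G.prob_sum
    have h2 : IsEmpty (Fin G.nX) := h0 ▸ inferInstance
    simp at this
  have hY : 0 < G.nY := by
    by_contra h
    have h0 : G.nY = 0 := by omega
    have := G.prob_sum
    have h2 : IsEmpty (Fin G.nY) := h0 ▸ inferInstance
    simp at this
  have hI : Nonempty (Fin dA × Fin dB) := by
    by_contra h
    rw [not_nonempty_iff] at h
    have := S.ψ_norm
    simp at this
  obtain ⟨i0⟩ := hI
  have hk' : Nonempty (Fin k) := ⟨⟨0, hk⟩⟩
  have hA : 0 < G.nA := by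
    by_contra h
    have h0 : G.nA = 0 := by omega
    have h2 : IsEmpty (Fin G.nA) := h0 ▸ inferInstance
    have h3 : IsEmpty (Fin k → Fin G.nA) := inferInstance
    have h4 := S.M_sum (fun _ => ⟨0, hX⟩)
    rw [Finset.sum_of_isEmpty] at h4
    have h5 := congrFun (congrFun h4 i0.1) i0.1
    simp at h5
  have hB : 0 < G.nB := by
    by_contra h
    have h0 : G.nB = 0 := by omega
    have h2 : IsEmpty (Fin G.nB) := h0 ▸ inferInstance
    have h3 : IsEmpty (Fin k → Fin G.nB) := inferInstance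
    have h4 := S.N_sum (fun _ => ⟨0, hY⟩)
    rw [Finset.sum_of_isEmpty] at h4
    have h5 := congrFun (congrFun h4 i0.2) i0.2
    simp at h5
  refine ⟨?_, hA, hB⟩
  have h1 : nsq (fun _ : Unit × Unit => (1 : ℂ)) = 1 := by simp [nsq]
  exact (trivialStrat G hA hB _ h1).val_nonneg.trans (OneStrat.val_le hv _)

end OnePlay

section Attempt
variable {G : Game}

/-- (Strat-8) repeated attempts.  One-shot state `Ψ`, sub-measurements `Ox`, `Oy` (each sums to at most `1`).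
`q x y = ⟨Ψ|(1-Qx)⊗(1-Qy)|Ψ⟩`. Proof by induction on `T`: strategy_{T+1} = copy ⊗ strategy_T,
`M^a = O^a ⊗ 1 + (1-Q) ⊗ M_T^a`, cross terms are nonnegative. -/
theorem attempt_strategy (G : Game) (hnA : 0 < G.nA) (hnB : 0 < G.nB)
    {I J : Type} [Fintype I] [Fintype J] [DecidableEq I] [DecidableEq J]
    (Ψ : I × J → ℂ) (hΨ : nsq Ψ = 1)
    (Ox : Fin G.nX → Fin G.nA → Matrix I I ℂ) (Oy : Fin G.nY → Fin G.nB → Matrix J J ℂ)
    (hOx : ∀ x a, (Ox x a).PosSemidef) (hOy : ∀ y b, (Oy y b).PosSemidef)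
    (hQx : ∀ x, (1 - ∑ a, Ox x a).PosSemidef) (hQy : ∀ y, (1 - ∑ b, Oy y b).PosSemidef)
    (T : ℕ) :
    ∃ (I' J' : Type) (_ : Fintype I') (_ : Fintype J') (_ : DecidableEq I') (_ : DecidableEq J')
      (St : OneStrat G I' J'), ∀ x y a b,
        (∑ t ∈ Finset.range T, (ev Ψ (1 - ∑ a, Ox x a) (1 - ∑ b, Oy y b)) ^ t) * ev Ψ (Ox x a) (Oy y b)
          ≤ ev St.ψ (St.M x a) (St.N y b) := by
  induction T with
  | zero =>
    refine ⟨I, J, inferInstance, inferInstance, inferInstance, inferInstance,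
      trivialStrat G hnA hnB Ψ hΨ, fun x y a b => ?_⟩
    simp only [Finset.range_zero, Finset.sum_empty, zero_mul]
    exact ev_nonneg _ (((trivialStrat G hnA hnB Ψ hΨ).M_povm x).1 a)
      (((trivialStrat G hnA hnB Ψ hΨ).N_povm y).1 b)
  | succ T ih =>
    obtain ⟨I', J', _, _, _, _, St, hSt⟩ := ih
    let St' : OneStrat G (I × I') (J × J') :=
      { ψ := prodState Ψ St.ψ
        ψ_norm := by rw [nsq_prodState, hΨ, St.ψ_norm, one_mul]
        M := fun x a => Ox x a ⊗ₖ (1 : Matrix I' I' ℂ) + (1 - ∑ a, Ox x a) ⊗ₖ St.M x a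
        N := fun y b => Oy y b ⊗ₖ (1 : Matrix J' J' ℂ) + (1 - ∑ b, Oy y b) ⊗ₖ St.N y b
        M_povm := fun x => by
          refine ⟨fun a => ((hOx x a).kronecker PosSemidef.one).add
            ((hQx x).kronecker ((St.M_povm x).1 a)), ?_⟩
          rw [Finset.sum_add_distrib]
          have h1 : ∑ a, Ox x a ⊗ₖ (1 : Matrix I' I' ℂ) = (∑ a, Ox x a) ⊗ₖ (1 : Matrix I' I' ℂ) := by
            ext p q; simp [Matrix.sum_apply, Finset.sum_mul]
          have h2 : ∑ a, (1 - ∑ a, Ox x a) ⊗ₖ St.M x a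
              = (1 - ∑ a, Ox x a) ⊗ₖ (∑ a, St.M x a) := by
            ext p q; simp [Matrix.sum_apply, Finset.mul_sum]
          rw [h1, h2, (St.M_povm x).2, ← add_kronecker, add_sub_cancel, one_kronecker_one]
        N_povm := fun y => by
          refine ⟨fun b => ((hOy y b).kronecker PosSemidef.one).add
            ((hQy y).kronecker ((St.N_povm y).1 b)), ?_⟩
          rw [Finset.sum_add_distrib]
          have h1 : ∑ b, Oy y b ⊗ₖ (1 : Matrix J' J' ℂ) = (∑ b, Oy y b) ⊗ₖ (1 : Matrix J' J' ℂ) := by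
            ext p q; simp [Matrix.sum_apply, Finset.sum_mul]
          have h2 : ∑ b, (1 - ∑ b, Oy y b) ⊗ₖ St.N y b
              = (1 - ∑ b, Oy y b) ⊗ₖ (∑ b, St.N y b) := by
            ext p q; simp [Matrix.sum_apply, Finset.mul_sum]
          rw [h1, h2, (St.N_povm y).2, ← add_kronecker, add_sub_cancel, one_kronecker_one] }
    refine ⟨I × I', J × J', inferInstance, inferInstance, inferInstance, inferInstance, St',
      fun x y a b => ?_⟩
    have e1 : ev St'.ψ (St'.M x a) (St'.N y b)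
        = ev Ψ (Ox x a) (Oy y b) * ev St.ψ 1 1
          + ev Ψ (Ox x a) (1 - ∑ b, Oy y b) * ev St.ψ 1 (St.N y b)
          + (ev Ψ (1 - ∑ a, Ox x a) (Oy y b) * ev St.ψ (St.M x a) 1
            + ev Ψ (1 - ∑ a, Ox x a) (1 - ∑ b, Oy y b) * ev St.ψ (St.M x a) (St.N y b)) := by
      change ev (prodState Ψ St.ψ) (Ox x a ⊗ₖ (1 : Matrix I' I' ℂ) + (1 - ∑ a, Ox x a) ⊗ₖ St.M x a)
        (Oy y b ⊗ₖ (1 : Matrix J' J' ℂ) + (1 - ∑ b, Oy y b) ⊗ₖ St.N y b) = _
      rw [ev_add_left, ev_add_right, ev_add_right, ev_prod _ _ (hOx x a) (hOy y b),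
        ev_prod _ _ (hOx x a) (hQy y), ev_prod _ _ (hQx x) (hOy y b), ev_prod _ _ (hQx x) (hQy y)]
    have hPM := (St.M_povm x).1 a
    have hPN := (St.N_povm y).1 b
    have c1 : ev St.ψ (1 : Matrix I' I' ℂ) (1 : Matrix J' J' ℂ) = 1 := by
      rw [ev_one_one, St.ψ_norm]
    have c2 : 0 ≤ ev Ψ (Ox x a) (1 - ∑ b, Oy y b) * ev St.ψ 1 (St.N y b) :=
      mul_nonneg (ev_nonneg _ (hOx x a) (hQy y)) (ev_nonneg _ PosSemidef.one hPN)
    have c3 : 0 ≤ ev Ψ (1 - ∑ a, Ox x a) (Oy y b) * ev St.ψ (St.M x a) 1 :=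
      mul_nonneg (ev_nonneg _ (hQx x) (hOy y b)) (ev_nonneg _ hPM PosSemidef.one)
    have c4 : 0 ≤ ev Ψ (1 - ∑ a, Ox x a) (1 - ∑ b, Oy y b) := ev_nonneg _ (hQx x) (hQy y)
    have c5 := mul_le_mul_of_nonneg_left (hSt x y a b) c4
    rw [e1, c1, geom_sum_succ]
    nlinarith

end Attempt

section Tensor
variable {ι : Type} [Fintype ι] [DecidableEq ι]

/-- the operator `E` acting on the tensor factor `c` of a tensor power. -/
noncomputable def tensAt {I : Type} [Fintype I] [DecidableEq I] (c : ι) (E : Matrix I I ℂ) :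
    Matrix (ι → I) (ι → I) ℂ :=
  (E ⊗ₖ (1 : Matrix ({j // j ≠ c} → I) ({j // j ≠ c} → I) ℂ)).submatrix
    (Equiv.funSplitAt c I) (Equiv.funSplitAt c I)

lemma tensAt_posSemidef {I : Type} [Fintype I] [DecidableEq I] (c : ι) {E : Matrix I I ℂ}
    (hE : E.PosSemidef) : (tensAt c E).PosSemidef :=
  (hE.kronecker PosSemidef.one).submatrix _

lemma tensAt_sum {I : Type} [Fintype I] [DecidableEq I] (c : ι) {α : Type} [Fintype α]
    (E : α → Matrix I I ℂ) : ∑ a, tensAt c (E a) = tensAt c (∑ a, E a) := by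
  ext p q
  simp [tensAt, Matrix.sum_apply, Finset.sum_mul]

lemma tensAt_one {I : Type} [Fintype I] [DecidableEq I] (c : ι) :
    tensAt c (1 : Matrix I I ℂ) = 1 := by
  rw [tensAt, one_kronecker_one, submatrix_one_equiv]

/-- The tensor product of a family of states. -/
noncomputable def piState {κ I J : Type} [Fintype κ] (u : κ → I × J → ℂ) : (κ → I) × (κ → J) → ℂ :=
  fun p => ∏ c, u c (p.1 c, p.2 c)

lemma nsq_piState {κ I J : Type} [Fintype κ] [DecidableEq κ] [Fintype I] [Fintype J] [DecidableEq I]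
    [DecidableEq J] (u : κ → I × J → ℂ) : nsq (piState u) = ∏ c, nsq (u c) := by
  simp only [nsq, piState, norm_prod]
  rw [Finset.prod_univ_sum]
  simp only [Fintype.piFinset_univ]
  refine (Fintype.sum_equiv (Equiv.arrowProdEquivProdArrow κ (fun _ => I) (fun _ => J)) _ _ fun g => ?_).symm
  rw [Finset.prod_pow]
  rfl

lemma evC_tensAt {I J : Type} [Fintype I] [Fintype J] [DecidableEq I] [DecidableEq J]
    (u : ι → I × J → ℂ) (hu : ∀ c, nsq (u c) = 1) (c : ι) (E : Matrix I I ℂ) (F : Matrix J J ℂ) :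
    evC (piState u) (tensAt c E) (tensAt c F) = evC (u c) E F := by
  set φ : ({j // j ≠ c} → I) × ({j // j ≠ c} → J) → ℂ := piState (fun j : {j // j ≠ c} => u j.1) with hφ
  have h1 : piState u = (prodState (u c) φ) ∘ Prod.map (Equiv.funSplitAt c I) (Equiv.funSplitAt c J) := by
    ext p
    simp only [piState, Function.comp_apply, prodState, hφ, Prod.map]
    rw [Fintype.prod_eq_mul_prod_subtype_ne _ c]
    rfl
  have h2 : nsq φ = 1 := by
    rw [hφ, nsq_piState]
    exact Finset.prod_eq_one fun j _ => hu j.1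
  rw [h1, tensAt, tensAt, evC_reindex, evC_prod, evC_one_one, h2]
  simp

/-- (Strat-9) A family of states `u c` (one per support component) and one pair of measurements: a single strategy
plays `u (lx x)` on questions with `lx x = ly y`.  Tensor product over `ι`. -/
theorem combine_components (G : Game) (lx : Fin G.nX → ι) (ly : Fin G.nY → ι)
    {I J : Type} [Fintype I] [Fintype J] [DecidableEq I] [DecidableEq J]
    (u : ι → I × J → ℂ) (hu : ∀ c, nsq (u c) = 1)
    (Ex : Fin G.nX → Fin G.nA → Matrix I I ℂ) (Ey : Fin G.nY → Fin G.nB → Matrix J J ℂ)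
    (hEx : ∀ x, IsPOVM (Ex x)) (hEy : ∀ y, IsPOVM (Ey y)) :
    ∃ (I' J' : Type) (_ : Fintype I') (_ : Fintype J') (_ : DecidableEq I') (_ : DecidableEq J')
      (St : OneStrat G I' J'), ∀ x y a b, lx x = ly y →
        ev St.ψ (St.M x a) (St.N y b) = ev (u (lx x)) (Ex x a) (Ey y b) := by
  let St : OneStrat G (ι → I) (ι → J) :=
    { ψ := piState u
      ψ_norm := by
        rw [nsq_piState]
        exact Finset.prod_eq_one fun j _ => hu j
      M := fun x a => tensAt (lx x) (Ex x a)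
      N := fun y b => tensAt (ly y) (Ey y b)
      M_povm := fun x => ⟨fun a => tensAt_posSemidef _ ((hEx x).1 a), by
        rw [tensAt_sum, (hEx x).2, tensAt_one]⟩
      N_povm := fun y => ⟨fun b => tensAt_posSemidef _ ((hEy y).1 b), by
        rw [tensAt_sum, (hEy y).2, tensAt_one]⟩ }
  refine ⟨ι → I, ι → J, inferInstance, inferInstance, inferInstance, inferInstance, St, fun x y a b h => ?_⟩
  change ev (piState u) (tensAt (lx x) (Ex x a)) (tensAt (ly y) (Ey y b)) = _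
  rw [← h, ev_eq_re, evC_tensAt u hu, ← ev_eq_re]

end Tensor

end Crest.Agent.PR
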