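import Crest.Agent.PR.Defs
import Crest.Agent.PR.Strat


/-!
# QStack: catalytic bucket measurement (section Q3 of the blueprint of S0536).
-/

namespace Crest.Agent.PR

open Crest.MathPhysics.NonlocalGame Matrix
open scoped Kronecker ComplexOrder

namespace QStack

section Ev
variable {I J I₁ J₁ : Type} [Fintype I] [Fintype J] [Fintype I₁] [Fintype J₁]

/-- conjugation: `ev Ψ (Uᴴ A U) (U'ᴴ B U') = ev ((U⊗U')Ψ) A B` -/
theorem ev_conj (Ψ : I × J → ℂ) (U : Matrix I₁ I ℂ) (U' : Matrix J₁ J ℂ) (A : Matrix I₁ I₁ ℂ)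
    (B : Matrix J₁ J₁ ℂ) :
    ev Ψ (Uᴴ * A * U) (U'ᴴ * B * U') = ev ((U ⊗ₖ U').mulVec Ψ) A B := by
  unfold ev
  have h : (Uᴴ * A * U) ⊗ₖ (U'ᴴ * B * U') = (U ⊗ₖ U')ᴴ * (A ⊗ₖ B) * (U ⊗ₖ U') := by
    rw [Matrix.conjTranspose_kronecker, ← Matrix.mul_kronecker_mul, ← Matrix.mul_kronecker_mul]
  rw [h, Matrix.star_mulVec, ← Matrix.mulVec_mulVec, ← Matrix.mulVec_mulVec,
    Matrix.dotProduct_mulVec]

/-- scaling by a real number -/
theorem ev_smul (c : ℝ) (K : I × J → ℂ) (A : Matrix I I ℂ) (B : Matrix J J ℂ) :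
    ev (fun p => (c : ℂ) * K p) A B = c ^ 2 * ev K A B := by
  unfold ev
  have h1 : (fun p => (c : ℂ) * K p) = (c : ℂ) • K := by ext p; simp
  rw [h1, Matrix.mulVec_smul, star_smul, dotProduct_smul, smul_dotProduct]
  simp only [smul_eq_mul, Complex.star_def, Complex.conj_ofReal]
  rw [← mul_assoc, ← Complex.ofReal_mul, Complex.re_ofReal_mul]
  ring

end Ev

section Block
variable {V L : Type} [Fintype V] [Fintype L] [DecidableEq L]

/-- rearrangement of the sum over blocks -/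
theorem sum_block (f : (V × L) × (V × L) → ℂ) :
    ∑ i, f i = ∑ l₁ : L, ∑ l₂ : L, ∑ p : V × V, f ((p.1, l₁), (p.2, l₂)) := by
  simp only [Fintype.sum_prod_type]
  rw [Finset.sum_comm]
  refine Finset.sum_congr rfl fun l₁ _ => ?_
  calc ∑ v₁ : V, ∑ v₂ : V, ∑ l₂ : L, f ((v₁, l₁), (v₂, l₂))
      = ∑ v₁ : V, ∑ l₂ : L, ∑ v₂ : V, f ((v₁, l₁), (v₂, l₂)) :=
        Finset.sum_congr rfl fun v₁ _ => Finset.sum_comm
    _ = ∑ l₂ : L, ∑ v₁ : V, ∑ v₂ : V, f ((v₁, l₁), (v₂, l₂)) := Finset.sum_comm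

/-- block decomposition over the labels -/
theorem ev_block (X : (V × L) × (V × L) → ℂ) (F E : Matrix V V ℂ) :
    ev X (F ⊗ₖ (1 : Matrix L L ℂ)) (E ⊗ₖ (1 : Matrix L L ℂ))
      = ∑ l₁ : L, ∑ l₂ : L, ev (fun p : V × V => X ((p.1, l₁), (p.2, l₂))) F E := by
  have hblock : ∀ (l₁ l₂ : L) (p : V × V),
      ((F ⊗ₖ (1 : Matrix L L ℂ)) ⊗ₖ (E ⊗ₖ (1 : Matrix L L ℂ))).mulVec X ((p.1, l₁), (p.2, l₂))
        = (F ⊗ₖ E).mulVec (fun p : V × V => X ((p.1, l₁), (p.2, l₂))) p := by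
    intro l₁ l₂ p
    simp only [Matrix.mulVec, dotProduct, Fintype.sum_prod_type, Matrix.kroneckerMap_apply,
      Matrix.one_apply]
    refine Finset.sum_congr rfl fun v₁ _ => ?_
    rw [Finset.sum_eq_single l₁]
    · refine Finset.sum_congr rfl fun v₂ _ => ?_
      rw [Finset.sum_eq_single l₂]
      · simp
      · intro b _ hb; simp [Ne.symm hb]
      · simp
    · intro b _ hb
      simp [Ne.symm hb]
    · simp
  unfold ev
  rw [dotProduct, sum_block, Complex.re_sum]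
  refine Finset.sum_congr rfl fun l₁ _ => ?_
  rw [Complex.re_sum]
  refine Finset.sum_congr rfl fun l₂ _ => ?_
  rw [dotProduct]
  congr 1
  refine Finset.sum_congr rfl fun p _ => ?_
  rw [hblock]
  rfl

end Block

section Diag
variable {I I₁ J₁ : Type} [Fintype I] [DecidableEq I] [Fintype I₁] [Fintype J₁]

/-- the "diagonal" state with real amplitudes -/
def diagVec (w : I → ℝ) : I × I → ℂ := fun p => if p.1 = p.2 then (w p.1 : ℂ) else 0

theorem nsq_diagVec (w : I → ℝ) : nsq (diagVec w) = ∑ i, w i ^ 2 := by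
  unfold nsq diagVec
  rw [Fintype.sum_prod_type]
  refine Finset.sum_congr rfl fun i _ => ?_
  rw [Finset.sum_eq_single i]
  · simp
  · intro b _ hb; simp [Ne.symm hb]
  · simp

theorem mulVec_diagVec (U : Matrix I₁ I ℂ) (U' : Matrix J₁ I ℂ) (w : I → ℝ) (a : I₁) (b : J₁) :
    (U ⊗ₖ U').mulVec (diagVec w) (a, b) = ∑ i, U a i * U' b i * (w i : ℂ) := by
  simp only [Matrix.mulVec, dotProduct, Fintype.sum_prod_type, diagVec, Matrix.kroneckerMap_apply]
  refine Finset.sum_congr rfl fun i _ => ?_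
  rw [Finset.sum_eq_single i]
  · simp
  · intro b _ hb; simp [Ne.symm hb]
  · simp

/-- `ev` on a diagonal state -/
theorem ev_diagVec (w : I → ℝ) (M N : Matrix I I ℂ) :
    ev (diagVec w) M N = ∑ i, ∑ j, w i * w j * (M i j * N i j).re := by
  unfold ev
  have h1 : ∀ i : I × I, (M ⊗ₖ N).mulVec (diagVec w) i = ∑ j, M i.1 j * N i.2 j * (w j : ℂ) := by
    rintro ⟨a, b⟩
    exact mulVec_diagVec M N w a b
  simp only [dotProduct, h1, Fintype.sum_prod_type, Pi.star_apply, diagVec]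
  rw [Complex.re_sum]
  refine Finset.sum_congr rfl fun i _ => ?_
  rw [Finset.sum_eq_single i]
  · simp only [if_true, Complex.star_def, Complex.conj_ofReal]
    rw [Finset.mul_sum, Complex.re_sum]
    refine Finset.sum_congr rfl fun j _ => ?_
    have : (w i : ℂ) * (M i j * N i j * (w j : ℂ)) = ((w i * w j : ℝ) : ℂ) * (M i j * N i j) := by
      push_cast; ring
    rw [this, Complex.re_ofReal_mul]
  · intro b _ hb; simp [Ne.symm hb]
  · simp

end Diag

section KronDiag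
variable {V S : Type} [Fintype V] [DecidableEq V] [Fintype S] [DecidableEq S]

/-- `ev` on a diagonal state of `Kronecker ⊗ diagonal` operators -/
theorem ev_kron_diag (w₀ : S → ℝ) (A B : Matrix V V ℂ) (c c' : S → ℝ) :
    ev (diagVec (fun i : V × S => w₀ i.2))
        (A ⊗ₖ diagonal (fun s => (c s : ℂ))) (B ⊗ₖ diagonal (fun s => (c' s : ℂ)))
      = (∑ v, ∑ v', (A v v' * B v v').re) * ∑ s, w₀ s ^ 2 * c s * c' s := by
  rw [ev_diagVec]
  simp only [Fintype.sum_prod_type, Matrix.kroneckerMap_apply, Matrix.diagonal_apply]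
  have h : ∀ (v v' : V) (s : S),
      ∑ s' : S, w₀ s * w₀ s' * ((A v v' * (if s = s' then (c s : ℂ) else 0)) *
          (B v v' * (if s = s' then (c' s : ℂ) else 0))).re
        = (A v v' * B v v').re * (w₀ s ^ 2 * c s * c' s) := by
    intro v v' s
    rw [Finset.sum_eq_single s]
    · simp only [if_true]
      have : A v v' * (c s : ℂ) * (B v v' * (c' s : ℂ))
          = ((c s * c' s : ℝ) : ℂ) * (A v v' * B v v') := by push_cast; ring
      rw [this, Complex.re_ofReal_mul]; ring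
    · intro b _ hb; simp [Ne.symm hb]
    · simp
  have h2 : ∀ v : V, ∑ s : S, ∑ v' : V, ∑ s' : S, w₀ s * w₀ s' *
        ((A v v' * (if s = s' then (c s : ℂ) else 0)) * (B v v' * (if s = s' then (c' s : ℂ) else 0))).re
      = (∑ v', (A v v' * B v v').re) * ∑ s, w₀ s ^ 2 * c s * c' s := by
    intro v
    rw [Finset.sum_mul_sum, Finset.sum_comm]
    refine Finset.sum_congr rfl fun v' _ => Finset.sum_congr rfl fun s _ => ?_
    exact h v v' s
  rw [Finset.sum_mul]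
  exact Finset.sum_congr rfl fun v _ => h2 v

omit [DecidableEq V] [DecidableEq S] in
theorem sum_reorder {G₁ : Type} [Fintype G₁] (f : V → S → G₁ → G₁ → ℂ) :
    ∑ v, ∑ s, ∑ g, ∑ g', f v s g g' = ∑ g, ∑ g', ∑ v, ∑ s, f v s g g' := by
  calc ∑ v, ∑ s, ∑ g, ∑ g', f v s g g'
      = ∑ v, ∑ g, ∑ s, ∑ g', f v s g g' := Finset.sum_congr rfl fun v _ => Finset.sum_comm
    _ = ∑ g, ∑ v, ∑ s, ∑ g', f v s g g' := Finset.sum_comm
    _ = ∑ g, ∑ v, ∑ g', ∑ s, f v s g g' :=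
        Finset.sum_congr rfl fun g _ => Finset.sum_congr rfl fun v _ => Finset.sum_comm
    _ = ∑ g, ∑ g', ∑ v, ∑ s, f v s g g' := Finset.sum_congr rfl fun g _ => Finset.sum_comm

end KronDiag

section Catalyst

/-- Abstract catalyst (blueprint Q3): partial push maps with amplitudes. -/
structure Cat (𝔾 Lab : Type) [Fintype Lab] (R : ℕ) (n : 𝔾 → ℕ) where
  pu : 𝔾 → Lab → Fin R → Option Lab
  amp : Lab → ℝ
  amp_sum : ∑ l, amp l ^ 2 = 1
  pu_inj : ∀ g l l' r r' t, pu g l r = some t → pu g l' r' = some t → l = l' ∧ r = r'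
  pu_some : ∀ g l r, amp l ≠ 0 → ((pu g l r).isSome = true ↔ (r : ℕ) < n g)
  pu_disj : ∀ g g' l r t, pu g l r = some t → pu g' l r = some t → g = g'
  Int : Finset Lab
  pop : ∀ t ∈ Int, ∀ g, ∃ l r, pu g l r = some t ∧ amp l = Real.sqrt (n g) * amp t

variable {V 𝔾 Lab : Type} [Fintype V] [DecidableEq V] [Fintype 𝔾] [DecidableEq 𝔾]
  [Fintype Lab] [DecidableEq Lab] {R : ℕ} {n : 𝔾 → ℕ}

/-- the push matrix -/
def Pu (C : Cat 𝔾 Lab R n) (g : 𝔾) : Matrix Lab (Fin R × Lab) ℂ :=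
  fun t s => if C.pu g s.2 s.1 = some t then 1 else 0

/-- the acceptance flag -/
def dd (C : Cat 𝔾 Lab R n) (g : 𝔾) (s : Fin R × Lab) : ℝ :=
  if (C.pu g s.2 s.1).isSome = true then 1 else 0

/-- the bucket push operator -/
def Uop (C : Cat 𝔾 Lab R n) (p : 𝔾 → Matrix V V ℂ) : Matrix (V × Lab) (V × (Fin R × Lab)) ℂ :=
  ∑ g, p g ⊗ₖ Pu C g

/-- the acceptance operator -/
def Qop (C : Cat 𝔾 Lab R n) (p : 𝔾 → Matrix V V ℂ) : Matrix (V × (Fin R × Lab)) (V × (Fin R × Lab)) ℂ :=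
  ∑ g, p g ⊗ₖ diagonal (fun s => (dd C g s : ℂ))

/-- the sub-measurement -/
def Oop (C : Cat 𝔾 Lab R n) (p : 𝔾 → Matrix V V ℂ) (A : Matrix V V ℂ) :
    Matrix (V × (Fin R × Lab)) (V × (Fin R × Lab)) ℂ :=
  (Uop C p)ᴴ * (A ⊗ₖ (1 : Matrix Lab Lab ℂ)) * Uop C p

theorem Pu_sq (C : Cat 𝔾 Lab R n) (g : 𝔾) :
    (Pu C g)ᴴ * Pu C g = diagonal (fun s => (dd C g s : ℂ)) := by
  ext s s'
  simp only [Matrix.mul_apply, Matrix.conjTranspose_apply, Pu, Matrix.diagonal_apply, dd]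
  rcases h : C.pu g s.2 s.1 with _ | t
  · by_cases hs : s = s'
    · subst hs; simp [h]
    · simp [hs]
  · rw [Finset.sum_eq_single t]
    · by_cases h' : C.pu g s'.2 s'.1 = some t
      · have := C.pu_inj g _ _ _ _ t h h'
        have hs : s = s' := Prod.ext this.2 this.1
        subst hs; simp [h]
      · have hs : s ≠ s' := by
          rintro rfl; exact h' h
        simp [h', hs]
    · intro b _ hb
      have : (some t : Option Lab) ≠ some b := by simpa using Ne.symm hb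
      simp [this]
    · simp

theorem Uop_sq (C : Cat 𝔾 Lab R n) (p : 𝔾 → Matrix V V ℂ) (hph : ∀ g, (p g).IsHermitian)
    (hpi : ∀ g g', p g * p g' = if g = g' then p g else 0) :
    (Uop C p)ᴴ * Uop C p = Qop C p := by
  unfold Uop Qop
  rw [conjTranspose_sum, Matrix.sum_mul]
  refine Finset.sum_congr rfl fun g _ => ?_
  rw [Matrix.mul_sum, Finset.sum_eq_single g]
  · rw [conjTranspose_kronecker, ← mul_kronecker_mul, (hph g).eq, Pu_sq]
    congr 1
    have := hpi g g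
    simpa using this
  · intro g' _ hg'
    rw [conjTranspose_kronecker, ← mul_kronecker_mul, (hph g).eq]
    have := hpi g g'
    simp only [if_neg (Ne.symm hg')] at this
    have h2 : p g * p g' = 0 := by simpa [Ne.symm hg'] using this
    rw [h2, zero_kronecker]
  · simp

theorem Qop_idem (C : Cat 𝔾 Lab R n) (p : 𝔾 → Matrix V V ℂ)
    (hpi : ∀ g g', p g * p g' = if g = g' then p g else 0) :
    Qop C p * Qop C p = Qop C p := by
  unfold Qop
  rw [Finset.sum_mul_sum]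
  refine Finset.sum_congr rfl fun g _ => ?_
  rw [Finset.sum_eq_single g]
  · rw [← mul_kronecker_mul, hpi, if_pos rfl, diagonal_mul_diagonal]
    congr 2
    ext s
    by_cases h : (C.pu g s.2 s.1).isSome = true <;> simp [dd, h]
  · intro g' _ hg'
    rw [← mul_kronecker_mul, hpi, if_neg (Ne.symm hg'), zero_kronecker]
  · simp

theorem one_sub_Qop_psd (C : Cat 𝔾 Lab R n) (p : 𝔾 → Matrix V V ℂ) (hph : ∀ g, (p g).IsHermitian)
    (hpi : ∀ g g', p g * p g' = if g = g' then p g else 0) :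
    (1 - Qop C p).PosSemidef := by
  have hh : (Qop C p)ᴴ = Qop C p := by
    rw [← Uop_sq C p hph hpi, conjTranspose_mul, conjTranspose_conjTranspose]
  have h1 : (1 - Qop C p) = (1 - Qop C p)ᴴ * (1 - Qop C p) := by
    rw [conjTranspose_sub, conjTranspose_one, hh, mul_sub, sub_mul, sub_mul, Qop_idem C p hpi]
    simp
  rw [h1]
  exact Matrix.posSemidef_conjTranspose_mul_self _

theorem Oop_psd (C : Cat 𝔾 Lab R n) (p : 𝔾 → Matrix V V ℂ) {A : Matrix V V ℂ} (hA : A.PosSemidef) :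
    (Oop C p A).PosSemidef := by
  unfold Oop
  exact (hA.kronecker Matrix.PosSemidef.one).conjTranspose_mul_mul_same _

theorem sum_Oop (C : Cat 𝔾 Lab R n) (p : 𝔾 → Matrix V V ℂ) (hph : ∀ g, (p g).IsHermitian)
    (hpi : ∀ g g', p g * p g' = if g = g' then p g else 0)
    {α : Type} [Fintype α] (F : α → Matrix V V ℂ) (hF : ∑ a, F a = 1) :
    ∑ a, Oop C p (F a) = Qop C p := by
  unfold Oop
  have h1 : ∑ a, (F a ⊗ₖ (1 : Matrix Lab Lab ℂ)) = 1 := by
    have : ∑ a, (F a ⊗ₖ (1 : Matrix Lab Lab ℂ)) = (∑ a, F a) ⊗ₖ (1 : Matrix Lab Lab ℂ) := by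
      ext i j
      simp [Matrix.sum_apply, Finset.sum_mul]
    rw [this, hF, one_kronecker_one]
  rw [← Matrix.sum_mul, ← Matrix.mul_sum, h1, Matrix.mul_one, Uop_sq C p hph hpi]

/-- the key sum over flags and sources -/
theorem cat_c (C : Cat 𝔾 Lab R n) {t : Lab} (ht : t ∈ C.Int) (g g' : 𝔾) :
    ∑ s : Fin R × Lab, Pu C g t s * Pu C g' t s * ((C.amp s.2 : ℝ) : ℂ)
      = if g = g' then ((Real.sqrt (n g) * C.amp t : ℝ) : ℂ) else 0 := by
  by_cases hg : g = g'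
  · subst hg
    obtain ⟨l, r, h1, h2⟩ := C.pop t ht g
    rw [if_pos rfl, Finset.sum_eq_single (r, l)]
    · simp [Pu, h1, h2]
    · rintro ⟨r', l'⟩ _ hne
      have : C.pu g l' r' ≠ some t := by
        intro h'
        have := C.pu_inj g _ _ _ _ t h' h1
        exact hne (Prod.ext this.2 this.1)
      simp [Pu, this]
    · simp
  · rw [if_neg hg]
    refine Finset.sum_eq_zero fun s _ => ?_
    by_cases h1 : C.pu g s.2 s.1 = some t
    · have h2 : C.pu g' s.2 s.1 ≠ some t := fun h2 => hg (C.pu_disj g g' _ _ _ h1 h2)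
      simp [Pu, h2]
    · simp [Pu, h1]

/-- the attempt's post-state at an interior label -/
theorem X_block (C : Cat 𝔾 Lab R n) (p p' : 𝔾 → Matrix V V ℂ) (c : ℝ)
    {t : Lab} (ht : t ∈ C.Int) (v₁ v₂ : V) :
    ((Uop C p) ⊗ₖ (Uop C p')).mulVec
        (diagVec (fun i : V × (Fin R × Lab) => C.amp i.2.2 * c)) ((v₁, t), (v₂, t))
      = ((C.amp t * c : ℝ) : ℂ) * ∑ g, ((Real.sqrt (n g) : ℝ) : ℂ) * ∑ v, p g v₁ v * p' g v₂ v := by
  rw [mulVec_diagVec]
  have hU : ∀ (q : 𝔾 → Matrix V V ℂ) (a : V) (u : V × (Fin R × Lab)),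
      Uop C q (a, t) u = ∑ g, q g a u.1 * Pu C g t u.2 := by
    intro q a u
    simp [Uop, Matrix.sum_apply]
  simp only [hU, Fintype.sum_prod_type (f := fun i : V × (Fin R × Lab) => _)]
  have h1 : ∀ (v : V) (s : Fin R × Lab),
      (∑ g, p g v₁ v * Pu C g t s) * (∑ g, p' g v₂ v * Pu C g t s) * ((C.amp s.2 * c : ℝ) : ℂ)
        = ∑ g, ∑ g', (p g v₁ v * p' g' v₂ v) * (Pu C g t s * Pu C g' t s * ((C.amp s.2 : ℝ) : ℂ)) * (c : ℂ) := by
    intro v s
    rw [Finset.sum_mul_sum, Finset.sum_mul]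
    refine Finset.sum_congr rfl fun g _ => ?_
    rw [Finset.sum_mul]
    refine Finset.sum_congr rfl fun g' _ => ?_
    push_cast; ring
  simp only [h1]
  rw [sum_reorder]
  have h2 : ∀ g g' : 𝔾, ∑ v, ∑ s : Fin R × Lab,
      (p g v₁ v * p' g' v₂ v) * (Pu C g t s * Pu C g' t s * ((C.amp s.2 : ℝ) : ℂ)) * (c : ℂ)
      = (∑ v, p g v₁ v * p' g' v₂ v) * (if g = g' then ((Real.sqrt (n g) * C.amp t : ℝ) : ℂ) else 0) * (c : ℂ) := by
    intro g g'
    rw [← cat_c C ht g g', Finset.sum_mul, Finset.sum_mul]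
    refine Finset.sum_congr rfl fun v _ => ?_
    rw [Finset.mul_sum, Finset.sum_mul]
  simp only [h2]
  rw [Finset.mul_sum]
  refine Finset.sum_congr rfl fun g _ => ?_
  rw [Finset.sum_eq_single g]
  · rw [if_pos rfl]; push_cast; ring
  · intro g' _ hg'; rw [if_neg (Ne.symm hg')]; ring
  · simp

theorem sum_fin_lt (R m : ℕ) : ∑ r : Fin R, (if (r : ℕ) < m then (1 : ℝ) else 0) = ((min R m : ℕ) : ℝ) := by
  rw [Finset.sum_boole, Fin.card_filter_val_lt]

theorem dd_eq (C : Cat 𝔾 Lab R n) (g : 𝔾) {l : Lab} (hl : C.amp l ≠ 0) (r : Fin R) :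
    dd C g (r, l) = if (r : ℕ) < n g then 1 else 0 := by
  have := C.pu_some g l r hl
  by_cases h : (r : ℕ) < n g
  · simp [dd, this, h]
  · simp [dd, this, h]

theorem sum_amp (C : Cat 𝔾 Lab R n) (h : Fin R × Lab → ℝ) (f : Fin R → ℝ)
    (hf : ∀ r l, C.amp l ≠ 0 → h (r, l) = f r) (c : ℝ) :
    ∑ s : Fin R × Lab, (C.amp s.2 * c) ^ 2 * h s = c ^ 2 * ∑ r, f r := by
  rw [Fintype.sum_prod_type, Finset.mul_sum]
  refine Finset.sum_congr rfl fun r _ => ?_
  have : ∀ l : Lab, (C.amp l * c) ^ 2 * h (r, l) = c ^ 2 * f r * C.amp l ^ 2 := by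
    intro l
    by_cases hl : C.amp l = 0
    · simp [hl]
    · rw [hf r l hl]; ring
  simp only [this]
  rw [← Finset.mul_sum, C.amp_sum, mul_one]

section Q
variable (C : Cat 𝔾 Lab R n) (c : ℝ)

/-- the state of one attempt -/
noncomputable def Psi0 : (V × (Fin R × Lab)) × (V × (Fin R × Lab)) → ℂ :=
  diagVec (fun i : V × (Fin R × Lab) => C.amp i.2.2 * c)

theorem nsq_Psi0 : nsq (Psi0 (V := V) C c) = (Fintype.card V : ℝ) * R * c ^ 2 := by
  unfold Psi0
  rw [nsq_diagVec, Fintype.sum_prod_type]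
  have h1 : ∀ v : V, ∑ s : Fin R × Lab, (C.amp s.2 * c) ^ 2 = R * c ^ 2 := by
    intro v
    have := sum_amp C (fun _ => 1) (fun _ => 1) (fun _ _ _ => rfl) c
    simp only [mul_one, Finset.sum_const, Finset.card_univ, Fintype.card_fin, nsmul_eq_mul] at this
    rw [this]; ring
  calc ∑ x : V, ∑ y : Fin R × Lab, (C.amp (x, y).2.2 * c) ^ 2 = ∑ _x : V, ((R : ℝ) * c ^ 2) :=
        Finset.sum_congr rfl fun v _ => h1 v
    _ = (Fintype.card V : ℝ) * R * c ^ 2 := by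
        rw [Finset.sum_const, Finset.card_univ, nsmul_eq_mul, mul_assoc]

theorem one_eq_kron : (1 : Matrix (V × (Fin R × Lab)) (V × (Fin R × Lab)) ℂ)
    = (1 : Matrix V V ℂ) ⊗ₖ diagonal (fun _ : Fin R × Lab => ((1 : ℝ) : ℂ)) := by
  simp

theorem ev_Psi0_kron (A B : Matrix V V ℂ) (c₁ c₂ : Fin R × Lab → ℝ) :
    ev (Psi0 C c) (A ⊗ₖ diagonal (fun s => (c₁ s : ℂ))) (B ⊗ₖ diagonal (fun s => (c₂ s : ℂ)))
      = (∑ v, ∑ v', (A v v' * B v v').re) * ∑ s : Fin R × Lab, (C.amp s.2 * c) ^ 2 * (c₁ s * c₂ s) := by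
  unfold Psi0
  have := ev_kron_diag (V := V) (fun s : Fin R × Lab => C.amp s.2 * c) A B c₁ c₂
  simp only [mul_assoc] at this ⊢
  exact this

/-- the value of `q`, the probability that both sides fail -/
theorem q_formula (hR : ∀ g, n g ≤ R) (p p' : 𝔾 → Matrix V V ℂ) :
    ev (Psi0 C c) (1 - Qop C p) (1 - Qop C p')
      = c ^ 2 * ((Fintype.card V : ℝ) * R
          - (∑ g, (∑ v, ∑ v', (p g v v' * (1 : Matrix V V ℂ) v v').re) * n g
            + ∑ g, (∑ v, ∑ v', ((1 : Matrix V V ℂ) v v' * p' g v v').re) * n g)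
          + ∑ g, ∑ g', (∑ v, ∑ v', (p g v v' * p' g' v v').re) * (min (n g) (n g') : ℕ)) := by
  have hone : ∑ v : V, ∑ v' : V, ((1 : Matrix V V ℂ) v v' * (1 : Matrix V V ℂ) v v').re
      = (Fintype.card V : ℝ) := by
    have : ∀ v : V, ∑ v' : V, ((1 : Matrix V V ℂ) v v' * (1 : Matrix V V ℂ) v v').re = 1 := by
      intro v
      rw [Finset.sum_eq_single v]
      · simp
      · intro b _ hb; simp [Ne.symm hb]
      · simp
    rw [Finset.sum_congr rfl fun v _ => this v]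
    simp
  have hdd : ∀ g g', ∑ s : Fin R × Lab, (C.amp s.2 * c) ^ 2 * (dd C g s * dd C g' s)
      = c ^ 2 * (min (n g) (n g') : ℕ) := by
    intro g g'
    rw [sum_amp C _ (fun r => if (r : ℕ) < min (n g) (n g') then 1 else 0)]
    · rw [sum_fin_lt, min_eq_right (le_trans (min_le_left _ _) (hR g))]
    · intro r l hl
      rw [dd_eq C g hl, dd_eq C g' hl]
      by_cases h1 : (r : ℕ) < n g <;> by_cases h2 : (r : ℕ) < n g' <;> simp [h1, h2]
  have hd1 : ∀ g, ∑ s : Fin R × Lab, (C.amp s.2 * c) ^ 2 * (dd C g s * 1)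
      = c ^ 2 * (n g : ℕ) := by
    intro g
    rw [sum_amp C _ (fun r => if (r : ℕ) < n g then 1 else 0)]
    · rw [sum_fin_lt, min_eq_right (hR g)]
    · intro r l hl
      rw [dd_eq C g hl, mul_one]
  have hd2 : ∀ g, ∑ s : Fin R × Lab, (C.amp s.2 * c) ^ 2 * (1 * dd C g s)
      = c ^ 2 * (n g : ℕ) := by
    intro g
    simp only [one_mul]
    simpa using hd1 g
  have h11 : ∑ s : Fin R × Lab, (C.amp s.2 * c) ^ 2 * ((1 : ℝ) * 1) = c ^ 2 * (R : ℕ) := by
    have := sum_amp C (fun _ => (1 : ℝ) * 1) (fun _ => 1) (fun _ _ _ => by simp) c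
    rw [this]; simp
  have e11 : ev (Psi0 C c) (1 : Matrix (V × (Fin R × Lab)) (V × (Fin R × Lab)) ℂ) 1
      = (Fintype.card V : ℝ) * (c ^ 2 * (R : ℕ)) := by
    rw [one_eq_kron, ev_Psi0_kron, hone, h11]
  have eQ1 : ev (Psi0 C c) (Qop C p) (1 : Matrix (V × (Fin R × Lab)) (V × (Fin R × Lab)) ℂ)
      = ∑ g, (∑ v, ∑ v', (p g v v' * (1 : Matrix V V ℂ) v v').re) * (c ^ 2 * (n g : ℕ)) := by
    unfold Qop
    rw [ev_sum_left, one_eq_kron]
    refine Finset.sum_congr rfl fun g _ => ?_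
    rw [ev_Psi0_kron, hd1]
  have e1Q : ev (Psi0 C c) (1 : Matrix (V × (Fin R × Lab)) (V × (Fin R × Lab)) ℂ) (Qop C p')
      = ∑ g, (∑ v, ∑ v', ((1 : Matrix V V ℂ) v v' * p' g v v').re) * (c ^ 2 * (n g : ℕ)) := by
    unfold Qop
    rw [ev_sum_right, one_eq_kron]
    refine Finset.sum_congr rfl fun g _ => ?_
    rw [ev_Psi0_kron, hd2]
  have eQQ : ev (Psi0 C c) (Qop C p) (Qop C p')
      = ∑ g, ∑ g', (∑ v, ∑ v', (p g v v' * p' g' v v').re) * (c ^ 2 * (min (n g) (n g') : ℕ)) := by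
    unfold Qop
    rw [ev_sum_left]
    refine Finset.sum_congr rfl fun g _ => ?_
    rw [ev_sum_right]
    refine Finset.sum_congr rfl fun g' _ => ?_
    rw [ev_Psi0_kron, hdd]
  rw [ev_sub_left, ev_sub_right, ev_sub_right, e11, eQ1, e1Q, eQQ]
  simp only [mul_add, mul_sub, Finset.mul_sum]
  have a1 : ∀ g, (∑ v, ∑ v', (p g v v' * (1 : Matrix V V ℂ) v v').re) * (c ^ 2 * (n g : ℕ))
      = c ^ 2 * ((∑ v, ∑ v', (p g v v' * (1 : Matrix V V ℂ) v v').re) * (n g : ℕ)) := fun g => by ring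
  have a2 : ∀ g, (∑ v, ∑ v', ((1 : Matrix V V ℂ) v v' * p' g v v').re) * (c ^ 2 * (n g : ℕ))
      = c ^ 2 * ((∑ v, ∑ v', ((1 : Matrix V V ℂ) v v' * p' g v v').re) * (n g : ℕ)) := fun g => by ring
  have a3 : ∀ g g', (∑ v, ∑ v', (p g v v' * p' g' v v').re) * (c ^ 2 * (min (n g) (n g') : ℕ))
      = c ^ 2 * ((∑ v, ∑ v', (p g v v' * p' g' v v').re) * (min (n g) (n g') : ℕ)) := fun g g' => by ring
  simp only [a1, a2, a3]
  ring

/-- lower bound of one attempt through interior labels -/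
theorem ev_O_lower (p p' : 𝔾 → Matrix V V ℂ) {A B : Matrix V V ℂ} (hA : A.PosSemidef) (hB : B.PosSemidef) :
    (∑ t ∈ C.Int, C.amp t ^ 2) * c ^ 2 * ev (vecM (fun v₁ v₂ : V =>
        ∑ g, ((Real.sqrt (n g) : ℝ) : ℂ) * ∑ v, p g v₁ v * p' g v₂ v)) A B
      ≤ ev (Psi0 C c) (Oop C p A) (Oop C p' B) := by
  unfold Oop Psi0
  rw [ev_conj, ev_block]
  set X := ((Uop C p) ⊗ₖ (Uop C p')).mulVec
    (diagVec (fun i : V × (Fin R × Lab) => C.amp i.2.2 * c)) with hX
  set e : Lab → Lab → ℝ := fun l₁ l₂ => ev (fun p : V × V => X ((p.1, l₁), (p.2, l₂))) A B with he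
  have he0 : ∀ l₁ l₂, 0 ≤ e l₁ l₂ := fun l₁ l₂ => ev_nonneg _ hA hB
  have h1 : ∑ l₁, ∑ l₂, e l₁ l₂ ≥ ∑ t ∈ C.Int, e t t := by
    calc ∑ t ∈ C.Int, e t t ≤ ∑ t, e t t :=
          Finset.sum_le_sum_of_subset_of_nonneg (Finset.subset_univ _) (fun i _ _ => he0 i i)
      _ ≤ ∑ l₁, ∑ l₂, e l₁ l₂ := Finset.sum_le_sum fun l₁ _ =>
          Finset.single_le_sum (f := fun l₂ => e l₁ l₂) (fun i _ => he0 l₁ i) (Finset.mem_univ l₁)
  refine le_trans (le_of_eq ?_) h1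
  rw [Finset.sum_mul, Finset.sum_mul]
  refine Finset.sum_congr rfl fun t ht => ?_
  have hXt : (fun q : V × V => X ((q.1, t), (q.2, t))) = fun q : V × V =>
      ((C.amp t * c : ℝ) : ℂ) * vecM (fun v₁ v₂ : V =>
        ∑ g, ((Real.sqrt (n g) : ℝ) : ℂ) * ∑ v, p g v₁ v * p' g v₂ v) q := by
    ext q
    exact X_block C p p' c ht q.1 q.2
  simp only [he]
  rw [hXt, ev_smul]
  ring

end Q

end Catalyst


section Stack

/-- stacks: words over `Fin n` of length at most `M` -/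
abbrev Stk (n M : ℕ) : Type := Σ m : Fin (M + 1), (Fin (m : ℕ) → Fin n)

/-- amplitude of a stack -/
noncomputable def sAmp (n M : ℕ) (s : Stk n M) : ℝ :=
  if (s.1 : ℕ) < M then (Real.sqrt ((M : ℝ) * (n : ℝ) ^ (s.1 : ℕ)))⁻¹ else 0

/-- push -/
def sPush {n M : ℕ} (s : Stk n M) (r : Fin n) (h : (s.1 : ℕ) < M) : Stk n M :=
  ⟨⟨(s.1 : ℕ) + 1, by omega⟩, Fin.cons (α := fun _ => Fin n) r s.2⟩

theorem sPush_inj {n M : ℕ} {s s' : Stk n M} {r r' : Fin n} {h : (s.1 : ℕ) < M} {h' : (s'.1 : ℕ) < M}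
    (e : sPush s r h = sPush s' r' h') : s = s' ∧ r = r' := by
  rcases s with ⟨⟨m, hm⟩, w⟩
  rcases s' with ⟨⟨m', hm'⟩, w'⟩
  simp only [sPush, Sigma.mk.inj_iff, Fin.mk.injEq, Nat.add_right_cancel_iff] at e
  obtain ⟨h1, h2⟩ := e
  subst h1
  have h3 := eq_of_heq h2
  have h4 := (Fin.cons_inj).1 h3
  obtain ⟨rfl, rfl⟩ := h4
  exact ⟨rfl, rfl⟩

theorem sPush_len {n M : ℕ} (s : Stk n M) (r : Fin n) (h : (s.1 : ℕ) < M) :
    ((sPush s r h).1 : ℕ) = (s.1 : ℕ) + 1 := rfl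

theorem sPush_congr {n M : ℕ} {s s' : Stk n M} (e : s = s') (r : Fin n) (h : (s.1 : ℕ) < M) :
    sPush s r h = sPush s' r (e ▸ h) := by
  subst e; rfl

theorem sAmp_sq {n M : ℕ} (hn : 0 < n) (hM : 0 < M) (s : Stk n M) :
    sAmp n M s ^ 2 = if (s.1 : ℕ) < M then ((M : ℝ) * (n : ℝ) ^ (s.1 : ℕ))⁻¹ else 0 := by
  unfold sAmp
  split_ifs with h
  · rw [inv_pow, Real.sq_sqrt (by positivity)]
  · simp

theorem sum_stk {n M : ℕ} (f : ℕ → ℝ) :
    ∑ s : Stk n M, f (s.1 : ℕ) = ∑ m : Fin (M + 1), (n : ℝ) ^ (m : ℕ) * f m := by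
  rw [Fintype.sum_sigma]
  refine Finset.sum_congr rfl fun m _ => ?_
  simp [Finset.sum_const, Finset.card_univ]

theorem sum_sAmp {n M : ℕ} (hn : 0 < n) (hM : 0 < M) : ∑ s : Stk n M, sAmp n M s ^ 2 = 1 := by
  simp only [sAmp_sq hn hM]
  rw [sum_stk (fun m => if m < M then ((M : ℝ) * (n : ℝ) ^ m)⁻¹ else 0)]
  have h : ∀ m : Fin (M + 1), (n : ℝ) ^ (m : ℕ) * (if (m : ℕ) < M then ((M : ℝ) * (n : ℝ) ^ (m : ℕ))⁻¹ else 0)
      = (M : ℝ)⁻¹ * (if (m : ℕ) < M then 1 else 0) := by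
    intro m
    have hn' : (n : ℝ) ^ (m : ℕ) ≠ 0 := by positivity
    split_ifs
    · field_simp
    · simp
  rw [Finset.sum_congr rfl fun m _ => h m, ← Finset.mul_sum, sum_fin_lt, min_eq_right (Nat.le_succ M)]
  have : (M : ℝ) ≠ 0 := by positivity
  field_simp

theorem sum_sAmp_int {n M : ℕ} (hn : 0 < n) (hM : 0 < M) :
    ∑ s ∈ Finset.univ.filter (fun s : Stk n M => 1 ≤ (s.1 : ℕ) ∧ (s.1 : ℕ) < M), sAmp n M s ^ 2
      = 1 - 1 / (M : ℝ) := by
  rw [Finset.sum_filter]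
  simp only [sAmp_sq hn hM]
  have e : ∀ s : Stk n M,
      (if 1 ≤ (s.1 : ℕ) ∧ (s.1 : ℕ) < M then
        (if (s.1 : ℕ) < M then ((M : ℝ) * (n : ℝ) ^ (s.1 : ℕ))⁻¹ else 0) else 0)
      = (if 1 ≤ (s.1 : ℕ) ∧ (s.1 : ℕ) < M then ((M : ℝ) * (n : ℝ) ^ (s.1 : ℕ))⁻¹ else 0) := by
    intro s
    by_cases h : 1 ≤ (s.1 : ℕ) ∧ (s.1 : ℕ) < M
    · simp [h]
    · simp [h]
  rw [Finset.sum_congr rfl fun s _ => e s,
    sum_stk (fun m => if 1 ≤ m ∧ m < M then ((M : ℝ) * (n : ℝ) ^ m)⁻¹ else 0)]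
  have h : ∀ m : Fin (M + 1), (n : ℝ) ^ (m : ℕ) * (if 1 ≤ (m : ℕ) ∧ (m : ℕ) < M then ((M : ℝ) * (n : ℝ) ^ (m : ℕ))⁻¹ else 0)
      = (M : ℝ)⁻¹ * ((if (m : ℕ) < M then 1 else 0) - (if (m : ℕ) < 1 then 1 else 0)) := by
    intro m
    have hn' : (n : ℝ) ^ (m : ℕ) ≠ 0 := by positivity
    by_cases h1 : (m : ℕ) < 1
    · have h2 : (m : ℕ) < M := by omega
      simp [h1, h2]
    · by_cases h2 : (m : ℕ) < M
      · have h3 : 1 ≤ (m : ℕ) ∧ (m : ℕ) < M := ⟨by omega, h2⟩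
        rw [if_pos h3, if_pos h2, if_neg h1]
        field_simp
        simp
      · simp [h1, h2]
  rw [Finset.sum_congr rfl fun m _ => h m, ← Finset.mul_sum, Finset.sum_sub_distrib, sum_fin_lt, sum_fin_lt,
    min_eq_right (Nat.le_succ M), min_eq_right (by omega : 1 ≤ M + 1)]
  have : (M : ℝ) ≠ 0 := by positivity
  field_simp
  simp

theorem sqrt_aux {A n : ℝ} (hA : 0 < A) (hn : 0 < n) :
    (Real.sqrt A)⁻¹ = Real.sqrt n * (Real.sqrt (A * n))⁻¹ := by
  rw [Real.sqrt_mul hA.le, mul_inv]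
  have h1 : Real.sqrt n ≠ 0 := (Real.sqrt_pos.2 hn).ne'
  have h2 : Real.sqrt A ≠ 0 := (Real.sqrt_pos.2 hA).ne'
  field_simp

/-- pop -/
theorem sPop {n M : ℕ} (hn : 0 < n) (hM : 0 < M) (s : Stk n M) (h1 : 1 ≤ (s.1 : ℕ)) (h2 : (s.1 : ℕ) < M) :
    ∃ (a : Stk n M) (r : Fin n) (ha : (a.1 : ℕ) < M), sPush a r ha = s ∧
      sAmp n M a = Real.sqrt n * sAmp n M s := by
  rcases s with ⟨⟨m, hm⟩, w⟩
  cases m with
  | zero => simp at h1
  | succ m₀ =>
    simp only at h2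
    refine ⟨⟨⟨m₀, by omega⟩, Fin.tail w⟩, w 0, by simp; omega, ?_, ?_⟩
    · simp only [sPush]
      congr 1
      exact Fin.cons_self_tail w
    · simp only [sAmp, h2, if_true]
      have h3 : m₀ < M := by omega
      simp only [h3, if_true]
      have hn' : (0 : ℝ) < n := by positivity
      have hM' : (0 : ℝ) < M := by positivity
      have e : (M : ℝ) * (n : ℝ) ^ (m₀ + 1) = ((M : ℝ) * (n : ℝ) ^ m₀) * n := by ring
      rw [e]
      have hA : (0 : ℝ) < (M : ℝ) * (n : ℝ) ^ m₀ := by positivity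
      exact sqrt_aux hA hn'

variable {𝔾 : Type} [Fintype 𝔾] [DecidableEq 𝔾]

/-- The stack catalyst. -/
noncomputable def stackCat (n : 𝔾 → ℕ) (hn : ∀ g, 0 < n g) (M : ℕ) (hM : 0 < M) (R : ℕ) (hR : ∀ g, n g ≤ R) :
    Cat 𝔾 ((g : 𝔾) → Stk (n g) M) R n where
  pu g l r := if h : (r : ℕ) < n g ∧ ((l g).1 : ℕ) < M then
    some (Function.update l g (sPush (l g) ⟨r, h.1⟩ h.2)) else none
  amp l := ∏ g, sAmp (n g) M (l g)
  amp_sum := by
    have h : ∀ l : (g : 𝔾) → Stk (n g) M, (∏ g, sAmp (n g) M (l g)) ^ 2 = ∏ g, sAmp (n g) M (l g) ^ 2 :=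
      fun l => (Finset.prod_pow _ _ _).symm
    simp only [h]
    have := Finset.prod_univ_sum (fun g : 𝔾 => (Finset.univ : Finset (Stk (n g) M)))
      (fun g s => sAmp (n g) M s ^ 2)
    rw [Fintype.piFinset_univ] at this
    rw [← this]
    exact Finset.prod_eq_one fun g _ => sum_sAmp (hn g) hM
  pu_inj := by
    intro g l l' r r' t h1 h2
    by_cases A : (r : ℕ) < n g ∧ ((l g).1 : ℕ) < M
    · by_cases B : (r' : ℕ) < n g ∧ ((l' g).1 : ℕ) < M
      · rw [dif_pos A] at h1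
        rw [dif_pos B] at h2
        have h1' := Option.some.inj h1
        have h2' := Option.some.inj h2
        have hk := h1'.trans h2'.symm
        have hg := congrFun hk g
        rw [Function.update_self, Function.update_self] at hg
        obtain ⟨e1, e2⟩ := sPush_inj hg
        constructor
        · funext h
          by_cases hh : h = g
          · subst hh; exact e1
          · have := congrFun hk h
            rwa [Function.update_of_ne hh, Function.update_of_ne hh] at this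
        · exact Fin.ext (by simpa using congrArg Fin.val e2)
      · rw [dif_neg B] at h2; simp at h2
    · rw [dif_neg A] at h1; simp at h1
  pu_some := by
    intro g l r hl
    have hl' : sAmp (n g) M (l g) ≠ 0 := (Finset.prod_ne_zero_iff.1 hl) g (Finset.mem_univ g)
    have hlen : ((l g).1 : ℕ) < M := by
      by_contra hc
      exact hl' (by simp [sAmp, hc])
    by_cases h : (r : ℕ) < n g
    · simp [h, hlen]
    · simp [h]
  pu_disj := by
    intro g g' l r t h1 h2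
    by_contra hne
    by_cases A : (r : ℕ) < n g ∧ ((l g).1 : ℕ) < M
    · by_cases B : (r : ℕ) < n g' ∧ ((l g').1 : ℕ) < M
      · rw [dif_pos A] at h1
        rw [dif_pos B] at h2
        have hk := (Option.some.inj h1).trans (Option.some.inj h2).symm
        have hg := congrFun hk g
        rw [Function.update_self, Function.update_of_ne hne] at hg
        have := congrArg (fun s => ((Sigma.fst s : Fin (M + 1)) : ℕ)) hg
        simp only [sPush_len] at this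
        omega
      · rw [dif_neg B] at h2; simp at h2
    · rw [dif_neg A] at h1; simp at h1
  Int := Fintype.piFinset fun g => Finset.univ.filter (fun s : Stk (n g) M => 1 ≤ (s.1 : ℕ) ∧ (s.1 : ℕ) < M)
  pop := by
    intro t ht g
    have hg := (Fintype.mem_piFinset.1 ht) g
    simp only [Finset.mem_filter, Finset.mem_univ, true_and] at hg
    obtain ⟨a, r, ha, h1, h2⟩ := sPop (hn g) hM (t g) hg.1 hg.2
    refine ⟨Function.update t g a, ⟨r, lt_of_lt_of_le r.2 (hR g)⟩, ?_, ?_⟩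
    · have hu : Function.update t g a g = a := Function.update_self _ _ _
      have A : ((⟨r, lt_of_lt_of_le r.2 (hR g)⟩ : Fin R) : ℕ) < n g ∧
          ((Function.update t g a g).1 : ℕ) < M := ⟨r.2, by rw [hu]; exact ha⟩
      rw [dif_pos A]
      congr 1
      funext h
      by_cases hh : h = g
      · subst hh
        rw [Function.update_self, sPush_congr hu]
        exact h1
      · rw [Function.update_of_ne hh, Function.update_of_ne hh]
    · rw [← Finset.mul_prod_erase Finset.univ _ (Finset.mem_univ g),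
        ← Finset.mul_prod_erase Finset.univ (fun h => sAmp (n h) M (t h)) (Finset.mem_univ g)]
      rw [Function.update_self, h2, mul_assoc]
      congr 2
      refine Finset.prod_congr rfl fun h hh => ?_
      rw [Function.update_of_ne (Finset.ne_of_mem_erase hh)]

theorem stackCat_mass (n : 𝔾 → ℕ) (hn : ∀ g, 0 < n g) (M : ℕ) (hM : 0 < M) (R : ℕ) (hR : ∀ g, n g ≤ R) :
    ∑ t ∈ (stackCat n hn M hM R hR).Int, (stackCat n hn M hM R hR).amp t ^ 2
      = (1 - 1 / (M : ℝ)) ^ Fintype.card 𝔾 := by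
  have h : ∀ l : (g : 𝔾) → Stk (n g) M, (stackCat n hn M hM R hR).amp l ^ 2 = ∏ g, sAmp (n g) M (l g) ^ 2 :=
    fun l => (Finset.prod_pow _ _ _).symm
  simp only [h]
  have := Finset.prod_univ_sum
    (fun g : 𝔾 => Finset.univ.filter (fun s : Stk (n g) M => 1 ≤ (s.1 : ℕ) ∧ (s.1 : ℕ) < M))
    (fun g s => sAmp (n g) M s ^ 2)
  change ∑ t ∈ Fintype.piFinset _, _ = _
  rw [← this, Finset.prod_congr rfl fun g _ => sum_sAmp_int (hn g) hM]
  simp [Finset.card_univ]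

end Stack

section Main

variable {V : Type} [Fintype V] [DecidableEq V]

theorem tr1 (A : Matrix V V ℂ) :
    ∑ v, ∑ v', (A v v' * (1 : Matrix V V ℂ) v v').re = A.trace.re := by
  rw [Matrix.trace, Complex.re_sum]
  refine Finset.sum_congr rfl fun v _ => ?_
  rw [Finset.sum_eq_single v]
  · simp
  · intro b _ hb; simp [Ne.symm hb]
  · simp

theorem tr2 (B : Matrix V V ℂ) :
    ∑ v, ∑ v', ((1 : Matrix V V ℂ) v v' * Bᵀ v v').re = B.trace.re := by
  rw [Matrix.trace, Complex.re_sum]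
  refine Finset.sum_congr rfl fun v _ => ?_
  rw [Finset.sum_eq_single v]
  · simp
  · intro b _ hb; simp [Ne.symm hb]
  · simp

theorem tr3 (A B : Matrix V V ℂ) :
    ∑ v, ∑ v', (A v v' * Bᵀ v v').re = (A * B).trace.re := by
  rw [Matrix.trace, Complex.re_sum]
  refine Finset.sum_congr rfl fun v _ => ?_
  rw [Matrix.diag_apply, Matrix.mul_apply, Complex.re_sum]
  rfl

end Main

/-- The abstract catalyst gives a strategy, with the explicit failure probability `q`. -/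
theorem cat_strategy (G : Game) (hnA : 0 < G.nA) (hnB : 0 < G.nB)
    {V : Type} [Fintype V] [DecidableEq V] [Nonempty V]
    {𝔾 Lab : Type} [Fintype 𝔾] [DecidableEq 𝔾] [Fintype Lab] [DecidableEq Lab] {R : ℕ} {n : 𝔾 → ℕ}
    (C : Cat 𝔾 Lab R n) (hR : ∀ g, n g ≤ R) (hR0 : 0 < R)
    (P : Fin G.nX → 𝔾 → Matrix V V ℂ) (P' : Fin G.nY → 𝔾 → Matrix V V ℂ)
    (hPh : ∀ x g, (P x g).IsHermitian) (hPi : ∀ x g g', P x g * P x g' = if g = g' then P x g else 0)
    (hP'h : ∀ y g, (P' y g).IsHermitian) (hP'i : ∀ y g g', P' y g * P' y g' = if g = g' then P' y g else 0)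
    (F : Fin G.nX → Fin G.nA → Matrix V V ℂ) (E : Fin G.nY → Fin G.nB → Matrix V V ℂ)
    (hF : ∀ x, IsPOVM (F x)) (hE : ∀ y, IsPOVM (E y))
    (Nn : Fin G.nX → Fin G.nY → ℝ)
    (hNn : ∀ x y, Nn x y = ∑ g, (n g : ℝ) * ((P x g).trace.re + (P' y g).trace.re)
          - ∑ g, ∑ g', (min (n g) (n g') : ℝ) * (P x g * P' y g').trace.re)
    (ε : ℝ) (hε : 0 < ε) :
    ∃ (T : ℕ) (I' J' : Type) (_ : Fintype I') (_ : Fintype J') (_ : DecidableEq I') (_ : DecidableEq J')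
      (St : OneStrat G I' J') (q : Fin G.nX → Fin G.nY → ℝ),
      (∀ x y, 0 ≤ q x y) ∧
      (∀ x y, 0 < Nn x y → q x y ^ T ≤ ε) ∧
      (∀ x y, q x y = 1 - Nn x y / ((Fintype.card V : ℝ) * R)) ∧
      ∀ x y a b,
        (∑ t ∈ Finset.range T, q x y ^ t) *
          ((∑ t ∈ C.Int, C.amp t ^ 2) * (1 / ((Fintype.card V : ℝ) * R)) *
            ev (vecM (∑ g, ((Real.sqrt (n g) : ℝ) : ℂ) • (P x g * P' y g))) (F x a) (E y b))
          ≤ ev St.ψ (St.M x a) (St.N y b) := by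
  classical
  have hD : (0 : ℝ) < (Fintype.card V : ℝ) := by
    exact_mod_cast Fintype.card_pos
  have hRr : (0 : ℝ) < (R : ℝ) := by exact_mod_cast hR0
  have hDR : (0 : ℝ) < (Fintype.card V : ℝ) * R := mul_pos hD hRr
  set c : ℝ := (Real.sqrt ((Fintype.card V : ℝ) * R))⁻¹ with hc
  have hc2 : c ^ 2 = 1 / ((Fintype.card V : ℝ) * R) := by
    rw [hc, inv_pow, Real.sq_sqrt hDR.le, one_div]
  set Ψ := Psi0 (V := V) C c with hΨ
  have hΨ1 : nsq Ψ = 1 := by
    rw [hΨ, nsq_Psi0, hc2]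
    field_simp
  set pt : Fin G.nY → 𝔾 → Matrix V V ℂ := fun y g => (P' y g)ᵀ with hpt
  have hpth : ∀ y g, (pt y g).IsHermitian := by
    intro y g
    ext i j
    rw [conjTranspose_apply]
    simp only [hpt, transpose_apply]
    exact (hP'h y g).apply j i
  have hpti : ∀ y g g', pt y g * pt y g' = if g = g' then pt y g else 0 := by
    intro y g g'
    simp only [hpt]
    rw [← transpose_mul, hP'i y g' g]
    by_cases h : g = g'
    · subst h; simp
    · rw [if_neg (Ne.symm h), if_neg h, transpose_zero]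
  set Ox : Fin G.nX → Fin G.nA → Matrix (V × (Fin R × Lab)) (V × (Fin R × Lab)) ℂ :=
    fun x a => Oop C (P x) (F x a) with hOxd
  set Oy : Fin G.nY → Fin G.nB → Matrix (V × (Fin R × Lab)) (V × (Fin R × Lab)) ℂ :=
    fun y b => Oop C (pt y) (E y b) with hOyd
  have hOx : ∀ x a, (Ox x a).PosSemidef := fun x a => Oop_psd C _ ((hF x).1 a)
  have hOy : ∀ y b, (Oy y b).PosSemidef := fun y b => Oop_psd C _ ((hE y).1 b)
  have hsx : ∀ x, ∑ a, Ox x a = Qop C (P x) := fun x => sum_Oop C (P x) (hPh x) (hPi x) (F x) (hF x).2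
  have hsy : ∀ y, ∑ b, Oy y b = Qop C (pt y) := fun y => sum_Oop C (pt y) (hpth y) (hpti y) (E y) (hE y).2
  have hQx : ∀ x, (1 - ∑ a, Ox x a).PosSemidef := fun x => by
    rw [hsx]; exact one_sub_Qop_psd C (P x) (hPh x) (hPi x)
  have hQy : ∀ y, (1 - ∑ b, Oy y b).PosSemidef := fun y => by
    rw [hsy]; exact one_sub_Qop_psd C (pt y) (hpth y) (hpti y)
  set q : Fin G.nX → Fin G.nY → ℝ := fun x y => ev Ψ (1 - ∑ a, Ox x a) (1 - ∑ b, Oy y b) with hqd
  have hq0 : ∀ x y, 0 ≤ q x y := fun x y => ev_nonneg _ (hQx x) (hQy y)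
  have hqf : ∀ x y, q x y = 1 - Nn x y / ((Fintype.card V : ℝ) * R) := by
    intro x y
    simp only [hqd]
    rw [hsx, hsy, hΨ, q_formula C c hR (P x) (pt y), hc2, hNn]
    simp only [hpt, tr1, tr2, tr3]
    have e1 : ∑ g, (n g : ℝ) * ((P x g).trace.re + (P' y g).trace.re)
        = ∑ g, (P x g).trace.re * (n g : ℝ) + ∑ g, (P' y g).trace.re * (n g : ℝ) := by
      rw [← Finset.sum_add_distrib]
      exact Finset.sum_congr rfl fun g _ => by ring
    have e2 : ∑ g, ∑ g', (min (n g) (n g') : ℝ) * (P x g * P' y g').trace.re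
        = ∑ g, ∑ g', (P x g * P' y g').trace.re * ((min (n g) (n g') : ℕ) : ℝ) := by
      refine Finset.sum_congr rfl fun g _ => Finset.sum_congr rfl fun g' _ => ?_
      rw [Nat.cast_min]; ring
    rw [e1, e2]
    field_simp
    ring
  have hT : ∀ᶠ T : ℕ in Filter.atTop, ∀ x y, 0 < Nn x y → q x y ^ T ≤ ε := by
    rw [Filter.eventually_all]
    intro x
    rw [Filter.eventually_all]
    intro y
    by_cases h : 0 < Nn x y
    · have h1 : q x y < 1 := by
        rw [hqf]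
        have : 0 < Nn x y / ((Fintype.card V : ℝ) * R) := div_pos h hDR
        linarith
      have := tendsto_pow_atTop_nhds_zero_of_lt_one (hq0 x y) h1
      filter_upwards [this.eventually_le_const hε] with T hT _ using hT
    · filter_upwards with T h'
      exact absurd h' h
  obtain ⟨T, hT⟩ := hT.exists
  obtain ⟨I', J', i1, i2, i3, i4, St, hSt⟩ := attempt_strategy G hnA hnB Ψ hΨ1 Ox Oy hOx hOy hQx hQy T
  refine ⟨T, I', J', i1, i2, i3, i4, St, q, hq0, hT, hqf, ?_⟩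
  intro x y a b
  have low := ev_O_lower C c (P x) (pt y) ((hF x).1 a) ((hE y).1 b)
  have hΓ : (fun v₁ v₂ : V => ∑ g, ((Real.sqrt (n g) : ℝ) : ℂ) * ∑ v, P x g v₁ v * pt y g v₂ v)
      = ∑ g, ((Real.sqrt (n g) : ℝ) : ℂ) • (P x g * P' y g) := by
    ext v₁ v₂
    simp [Matrix.sum_apply, Matrix.smul_apply, Matrix.mul_apply, hpt]
  rw [show vecM (fun v₁ v₂ : V => ∑ g, ((Real.sqrt (n g) : ℝ) : ℂ) * ∑ v, P x g v₁ v * pt y g v₂ v)
      = vecM (∑ g, ((Real.sqrt (n g) : ℝ) : ℂ) • (P x g * P' y g)) by rw [← hΓ], hc2] at low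
  have hS : 0 ≤ ∑ t ∈ Finset.range T, q x y ^ t :=
    Finset.sum_nonneg fun t _ => pow_nonneg (hq0 x y) t
  calc _ ≤ (∑ t ∈ Finset.range T, q x y ^ t) * ev Ψ (Ox x a) (Oy y b) :=
        mul_le_mul_of_nonneg_left low hS
    _ ≤ _ := hSt x y a b

end QStack

/-- (Q3) catalytic bucket measurement + repeated attempts. `Γ = ∑_g √n_g P_x^g P'_y^g`;
`Nn = ∑_g n_g (tr P_x^g + tr P'_y^g) - ∑_{g,g'} min(n_g,n_g') tr(P_x^g P'_y^g')`. -/
theorem catalyst_strategy (G : Game) (hnA : 0 < G.nA) (hnB : 0 < G.nB)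
    {V : Type} [Fintype V] [DecidableEq V] [Nonempty V]
    {𝔾 : Type} [Fintype 𝔾] [DecidableEq 𝔾] (n : 𝔾 → ℕ) (hn : ∀ g, 0 < n g)
    (P : Fin G.nX → 𝔾 → Matrix V V ℂ) (P' : Fin G.nY → 𝔾 → Matrix V V ℂ)
    (hPh : ∀ x g, (P x g).IsHermitian) (hPi : ∀ x g g', P x g * P x g' = if g = g' then P x g else 0)
    (hP'h : ∀ y g, (P' y g).IsHermitian) (hP'i : ∀ y g g', P' y g * P' y g' = if g = g' then P' y g else 0)
    (F : Fin G.nX → Fin G.nA → Matrix V V ℂ) (E : Fin G.nY → Fin G.nB → Matrix V V ℂ)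
    (hF : ∀ x, IsPOVM (F x)) (hE : ∀ y, IsPOVM (E y)) (τ : ℝ) (hτ : 0 < τ) :
    ∃ (I' J' : Type) (_ : Fintype I') (_ : Fintype J') (_ : DecidableEq I') (_ : DecidableEq J')
      (St : OneStrat G I' J'), ∀ x y a b,
        let Γ : Matrix V V ℂ := ∑ g, ((Real.sqrt (n g) : ℝ) : ℂ) • (P x g * P' y g)
        let Nn : ℝ := ∑ g, (n g : ℝ) * ((P x g).trace.re + (P' y g).trace.re)
          - ∑ g, ∑ g', (min (n g) (n g') : ℝ) * (P x g * P' y g').trace.re
        0 < Nn → (1 - τ) * ev (vecM Γ) (F x a) (E y b) / Nn ≤ ev St.ψ (St.M x a) (St.N y b) := by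
  classical
  open QStack in
  set τ' : ℝ := min τ 1 with hτ'
  have hτ'0 : 0 < τ' := lt_min hτ one_pos
  have hτ'1 : τ' ≤ 1 := min_le_right _ _
  have hτ'τ : τ' ≤ τ := min_le_left _ _
  set ε : ℝ := τ' / 2 with hε
  have hε0 : 0 < ε := by positivity
  have hε1 : ε ≤ 1 / 2 := by rw [hε]; linarith
  -- the stack height
  obtain ⟨M, hM, hmass⟩ : ∃ M : ℕ, 0 < M ∧ 1 - ε ≤ (1 - 1 / (M : ℝ)) ^ Fintype.card 𝔾 := by
    obtain ⟨M, hM⟩ := exists_nat_gt ((Fintype.card 𝔾 : ℝ) / ε + 1)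
    have hM1 : (1 : ℝ) < M := by
      have : 0 ≤ (Fintype.card 𝔾 : ℝ) / ε := by positivity
      linarith
    have hM0 : (0 : ℝ) < M := by linarith
    refine ⟨M, by exact_mod_cast hM0, ?_⟩
    have h1 : (Fintype.card 𝔾 : ℝ) / M ≤ ε := by
      rw [div_le_iff₀ hM0]
      have : (Fintype.card 𝔾 : ℝ) / ε < M := by linarith
      rw [div_lt_iff₀ hε0] at this
      linarith
    have h2 := one_add_mul_le_pow (a := -(1 / (M : ℝ))) (by
      have : 1 / (M : ℝ) ≤ 1 := by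
        rw [div_le_one hM0]; exact hM1.le
      linarith) (Fintype.card 𝔾)
    have h3 : (1 : ℝ) + -(1 / (M : ℝ)) = 1 - 1 / (M : ℝ) := by ring
    rw [h3] at h2
    have h4 : (1 : ℝ) + (Fintype.card 𝔾 : ℝ) * -(1 / (M : ℝ)) = 1 - (Fintype.card 𝔾 : ℝ) / M := by
      ring
    rw [h4] at h2
    linarith
  -- flags
  set R : ℕ := ∑ g, n g + 1 with hRd
  have hR : ∀ g, n g ≤ R := fun g =>
    le_trans (Finset.single_le_sum (f := n) (fun _ _ => Nat.zero_le _) (Finset.mem_univ g)) (Nat.le_succ _)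
  have hR0 : 0 < R := Nat.succ_pos _
  set C := QStack.stackCat n hn M hM R hR with hC
  set Nnf : Fin G.nX → Fin G.nY → ℝ := fun x y =>
    ∑ g, (n g : ℝ) * ((P x g).trace.re + (P' y g).trace.re)
          - ∑ g, ∑ g', (min (n g) (n g') : ℝ) * (P x g * P' y g').trace.re with hNnf
  obtain ⟨T, I', J', i1, i2, i3, i4, St, q, hq0, hqT, hqf, hSt⟩ :=
    QStack.cat_strategy G hnA hnB C hR hR0 P P' hPh hPi hP'h hP'i F E hF hE Nnf (fun _ _ => rfl) ε hε0
  refine ⟨I', J', i1, i2, i3, i4, St, ?_⟩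
  intro x y a b Γ Nn hNn
  have hD : (0 : ℝ) < (Fintype.card V : ℝ) := by exact_mod_cast Fintype.card_pos
  have hRr : (0 : ℝ) < (R : ℝ) := by exact_mod_cast hR0
  have hDR : (0 : ℝ) < (Fintype.card V : ℝ) * R := mul_pos hD hRr
  have h1 := hSt x y a b
  rw [hC, QStack.stackCat_mass] at h1
  have e0 : 0 ≤ ev (vecM Γ) (F x a) (E y b) := ev_nonneg _ ((hF x).1 a) ((hE y).1 b)
  have hq := hqf x y
  have hqT' := hqT x y hNn
  have hgeom : (∑ t ∈ Finset.range T, q x y ^ t) * (1 - q x y) = 1 - q x y ^ T := geom_sum_mul_neg _ _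
  have h1q : 1 - q x y = Nn / ((Fintype.card V : ℝ) * R) := by
    rw [hq]; ring
  rw [h1q] at hgeom
  set S : ℝ := ∑ t ∈ Finset.range T, q x y ^ t with hS
  have hS2 : S * (1 / ((Fintype.card V : ℝ) * R)) = (1 - q x y ^ T) / Nn := by
    rw [← hgeom]
    field_simp
  have hmain : (1 - τ) ≤ (1 - q x y ^ T) * (1 - 1 / (M : ℝ)) ^ Fintype.card 𝔾 := by
    have h2 : 1 - ε ≤ 1 - q x y ^ T := by linarith
    have h3 : (1 - ε) * (1 - ε) ≤ (1 - q x y ^ T) * (1 - 1 / (M : ℝ)) ^ Fintype.card 𝔾 :=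
      mul_le_mul h2 hmass (by linarith) (by linarith)
    have h4 : 1 - τ ≤ (1 - ε) * (1 - ε) := by
      have : (1 - ε) * (1 - ε) = 1 - τ' + ε ^ 2 := by rw [hε]; ring
      rw [this]
      nlinarith [sq_nonneg ε]
    linarith
  calc (1 - τ) * ev (vecM Γ) (F x a) (E y b) / Nn
      ≤ ((1 - q x y ^ T) * (1 - 1 / (M : ℝ)) ^ Fintype.card 𝔾) * ev (vecM Γ) (F x a) (E y b) / Nn := by
        apply div_le_div_of_nonneg_right _ hNn.le
        exact mul_le_mul_of_nonneg_right hmain e0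
    _ = S * ((1 - 1 / (M : ℝ)) ^ Fintype.card 𝔾 * (1 / ((Fintype.card V : ℝ) * R)) *
          ev (vecM Γ) (F x a) (E y b)) := by
        have : S * ((1 - 1 / (M : ℝ)) ^ Fintype.card 𝔾 * (1 / ((Fintype.card V : ℝ) * R)) *
          ev (vecM Γ) (F x a) (E y b)) = (S * (1 / ((Fintype.card V : ℝ) * R))) *
            ((1 - 1 / (M : ℝ)) ^ Fintype.card 𝔾 * ev (vecM Γ) (F x a) (E y b)) := by ring
        rw [this, hS2]
        ring
    _ ≤ _ := h1

end Crest.Agent.PR
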