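import Crest.Agent.PR.Defs
import Crest.Agent.PR.Strat
import Crest.Agent.PR.QKernel
import Crest.Agent.PR.QStack

/-!
# (Q0, Q4, Q5, Q6) of the parallel repetition blueprint: `qcs_core`.
Schur multipliers in a pair of orthonormal bases; spectral bucket projections; the conclusion of
correlated sampling for positive matrices.
-/

set_option autoImplicit false

namespace Crest.Agent.PR

open Crest.MathPhysics.NonlocalGame Matrix
open scoped Kronecker ComplexOrder

namespace QCore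

set_option linter.unusedSectionVars false
set_option linter.unusedSimpArgs false
variable {V : Type} [Fintype V] [DecidableEq V]

/-- unitary pair data -/
structure UPair (U U' : Matrix V V ℂ) : Prop where
  u1 : Uᴴ * U = 1
  u2 : U * Uᴴ = 1
  v1 : U'ᴴ * U' = 1
  v2 : U' * U'ᴴ = 1

/-- the overlap weights -/
noncomputable def wt (U U' : Matrix V V ℂ) (i j : V) : ℝ := ‖(Uᴴ * U') i j‖ ^ 2

lemma wt_nonneg (U U' : Matrix V V ℂ) (i j : V) : 0 ≤ wt U U' i j := by unfold wt; positivity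

lemma sum_norm_sq_row (C : Matrix V V ℂ) (i : V) :
    ((∑ j, ‖C i j‖ ^ 2 : ℝ) : ℂ) = (C * Cᴴ) i i := by
  rw [Matrix.mul_apply]
  push_cast
  refine Finset.sum_congr rfl fun j _ => ?_
  rw [conjTranspose_apply, RCLike.star_def, Complex.mul_conj, Complex.normSq_eq_norm_sq]
  push_cast; ring

lemma sum_norm_sq_col (C : Matrix V V ℂ) (j : V) :
    ((∑ i, ‖C i j‖ ^ 2 : ℝ) : ℂ) = (Cᴴ * C) j j := by
  rw [Matrix.mul_apply]
  push_cast
  refine Finset.sum_congr rfl fun i _ => ?_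
  rw [conjTranspose_apply, RCLike.star_def, mul_comm, Complex.mul_conj, Complex.normSq_eq_norm_sq]
  push_cast; ring

lemma wt_row {U U' : Matrix V V ℂ} (h : UPair U U') (i : V) : ∑ j, wt U U' i j = 1 := by
  have h1 : (Uᴴ * U') * (Uᴴ * U')ᴴ = 1 := by
    rw [conjTranspose_mul, conjTranspose_conjTranspose]
    calc Uᴴ * U' * (U'ᴴ * U) = Uᴴ * (U' * U'ᴴ) * U := by simp only [Matrix.mul_assoc]
      _ = 1 := by rw [h.v2, Matrix.mul_one, h.u1]
  have h2 := sum_norm_sq_row (Uᴴ * U') i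
  rw [h1, Matrix.one_apply_eq] at h2
  exact_mod_cast h2

lemma wt_col {U U' : Matrix V V ℂ} (h : UPair U U') (j : V) : ∑ i, wt U U' i j = 1 := by
  have h1 : (Uᴴ * U')ᴴ * (Uᴴ * U') = 1 := by
    rw [conjTranspose_mul, conjTranspose_conjTranspose]
    calc U'ᴴ * U * (Uᴴ * U') = U'ᴴ * (U * Uᴴ) * U' := by simp only [Matrix.mul_assoc]
      _ = 1 := by rw [h.u2, Matrix.mul_one, h.v1]
  have h2 := sum_norm_sq_col (Uᴴ * U') j
  rw [h1, Matrix.one_apply_eq] at h2
  exact_mod_cast h2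

/-- the inner matrix of the Schur multiplier -/
noncomputable def inner (U U' : Matrix V V ℂ) (f : V → V → ℝ) : Matrix V V ℂ :=
  Matrix.of fun i j => ((f i j : ℝ) : ℂ) * (Uᴴ * U') i j

/-- The Schur multiplier with symbol `f` in the bases `U`, `U'`. -/
noncomputable def Sch (U U' : Matrix V V ℂ) (f : V → V → ℝ) : Matrix V V ℂ :=
  U * inner U U' f * U'ᴴ

lemma nsq_vecM_eq (Z : Matrix V V ℂ) : nsq (vecM Z) = ∑ i, ∑ j, ‖Z i j‖ ^ 2 := by
  simp [nsq, vecM, Fintype.sum_prod_type]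

lemma nsq_vecM_trace (Z : Matrix V V ℂ) : ((nsq (vecM Z) : ℝ) : ℂ) = (Z * Zᴴ).trace := by
  rw [nsq_vecM_eq, Matrix.trace]
  push_cast
  refine Finset.sum_congr rfl fun i _ => ?_
  simp only [diag_apply]
  have := sum_norm_sq_row Z i
  push_cast at this
  exact this

lemma nsq_vecM_unitary {U U' : Matrix V V ℂ} (h : UPair U U') (M : Matrix V V ℂ) :
    nsq (vecM (U * M * U'ᴴ)) = nsq (vecM M) := by
  have h1 : (U * M * U'ᴴ) * (U * M * U'ᴴ)ᴴ = U * (M * Mᴴ) * Uᴴ := by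
    simp only [conjTranspose_mul, conjTranspose_conjTranspose]
    calc U * M * U'ᴴ * (U' * (Mᴴ * Uᴴ)) = U * M * (U'ᴴ * U') * (Mᴴ * Uᴴ) := by
          simp only [Matrix.mul_assoc]
      _ = U * (M * Mᴴ) * Uᴴ := by rw [h.v1]; simp only [Matrix.mul_one, Matrix.mul_assoc]
  have h2 : (U * (M * Mᴴ) * Uᴴ).trace = (M * Mᴴ).trace := by
    rw [Matrix.trace_mul_comm, ← Matrix.mul_assoc, h.u1, Matrix.one_mul]
  have h3 : ((nsq (vecM (U * M * U'ᴴ)) : ℝ) : ℂ) = ((nsq (vecM M) : ℝ) : ℂ) := by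
    rw [nsq_vecM_trace, nsq_vecM_trace, h1, h2]
  exact_mod_cast h3

lemma nsq_Sch {U U' : Matrix V V ℂ} (h : UPair U U') (f : V → V → ℝ) :
    nsq (vecM (Sch U U' f)) = ∑ i, ∑ j, f i j ^ 2 * wt U U' i j := by
  unfold Sch
  rw [nsq_vecM_unitary h, nsq_vecM_eq]
  refine Finset.sum_congr rfl fun i _ => Finset.sum_congr rfl fun j _ => ?_
  simp [inner, wt, norm_mul, mul_pow]

lemma Sch_add (U U' : Matrix V V ℂ) (f g : V → V → ℝ) :
    Sch U U' (fun i j => f i j + g i j) = Sch U U' f + Sch U U' g := by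
  have : inner U U' (fun i j => f i j + g i j) = inner U U' f + inner U U' g := by
    ext i j; simp [inner, add_mul]
  simp only [Sch, this, Matrix.mul_add, Matrix.add_mul]

lemma Sch_sub (U U' : Matrix V V ℂ) (f g : V → V → ℝ) :
    Sch U U' (fun i j => f i j - g i j) = Sch U U' f - Sch U U' g := by
  have : inner U U' (fun i j => f i j - g i j) = inner U U' f - inner U U' g := by
    ext i j; simp [inner, sub_mul]
  simp only [Sch, this, Matrix.mul_sub, Matrix.sub_mul]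

lemma Sch_smul (U U' : Matrix V V ℂ) (c : ℝ) (f : V → V → ℝ) :
    Sch U U' (fun i j => c * f i j) = ((c : ℝ) : ℂ) • Sch U U' f := by
  have : inner U U' (fun i j => c * f i j) = ((c : ℝ) : ℂ) • inner U U' f := by
    ext i j; simp [inner, mul_assoc]
  simp only [Sch, this, Matrix.mul_smul, Matrix.smul_mul]

lemma Sch_sum {ι : Type} (s : Finset ι) (U U' : Matrix V V ℂ) (f : ι → V → V → ℝ) :
    Sch U U' (fun i j => ∑ l ∈ s, f l i j) = ∑ l ∈ s, Sch U U' (f l) := by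
  classical
  have : inner U U' (fun i j => ∑ l ∈ s, f l i j) = ∑ l ∈ s, inner U U' (f l) := by
    ext i j
    simp only [inner, Matrix.of_apply, Matrix.sum_apply]
    push_cast
    rw [Finset.sum_mul]
  simp only [Sch, this, Finset.mul_sum, Finset.sum_mul]

/-- `U diag(d) Uᴴ` -/
noncomputable def Pm (U : Matrix V V ℂ) (d : V → ℝ) : Matrix V V ℂ :=
  U * diagonal (fun i => ((d i : ℝ) : ℂ)) * Uᴴ

lemma Pm_mul_Pm {U U' : Matrix V V ℂ} (d d' : V → ℝ) :
    Pm U d * Pm U' d' = Sch U U' (fun i j => d i * d' j) := by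
  unfold Pm Sch
  have : diagonal (fun i => ((d i : ℝ) : ℂ)) * (Uᴴ * U') * diagonal (fun i => ((d' i : ℝ) : ℂ))
      = inner U U' (fun i j => d i * d' j) := by
    ext i j
    rw [Matrix.mul_diagonal, Matrix.diagonal_mul]
    simp only [inner, Matrix.of_apply]
    push_cast; ring
  rw [← this]
  simp only [Matrix.mul_assoc]

lemma Sch_left {U U' : Matrix V V ℂ} (h : UPair U U') (α : V → ℝ) :
    Sch U U' (fun i _ => α i) = Pm U α := by
  unfold Pm Sch
  have : inner U U' (fun i _ => α i) = diagonal (fun i => ((α i : ℝ) : ℂ)) * (Uᴴ * U') := by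
    ext i j
    rw [Matrix.diagonal_mul]
    simp [inner]
  rw [this]
  calc U * (diagonal (fun i => ((α i : ℝ) : ℂ)) * (Uᴴ * U')) * U'ᴴ
      = U * diagonal (fun i => ((α i : ℝ) : ℂ)) * Uᴴ * (U' * U'ᴴ) := by
        simp only [Matrix.mul_assoc]
    _ = _ := by rw [h.v2, Matrix.mul_one]

lemma Sch_right {U U' : Matrix V V ℂ} (h : UPair U U') (β : V → ℝ) :
    Sch U U' (fun _ j => β j) = Pm U' β := by
  unfold Pm Sch
  have : inner U U' (fun _ j => β j) = (Uᴴ * U') * diagonal (fun i => ((β i : ℝ) : ℂ)) := by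
    ext i j
    rw [Matrix.mul_diagonal]
    simp [inner, mul_comm]
  rw [this]
  calc U * ((Uᴴ * U') * diagonal (fun i => ((β i : ℝ) : ℂ))) * U'ᴴ
      = (U * Uᴴ) * U' * diagonal (fun i => ((β i : ℝ) : ℂ)) * U'ᴴ := by
        simp only [Matrix.mul_assoc]
    _ = _ := by rw [h.u2, Matrix.one_mul]

lemma Pm_mul_self {U : Matrix V V ℂ} (hU : Uᴴ * U = 1) (d d' : V → ℝ) :
    Pm U d * Pm U d' = Pm U (fun i => d i * d' i) := by
  unfold Pm
  calc U * diagonal (fun i => ((d i : ℝ) : ℂ)) * Uᴴ * (U * diagonal (fun i => ((d' i : ℝ) : ℂ)) * Uᴴ)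
      = U * diagonal (fun i => ((d i : ℝ) : ℂ)) * (Uᴴ * U) * diagonal (fun i => ((d' i : ℝ) : ℂ)) * Uᴴ := by
        simp only [Matrix.mul_assoc]
    _ = _ := by
        rw [hU, Matrix.mul_one, Matrix.mul_assoc U, Matrix.diagonal_mul_diagonal]
        simp only [Matrix.mul_assoc]
        congr 2
        congr 1
        ext i
        push_cast; ring

lemma Pm_hermitian (U : Matrix V V ℂ) (d : V → ℝ) : (Pm U d).IsHermitian := by
  unfold Pm
  apply Matrix.IsHermitian.ext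
  intro i j
  have : (U * diagonal (fun i => ((d i : ℝ) : ℂ)) * Uᴴ)ᴴ = U * diagonal (fun i => ((d i : ℝ) : ℂ)) * Uᴴ := by
    simp only [conjTranspose_mul, conjTranspose_conjTranspose, diagonal_conjTranspose, Matrix.mul_assoc]
    congr 2
    congr 1
    ext i
    simp
  have h2 := congrFun (congrFun this i) j
  rw [conjTranspose_apply] at h2
  exact h2

lemma trace_Pm {U : Matrix V V ℂ} (hU : Uᴴ * U = 1) (d : V → ℝ) :
    (Pm U d).trace.re = ∑ i, d i := by
  unfold Pm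
  rw [Matrix.trace_mul_comm, ← Matrix.mul_assoc, hU, Matrix.one_mul, Matrix.trace_diagonal]
  simp

lemma trace_Sch {U U' : Matrix V V ℂ} (h : UPair U U') (f : V → V → ℝ) :
    (Sch U U' f).trace.re = ∑ i, ∑ j, f i j * wt U U' i j := by
  unfold Sch
  have h1 : (U * inner U U' f * U'ᴴ).trace = (inner U U' f * (U'ᴴ * U)).trace := by
    rw [Matrix.mul_assoc, Matrix.trace_mul_comm, Matrix.mul_assoc]
  have h2 : U'ᴴ * U = (Uᴴ * U')ᴴ := by rw [conjTranspose_mul, conjTranspose_conjTranspose]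
  rw [h1, h2, Matrix.trace]
  simp only [diag_apply, Matrix.mul_apply, Complex.re_sum]
  refine Finset.sum_congr rfl fun i _ => Finset.sum_congr rfl fun j _ => ?_
  simp only [inner, Matrix.of_apply, conjTranspose_apply, RCLike.star_def, wt]
  rw [mul_assoc, Complex.mul_conj, Complex.normSq_eq_norm_sq]
  rw [← Complex.ofReal_mul, Complex.ofReal_re]

section Labels
variable {𝔾 : Type} [Fintype 𝔾] [DecidableEq 𝔾]

/-- indicator of a label -/
noncomputable def ind (lab : V → Option 𝔾) (g : 𝔾) (i : V) : ℝ := if lab i = some g then 1 else 0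

/-- the count attached to a label -/
noncomputable def nOf (n : 𝔾 → ℕ) (lab : V → Option 𝔾) (i : V) : ℝ := (lab i).elim 0 (fun g => (n g : ℝ))

lemma nOf_nonneg (n : 𝔾 → ℕ) (lab : V → Option 𝔾) (i : V) : 0 ≤ nOf n lab i := by
  unfold nOf
  cases lab i <;> simp

lemma sum_n_ind (n : 𝔾 → ℕ) (lab : V → Option 𝔾) (i : V) :
    ∑ g, (n g : ℝ) * ind lab g i = nOf n lab i := by
  unfold nOf ind
  cases h : lab i with
  | none => simp
  | some g₀ =>
    simp only [Option.elim_some, Option.some.injEq]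
    rw [Finset.sum_eq_single g₀]
    · simp
    · intro b _ hb
      simp [Ne.symm hb]
    · simp

lemma ind_mul (lab : V → Option 𝔾) (g g' : 𝔾) (i : V) :
    ind lab g i * ind lab g' i = if g = g' then ind lab g i else 0 := by
  unfold ind
  by_cases hg : g = g'
  · subst hg
    by_cases h : lab i = some g <;> simp [h]
  · by_cases h : lab i = some g
    · have : ¬ lab i = some g' := by
        rw [h]; simpa using hg
      simp [this, hg]
    · simp [h, hg]

lemma sum_min_ind (n : 𝔾 → ℕ) (lab lab' : V → Option 𝔾) (i j : V) :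
    ∑ g, ∑ g', (min (n g : ℝ) (n g' : ℝ)) * (ind lab g i * ind lab' g' j)
      = min (nOf n lab i) (nOf n lab' j) := by
  unfold nOf ind
  cases h : lab i with
  | none =>
    simp only [Option.elim_none, reduceCtorEq, if_false, zero_mul, mul_zero, Finset.sum_const_zero]
    rw [min_eq_left]
    cases lab' j <;> simp
  | some g₀ =>
    cases h' : lab' j with
    | none =>
      simp only [Option.elim_none, Option.elim_some, reduceCtorEq, if_false, mul_zero,
        Finset.sum_const_zero]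
      rw [min_eq_right]
      simp
    | some g₁ =>
      simp only [Option.elim_some, Option.some.injEq]
      rw [Finset.sum_eq_single g₀]
      · rw [Finset.sum_eq_single g₁]
        · simp
        · intro b _ hb
          simp [Ne.symm hb]
        · simp
      · intro b _ hb
        simp [Ne.symm hb]
      · simp

lemma sum4_comm (f : 𝔾 → 𝔾 → V → V → ℝ) :
    ∑ g, ∑ g', ∑ i, ∑ j, f g g' i j = ∑ i, ∑ j, ∑ g, ∑ g', f g g' i j := by
  calc ∑ g, ∑ g', ∑ i, ∑ j, f g g' i j = ∑ g, ∑ i, ∑ g', ∑ j, f g g' i j :=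
        Finset.sum_congr rfl fun g _ => Finset.sum_comm
    _ = ∑ i, ∑ g, ∑ g', ∑ j, f g g' i j := Finset.sum_comm
    _ = ∑ i, ∑ g, ∑ j, ∑ g', f g g' i j :=
        Finset.sum_congr rfl fun i _ => Finset.sum_congr rfl fun g _ => Finset.sum_comm
    _ = ∑ i, ∑ j, ∑ g, ∑ g', f g g' i j := Finset.sum_congr rfl fun i _ => Finset.sum_comm

/-- the quantity `Nn` of `catalyst_strategy` is a weighted sum of maxima. -/
lemma Nn_eq {U U' : Matrix V V ℂ} (h : UPair U U') (n : 𝔾 → ℕ) (lab lab' : V → Option 𝔾) :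
    ∑ g, (n g : ℝ) * ((Pm U (ind lab g)).trace.re + (Pm U' (ind lab' g)).trace.re)
      - ∑ g, ∑ g', (min (n g : ℝ) (n g' : ℝ)) * (Pm U (ind lab g) * Pm U' (ind lab' g')).trace.re
    = ∑ i, ∑ j, wt U U' i j * max (nOf n lab i) (nOf n lab' j) := by
  have t1 : ∑ g, (n g : ℝ) * (Pm U (ind lab g)).trace.re
      = ∑ i, ∑ j, wt U U' i j * nOf n lab i := by
    simp_rw [trace_Pm h.u1, Finset.mul_sum]
    rw [Finset.sum_comm]
    refine Finset.sum_congr rfl fun i _ => ?_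
    rw [sum_n_ind, ← Finset.sum_mul, wt_row h, one_mul]
  have t2 : ∑ g, (n g : ℝ) * (Pm U' (ind lab' g)).trace.re
      = ∑ i, ∑ j, wt U U' i j * nOf n lab' j := by
    simp_rw [trace_Pm h.v1, Finset.mul_sum]
    rw [Finset.sum_comm, Finset.sum_comm (s := Finset.univ) (t := Finset.univ) (f := fun i j => wt U U' i j * nOf n lab' j)]
    refine Finset.sum_congr rfl fun j _ => ?_
    rw [sum_n_ind, ← Finset.sum_mul, wt_col h, one_mul]
  have t3 : ∑ g, ∑ g', (min (n g : ℝ) (n g' : ℝ)) * (Pm U (ind lab g) * Pm U' (ind lab' g')).trace.re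
      = ∑ i, ∑ j, wt U U' i j * min (nOf n lab i) (nOf n lab' j) := by
    simp_rw [Pm_mul_Pm, trace_Sch h, ← sum_min_ind n lab lab', Finset.mul_sum]
    rw [sum4_comm]
    refine Finset.sum_congr rfl fun i _ => Finset.sum_congr rfl fun j _ =>
      Finset.sum_congr rfl fun g _ => Finset.sum_congr rfl fun g' _ => ?_
    ring
  simp_rw [mul_add, Finset.sum_add_distrib]
  rw [t1, t2, t3, ← Finset.sum_add_distrib, ← Finset.sum_sub_distrib]
  refine Finset.sum_congr rfl fun i _ => ?_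
  rw [← Finset.sum_add_distrib, ← Finset.sum_sub_distrib]
  refine Finset.sum_congr rfl fun j _ => ?_
  have := max_add_min (nOf n lab i) (nOf n lab' j)
  linear_combination (-(wt U U' i j)) * this

end Labels

section Mink

/-- Minkowski for a weighted double sum. -/
lemma mink_wt (w : V → V → ℝ) (hw : ∀ i j, 0 ≤ w i j) (g a b : V → V → ℝ) (s t : ℝ)
    (hs : 0 ≤ s) (ht : 0 ≤ t) (ha : ∀ i j, 0 ≤ a i j) (hb : ∀ i j, 0 ≤ b i j)
    (hg : ∀ i j, |g i j| ≤ s * a i j + t * b i j) :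
    Real.sqrt (∑ i, ∑ j, g i j ^ 2 * w i j)
      ≤ s * Real.sqrt (∑ i, ∑ j, a i j ^ 2 * w i j) + t * Real.sqrt (∑ i, ∑ j, b i j ^ 2 * w i j) := by
  set X := ∑ i, ∑ j, a i j ^ 2 * w i j with hX
  set Y := ∑ i, ∑ j, b i j ^ 2 * w i j with hY
  have hX0 : 0 ≤ X := Finset.sum_nonneg fun i _ => Finset.sum_nonneg fun j _ =>
    mul_nonneg (sq_nonneg _) (hw i j)
  have hY0 : 0 ≤ Y := Finset.sum_nonneg fun i _ => Finset.sum_nonneg fun j _ =>
    mul_nonneg (sq_nonneg _) (hw i j)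
  have hZ : ∑ i, ∑ j, a i j * b i j * w i j ≤ Real.sqrt X * Real.sqrt Y := by
    have h1 := Real.sum_mul_le_sqrt_mul_sqrt (Finset.univ : Finset (V × V))
      (fun p => a p.1 p.2 * Real.sqrt (w p.1 p.2)) (fun p => b p.1 p.2 * Real.sqrt (w p.1 p.2))
    have e1 : ∑ p : V × V, (a p.1 p.2 * Real.sqrt (w p.1 p.2)) * (b p.1 p.2 * Real.sqrt (w p.1 p.2))
        = ∑ i, ∑ j, a i j * b i j * w i j := by
      rw [Fintype.sum_prod_type]
      refine Finset.sum_congr rfl fun i _ => Finset.sum_congr rfl fun j _ => ?_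
      have := Real.mul_self_sqrt (hw i j)
      simp only
      linear_combination (a i j * b i j) * this
    have e2 : ∑ p : V × V, (a p.1 p.2 * Real.sqrt (w p.1 p.2)) ^ 2 = X := by
      rw [Fintype.sum_prod_type, hX]
      refine Finset.sum_congr rfl fun i _ => Finset.sum_congr rfl fun j _ => ?_
      simp only [mul_pow, Real.sq_sqrt (hw i j)]
    have e3 : ∑ p : V × V, (b p.1 p.2 * Real.sqrt (w p.1 p.2)) ^ 2 = Y := by
      rw [Fintype.sum_prod_type, hY]
      refine Finset.sum_congr rfl fun i _ => Finset.sum_congr rfl fun j _ => ?_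
      simp only [mul_pow, Real.sq_sqrt (hw i j)]
    rw [e1, e2, e3] at h1
    exact h1
  have hle : ∑ i, ∑ j, g i j ^ 2 * w i j
      ≤ s ^ 2 * X + 2 * s * t * (∑ i, ∑ j, a i j * b i j * w i j) + t ^ 2 * Y := by
    rw [hX, hY]
    simp only [Finset.mul_sum]
    rw [← Finset.sum_add_distrib, ← Finset.sum_add_distrib]
    refine Finset.sum_le_sum fun i _ => ?_
    rw [← Finset.sum_add_distrib, ← Finset.sum_add_distrib]
    refine Finset.sum_le_sum fun j _ => ?_
    have h1 : g i j ^ 2 ≤ (s * a i j + t * b i j) ^ 2 := by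
      rw [← sq_abs (g i j)]
      exact pow_le_pow_left₀ (abs_nonneg _) (hg i j) 2
    have := mul_le_mul_of_nonneg_right h1 (hw i j)
    nlinarith [this]
  apply Real.sqrt_le_iff.mpr
  constructor
  · have := Real.sqrt_nonneg X
    have := Real.sqrt_nonneg Y
    positivity
  · have hx := Real.sq_sqrt hX0
    have hy := Real.sq_sqrt hY0
    have h2 : 2 * s * t * (∑ i, ∑ j, a i j * b i j * w i j) ≤ 2 * s * t * (Real.sqrt X * Real.sqrt Y) :=
      mul_le_mul_of_nonneg_left hZ (by positivity)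
    calc _ ≤ _ := hle
      _ ≤ s ^ 2 * X + 2 * s * t * (Real.sqrt X * Real.sqrt Y) + t ^ 2 * Y := by linarith
      _ = (s * Real.sqrt X + t * Real.sqrt Y) ^ 2 := by
        nth_rw 1 [← hx]
        nth_rw 2 [← hy]
        ring

end Mink

section Ev

lemma ev_smul_vec {I J : Type} [Fintype I] [Fintype J] (c : ℝ) (ψ : I × J → ℂ)
    (M : Matrix I I ℂ) (N : Matrix J J ℂ) :
    ev (((c : ℝ) : ℂ) • ψ) M N = c ^ 2 * ev ψ M N := by
  unfold ev
  rw [mulVec_smul, star_smul, dotProduct_smul, smul_dotProduct]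
  simp only [smul_eq_mul, RCLike.star_def, Complex.conj_ofReal]
  rw [← mul_assoc, ← Complex.ofReal_mul, Complex.re_ofReal_mul]
  ring

lemma vecM_smul {I J : Type} (c : ℂ) (Z : Matrix I J ℂ) : vecM (c • Z) = c • vecM Z := by
  ext p; simp [vecM]

lemma vecM_zero {I J : Type} : vecM (0 : Matrix I J ℂ) = 0 := by
  ext p; simp [vecM]

lemma ev_zero_vec {I J : Type} [Fintype I] [Fintype J] (M : Matrix I I ℂ) (N : Matrix J J ℂ) :
    ev (0 : I × J → ℂ) M N = 0 := by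
  simp [ev]

end Ev

section PerL

/-- the kernel of offset `l` -/
noncomputable def kerL (K' l : ℕ) (a b : ℝ) : ℝ :=
  if 0 < a ∧ 0 < b ∧ qBucket K' l (a ^ 2) = qBucket K' l (b ^ 2)
    then qAmp K' l (qBucket K' l (a ^ 2)) else 0

/-- the normalisation `N*` -/
noncomputable def Nst (U U' : Matrix V V ℂ) (a b : V → ℝ) : ℝ :=
  ∑ i, ∑ j, wt U U' i j * max (a i ^ 2) (b j ^ 2)

/-- the bucket label -/
noncomputable def bLab (K' l : ℕ) (g₀ g₁ : ℤ) (a : V → ℝ) (i : V) : Option ↥(Finset.Icc g₀ g₁) :=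
  if h : 0 < a i ∧ qBucket K' l (a i ^ 2) ∈ Finset.Icc g₀ g₁ then some ⟨_, h.2⟩ else none

/-- the integer ladder -/
def nLad (K' : ℕ) (g₀ g₁ : ℤ) (g : ↥(Finset.Icc g₀ g₁)) : ℕ :=
  (K' + 1) ^ (g.1 - g₀).toNat * K' ^ (g₁ - g.1).toNat

lemma nLad_pos {K' : ℕ} (hK' : 1 ≤ K') (g₀ g₁ : ℤ) (g : ↥(Finset.Icc g₀ g₁)) : 0 < nLad K' g₀ g₁ g := by
  unfold nLad
  positivity

lemma bLab_eq_some {K' l : ℕ} {g₀ g₁ : ℤ} {a : V → ℝ} {i : V} {g : ↥(Finset.Icc g₀ g₁)} :
    bLab K' l g₀ g₁ a i = some g ↔ 0 < a i ∧ qBucket K' l (a i ^ 2) = g.1 := by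
  unfold bLab
  constructor
  · intro h
    split_ifs at h with h1
    simp only [Option.some.injEq] at h
    exact ⟨h1.1, by rw [← h]⟩
  · rintro ⟨h1, h2⟩
    have hm : qBucket K' l (a i ^ 2) ∈ Finset.Icc g₀ g₁ := by rw [h2]; exact g.2
    rw [dif_pos ⟨h1, hm⟩]
    simp only [Option.some.injEq]
    exact Subtype.ext h2

lemma Pm_zero (U : Matrix V V ℂ) : Pm U (fun _ => 0) = 0 := by
  unfold Pm
  simp

lemma P_idem {U : Matrix V V ℂ} (hU : Uᴴ * U = 1) {𝔾 : Type} [Fintype 𝔾] [DecidableEq 𝔾]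
    (lab : V → Option 𝔾) (g g' : 𝔾) :
    Pm U (ind lab g) * Pm U (ind lab g') = if g = g' then Pm U (ind lab g) else 0 := by
  rw [Pm_mul_self hU]
  simp_rw [ind_mul]
  by_cases h : g = g'
  · simp [h]
  · simp only [h, if_false]
    exact Pm_zero U

/-- pointwise identity behind `Γ = √c Y`. -/
lemma sum_sqrt_ind {K' l : ℕ} {g₀ g₁ : ℤ} {c : ℝ} (hc0 : 0 < c)
    (hc : ∀ g : ↥(Finset.Icc g₀ g₁), (nLad K' g₀ g₁ g : ℝ) = c * qAmp K' l g.1 ^ 2)
    {a b : V → ℝ}
    (ha : ∀ i, 0 < a i → qBucket K' l (a i ^ 2) ∈ Finset.Icc g₀ g₁)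
    (i j : V) :
    ∑ g, Real.sqrt (nLad K' g₀ g₁ g) * (ind (bLab K' l g₀ g₁ a) g i * ind (bLab K' l g₀ g₁ b) g j)
      = Real.sqrt c * kerL K' l (a i) (b j) := by
  unfold kerL
  split_ifs with h
  · obtain ⟨h1, h2, h3⟩ := h
    let g : ↥(Finset.Icc g₀ g₁) := ⟨_, ha i h1⟩
    have hgi : bLab K' l g₀ g₁ a i = some g := bLab_eq_some.mpr ⟨h1, rfl⟩
    have hgj : bLab K' l g₀ g₁ b j = some g := bLab_eq_some.mpr ⟨h2, h3.symm⟩
    rw [Finset.sum_eq_single g]
    · unfold ind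
      rw [if_pos hgi, if_pos hgj, hc g]
      have hq : 0 ≤ qAmp K' l g.1 := Real.sqrt_nonneg _
      rw [Real.sqrt_mul hc0.le, Real.sqrt_sq hq]
      simp [g]
    · intro g' _ hg'
      unfold ind
      have : ¬ bLab K' l g₀ g₁ a i = some g' := by
        rw [hgi]; simpa using fun h => hg' h.symm
      simp [this]
    · simp
  · rw [mul_zero]
    refine Finset.sum_eq_zero fun g _ => ?_
    unfold ind
    by_cases h1 : bLab K' l g₀ g₁ a i = some g
    · by_cases h2 : bLab K' l g₀ g₁ b j = some g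
      · exfalso
        obtain ⟨p1, p2⟩ := bLab_eq_some.mp h1
        obtain ⟨p3, p4⟩ := bLab_eq_some.mp h2
        exact h ⟨p1, p3, by rw [p2, p4]⟩
      · simp [h2]
    · simp [h1]

/-- `Γ = √c Y`. -/
lemma Gamma_eq {K' l : ℕ} {g₀ g₁ : ℤ} {c : ℝ} (hc0 : 0 < c)
    (hc : ∀ g : ↥(Finset.Icc g₀ g₁), (nLad K' g₀ g₁ g : ℝ) = c * qAmp K' l g.1 ^ 2)
    {a b : V → ℝ}
    (ha : ∀ i, 0 < a i → qBucket K' l (a i ^ 2) ∈ Finset.Icc g₀ g₁) (U U' : Matrix V V ℂ) :
    ∑ g, ((Real.sqrt (nLad K' g₀ g₁ g) : ℝ) : ℂ) •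
        (Pm U (ind (bLab K' l g₀ g₁ a) g) * Pm U' (ind (bLab K' l g₀ g₁ b) g))
      = ((Real.sqrt c : ℝ) : ℂ) • Sch U U' (fun i j => kerL K' l (a i) (b j)) := by
  rw [← Sch_smul]
  simp_rw [← sum_sqrt_ind hc0 hc ha, Pm_mul_Pm, ← Sch_smul]
  rw [Sch_sum]

/-- the count is below `c a²`. -/
lemma nOf_le {K' l : ℕ} (hK' : 1 ≤ K') (hl : l < K') {g₀ g₁ : ℤ} {c : ℝ} (hc0 : 0 < c)
    (hc : ∀ g : ↥(Finset.Icc g₀ g₁), (nLad K' g₀ g₁ g : ℝ) = c * qAmp K' l g.1 ^ 2)
    (a : V → ℝ) (i : V) :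
    nOf (nLad K' g₀ g₁) (bLab K' l g₀ g₁ a) i ≤ c * a i ^ 2 := by
  unfold nOf
  cases h : bLab K' l g₀ g₁ a i with
  | none => simp only [Option.elim_none]; positivity
  | some g =>
    simp only [Option.elim_some]
    obtain ⟨p1, p2⟩ := bLab_eq_some.mp h
    rw [hc g, ← p2]
    have := (qAmp_bounds K' hK' l hl (t := a i ^ 2) (by positivity)).1
    exact mul_le_mul_of_nonneg_left this hc0.le

/-- `Nn ≤ c N*`. -/
lemma Nn_le {U U' : Matrix V V ℂ} {K' l : ℕ} (hK' : 1 ≤ K') (hl : l < K') {g₀ g₁ : ℤ} {c : ℝ} (hc0 : 0 < c)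
    (hc : ∀ g : ↥(Finset.Icc g₀ g₁), (nLad K' g₀ g₁ g : ℝ) = c * qAmp K' l g.1 ^ 2)
    (a b : V → ℝ) :
    ∑ i, ∑ j, wt U U' i j * max (nOf (nLad K' g₀ g₁) (bLab K' l g₀ g₁ a) i) (nOf (nLad K' g₀ g₁) (bLab K' l g₀ g₁ b) j)
      ≤ c * Nst U U' a b := by
  unfold Nst
  rw [Finset.mul_sum]
  refine Finset.sum_le_sum fun i _ => ?_
  rw [Finset.mul_sum]
  refine Finset.sum_le_sum fun j _ => ?_
  have h1 := nOf_le hK' hl hc0 hc a i
  have h2 := nOf_le hK' hl hc0 hc b j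
  have h3 : max (nOf (nLad K' g₀ g₁) (bLab K' l g₀ g₁ a) i) (nOf (nLad K' g₀ g₁) (bLab K' l g₀ g₁ b) j)
      ≤ c * max (a i ^ 2) (b j ^ 2) := by
    apply max_le
    · exact h1.trans (mul_le_mul_of_nonneg_left (le_max_left _ _) hc0.le)
    · exact h2.trans (mul_le_mul_of_nonneg_left (le_max_right _ _) hc0.le)
  have := mul_le_mul_of_nonneg_left h3 (wt_nonneg U U' i j)
  linarith

/-- If `Nn = 0` the kernel vanishes. -/
lemma kerL_eq_zero_of_Nn {U U' : Matrix V V ℂ} (h : UPair U U') {K' l : ℕ} (hK' : 1 ≤ K') {g₀ g₁ : ℤ}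
    {a b : V → ℝ}
    (ha : ∀ i, 0 < a i → qBucket K' l (a i ^ 2) ∈ Finset.Icc g₀ g₁)
    (hN : ∑ i, ∑ j, wt U U' i j * max (nOf (nLad K' g₀ g₁) (bLab K' l g₀ g₁ a) i) (nOf (nLad K' g₀ g₁) (bLab K' l g₀ g₁ b) j) ≤ 0)
    (i j : V) : kerL K' l (a i) (b j) = 0 := by
  unfold kerL
  split_ifs with h'
  · exfalso
    obtain ⟨h1, _, _⟩ := h'
    let g : ↥(Finset.Icc g₀ g₁) := ⟨_, ha i h1⟩
    have hgi : bLab K' l g₀ g₁ a i = some g := bLab_eq_some.mpr ⟨h1, rfl⟩
    have hpos : (0:ℝ) < nOf (nLad K' g₀ g₁) (bLab K' l g₀ g₁ a) i := by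
      unfold nOf
      rw [hgi]
      simp only [Option.elim_some]
      exact_mod_cast nLad_pos hK' g₀ g₁ g
    have hnn : ∀ i' j', 0 ≤ wt U U' i' j' * max (nOf (nLad K' g₀ g₁) (bLab K' l g₀ g₁ a) i') (nOf (nLad K' g₀ g₁) (bLab K' l g₀ g₁ b) j') :=
      fun i' j' => mul_nonneg (wt_nonneg _ _ _ _) ((nOf_nonneg _ _ _).trans (le_max_left _ _))
    have h1 : ∑ j, wt U U' i j * max (nOf (nLad K' g₀ g₁) (bLab K' l g₀ g₁ a) i) (nOf (nLad K' g₀ g₁) (bLab K' l g₀ g₁ b) j)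
        ≤ ∑ i, ∑ j, wt U U' i j * max (nOf (nLad K' g₀ g₁) (bLab K' l g₀ g₁ a) i) (nOf (nLad K' g₀ g₁) (bLab K' l g₀ g₁ b) j) :=
      Finset.single_le_sum (f := fun i => ∑ j, wt U U' i j * max (nOf (nLad K' g₀ g₁) (bLab K' l g₀ g₁ a) i) (nOf (nLad K' g₀ g₁) (bLab K' l g₀ g₁ b) j))
        (fun i' _ => Finset.sum_nonneg fun j' _ => hnn i' j') (Finset.mem_univ i)
    have h2 : nOf (nLad K' g₀ g₁) (bLab K' l g₀ g₁ a) i
        ≤ ∑ j, wt U U' i j * max (nOf (nLad K' g₀ g₁) (bLab K' l g₀ g₁ a) i) (nOf (nLad K' g₀ g₁) (bLab K' l g₀ g₁ b) j) := by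
      calc nOf (nLad K' g₀ g₁) (bLab K' l g₀ g₁ a) i
          = ∑ j, wt U U' i j * nOf (nLad K' g₀ g₁) (bLab K' l g₀ g₁ a) i := by
            rw [← Finset.sum_mul, wt_row h, one_mul]
        _ ≤ _ := Finset.sum_le_sum fun j _ =>
            mul_le_mul_of_nonneg_left (le_max_left _ _) (wt_nonneg _ _ _ _)
    linarith
  · rfl

lemma Sch_zero (U U' : Matrix V V ℂ) : Sch U U' (fun _ _ => 0) = 0 := by
  have : inner U U' (fun _ _ => 0) = 0 := by
    ext i j
    simp [inner]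
  simp [Sch, this]

/-- The per-offset bound. -/
theorem perL (G : Game) (v : ℝ)
    (hv : ∀ (dA dB : ℕ) (S : Strategy G 1 dA dB), S.probWinsAtLeast 1 ≤ v)
    (hnA : 0 < G.nA) (hnB : 0 < G.nB) [Nonempty V]
    (U : Fin G.nX → Matrix V V ℂ) (U' : Fin G.nY → Matrix V V ℂ)
    (α : Fin G.nX → V → ℝ) (β : Fin G.nY → V → ℝ)
    (hU1 : ∀ x, (U x)ᴴ * U x = 1) (hU2 : ∀ x, U x * (U x)ᴴ = 1)
    (hU3 : ∀ y, (U' y)ᴴ * U' y = 1) (hU4 : ∀ y, U' y * (U' y)ᴴ = 1)
    (F : Fin G.nX → Fin G.nA → Matrix V V ℂ) (E : Fin G.nY → Fin G.nB → Matrix V V ℂ)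
    (hF : ∀ x, IsPOVM (F x)) (hE : ∀ y, IsPOVM (E y)) (K' : ℕ) (hK' : 1 ≤ K') (l : ℕ) (hl : l < K') :
    ∑ x, ∑ y, G.prob x y * (wq G F E x y (vecM (Sch (U x) (U' y) (fun i j => kerL K' l (α x i) (β y j))))
      / Nst (U x) (U' y) (α x) (β y)) ≤ v := by
  classical
  -- the finite range of buckets
  let S : Finset ℤ := (Finset.univ.image (fun p : Fin G.nX × V => qBucket K' l (α p.1 p.2 ^ 2)))
    ∪ (Finset.univ.image (fun p : Fin G.nY × V => qBucket K' l (β p.1 p.2 ^ 2)))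
  obtain ⟨g₀, hg₀⟩ := S.bddBelow
  obtain ⟨g₁, hg₁⟩ := S.bddAbove
  have hα : ∀ x i, 0 < α x i → qBucket K' l (α x i ^ 2) ∈ Finset.Icc g₀ g₁ := by
    intro x i _
    have hm : qBucket K' l (α x i ^ 2) ∈ S := Finset.mem_union_left _
      (Finset.mem_image.mpr ⟨(x, i), Finset.mem_univ _, rfl⟩)
    exact Finset.mem_Icc.mpr ⟨hg₀ hm, hg₁ hm⟩
  have hβ : ∀ y j, 0 < β y j → qBucket K' l (β y j ^ 2) ∈ Finset.Icc g₀ g₁ := by
    intro y j _
    have hm : qBucket K' l (β y j ^ 2) ∈ S := Finset.mem_union_right _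
      (Finset.mem_image.mpr ⟨(y, j), Finset.mem_univ _, rfl⟩)
    exact Finset.mem_Icc.mpr ⟨hg₀ hm, hg₁ hm⟩
  obtain ⟨c, hc0, hc'⟩ := qLadder K' hK' l g₀ g₁
  have hc : ∀ g : ↥(Finset.Icc g₀ g₁), (nLad K' g₀ g₁ g : ℝ) = c * qAmp K' l g.1 ^ 2 := by
    intro g
    have hm := Finset.mem_Icc.mp g.2
    have := hc' g.1 hm.1 hm.2
    simpa [nLad] using this
  set X := ∑ x, ∑ y, G.prob x y * (wq G F E x y (vecM (Sch (U x) (U' y) (fun i j => kerL K' l (α x i) (β y j))))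
      / Nst (U x) (U' y) (α x) (β y)) with hX
  have key : ∀ τ : ℝ, 0 < τ → τ < 1 → (1 - τ) * X ≤ v := by
    intro τ hτ hτ1
    obtain ⟨I', J', _, _, _, _, St, hSt⟩ := catalyst_strategy G hnA hnB (nLad K' g₀ g₁)
      (nLad_pos hK' g₀ g₁)
      (fun x g => Pm (U x) (ind (bLab K' l g₀ g₁ (α x)) g))
      (fun y g => Pm (U' y) (ind (bLab K' l g₀ g₁ (β y)) g))
      (fun x g => Pm_hermitian _ _) (fun x g g' => P_idem (hU1 x) _ g g')
      (fun y g => Pm_hermitian _ _) (fun y g g' => P_idem (hU3 y) _ g g')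
      F E hF hE τ hτ
    have hpair : ∀ x y a b, (1 - τ) * (ev (vecM (Sch (U x) (U' y) (fun i j => kerL K' l (α x i) (β y j)))) (F x a) (E y b)
        / Nst (U x) (U' y) (α x) (β y)) ≤ ev St.ψ (St.M x a) (St.N y b) := by
      intro x y a b
      have hUP : UPair (U x) (U' y) := ⟨hU1 x, hU2 x, hU3 y, hU4 y⟩
      have h0 := hSt x y a b
      simp only at h0
      rw [Gamma_eq hc0 hc (hα x), Nn_eq hUP] at h0
      set Y := Sch (U x) (U' y) (fun i j => kerL K' l (α x i) (β y j)) with hY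
      set Nn := ∑ i, ∑ j, wt (U x) (U' y) i j * max (nOf (nLad K' g₀ g₁) (bLab K' l g₀ g₁ (α x)) i)
        (nOf (nLad K' g₀ g₁) (bLab K' l g₀ g₁ (β y)) j) with hNn
      have hev0 : 0 ≤ ev (vecM Y) (F x a) (E y b) := ev_nonneg _ ((hF x).1 a) ((hE y).1 b)
      have hSt0 : 0 ≤ ev St.ψ (St.M x a) (St.N y b) :=
        ev_nonneg _ ((St.M_povm x).1 a) ((St.N_povm y).1 b)
      by_cases hN : 0 < Nn
      · have h1 := h0 hN
        rw [vecM_smul, ev_smul_vec, Real.sq_sqrt hc0.le] at h1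
        have hle : Nn ≤ c * Nst (U x) (U' y) (α x) (β y) := Nn_le hK' hl hc0 hc _ _
        have hNs : 0 < Nst (U x) (U' y) (α x) (β y) := by
          by_contra hcon
          have hcon := not_lt.mp hcon
          nlinarith
        refine le_trans ?_ h1
        rw [mul_div_assoc]
        refine mul_le_mul_of_nonneg_left ?_ (by linarith)
        rw [div_le_div_iff₀ hNs hN]
        nlinarith
      · have hz : Y = 0 := by
          rw [hY]
          have : (fun i j => kerL K' l (α x i) (β y j)) = (fun _ _ => (0:ℝ)) := by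
            funext i j
            exact kerL_eq_zero_of_Nn hUP hK' (hα x) (not_lt.mp hN) i j
          rw [this, Sch_zero]
        rw [hz, vecM_zero, ev_zero_vec]
        simpa using hSt0
    have hval := OneStrat.val_le hv St
    refine le_trans ?_ hval
    unfold OneStrat.val
    rw [hX, Finset.mul_sum]
    refine Finset.sum_le_sum fun x _ => ?_
    rw [Finset.mul_sum]
    refine Finset.sum_le_sum fun y _ => ?_
    rw [mul_left_comm]
    refine mul_le_mul_of_nonneg_left ?_ (G.prob_nonneg x y)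
    unfold wq
    rw [Finset.sum_div, Finset.mul_sum]
    refine Finset.sum_le_sum fun a _ => ?_
    rw [Finset.sum_div, Finset.mul_sum]
    refine Finset.sum_le_sum fun b _ => ?_
    split_ifs
    · exact hpair x y a b
    · simp
  have hT : Filter.Tendsto (fun τ : ℝ => (1 - τ) * X) (nhdsWithin 0 (Set.Ioi 0)) (nhds ((1 - 0) * X)) :=
    (Continuous.tendsto (by fun_prop) 0).mono_left nhdsWithin_le_nhds
  have hv' : (1 - 0) * X ≤ v := by
    refine le_of_tendsto hT ?_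
    filter_upwards [Ioo_mem_nhdsGT (show (0:ℝ) < 1 by norm_num)] with τ hτ
    exact key τ hτ.1 hτ.2
  simpa using hv'

end PerL

section Pair

variable {G : Game}

/-- The kernel averaged over offsets. -/
noncomputable def kb (K' : ℕ) (a b : ℝ) : ℝ := (∑ l ∈ Finset.range K', kerL K' l a b) / (K' : ℝ)

lemma kerL_nonneg (K' l : ℕ) (a b : ℝ) : 0 ≤ kerL K' l a b := by
  unfold kerL
  split_ifs
  · exact Real.sqrt_nonneg _
  · exact le_rfl

lemma kerL_le {K' l : ℕ} (hK' : 1 ≤ K') (hl : l < K') {a b : ℝ} (ha : 0 ≤ a) : kerL K' l a b ≤ a := by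
  unfold kerL
  split_ifs with h
  · have h1 := (qAmp_bounds K' hK' l hl (t := a ^ 2) (by have := h.1; positivity)).1
    have h2 : 0 ≤ qAmp K' l (qBucket K' l (a ^ 2)) := Real.sqrt_nonneg _
    exact abs_le_of_sq_le_sq' h1 ha |>.2
  · exact ha

lemma kb_nonneg (K' : ℕ) (a b : ℝ) : 0 ≤ kb K' a b := by
  unfold kb
  exact div_nonneg (Finset.sum_nonneg fun l _ => kerL_nonneg _ _ _ _) (by positivity)

lemma kb_le {K' : ℕ} (hK' : 1 ≤ K') {a b : ℝ} (ha : 0 ≤ a) : kb K' a b ≤ a := by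
  unfold kb
  have hK : (0:ℝ) < K' := by exact_mod_cast hK'
  rw [div_le_iff₀ hK]
  calc ∑ l ∈ Finset.range K', kerL K' l a b ≤ ∑ _l ∈ Finset.range K', a :=
        Finset.sum_le_sum fun l hl => kerL_le hK' (Finset.mem_range.mp hl) ha
    _ = a * K' := by simp [mul_comm]

lemma kb_sub_le {K' : ℕ} (hK' : 1 ≤ K') {a b : ℝ} (ha : 0 ≤ a) (hb : 0 ≤ b) :
    |a - kb K' a b| ≤ 3 / (2 * (K' : ℝ)) * a + 8 * K' * |a - b| := by
  rw [abs_sub_comm]
  exact qKernel K' hK' ha hb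

/-- the per-pair estimate. -/
lemma pair_bound {U U' : Matrix V V ℂ} (h : UPair U U') {a b : V → ℝ}
    (ha : ∀ i, 0 ≤ a i) (hb : ∀ i, 0 ≤ b i) {K' : ℕ} (hK' : 1 ≤ K')
    (F : Fin G.nX → Fin G.nA → Matrix V V ℂ) (E : Fin G.nY → Fin G.nB → Matrix V V ℂ)
    (hF : ∀ x, IsPOVM (F x)) (hE : ∀ y, IsPOVM (E y)) (x : Fin G.nX) (y : Fin G.nY) :
    wq G F E x y (vecM (Pm U a)) ≤
      wq G F E x y (vecM (Sch U U' (fun i j => kb K' (a i) (b j)))) / Nst U U' a b
      + (max 0 ((nrm (vecM (Pm U a)) + nrm (vecM (Pm U a - Pm U' b))) ^ 2 - 1)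
        + 3 / (K' : ℝ) * nrm (vecM (Pm U a)) ^ 2
        + 16 * K' * (nrm (vecM (Pm U a)) * nrm (vecM (Pm U a - Pm U' b)))) := by
  have hK : (0:ℝ) < K' := by exact_mod_cast hK'
  set w := wt U U' with hw
  have hw0 : ∀ i j, 0 ≤ w i j := fun i j => wt_nonneg U U' i j
  set n := nrm (vecM (Pm U a)) with hn
  set e := nrm (vecM (Pm U a - Pm U' b)) with he
  have hn0 : 0 ≤ n := nrm_nonneg _
  have he0 : 0 ≤ e := nrm_nonneg _
  have hnsq : n = Real.sqrt (∑ i, ∑ j, a i ^ 2 * w i j) := by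
    rw [hn, nrm, ← Sch_left h, nsq_Sch h]
  have hesq : e = Real.sqrt (∑ i, ∑ j, |a i - b j| ^ 2 * w i j) := by
    rw [he, nrm, ← Sch_left h, ← Sch_right h, ← Sch_sub, nsq_Sch h]
    simp only [sq_abs]
    rfl
  have hn2 : n ^ 2 = ∑ i, ∑ j, a i ^ 2 * w i j := by
    rw [hnsq, Real.sq_sqrt (Finset.sum_nonneg fun i _ => Finset.sum_nonneg fun j _ =>
      mul_nonneg (sq_nonneg _) (hw0 i j))]
  set Y := Sch U U' (fun i j => kb K' (a i) (b j)) with hY
  -- `A - Y`
  have h1 : nrm (vecM (Pm U a) - vecM Y) ≤ 3 / (2 * (K' : ℝ)) * n + 8 * K' * e := by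
    have e1 : vecM (Pm U a) - vecM Y = vecM (Sch U U' (fun i j => a i - kb K' (a i) (b j))) := by
      rw [Sch_sub, Sch_left h, ← hY]
      ext p
      simp [vecM]
    rw [e1, nrm, nsq_Sch h, hnsq, hesq]
    exact mink_wt w hw0 _ (fun i _ => a i) (fun i j => |a i - b j|) _ _ (by positivity) (by positivity)
      (fun i _ => ha i) (fun i j => abs_nonneg _) (fun i j => kb_sub_le hK' (ha i) (hb j))
  -- norm of `Y`
  have hYnsq : nsq (vecM Y) ≤ n ^ 2 := by
    rw [hn2, hY, nsq_Sch h]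
    refine Finset.sum_le_sum fun i _ => Finset.sum_le_sum fun j _ => ?_
    refine mul_le_mul_of_nonneg_right ?_ (hw0 i j)
    exact pow_le_pow_left₀ (kb_nonneg _ _ _) (kb_le hK' (ha i)) 2
  have hYn : nrm (vecM Y) ≤ n := by
    rw [nrm]
    exact Real.sqrt_le_iff.mpr ⟨hn0, hYnsq⟩
  -- `N`
  set N := Nst U U' a b with hN
  have hN1 : n ^ 2 ≤ N := by
    rw [hn2, hN, Nst]
    refine Finset.sum_le_sum fun i _ => Finset.sum_le_sum fun j _ => ?_
    rw [mul_comm]
    exact mul_le_mul_of_nonneg_left (le_max_left _ _) (hw0 i j)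
  have hN2 : N ≤ (n + e) ^ 2 := by
    have h2 : Real.sqrt (∑ i, ∑ j, (a i + |a i - b j|) ^ 2 * w i j) ≤ 1 * n + 1 * e := by
      rw [hnsq, hesq]
      refine mink_wt w hw0 _ (fun i _ => a i) (fun i j => |a i - b j|) _ _ (by norm_num) (by norm_num)
        (fun i _ => ha i) (fun i j => abs_nonneg _) (fun i j => ?_)
      rw [abs_of_nonneg (add_nonneg (ha i) (abs_nonneg _))]
      linarith
    rw [one_mul, one_mul] at h2
    have h3 := (Real.sqrt_le_left (add_nonneg hn0 he0)).mp h2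
    refine le_trans ?_ h3
    rw [hN, Nst]
    refine Finset.sum_le_sum fun i _ => Finset.sum_le_sum fun j _ => ?_
    rw [mul_comm]
    refine mul_le_mul_of_nonneg_right ?_ (hw0 i j)
    apply max_le
    · exact pow_le_pow_left₀ (ha i) (by linarith [abs_nonneg (a i - b j)]) 2
    · refine pow_le_pow_left₀ (hb j) ?_ 2
      have := neg_abs_le (a i - b j)
      linarith
  have hW0 : 0 ≤ wq G F E x y (vecM Y) := wq_nonneg hF hE x y _
  have hW1 : wq G F E x y (vecM Y) ≤ N :=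
    (wq_le_nsq hF hE x y _).trans (hYnsq.trans hN1)
  have hNonneg : 0 ≤ N := (sq_nonneg n).trans hN1
  -- the ratio
  have hR : wq G F E x y (vecM Y) ≤ wq G F E x y (vecM Y) / N + max 0 ((n + e) ^ 2 - 1) := by
    rcases hNonneg.eq_or_lt with h0 | h0
    · rw [← h0] at hW1 ⊢
      have : wq G F E x y (vecM Y) = 0 := le_antisymm hW1 hW0
      rw [this]
      simp
    · set W := wq G F E x y (vecM Y) with hWdef
      have hRle : W / N ≤ 1 := (div_le_one h0).mpr hW1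
      have hR0 : 0 ≤ W / N := div_nonneg hW0 h0.le
      have hWeq : W = W / N * N := by field_simp
      have hm1 : 0 ≤ max 0 ((n + e) ^ 2 - 1) := le_max_left _ _
      have hm2 : (n + e) ^ 2 - 1 ≤ max 0 ((n + e) ^ 2 - 1) := le_max_right _ _
      by_cases hN1' : N ≤ 1
      · nlinarith
      · have hN1'' : 1 < N := not_le.mp hN1'
        nlinarith
  -- Lipschitz
  have hL := wq_sub_le hF hE x y (vecM (Pm U a)) (vecM Y)
  have hL2 : nrm (vecM (Pm U a) - vecM Y) * (nrm (vecM (Pm U a)) + nrm (vecM Y))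
      ≤ (3 / (2 * (K' : ℝ)) * n + 8 * K' * e) * (n + n) := by
    refine mul_le_mul h1 (by rw [← hn]; linarith) (add_nonneg (nrm_nonneg _) (nrm_nonneg _)) ?_
    positivity
  have hL3 : (3 / (2 * (K' : ℝ)) * n + 8 * K' * e) * (n + n)
      = 3 / (K' : ℝ) * n ^ 2 + 16 * K' * (n * e) := by
    field_simp
    ring
  linarith

end Pair

end QCore

open QCore in
/-- (Q0, Q4, Q5, Q6): the conclusion of correlated sampling for positive matrices. -/
theorem qcs_core (G : Game) (v : ℝ)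
    (hv : ∀ (dA dB : ℕ) (S : Strategy G 1 dA dB), S.probWinsAtLeast 1 ≤ v)
    (hnA : 0 < G.nA) (hnB : 0 < G.nB)
    {V : Type} [Fintype V] [DecidableEq V] [Nonempty V]
    (A : Fin G.nX → Matrix V V ℂ) (B : Fin G.nY → Matrix V V ℂ)
    (hA : ∀ x, (A x).PosSemidef) (hB : ∀ y, (B y).PosSemidef)
    (F : Fin G.nX → Fin G.nA → Matrix V V ℂ) (E : Fin G.nY → Fin G.nB → Matrix V V ℂ)
    (hF : ∀ x, IsPOVM (F x)) (hE : ∀ y, IsPOVM (E y)) (K' : ℕ) (hK' : 1 ≤ K') :
    ∑ x, ∑ y, G.prob x y * wq G F E x y (vecM (A x)) ≤ v + ∑ x, ∑ y, G.prob x y *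
      (max 0 ((nrm (vecM (A x)) + nrm (vecM (A x - B y))) ^ 2 - 1)
        + 3 / (K' : ℝ) * nrm (vecM (A x)) ^ 2
        + 16 * K' * (nrm (vecM (A x)) * nrm (vecM (A x - B y))))  := by
  classical
  have hspec : ∀ {M : Matrix V V ℂ}, M.PosSemidef → ∃ (U : Matrix V V ℂ) (a : V → ℝ),
      Uᴴ * U = 1 ∧ U * Uᴴ = 1 ∧ (∀ i, 0 ≤ a i) ∧ M = Pm U a := by
    intro M hM
    have hH := hM.isHermitian
    refine ⟨hH.eigenvectorUnitary, hH.eigenvalues, Unitary.coe_star_mul_self _,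
      Unitary.coe_mul_star_self _, hM.eigenvalues_nonneg, ?_⟩
    conv_lhs => rw [hH.spectral_theorem]
    rfl
  choose U α hU1 hU2 hα0 hAe using fun x => hspec (hA x)
  choose U' β hU3 hU4 hβ0 hBe using fun y => hspec (hB y)
  have hK : (0:ℝ) < K' := by exact_mod_cast hK'
  have : Nonempty (Fin K') := ⟨⟨0, hK'⟩⟩
  -- the average
  have hY : ∀ x y, vecM (Sch (U x) (U' y) (fun i j => kb K' (α x i) (β y j)))
      = fun p => (Fintype.card (Fin K') : ℂ)⁻¹ * ∑ l : Fin K', vecM (Sch (U x) (U' y) (fun i j => kerL K' l.1 (α x i) (β y j))) p := by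
    intro x y
    have e1 : (fun i j => kb K' (α x i) (β y j))
        = fun i j => ((K' : ℝ))⁻¹ * ∑ l : Fin K', kerL K' l.1 (α x i) (β y j) := by
      funext i j
      unfold kb
      rw [Finset.sum_range, div_eq_inv_mul]
    rw [e1, Sch_smul, Sch_sum]
    funext p
    simp [vecM, Matrix.sum_apply]
  have hsum : ∑ x, ∑ y, G.prob x y * (wq G F E x y (vecM (Sch (U x) (U' y) (fun i j => kb K' (α x i) (β y j))))
      / Nst (U x) (U' y) (α x) (β y)) ≤ v := by
    have h1 : ∀ x y, G.prob x y * (wq G F E x y (vecM (Sch (U x) (U' y) (fun i j => kb K' (α x i) (β y j))))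
        / Nst (U x) (U' y) (α x) (β y))
        ≤ (K' : ℝ)⁻¹ * ∑ l : Fin K', G.prob x y * (wq G F E x y (vecM (Sch (U x) (U' y) (fun i j => kerL K' l.1 (α x i) (β y j))))
          / Nst (U x) (U' y) (α x) (β y)) := by
      intro x y
      have h2 := wq_avg_le hF hE x y (ι := Fin K') (fun l => vecM (Sch (U x) (U' y) (fun i j => kerL K' l.1 (α x i) (β y j))))
      rw [← hY x y, Fintype.card_fin] at h2
      have hNs : 0 ≤ Nst (U x) (U' y) (α x) (β y) :=
        Finset.sum_nonneg fun i _ => Finset.sum_nonneg fun j _ =>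
          mul_nonneg (wt_nonneg _ _ _ _) ((sq_nonneg _).trans (le_max_left _ _))
      have h3 := div_le_div_of_nonneg_right h2 hNs
      have h4 := mul_le_mul_of_nonneg_left h3 (G.prob_nonneg x y)
      refine h4.trans (le_of_eq ?_)
      rw [← Finset.mul_sum, ← Finset.sum_div]
      ring
    calc _ ≤ ∑ x, ∑ y, (K' : ℝ)⁻¹ * ∑ l : Fin K', G.prob x y * (wq G F E x y (vecM (Sch (U x) (U' y) (fun i j => kerL K' l.1 (α x i) (β y j))))
          / Nst (U x) (U' y) (α x) (β y)) :=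
          Finset.sum_le_sum fun x _ => Finset.sum_le_sum fun y _ => h1 x y
      _ = (K' : ℝ)⁻¹ * ∑ l : Fin K', ∑ x, ∑ y, G.prob x y * (wq G F E x y (vecM (Sch (U x) (U' y) (fun i j => kerL K' l.1 (α x i) (β y j))))
          / Nst (U x) (U' y) (α x) (β y)) := by
          have e : ∀ f : Fin K' → Fin G.nX → Fin G.nY → ℝ,
              ∑ x, ∑ y, ∑ l, f l x y = ∑ l, ∑ x, ∑ y, f l x y := by
            intro f
            calc _ = ∑ x, ∑ l, ∑ y, f l x y := Finset.sum_congr rfl fun x _ => Finset.sum_comm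
              _ = _ := Finset.sum_comm
          have e2 : ∀ f : Fin K' → Fin G.nX → Fin G.nY → ℝ,
              ∑ x, ∑ y, (K' : ℝ)⁻¹ * ∑ l, f l x y = (K' : ℝ)⁻¹ * ∑ l, ∑ x, ∑ y, f l x y := by
            intro f
            rw [← e f, Finset.mul_sum]
            refine Finset.sum_congr rfl fun x _ => ?_
            rw [Finset.mul_sum]
          exact e2 _
      _ ≤ (K' : ℝ)⁻¹ * ∑ _l : Fin K', v := by
          refine mul_le_mul_of_nonneg_left ?_ (by positivity)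
          exact Finset.sum_le_sum fun l _ =>
            perL G v hv hnA hnB U U' α β hU1 hU2 hU3 hU4 F E hF hE K' hK' l.1 l.2
      _ = v := by
          simp only [Finset.sum_const, Finset.card_univ, Fintype.card_fin, nsmul_eq_mul]
          field_simp
  calc ∑ x, ∑ y, G.prob x y * wq G F E x y (vecM (A x))
      ≤ ∑ x, ∑ y, G.prob x y * (wq G F E x y (vecM (Sch (U x) (U' y) (fun i j => kb K' (α x i) (β y j))))
          / Nst (U x) (U' y) (α x) (β y)
          + (max 0 ((nrm (vecM (A x)) + nrm (vecM (A x - B y))) ^ 2 - 1)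
            + 3 / (K' : ℝ) * nrm (vecM (A x)) ^ 2
            + 16 * K' * (nrm (vecM (A x)) * nrm (vecM (A x - B y))))) := by
        refine Finset.sum_le_sum fun x _ => Finset.sum_le_sum fun y _ => ?_
        refine mul_le_mul_of_nonneg_left ?_ (G.prob_nonneg x y)
        have hUP : UPair (U x) (U' y) := ⟨hU1 x, hU2 x, hU3 y, hU4 y⟩
        have := pair_bound (G := G) hUP (hα0 x) (hβ0 y) hK' F E hF hE x y
        rw [← hAe x, ← hBe y] at this
        exact this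
    _ = (∑ x, ∑ y, G.prob x y * (wq G F E x y (vecM (Sch (U x) (U' y) (fun i j => kb K' (α x i) (β y j))))
          / Nst (U x) (U' y) (α x) (β y))) + ∑ x, ∑ y, G.prob x y *
          (max 0 ((nrm (vecM (A x)) + nrm (vecM (A x - B y))) ^ 2 - 1)
            + 3 / (K' : ℝ) * nrm (vecM (A x)) ^ 2
            + 16 * K' * (nrm (vecM (A x)) * nrm (vecM (A x - B y)))) := by
        rw [← Finset.sum_add_distrib]
        refine Finset.sum_congr rfl fun x _ => ?_
        rw [← Finset.sum_add_distrib]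
        refine Finset.sum_congr rfl fun y _ => ?_
        rw [mul_add]
    _ ≤ _ := by linarith

end Crest.Agent.PR
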