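import Mathlib

/-!
# WP QFinal: the scalar bookkeeping of section (Q7).
-/

namespace Crest.Agent.PR.QFinal

section scalar
variable {ι : Type} [Fintype ι]

/-- weighted Cauchy-Schwarz -/
lemma wcs (μ f g : ι → ℝ) (hμ : ∀ i, 0 ≤ μ i) :
    ∑ i, μ i * (f i * g i) ≤ Real.sqrt (∑ i, μ i * f i ^ 2) * Real.sqrt (∑ i, μ i * g i ^ 2) := by
  have h := Real.sum_mul_le_sqrt_mul_sqrt Finset.univ (fun i => Real.sqrt (μ i) * f i)
    (fun i => Real.sqrt (μ i) * g i)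
  have h1 : ∀ i, (Real.sqrt (μ i) * f i) * (Real.sqrt (μ i) * g i) = μ i * (f i * g i) := by
    intro i
    have := Real.mul_self_sqrt (hμ i)
    calc _ = (Real.sqrt (μ i) * Real.sqrt (μ i)) * (f i * g i) := by ring
      _ = _ := by rw [this]
  have h2 : ∀ (f : ι → ℝ) i, (Real.sqrt (μ i) * f i) ^ 2 = μ i * f i ^ 2 := by
    intro f i
    rw [mul_pow, Real.sq_sqrt (hμ i)]
  simp only [h1, h2] at h
  exact h

/-- the scalar part of (Q7) -/
lemma qcs_scalar (μ m a b n e : ι → ℝ) (hμ : ∀ i, 0 ≤ μ i) (hμ1 : ∑ i, μ i = 1)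
    (hm : ∀ i, 0 ≤ m i) (ha : ∀ i, 0 ≤ a i) (hb : ∀ i, 0 ≤ b i) (hn0 : ∀ i, 0 ≤ n i)
    (he0 : ∀ i, 0 ≤ e i)
    (hn : ∀ i, n i ≤ m i + a i) (he : ∀ i, e i ^ 2 ≤ 2 * (a i + b i) ^ 2)
    (hm1 : ∑ i, μ i * m i ^ 2 = 1)
    (hA : ∑ i, μ i * (a i ^ 2 + b i ^ 2) < 1) (K' : ℕ) (hK' : 1 ≤ K') :
    ∑ i, μ i * (max 0 ((n i + e i) ^ 2 - 1) + 3 / (K' : ℝ) * n i ^ 2 + 16 * K' * (n i * e i))
      + ∑ i, μ i * (a i * (m i + n i))
    ≤ 2 * Real.sqrt (∑ i, μ i * (m i - 1) ^ 2) + 12 / (K' : ℝ)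
      + 95 * K' * Real.sqrt (∑ i, μ i * (a i ^ 2 + b i ^ 2)) := by
  obtain ⟨A, hAdef⟩ : ∃ A, A = ∑ i, μ i * (a i ^ 2 + b i ^ 2) := ⟨_, rfl⟩
  obtain ⟨D, hDdef⟩ : ∃ D, D = ∑ i, μ i * (m i - 1) ^ 2 := ⟨_, rfl⟩
  rw [← hAdef] at hA ⊢
  rw [← hDdef]
  have hA0 : 0 ≤ A := by
    rw [hAdef]; exact Finset.sum_nonneg fun i _ => mul_nonneg (hμ i) (by positivity)
  have hD0 : 0 ≤ D := by
    rw [hDdef]; exact Finset.sum_nonneg fun i _ => mul_nonneg (hμ i) (by positivity)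
  have ha2 : ∑ i, μ i * a i ^ 2 ≤ A := by
    rw [hAdef]
    refine Finset.sum_le_sum fun i _ => mul_le_mul_of_nonneg_left ?_ (hμ i)
    nlinarith [sq_nonneg (b i)]
  have hn2 : ∑ i, μ i * n i ^ 2 ≤ 4 := by
    have h1 : ∑ i, μ i * n i ^ 2 ≤ ∑ i, (2 * (μ i * m i ^ 2) + 2 * (μ i * a i ^ 2)) := by
      refine Finset.sum_le_sum fun i _ => ?_
      have : n i ^ 2 ≤ 2 * m i ^ 2 + 2 * a i ^ 2 := by
        nlinarith [hn i, hn0 i, hm i, ha i, sq_nonneg (m i - a i)]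
      calc μ i * n i ^ 2 ≤ μ i * (2 * m i ^ 2 + 2 * a i ^ 2) :=
            mul_le_mul_of_nonneg_left this (hμ i)
        _ = _ := by ring
    rw [Finset.sum_add_distrib, ← Finset.mul_sum, ← Finset.mul_sum, hm1] at h1
    linarith
  have hmp : ∑ i, μ i * (m i + 1) ^ 2 ≤ 4 := by
    have h1 : ∑ i, μ i * (m i + 1) ^ 2 ≤ ∑ i, (2 * (μ i * m i ^ 2) + 2 * μ i) := by
      refine Finset.sum_le_sum fun i _ => ?_
      have : (m i + 1) ^ 2 ≤ 2 * m i ^ 2 + 2 := by nlinarith [sq_nonneg (m i - 1)]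
      calc μ i * (m i + 1) ^ 2 ≤ μ i * (2 * m i ^ 2 + 2) :=
            mul_le_mul_of_nonneg_left this (hμ i)
        _ = _ := by ring
    rw [Finset.sum_add_distrib, ← Finset.mul_sum, ← Finset.mul_sum, hm1, hμ1] at h1
    linarith
  have hc2 : ∑ i, μ i * (3 * (a i + b i)) ^ 2 ≤ 18 * A := by
    rw [hAdef, Finset.mul_sum]
    refine Finset.sum_le_sum fun i _ => ?_
    have : (3 * (a i + b i)) ^ 2 ≤ 18 * (a i ^ 2 + b i ^ 2) := by nlinarith [sq_nonneg (a i - b i)]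
    calc μ i * (3 * (a i + b i)) ^ 2 ≤ μ i * (18 * (a i ^ 2 + b i ^ 2)) :=
          mul_le_mul_of_nonneg_left this (hμ i)
      _ = _ := by ring
  have he2 : ∑ i, μ i * e i ^ 2 ≤ 4 * A := by
    rw [hAdef, Finset.mul_sum]
    refine Finset.sum_le_sum fun i _ => ?_
    have : e i ^ 2 ≤ 4 * (a i ^ 2 + b i ^ 2) := by nlinarith [sq_nonneg (a i - b i), he i]
    calc μ i * e i ^ 2 ≤ μ i * (4 * (a i ^ 2 + b i ^ 2)) :=
          mul_le_mul_of_nonneg_left this (hμ i)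
      _ = _ := by ring
  have hmn : ∑ i, μ i * (m i + n i) ^ 2 ≤ 10 := by
    have h1 : ∑ i, μ i * (m i + n i) ^ 2 ≤ ∑ i, (2 * (μ i * m i ^ 2) + 2 * (μ i * n i ^ 2)) := by
      refine Finset.sum_le_sum fun i _ => ?_
      have : (m i + n i) ^ 2 ≤ 2 * m i ^ 2 + 2 * n i ^ 2 := by nlinarith [sq_nonneg (m i - n i)]
      calc μ i * (m i + n i) ^ 2 ≤ μ i * (2 * m i ^ 2 + 2 * n i ^ 2) :=
            mul_le_mul_of_nonneg_left this (hμ i)
        _ = _ := by ring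
    rw [Finset.sum_add_distrib, ← Finset.mul_sum, ← Finset.mul_sum, hm1] at h1
    linarith
  have hsA : 0 ≤ Real.sqrt A := Real.sqrt_nonneg _
  have hsD : 0 ≤ Real.sqrt D := Real.sqrt_nonneg _
  have hAle : A ≤ Real.sqrt A := by
    have h1 : Real.sqrt A ≤ 1 := by
      rw [show (1 : ℝ) = Real.sqrt 1 by simp]
      exact Real.sqrt_le_sqrt hA.le
    nlinarith [Real.mul_self_sqrt hA0]
  have hsq (x y : ℝ) (hy : 0 ≤ y) (h : x ≤ y ^ 2) : Real.sqrt x ≤ y := by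
    rw [show y = Real.sqrt (y ^ 2) from (Real.sqrt_sq hy).symm]
    exact Real.sqrt_le_sqrt h
  -- the Cauchy-Schwarz steps
  have T1 : ∑ i, μ i * (|m i - 1| * (m i + 1)) ≤ 2 * Real.sqrt D := by
    have h := wcs μ (fun i => |m i - 1|) (fun i => m i + 1) hμ
    simp only [sq_abs] at h
    rw [← hDdef] at h
    have h2 : Real.sqrt (∑ i, μ i * (m i + 1) ^ 2) ≤ 2 := hsq _ _ (by norm_num) (by linarith)
    calc _ ≤ _ := h
      _ ≤ Real.sqrt D * 2 := mul_le_mul_of_nonneg_left h2 hsD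
      _ = _ := by ring
  have T2 : ∑ i, μ i * (m i * (3 * (a i + b i))) ≤ 17 / 4 * Real.sqrt A := by
    have h := wcs μ m (fun i => 3 * (a i + b i)) hμ
    rw [hm1, Real.sqrt_one, one_mul] at h
    refine h.trans ?_
    have h2 : Real.sqrt (∑ i, μ i * (3 * (a i + b i)) ^ 2) ≤ 17 / 4 * Real.sqrt A := by
      apply hsq _ _ (by positivity)
      rw [mul_pow, Real.sq_sqrt hA0]
      nlinarith
    exact h2
  have T3 : ∑ i, μ i * (n i * e i) ≤ 4 * Real.sqrt A := by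
    have h := wcs μ n e hμ
    have h1 : Real.sqrt (∑ i, μ i * n i ^ 2) ≤ 2 := hsq _ _ (by norm_num) (by linarith)
    have h2 : Real.sqrt (∑ i, μ i * e i ^ 2) ≤ 2 * Real.sqrt A := by
      apply hsq _ _ (by positivity)
      rw [mul_pow, Real.sq_sqrt hA0]
      linarith
    calc _ ≤ _ := h
      _ ≤ 2 * (2 * Real.sqrt A) :=
        mul_le_mul h1 h2 (Real.sqrt_nonneg _) (by norm_num)
      _ = _ := by ring
  have T4 : ∑ i, μ i * (a i * (m i + n i)) ≤ 4 * Real.sqrt A := by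
    have h := wcs μ a (fun i => m i + n i) hμ
    have h1 : Real.sqrt (∑ i, μ i * a i ^ 2) ≤ Real.sqrt A := Real.sqrt_le_sqrt ha2
    have h2 : Real.sqrt (∑ i, μ i * (m i + n i) ^ 2) ≤ 4 := hsq _ _ (by norm_num) (by linarith)
    calc _ ≤ _ := h
      _ ≤ Real.sqrt A * 4 := mul_le_mul h1 h2 (Real.sqrt_nonneg _) hsA
      _ = _ := by ring
  -- pointwise bound on the excess
  have hpt : ∀ i, max 0 ((n i + e i) ^ 2 - 1)
      ≤ |m i - 1| * (m i + 1) + 2 * (m i * (3 * (a i + b i))) + (3 * (a i + b i)) ^ 2 := by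
    intro i
    have hei : e i ≤ 2 * (a i + b i) := by
      have h0 : 0 ≤ a i + b i := add_nonneg (ha i) (hb i)
      have : e i ^ 2 ≤ (2 * (a i + b i)) ^ 2 := by nlinarith [he i, sq_nonneg (a i + b i)]
      exact le_of_sq_le_sq this (by positivity)
    have hne : n i + e i ≤ m i + 3 * (a i + b i) := by linarith [hn i, ha i, hb i]
    have h1 : (n i + e i) ^ 2 ≤ (m i + 3 * (a i + b i)) ^ 2 := by
      exact pow_le_pow_left₀ (add_nonneg (hn0 i) (he0 i)) hne 2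
    have h2 : (m i - 1) * (m i + 1) ≤ |m i - 1| * (m i + 1) :=
      mul_le_mul_of_nonneg_right (le_abs_self _) (by linarith [hm i])
    have h3 : 0 ≤ |m i - 1| * (m i + 1) := mul_nonneg (abs_nonneg _) (by linarith [hm i])
    have h4 : 0 ≤ m i * (3 * (a i + b i)) :=
      mul_nonneg (hm i) (by linarith [ha i, hb i])
    apply max_le
    · positivity
    · nlinarith
  have T5 : ∑ i, μ i * max 0 ((n i + e i) ^ 2 - 1) ≤ 2 * Real.sqrt D + 2 * (17 / 4 * Real.sqrt A)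
      + 18 * A := by
    have h1 : ∑ i, μ i * max 0 ((n i + e i) ^ 2 - 1) ≤
        ∑ i, (μ i * (|m i - 1| * (m i + 1)) + 2 * (μ i * (m i * (3 * (a i + b i))))
          + μ i * (3 * (a i + b i)) ^ 2) := by
      refine Finset.sum_le_sum fun i _ => ?_
      calc _ ≤ μ i * (|m i - 1| * (m i + 1) + 2 * (m i * (3 * (a i + b i)))
              + (3 * (a i + b i)) ^ 2) := mul_le_mul_of_nonneg_left (hpt i) (hμ i)
        _ = _ := by ring
    rw [Finset.sum_add_distrib, Finset.sum_add_distrib, ← Finset.mul_sum] at h1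
    linarith
  have hexp : ∑ i, μ i * (max 0 ((n i + e i) ^ 2 - 1) + 3 / (K' : ℝ) * n i ^ 2 + 16 * K' * (n i * e i))
      = ∑ i, μ i * max 0 ((n i + e i) ^ 2 - 1) + 3 / (K' : ℝ) * ∑ i, μ i * n i ^ 2
        + 16 * K' * ∑ i, μ i * (n i * e i) := by
    rw [Finset.mul_sum, Finset.mul_sum, ← Finset.sum_add_distrib, ← Finset.sum_add_distrib]
    refine Finset.sum_congr rfl fun i _ => ?_
    ring
  rw [hexp]
  have hK1 : (1 : ℝ) ≤ K' := by exact_mod_cast hK'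
  have hK0 : (0 : ℝ) < K' := by linarith
  have h3K : 3 / (K' : ℝ) * ∑ i, μ i * n i ^ 2 ≤ 12 / (K' : ℝ) := by
    have : 3 / (K' : ℝ) * ∑ i, μ i * n i ^ 2 ≤ 3 / (K' : ℝ) * 4 :=
      mul_le_mul_of_nonneg_left hn2 (by positivity)
    calc _ ≤ _ := this
      _ = _ := by ring
  have h16 : 16 * (K' : ℝ) * ∑ i, μ i * (n i * e i) ≤ 16 * K' * (4 * Real.sqrt A) :=
    mul_le_mul_of_nonneg_left T3 (by positivity)
  have hKs : Real.sqrt A ≤ K' * Real.sqrt A := by nlinarith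
  nlinarith

end scalar

end Crest.Agent.PR.QFinal
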