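import Crest.Agent.PR.Defs
import Crest.Agent.PR.QFinalScalar
import Crest.Agent.PR.Strat
import Crest.Agent.PR.QAraki
import Crest.Agent.PR.QCore

/-!
# WP QFinal: `round_qcs` from `qcs_core`, `araki_abs`, `polar_povm`, section (Q7).

Uses the real `qcs_core` of `QCore`.
-/

namespace Crest.Agent.PR

open Crest.MathPhysics.NonlocalGame Matrix
open scoped Kronecker ComplexOrder
open Crest.Agent.PR.QFinal

section nrm
variable {ι : Type} [Fintype ι]

private lemma nrm_sub_le' (u v w : ι → ℂ) : nrm (u - w) ≤ nrm (u - v) + nrm (v - w) := by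
  have := nrm_add_le (u - v) (v - w)
  rwa [sub_add_sub_cancel] at this

private lemma nrm_le_add (u v : ι → ℂ) : nrm v ≤ nrm u + nrm (u - v) := by
  have := nrm_add_le u (v - u)
  rw [add_sub_cancel, nrm_sub_comm v u] at this
  exact this

end nrm

/-- Rounding for S0536: quantum correlated sampling. -/
theorem round_qcs (G : Game) (v : ℝ) (hv0 : 0 ≤ v)
    (hv : ∀ (dA dB : ℕ) (S : Strategy G 1 dA dB), S.probWinsAtLeast 1 ≤ v)
    (hnA : 0 < G.nA) (hnB : 0 < G.nB)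
    {I J : Type} [Fintype I] [Fintype J] [DecidableEq I] [DecidableEq J] [Nonempty (I × J)]
    (Ex : Fin G.nX → Fin G.nA → Matrix I I ℂ) (Ey : Fin G.nY → Fin G.nB → Matrix J J ℂ)
    (hEx : ∀ x, IsPOVM (Ex x)) (hEy : ∀ y, IsPOVM (Ey y))
    (K : Fin G.nX → Fin G.nY → I × J → ℂ) (L : Fin G.nX → I × J → ℂ) (M : Fin G.nY → I × J → ℂ)
    (hK : ∑ x, ∑ y, G.prob x y * nsq (K x y) = 1) (K' : ℕ) (hK' : 1 ≤ K') :
    ∑ x, ∑ y, G.prob x y * wq G Ex Ey x y (K x y) ≤ v
      + 2 * Real.sqrt (∑ x, ∑ y, G.prob x y * (nrm (K x y) - 1) ^ 2) + 12 / (K' : ℝ)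
      + 95 * K' * Real.sqrt (∑ x, ∑ y, G.prob x y * (nsq (K x y - L x) + nsq (K x y - M y))) := by
  classical
  have hK1 : (1 : ℝ) ≤ K' := by exact_mod_cast hK'
  have hK0 : (0 : ℝ) < K' := by linarith
  have hμ := G.prob_nonneg
  have hsD : 0 ≤ Real.sqrt (∑ x, ∑ y, G.prob x y * (nrm (K x y) - 1) ^ 2) := Real.sqrt_nonneg _
  have h12 : 0 ≤ 12 / (K' : ℝ) := by positivity
  obtain ⟨A, hAdef⟩ : ∃ A, A = ∑ x, ∑ y, G.prob x y * (nsq (K x y - L x) + nsq (K x y - M y)) :=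
    ⟨_, rfl⟩
  rw [← hAdef]
  by_cases hA1 : 1 ≤ A
  · -- trivial case
    have h1 : ∑ x, ∑ y, G.prob x y * wq G Ex Ey x y (K x y) ≤ 1 := by
      rw [← hK]
      exact Finset.sum_le_sum fun x _ => Finset.sum_le_sum fun y _ =>
        mul_le_mul_of_nonneg_left (wq_le_nsq hEx hEy x y (K x y)) (hμ x y)
    have h2 : 1 ≤ Real.sqrt A := by
      rw [show (1 : ℝ) = Real.sqrt 1 by simp]
      exact Real.sqrt_le_sqrt hA1
    have h3 : (1 : ℝ) ≤ 95 * K' * Real.sqrt A := by nlinarith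
    linarith
  · have hA : A < 1 := not_le.1 hA1
    -- reshape
    let Lm : Fin G.nX → Matrix I J ℂ := fun x i j => L x (i, j)
    let Mm : Fin G.nY → Matrix I J ℂ := fun y i j => M y (i, j)
    have hLm : ∀ x, vecM (Lm x) = L x := fun x => by funext ⟨i, j⟩; rfl
    have hMm : ∀ y, vecM (Mm y) = M y := fun y => by funext ⟨i, j⟩; rfl
    have : Nonempty J := ⟨(Classical.arbitrary (I × J)).2⟩
    have : Nonempty (Fin G.nA) := ⟨⟨0, hnA⟩⟩
    choose F hF hFev using fun x => polar_povm (Lm x) (Ex x) (hEx x)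
    let A' : Fin G.nX → Matrix J J ℂ := fun x => absM (Lm x)
    let B' : Fin G.nY → Matrix J J ℂ := fun y => absM (Mm y)
    have hcore := qcs_core G v hv hnA hnB A' B' (fun x => (absM_psd _).1) (fun y => (absM_psd _).1)
      F Ey hF hEy K' hK'
    -- the strategy transfers
    have hwq : ∀ x y, wq G Ex Ey x y (L x) = wq G F Ey x y (vecM (A' x)) := by
      intro x y
      unfold wq
      rw [← hLm x]
      refine Finset.sum_congr rfl fun a _ => Finset.sum_congr rfl fun b _ => ?_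
      split_ifs
      · exact hFev x a (Ey y b)
      · rfl
    -- scalars
    let μ : Fin G.nX × Fin G.nY → ℝ := fun p => G.prob p.1 p.2
    let m : Fin G.nX × Fin G.nY → ℝ := fun p => nrm (K p.1 p.2)
    let a : Fin G.nX × Fin G.nY → ℝ := fun p => nrm (K p.1 p.2 - L p.1)
    let b : Fin G.nX × Fin G.nY → ℝ := fun p => nrm (K p.1 p.2 - M p.2)
    let n : Fin G.nX × Fin G.nY → ℝ := fun p => nrm (vecM (A' p.1))
    let e : Fin G.nX × Fin G.nY → ℝ := fun p => nrm (vecM (A' p.1 - B' p.2))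
    have hn_eq : ∀ x, nrm (vecM (A' x)) = nrm (L x) := by
      intro x
      unfold nrm
      rw [(absM_psd (Lm x)).2, hLm]
    have hnle : ∀ p, n p ≤ m p + a p := by
      intro p
      show nrm (vecM (A' p.1)) ≤ nrm (K p.1 p.2) + nrm (K p.1 p.2 - L p.1)
      rw [hn_eq]
      exact nrm_le_add _ _
    have hele : ∀ p, e p ^ 2 ≤ 2 * (a p + b p) ^ 2 := by
      intro p
      show nrm (vecM (A' p.1 - B' p.2)) ^ 2 ≤ 2 * (nrm (K p.1 p.2 - L p.1) + nrm (K p.1 p.2 - M p.2)) ^ 2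
      rw [nrm_sq]
      have h1 := araki_abs (Lm p.1) (Mm p.2)
      have h2 : vecM (Lm p.1 - Mm p.2) = L p.1 - M p.2 := by
        funext ⟨i, j⟩; rfl
      rw [h2] at h1
      have h3 : nrm (L p.1 - M p.2) ≤ nrm (K p.1 p.2 - L p.1) + nrm (K p.1 p.2 - M p.2) := by
        have := nrm_sub_le' (L p.1) (K p.1 p.2) (M p.2)
        rwa [nrm_sub_comm (L p.1) (K p.1 p.2)] at this
      have h4 : nsq (L p.1 - M p.2) ≤ (nrm (K p.1 p.2 - L p.1) + nrm (K p.1 p.2 - M p.2)) ^ 2 := by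
        rw [← nrm_sq]
        exact pow_le_pow_left₀ (nrm_nonneg _) h3 2
      have h5 : vecM (absM (Lm p.1) - absM (Mm p.2)) = vecM (A' p.1 - B' p.2) := rfl
      rw [h5] at h1
      linarith
    have hsum : ∀ f : Fin G.nX → Fin G.nY → ℝ, ∑ p : Fin G.nX × Fin G.nY, f p.1 p.2 = ∑ x, ∑ y, f x y :=
      fun f => Fintype.sum_prod_type' f
    have hμ1 : ∑ p, μ p = 1 := by
      rw [hsum (fun x y => G.prob x y)]
      exact G.prob_sum
    have hm1 : ∑ p, μ p * m p ^ 2 = 1 := by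
      rw [hsum (fun x y => G.prob x y * nrm (K x y) ^ 2), ← hK]
      simp only [nrm_sq]
    have hA' : ∑ p, μ p * (a p ^ 2 + b p ^ 2) = A := by
      rw [hsum (fun x y => G.prob x y * (nrm (K x y - L x) ^ 2 + nrm (K x y - M y) ^ 2)), hAdef]
      simp only [nrm_sq]
    have hscalar := qcs_scalar μ m a b n e (fun p => hμ _ _) hμ1 (fun _ => nrm_nonneg _)
      (fun _ => nrm_nonneg _) (fun _ => nrm_nonneg _) (fun _ => nrm_nonneg _)
      (fun _ => nrm_nonneg _) hnle hele hm1 (by rw [hA']; exact hA) K' hK'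
    rw [hA',
      hsum (fun x y => G.prob x y * (max 0 ((nrm (vecM (A' x)) + nrm (vecM (A' x - B' y))) ^ 2 - 1)
        + 3 / (K' : ℝ) * nrm (vecM (A' x)) ^ 2
        + 16 * K' * (nrm (vecM (A' x)) * nrm (vecM (A' x - B' y))))),
      hsum (fun x y => G.prob x y * (nrm (K x y - L x) * (nrm (K x y) + nrm (vecM (A' x))))),
      hsum (fun x y => G.prob x y * (nrm (K x y) - 1) ^ 2)] at hscalar
    -- step `K → L`
    have hstep : ∑ x, ∑ y, G.prob x y * wq G Ex Ey x y (K x y)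
        ≤ ∑ x, ∑ y, G.prob x y * wq G F Ey x y (vecM (A' x))
          + ∑ x, ∑ y, G.prob x y * (nrm (K x y - L x) * (nrm (K x y) + nrm (vecM (A' x)))) := by
      rw [← Finset.sum_add_distrib]
      refine Finset.sum_le_sum fun x _ => ?_
      rw [← Finset.sum_add_distrib]
      refine Finset.sum_le_sum fun y _ => ?_
      rw [← mul_add]
      refine mul_le_mul_of_nonneg_left ?_ (hμ x y)
      rw [hn_eq, ← hwq]
      exact wq_sub_le hEx hEy x y (K x y) (L x)
    linarith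

end Crest.Agent.PR
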