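import Crest.Agent.PR.Defs

set_option linter.unusedSectionVars false
set_option linter.unusedSimpArgs false

namespace Crest.Agent.PR.VectorsCore

open Crest.MathPhysics.NonlocalGame Matrix
open scoped Kronecker ComplexOrder

section pinv
variable {d : Type} [Fintype d] [DecidableEq d]

/-- Moore-Penrose inverse of a Hermitian matrix (functional calculus of `t ↦ t⁻¹`). -/
theorem exists_pinv (T : Matrix d d ℂ) (hT : T.IsHermitian) :
    ∃ X : Matrix d d ℂ, X.IsHermitian ∧ T * X * T = T ∧ X * T * X = X ∧ T * X = X * T := by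
  have hsa : IsSelfAdjoint T := hT
  have hc : ∀ f : ℝ → ℝ, ContinuousOn f (spectrum ℝ T) := fun f =>
    (Matrix.finite_real_spectrum (A := T)).continuousOn f
  refine ⟨cfc (fun t : ℝ => t⁻¹) T, ?_, ?_, ?_, ?_⟩
  · exact (cfc_predicate (fun t : ℝ => t⁻¹) T : IsSelfAdjoint _)
  · have h1 : T * cfc (fun t : ℝ => t⁻¹) T * T = cfc (fun t : ℝ => t * t⁻¹ * t) T := by
      rw [cfc_mul (fun t : ℝ => t * t⁻¹) (fun t => t) T (hc _) (hc _),
        cfc_mul (fun t : ℝ => t) (fun t : ℝ => t⁻¹) T (hc _) (hc _), cfc_id' ℝ T]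
    rw [h1]
    have h2 : (fun t : ℝ => t * t⁻¹ * t) = fun t => t := by
      funext t; by_cases h : t = 0 <;> simp [h]
    rw [h2, cfc_id' ℝ T]
  · have h1 : cfc (fun t : ℝ => t⁻¹) T * T * cfc (fun t : ℝ => t⁻¹) T
        = cfc (fun t : ℝ => t⁻¹ * t * t⁻¹) T := by
      rw [cfc_mul (fun t : ℝ => t⁻¹ * t) (fun t => t⁻¹) T (hc _) (hc _),
        cfc_mul (fun t : ℝ => t⁻¹) (fun t : ℝ => t) T (hc _) (hc _), cfc_id' ℝ T]
    rw [h1]
    have h2 : (fun t : ℝ => t⁻¹ * t * t⁻¹) = fun t => t⁻¹ := by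
      funext t; by_cases h : t = 0 <;> simp [h]
    rw [h2]
  · have h1 : T * cfc (fun t : ℝ => t⁻¹) T = cfc (fun t : ℝ => t * t⁻¹) T := by
      rw [cfc_mul (fun t : ℝ => t) (fun t : ℝ => t⁻¹) T (hc _) (hc _), cfc_id' ℝ T]
    have h3 : cfc (fun t : ℝ => t⁻¹) T * T = cfc (fun t : ℝ => t⁻¹ * t) T := by
      rw [cfc_mul (fun t : ℝ => t⁻¹) (fun t : ℝ => t) T (hc _) (hc _), cfc_id' ℝ T]
    rw [h1, h3]
    congr 1
    funext t; ring

end pinv

section lift
variable {J d α : Type} [Fintype J] [Fintype d] [Fintype α] [DecidableEq J] [DecidableEq d]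
  [DecidableEq α]

/-- POVM lift: `Gᴴ G = ∑ T_a` with `T_a ≥ 0` ⇒ a POVM `E` with `Gᴴ E_a G = T_a`. -/
theorem povm_lift (G : Matrix J d ℂ) (Ta : α → Matrix d d ℂ) (hTa : ∀ a, (Ta a).PosSemidef)
    (hG : Gᴴ * G = ∑ a, Ta a) (a₀ : α) :
    ∃ E : α → Matrix J J ℂ, IsPOVM E ∧ ∀ a, Gᴴ * E a * G = Ta a := by
  classical
  set T : Matrix d d ℂ := Gᴴ * G with hTdef
  have hTh : T.IsHermitian := (Matrix.posSemidef_conjTranspose_mul_self G).isHermitian
  obtain ⟨X, hXh, hTXT, hXTX, hcomm⟩ := exists_pinv T hTh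
  have hXstar : Xᴴ = X := hXh
  -- projection
  set Pj : Matrix J J ℂ := G * X * Gᴴ with hPj
  have hPjh : Pjᴴ = Pj := by
    simp only [hPj, conjTranspose_mul, conjTranspose_conjTranspose, hXstar, Matrix.mul_assoc]
  have hPj2 : Pj * Pj = Pj := by
    calc Pj * Pj = G * (X * (Gᴴ * G) * X) * Gᴴ := by
          simp only [hPj, Matrix.mul_assoc]
      _ = Pj := by rw [← hTdef, hXTX]
  have hQ : (1 - Pj).PosSemidef := by
    have h : (1 - Pj) = (1 - Pj)ᴴ * (1 - Pj) := by
      rw [conjTranspose_sub, conjTranspose_one, hPjh]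
      rw [Matrix.sub_mul, Matrix.mul_sub, Matrix.mul_sub, hPj2]
      simp
    rw [h]
    exact Matrix.posSemidef_conjTranspose_mul_self _
  -- vanishing of `T_a` on the kernel of `T`
  have hkill : ∀ a (v : d → ℂ), T *ᵥ v = 0 → Ta a *ᵥ v = 0 := by
    intro a v hv
    have hTv : star v ⬝ᵥ (T *ᵥ v) = 0 := by rw [hv]; simp
    have hsum : star v ⬝ᵥ (T *ᵥ v) = ∑ b, star v ⬝ᵥ (Ta b *ᵥ v) := by
      rw [hG, Matrix.sum_mulVec, dotProduct_sum]
    rw [hsum] at hTv
    have hnn : ∀ b ∈ Finset.univ, 0 ≤ star v ⬝ᵥ (Ta b *ᵥ v) :=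
      fun b _ => (hTa b).dotProduct_mulVec_nonneg v
    have := (Finset.sum_eq_zero_iff_of_nonneg hnn).1 hTv a (Finset.mem_univ a)
    exact ((hTa a).dotProduct_mulVec_zero_iff v).1 this
  -- `T_a (1 - T X) = 0`
  have hTQ : T * (1 - T * X) = 0 := by
    rw [Matrix.mul_sub, Matrix.mul_one, hcomm, ← Matrix.mul_assoc, hTXT, sub_self]
  have hTa1 : ∀ a, Ta a * (T * X) = Ta a := by
    intro a
    have h0 : Ta a * (1 - T * X) = 0 := by
      ext i j
      have hcol : (1 - T * X) *ᵥ (fun k => if k = j then 1 else 0) = fun k => (1 - T * X) k j := by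
        funext k
        simp [Matrix.mulVec, dotProduct]
      have := hkill a (fun k => (1 - T * X) k j) (by
        rw [← hcol, Matrix.mulVec_mulVec, hTQ]; simp)
      have h2 := congrFun this i
      simpa [Matrix.mul_apply, Matrix.mulVec, dotProduct] using h2
    have : Ta a - Ta a * (T * X) = 0 := by
      rw [← h0, Matrix.mul_sub, Matrix.mul_one]
    exact sub_eq_zero.1 this |>.symm
  have hTa2 : ∀ a, (X * T) * Ta a = Ta a := by
    intro a
    have h := congrArg conjTranspose (hTa1 a)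
    rw [conjTranspose_mul, conjTranspose_mul, hXstar, (hTa a).isHermitian.eq, hTh.eq] at h
    exact h
  have hTa2' : ∀ a, X * T * Ta a * (X * T) = Ta a * (X * T) := fun a => by rw [hTa2 a]
  refine ⟨fun a => G * X * Ta a * X * Gᴴ + if a = a₀ then 1 - Pj else 0, ⟨?_, ?_⟩, ?_⟩
  · intro a
    refine Matrix.PosSemidef.add ?_ ?_
    · have := (hTa a).mul_mul_conjTranspose_same (G * X)
      simpa [conjTranspose_mul, hXstar, Matrix.mul_assoc] using this
    · split_ifs
      · exact hQ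
      · exact Matrix.PosSemidef.zero
  · rw [Finset.sum_add_distrib, Finset.sum_ite_eq' Finset.univ a₀]
    simp only [Finset.mem_univ, if_true]
    have : ∑ a, G * X * Ta a * X * Gᴴ = G * X * T * X * Gᴴ := by
      rw [hG, Matrix.mul_sum, Matrix.sum_mul, Matrix.sum_mul]
    rw [this]
    have h2 : G * X * T * X * Gᴴ = Pj := by
      calc G * X * T * X * Gᴴ = G * (X * T * X) * Gᴴ := by simp only [Matrix.mul_assoc]
        _ = Pj := by rw [hXTX]
    rw [h2]; simp
  · intro a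
    have hGQG : Gᴴ * (1 - Pj) * G = 0 := by
      rw [Matrix.mul_sub, Matrix.sub_mul, Matrix.mul_one]
      have : Gᴴ * Pj * G = T * X * T := by
        simp only [hPj, hTdef, Matrix.mul_assoc]
      rw [this, hTXT, hTdef, sub_self]
    rw [Matrix.mul_add, Matrix.add_mul]
    have h1 : Gᴴ * (G * X * Ta a * X * Gᴴ) * G = T * X * Ta a * (X * T) := by
      simp only [hTdef, Matrix.mul_assoc]
    rw [h1]
    have h2 : T * X * Ta a * (X * T) = Ta a := by
      rw [hcomm, hTa2' a, hcomm.symm, hTa1 a]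
    rw [h2]
    split_ifs
    · rw [hGQG, add_zero]
    · simp

end lift


section ev
variable {I J I' J' : Type} [Fintype I] [Fintype J] [Fintype I'] [Fintype J']
  [DecidableEq I] [DecidableEq J] [DecidableEq I'] [DecidableEq J']

theorem nsq_eq_re (v : I → ℂ) : nsq v = (star v ⬝ᵥ v).re := by
  have : star v ⬝ᵥ v = ((∑ i, ‖v i‖ ^ 2 : ℝ) : ℂ) := by
    simp only [dotProduct, Pi.star_apply, Complex.ofReal_sum]
    refine Finset.sum_congr rfl fun i _ => ?_
    rw [mul_comm, Complex.star_def, Complex.mul_conj, Complex.normSq_eq_norm_sq]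
  rw [this, Complex.ofReal_re]; rfl

theorem ev_nonneg' (ψ : I × J → ℂ) {M : Matrix I I ℂ} {N : Matrix J J ℂ}
    (hM : M.PosSemidef) (hN : N.PosSemidef) : 0 ≤ ev ψ M N := by
  have h := (hM.kronecker hN).dotProduct_mulVec_nonneg ψ
  exact (Complex.le_def.1 h).1

theorem ev_one_one (v : I × J → ℂ) : ev v (1 : Matrix I I ℂ) (1 : Matrix J J ℂ) = nsq v := by
  unfold ev
  rw [nsq_eq_re, Matrix.one_kronecker_one, Matrix.one_mulVec]

theorem ev_conj (A : Matrix I' I ℂ) (B : Matrix J' J ℂ) (ψ : I × J → ℂ)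
    (E : Matrix I' I' ℂ) (F : Matrix J' J' ℂ) :
    ev ((A ⊗ₖ B) *ᵥ ψ) E F = ev ψ (Aᴴ * E * A) (Bᴴ * F * B) := by
  unfold ev
  congr 1
  rw [Matrix.star_mulVec, ← Matrix.dotProduct_mulVec, Matrix.mulVec_mulVec, Matrix.mulVec_mulVec]
  rw [Matrix.conjTranspose_kronecker, Matrix.mul_kronecker_mul, Matrix.mul_kronecker_mul]

theorem nsq_tensor (A : Matrix I' I ℂ) (B : Matrix J' J ℂ) (ψ : I × J → ℂ) :
    nsq ((A ⊗ₖ B) *ᵥ ψ) = ev ψ (Aᴴ * A) (Bᴴ * B) := by
  rw [← ev_one_one, ev_conj, Matrix.mul_one, Matrix.mul_one]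

theorem kron_sub_right (M : Matrix I I' ℂ) (N N' : Matrix J J' ℂ) :
    M ⊗ₖ (N - N') = M ⊗ₖ N - M ⊗ₖ N' := by
  ext p q; simp [Matrix.kroneckerMap_apply, mul_sub]

theorem kron_sub_left (M M' : Matrix I I' ℂ) (N : Matrix J J' ℂ) :
    (M - M') ⊗ₖ N = M ⊗ₖ N - M' ⊗ₖ N := by
  ext p q; simp [Matrix.kroneckerMap_apply, sub_mul]

theorem ev_sub_right (ψ : I × J → ℂ) (M : Matrix I I ℂ) (N N' : Matrix J J ℂ) :
    ev ψ M (N - N') = ev ψ M N - ev ψ M N' := by
  unfold ev
  rw [kron_sub_right, Matrix.sub_mulVec, dotProduct_sub, Complex.sub_re]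

theorem ev_sub_left (ψ : I × J → ℂ) (M M' : Matrix I I ℂ) (N : Matrix J J ℂ) :
    ev ψ (M - M') N = ev ψ M N - ev ψ M' N := by
  unfold ev
  rw [kron_sub_left, Matrix.sub_mulVec, dotProduct_sub, Complex.sub_re]

theorem ev_sum_right {ι : Type} (s : Finset ι) (c : ι → ℝ) (ψ : I × J → ℂ) (M : Matrix I I ℂ)
    (N : ι → Matrix J J ℂ) :
    ev ψ M (∑ i ∈ s, ((c i : ℝ) : ℂ) • N i) = ∑ i ∈ s, c i * ev ψ M (N i) := by
  classical
  induction s using Finset.induction_on with
  | empty =>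
    simp [ev, Matrix.kronecker]
  | insert a s ha ih =>
    rw [Finset.sum_insert ha, Finset.sum_insert ha, ← ih]
    unfold ev
    rw [Matrix.kronecker_add, Matrix.add_mulVec, dotProduct_add, Complex.add_re,
      Matrix.kronecker_smul, Matrix.smul_mulVec, dotProduct_smul]
    simp

theorem ev_sum_left {ι : Type} (s : Finset ι) (c : ι → ℝ) (ψ : I × J → ℂ) (M : ι → Matrix I I ℂ)
    (N : Matrix J J ℂ) :
    ev ψ (∑ i ∈ s, ((c i : ℝ) : ℂ) • M i) N = ∑ i ∈ s, c i * ev ψ (M i) N := by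
  classical
  induction s using Finset.induction_on with
  | empty =>
    simp [ev, Matrix.kronecker]
  | insert a s ha ih =>
    rw [Finset.sum_insert ha, Finset.sum_insert ha, ← ih]
    unfold ev
    rw [Matrix.add_kronecker, Matrix.add_mulVec, dotProduct_add, Complex.add_re,
      Matrix.smul_kronecker, Matrix.smul_mulVec, dotProduct_smul]
    simp

theorem nsq_smul (c : ℝ) (v : I → ℂ) : nsq (((c : ℝ) : ℂ) • v) = c ^ 2 * nsq v := by
  unfold nsq
  rw [Finset.mul_sum]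
  refine Finset.sum_congr rfl fun i _ => ?_
  simp [mul_pow]

theorem ev_smul (c : ℝ) (v : I × J → ℂ) (E : Matrix I I ℂ) (F : Matrix J J ℂ) :
    ev (((c : ℝ) : ℂ) • v) E F = c ^ 2 * ev v E F := by
  unfold ev
  rw [Matrix.mulVec_smul, star_smul, dotProduct_smul, smul_dotProduct]
  simp only [smul_eq_mul, Complex.star_def, Complex.conj_ofReal, Complex.mul_re, Complex.ofReal_re,
    Complex.ofReal_im, zero_mul, sub_zero, Complex.mul_im]
  ring

end ev

section blk
variable {JA JB Ω : Type} [Fintype JA] [Fintype JB] [Fintype Ω] [DecidableEq JA] [DecidableEq JB]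
  [DecidableEq Ω]

/-- block vector supported on equal `Ω`-labels. -/
def blk (v : Ω → JA × JB → ℂ) : (JA × Ω) × (JB × Ω) → ℂ :=
  fun p => if p.1.2 = p.2.2 then v p.1.2 (p.1.1, p.2.1) else 0

theorem blk_sub (v v' : Ω → JA × JB → ℂ) : blk v - blk v' = blk (fun ω => v ω - v' ω) := by
  funext p
  simp only [blk, Pi.sub_apply]
  split_ifs <;> simp

theorem dot_blk (v u : Ω → JA × JB → ℂ) :
    star (blk v) ⬝ᵥ blk u = ∑ ω, star (v ω) ⬝ᵥ u ω := by
  simp only [dotProduct, Fintype.sum_prod_type, blk, Pi.star_apply]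
  -- ∑ j, ∑ ω, ∑ j', ∑ ω', ...
  rw [Finset.sum_comm]
  refine Finset.sum_congr rfl fun ω _ => ?_
  refine Finset.sum_congr rfl fun j _ => ?_
  refine Finset.sum_congr rfl fun j' _ => ?_
  rw [Finset.sum_eq_single ω]
  · simp
  · intro b _ hb
    simp [Ne.symm hb]
  · simp

theorem nsq_blk (v : Ω → JA × JB → ℂ) : nsq (blk v) = ∑ ω, nsq (v ω) := by
  rw [nsq_eq_re, dot_blk, Complex.re_sum]
  exact Finset.sum_congr rfl fun ω _ => (nsq_eq_re _).symm

theorem mulVec_blk (v : Ω → JA × JB → ℂ) (E : Ω → Matrix JA JA ℂ) (F : Ω → Matrix JB JB ℂ) :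
    (blockDiagonal E ⊗ₖ blockDiagonal F) *ᵥ blk v = blk (fun ω => (E ω ⊗ₖ F ω) *ᵥ v ω) := by
  funext ⟨⟨j₁, ω₁⟩, ⟨j₂, ω₂⟩⟩
  simp only [mulVec, dotProduct, Fintype.sum_prod_type, kroneckerMap_apply, blockDiagonal_apply,
    blk]
  have key : ∀ j : JA, ∀ j' : JB,
      (∑ ω, ∑ ω', ((if ω₁ = ω then E ω₁ j₁ j else 0) * (if ω₂ = ω' then F ω₂ j₂ j' else 0)) *
        (if ω = ω' then v ω (j, j') else 0))
      = if ω₁ = ω₂ then E ω₁ j₁ j * F ω₁ j₂ j' * v ω₁ (j, j') else 0 := by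
    intro j j'
    rw [Finset.sum_eq_single ω₁]
    · rw [Finset.sum_eq_single ω₂]
      · by_cases h : ω₁ = ω₂
        · subst h; simp
        · simp [h]
      · intro b _ hb
        simp [Ne.symm hb]
      · simp
    · intro b _ hb
      simp [Ne.symm hb]
    · simp
  calc _ = ∑ j, ∑ j', ∑ ω, ∑ ω', ((if ω₁ = ω then E ω₁ j₁ j else 0) *
        (if ω₂ = ω' then F ω₂ j₂ j' else 0)) * (if ω = ω' then v ω (j, j') else 0) := by
        refine Finset.sum_congr rfl fun j _ => ?_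
        rw [Finset.sum_comm]
    _ = _ := by
        simp only [key]
        by_cases h : ω₁ = ω₂
        · simp [h]
        · simp [h]

theorem ev_blk (v : Ω → JA × JB → ℂ) (E : Ω → Matrix JA JA ℂ) (F : Ω → Matrix JB JB ℂ) :
    ev (blk v) (blockDiagonal E) (blockDiagonal F) = ∑ ω, ev (v ω) (E ω) (F ω) := by
  unfold ev
  rw [mulVec_blk, dot_blk, Complex.re_sum]

end blk


section blockPOVM
variable {JA Ω : Type} [Fintype JA] [Fintype Ω] [DecidableEq JA] [DecidableEq Ω]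

open scoped MatrixOrder Matrix.Norms.L2Operator in
theorem posSemidef_blockDiagonal (E : Ω → Matrix JA JA ℂ) (hE : ∀ ω, (E ω).PosSemidef) :
    (blockDiagonal E).PosSemidef := by
  have h : ∀ ω, ∃ R : Matrix JA JA ℂ, E ω = Rᴴ * R := fun ω => by
    obtain ⟨R, hR⟩ := CStarAlgebra.nonneg_iff_eq_star_mul_self.mp (hE ω).nonneg
    exact ⟨R, hR⟩
  choose R hR using h
  have : blockDiagonal E = (blockDiagonal R)ᴴ * blockDiagonal R := by
    rw [blockDiagonal_conjTranspose, ← blockDiagonal_mul]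
    congr 1
    funext ω
    exact hR ω
  rw [this]
  exact Matrix.posSemidef_conjTranspose_mul_self _

theorem sum_blockDiagonal {α : Type} [Fintype α] (E : α → Ω → Matrix JA JA ℂ) :
    ∑ a, blockDiagonal (E a) = blockDiagonal (fun ω => ∑ a, E a ω) := by
  ext ⟨i, k⟩ ⟨j, k'⟩
  simp only [Matrix.sum_apply, blockDiagonal_apply]
  split_ifs with h
  · subst h; simp [Matrix.sum_apply]
  · simp

theorem isPOVM_blockDiagonal {α : Type} [Fintype α] (E : Ω → α → Matrix JA JA ℂ)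
    (hE : ∀ ω, IsPOVM (E ω)) : IsPOVM (fun a => blockDiagonal (fun ω => E ω a)) := by
  refine ⟨fun a => posSemidef_blockDiagonal _ fun ω => (hE ω).1 a, ?_⟩
  rw [sum_blockDiagonal]
  have : (fun ω => ∑ a, E ω a) = (1 : Ω → Matrix JA JA ℂ) := by
    funext ω; exact (hE ω).2
  rw [this, blockDiagonal_one]

end blockPOVM

section core
variable (G : Game) {dA dB : ℕ} {Ω : Type} [Fintype Ω]
  [DecidableEq Ω]

theorem muX_nonneg (x : Fin G.nX) : 0 ≤ muX G x :=
  Finset.sum_nonneg fun y _ => G.prob_nonneg x y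

theorem muY_nonneg (y : Fin G.nY) : 0 ≤ muY G y :=
  Finset.sum_nonneg fun x _ => G.prob_nonneg x y

theorem condY_nonneg (x : Fin G.nX) (y : Fin G.nY) : 0 ≤ condY G x y :=
  div_nonneg (G.prob_nonneg x y) (muX_nonneg G x)

theorem condX_nonneg (y : Fin G.nY) (x : Fin G.nX) : 0 ≤ condX G y x :=
  div_nonneg (G.prob_nonneg x y) (muY_nonneg G y)

theorem prob_eq_zero_of_muX {x : Fin G.nX} (h : muX G x = 0) (y : Fin G.nY) : G.prob x y = 0 :=
  (Finset.sum_eq_zero_iff_of_nonneg fun y _ => G.prob_nonneg x y).1 h y (Finset.mem_univ y)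

theorem prob_eq_zero_of_muY {y : Fin G.nY} (h : muY G y = 0) (x : Fin G.nX) : G.prob x y = 0 :=
  (Finset.sum_eq_zero_iff_of_nonneg fun x _ => G.prob_nonneg x y).1 h x (Finset.mem_univ x)

variable {G}

theorem sumA_posSemidef {T : Fin G.nX → Ω → Fin G.nA → Matrix (Fin dA) (Fin dA) ℂ}
    (hT : ∀ x ω a, (T x ω a).PosSemidef) (x : Fin G.nX) (ω : Ω) : (sumA T x ω).PosSemidef :=
  Matrix.posSemidef_sum _ fun a _ => hT x ω a

theorem sumB_posSemidef {S : Fin G.nY → Ω → Fin G.nB → Matrix (Fin dB) (Fin dB) ℂ}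
    (hS : ∀ y ω b, (S y ω b).PosSemidef) (y : Fin G.nY) (ω : Ω) : (sumB S y ω).PosSemidef :=
  Matrix.posSemidef_sum _ fun b _ => hS y ω b

variable (G)

/-- The vector construction, given the gauge data. -/
theorem core (hnA : 0 < G.nA) (hnB : 0 < G.nB) (ψ : Fin dA × Fin dB → ℂ) (w : Ω → ℝ) (hw : ∀ ω, 0 ≤ w ω)
    (T : Fin G.nX → Ω → Fin G.nA → Matrix (Fin dA) (Fin dA) ℂ)
    (S : Fin G.nY → Ω → Fin G.nB → Matrix (Fin dB) (Fin dB) ℂ)
    (hT : ∀ x ω a, (T x ω a).PosSemidef) (hS : ∀ y ω b, (S y ω b).PosSemidef)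
    (hZ : 0 < coordZ (G := G) ψ w T S)
    {JA JB : Type} [Fintype JA] [Fintype JB] [DecidableEq JA] [DecidableEq JB]
    (GT : Fin G.nX → Ω → Matrix JA (Fin dA) ℂ) (GTb : Fin G.nY → Ω → Matrix JA (Fin dA) ℂ)
    (GS : Fin G.nY → Ω → Matrix JB (Fin dB) ℂ) (GSb : Fin G.nX → Ω → Matrix JB (Fin dB) ℂ)
    (hGT : ∀ x ω, (GT x ω)ᴴ * GT x ω = sumA T x ω)
    (hGS : ∀ y ω, (GS y ω)ᴴ * GS y ω = sumB S y ω)
    (hKeyB : ∀ x ω, 0 < muX G x →
      ((∑ y, ((condY G x y : ℝ) : ℂ) • xlog (sumB S y ω)) - xlog (barS S x ω)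
        - ∑ y, ((condY G x y : ℝ) : ℂ) • ((GS y ω - GSb x ω)ᴴ * (GS y ω - GSb x ω))).PosSemidef)
    (hKeyA : ∀ y ω, 0 < muY G y →
      ((∑ x, ((condX G y x : ℝ) : ℂ) • xlog (sumA T x ω)) - xlog (barT T y ω)
        - ∑ x, ((condX G y x : ℝ) : ℂ) • ((GT x ω - GTb y ω)ᴴ * (GT x ω - GTb y ω))).PosSemidef) :
    ∃ (I J : Type) (_ : Fintype I) (_ : Fintype J) (_ : DecidableEq I) (_ : DecidableEq J)
      (Ex : Fin G.nX → Fin G.nA → Matrix I I ℂ) (Ey : Fin G.nY → Fin G.nB → Matrix J J ℂ)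
      (K : Fin G.nX → Fin G.nY → I × J → ℂ) (L : Fin G.nX → I × J → ℂ) (M : Fin G.nY → I × J → ℂ),
      (∀ x, IsPOVM (Ex x)) ∧ (∀ y, IsPOVM (Ey y)) ∧
      (∀ x y, nsq (K x y) = coordMass (G := G) ψ w T S x y / coordZ (G := G) ψ w T S) ∧
      (∑ x, ∑ y, G.prob x y * nsq (K x y - L x) ≤ aTerm (G := G) ψ w T S / coordZ (G := G) ψ w T S) ∧
      (∑ x, ∑ y, G.prob x y * nsq (K x y - M y) ≤ bTerm (G := G) ψ w T S / coordZ (G := G) ψ w T S) ∧
      (∑ x, ∑ y, G.prob x y * wq G Ex Ey x y (K x y)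
        = coordWin (G := G) ψ w T S / coordZ (G := G) ψ w T S) := by
  classical
  set Z := coordZ (G := G) ψ w T S with hZdef
  have hZne : Z ≠ 0 := hZ.ne'
  -- POVMs
  have hE := fun (x : Fin G.nX) (ω : Ω) =>
    povm_lift (GT x ω) (T x ω) (hT x ω) (hGT x ω) (⟨0, hnA⟩ : Fin G.nA)
  choose E hEp hEG using hE
  have hF := fun (y : Fin G.nY) (ω : Ω) =>
    povm_lift (GS y ω) (S y ω) (hS y ω) (hGS y ω) (⟨0, hnB⟩ : Fin G.nB)
  choose F hFp hFG using hF
  -- scalars
  set c : Ω → ℝ := fun ω => Real.sqrt (w ω / Z) with hc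
  have hc2 : ∀ ω, c ω ^ 2 = w ω / Z := fun ω =>
    Real.sq_sqrt (div_nonneg (hw ω) hZ.le)
  set K : Fin G.nX → Fin G.nY → (JA × Ω) × (JB × Ω) → ℂ :=
    fun x y => blk (fun ω => ((c ω : ℝ) : ℂ) • ((GT x ω ⊗ₖ GS y ω) *ᵥ ψ)) with hK
  set L : Fin G.nX → (JA × Ω) × (JB × Ω) → ℂ :=
    fun x => blk (fun ω => ((c ω : ℝ) : ℂ) • ((GT x ω ⊗ₖ GSb x ω) *ᵥ ψ)) with hL
  set M : Fin G.nY → (JA × Ω) × (JB × Ω) → ℂ :=
    fun y => blk (fun ω => ((c ω : ℝ) : ℂ) • ((GTb y ω ⊗ₖ GS y ω) *ᵥ ψ)) with hM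
  -- norm computations
  have hnK : ∀ x y, nsq (K x y) = ∑ ω, (w ω / Z) * ev ψ (sumA T x ω) (sumB S y ω) := by
    intro x y
    rw [hK, nsq_blk]
    refine Finset.sum_congr rfl fun ω _ => ?_
    rw [nsq_smul, nsq_tensor, hGT, hGS, hc2]
  have hnKL : ∀ x y, nsq (K x y - L x) = ∑ ω, (w ω / Z) * ev ψ (sumA T x ω)
      ((GS y ω - GSb x ω)ᴴ * (GS y ω - GSb x ω)) := by
    intro x y
    rw [hK, hL, blk_sub, nsq_blk]
    refine Finset.sum_congr rfl fun ω _ => ?_
    rw [← smul_sub, ← Matrix.sub_mulVec, ← kron_sub_right, nsq_smul, nsq_tensor, hGT, hc2]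
  have hnKM : ∀ x y, nsq (K x y - M y) = ∑ ω, (w ω / Z) * ev ψ
      ((GT x ω - GTb y ω)ᴴ * (GT x ω - GTb y ω)) (sumB S y ω) := by
    intro x y
    rw [hK, hM, blk_sub, nsq_blk]
    refine Finset.sum_congr rfl fun ω _ => ?_
    rw [← smul_sub, ← Matrix.sub_mulVec, ← kron_sub_left, nsq_smul, nsq_tensor, hGS, hc2]
  refine ⟨JA × Ω, JB × Ω, inferInstance, inferInstance, inferInstance, inferInstance,
    fun x a => blockDiagonal (fun ω => E x ω a), fun y b => blockDiagonal (fun ω => F y ω b),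
    K, L, M, fun x => isPOVM_blockDiagonal _ (hEp x), fun y => isPOVM_blockDiagonal _ (hFp y),
    ?_, ?_, ?_, ?_⟩
  · intro x y
    rw [hnK, coordMass, Finset.sum_div]
    refine Finset.sum_congr rfl fun ω _ => ?_
    ring
  · -- first inequality
    rw [aTerm, Finset.sum_div]
    refine Finset.sum_le_sum fun x _ => ?_
    rcases (muX_nonneg G x).eq_or_lt with h0 | hpos
    · simp [prob_eq_zero_of_muX G h0.symm, ← h0]
    · have hp : ∀ y, G.prob x y = muX G x * condY G x y := by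
        intro y; rw [condY]; field_simp
      have hinner : ∀ ω, ∑ y, condY G x y * ev ψ (sumA T x ω)
          ((GS y ω - GSb x ω)ᴴ * (GS y ω - GSb x ω))
          ≤ ev ψ (sumA T x ω) ((∑ y, ((condY G x y : ℝ) : ℂ) • xlog (sumB S y ω))
              - xlog (barS S x ω)) := by
        intro ω
        have := ev_nonneg' ψ (sumA_posSemidef hT x ω) (hKeyB x ω hpos)
        rw [ev_sub_right, ev_sum_right] at this
        linarith
      calc ∑ y, G.prob x y * nsq (K x y - L x)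
          = muX G x * ∑ ω, (w ω / Z) * ∑ y, condY G x y * ev ψ (sumA T x ω)
              ((GS y ω - GSb x ω)ᴴ * (GS y ω - GSb x ω)) := by
            simp only [hnKL, hp, Finset.mul_sum]
            rw [Finset.sum_comm]
            refine Finset.sum_congr rfl fun ω _ => Finset.sum_congr rfl fun y _ => ?_
            ring
        _ ≤ muX G x * ∑ ω, (w ω / Z) * ev ψ (sumA T x ω)
              ((∑ y, ((condY G x y : ℝ) : ℂ) • xlog (sumB S y ω)) - xlog (barS S x ω)) := by
            refine mul_le_mul_of_nonneg_left ?_ hpos.le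
            refine Finset.sum_le_sum fun ω _ => ?_
            exact mul_le_mul_of_nonneg_left (hinner ω) (div_nonneg (hw ω) hZ.le)
        _ = _ := by
            rw [mul_div_assoc, Finset.sum_div]
            congr 1
            refine Finset.sum_congr rfl fun ω _ => ?_
            ring
  · -- second inequality
    rw [bTerm, Finset.sum_div, Finset.sum_comm]
    refine Finset.sum_le_sum fun y _ => ?_
    rcases (muY_nonneg G y).eq_or_lt with h0 | hpos
    · simp [prob_eq_zero_of_muY G h0.symm, ← h0]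
    · have hp : ∀ x, G.prob x y = muY G y * condX G y x := by
        intro x; rw [condX]; field_simp
      have hinner : ∀ ω, ∑ x, condX G y x * ev ψ
          ((GT x ω - GTb y ω)ᴴ * (GT x ω - GTb y ω)) (sumB S y ω)
          ≤ ev ψ ((∑ x, ((condX G y x : ℝ) : ℂ) • xlog (sumA T x ω))
              - xlog (barT T y ω)) (sumB S y ω) := by
        intro ω
        have := ev_nonneg' ψ (hKeyA y ω hpos) (sumB_posSemidef hS y ω)
        rw [ev_sub_left, ev_sum_left] at this
        linarith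
      calc ∑ x, G.prob x y * nsq (K x y - M y)
          = muY G y * ∑ ω, (w ω / Z) * ∑ x, condX G y x * ev ψ
              ((GT x ω - GTb y ω)ᴴ * (GT x ω - GTb y ω)) (sumB S y ω) := by
            simp only [hnKM, hp, Finset.mul_sum]
            rw [Finset.sum_comm]
            refine Finset.sum_congr rfl fun ω _ => Finset.sum_congr rfl fun y _ => ?_
            ring
        _ ≤ muY G y * ∑ ω, (w ω / Z) * ev ψ
              ((∑ x, ((condX G y x : ℝ) : ℂ) • xlog (sumA T x ω)) - xlog (barT T y ω))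
              (sumB S y ω) := by
            refine mul_le_mul_of_nonneg_left ?_ hpos.le
            refine Finset.sum_le_sum fun ω _ => ?_
            exact mul_le_mul_of_nonneg_left (hinner ω) (div_nonneg (hw ω) hZ.le)
        _ = _ := by
            rw [mul_div_assoc, Finset.sum_div]
            congr 1
            refine Finset.sum_congr rfl fun ω _ => ?_
            ring
  · -- the win probability
    have hwq : ∀ x y, wq G (fun x a => blockDiagonal (fun ω => E x ω a))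
        (fun y b => blockDiagonal (fun ω => F y ω b)) x y (K x y)
        = (∑ ω, w ω * ∑ a, ∑ b, if G.accept x y a b = true then ev ψ (T x ω a) (S y ω b) else 0)
            / Z := by
      intro x y
      have hev : ∀ a b, ev (K x y) (blockDiagonal (fun ω => E x ω a))
          (blockDiagonal (fun ω => F y ω b))
          = ∑ ω, (w ω / Z) * ev ψ (T x ω a) (S y ω b) := by
        intro a b
        rw [hK]
        simp only
        rw [ev_blk]
        refine Finset.sum_congr rfl fun ω _ => ?_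
        rw [ev_smul, ev_conj, hEG, hFG, hc2]
      unfold wq
      simp only [hev]
      have h1 : ∀ a b, (if G.accept x y a b = true then
            ∑ ω, (w ω / Z) * ev ψ (T x ω a) (S y ω b) else 0)
          = ∑ ω, (w ω / Z) * (if G.accept x y a b = true then ev ψ (T x ω a) (S y ω b) else 0) := by
        intro a b
        split_ifs <;> simp
      simp only [h1]
      rw [Finset.sum_div]
      calc _ = ∑ a, ∑ ω, ∑ b, (w ω / Z) *
              (if G.accept x y a b = true then ev ψ (T x ω a) (S y ω b) else 0) :=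
            Finset.sum_congr rfl fun a _ => Finset.sum_comm
        _ = ∑ ω, ∑ a, ∑ b, (w ω / Z) *
              (if G.accept x y a b = true then ev ψ (T x ω a) (S y ω b) else 0) :=
            Finset.sum_comm
        _ = _ := by
            refine Finset.sum_congr rfl fun ω _ => ?_
            rw [Finset.mul_sum, Finset.sum_div]
            refine Finset.sum_congr rfl fun a _ => ?_
            rw [Finset.mul_sum, Finset.sum_div]
            refine Finset.sum_congr rfl fun b _ => ?_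
            ring
    simp only [hwq]
    rw [coordWin, Finset.sum_div]
    refine Finset.sum_congr rfl fun x _ => ?_
    rw [Finset.sum_div]
    refine Finset.sum_congr rfl fun y _ => ?_
    ring


end core

section wrapper
variable {dA dB : ℕ} {Ω : Type} [Fintype Ω] [DecidableEq Ω]

/-- Re-indexing the sum over the gauge family when `π` is concentrated on one `ω`. -/
theorem sum_pi_aux {Q R : Type} [Fintype Q] [Fintype R] {M : Type} [AddCommGroup M] [Module ℂ M]
    (cnd : Q → ℝ) (ω : Ω) (f : (Q × Ω) ⊕ R → M) :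
    ∑ c : (Q × Ω) ⊕ R, ((Sum.elim (fun p : Q × Ω => if p.2 = ω then cnd p.1 else 0) (fun _ => 0) c : ℝ) : ℂ)
        • f c = ∑ q, ((cnd q : ℝ) : ℂ) • f (Sum.inl (q, ω)) := by
  rw [Fintype.sum_sum_type, Fintype.sum_prod_type]
  simp only [Sum.elim_inl, Sum.elim_inr, Complex.ofReal_zero, zero_smul, Finset.sum_const_zero,
    add_zero]
  refine Finset.sum_congr rfl fun q _ => ?_
  rw [Finset.sum_eq_single ω]
  · simp
  · intro b _ hb
    simp [hb]
  · simp

theorem gauge_vectors_of_gauge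
    (hgauge : ∀ {d : Type} [Fintype d] [DecidableEq d] {ι : Type} [Fintype ι] [DecidableEq ι]
      (S : ι → Matrix d d ℂ) (_ : ∀ c, (S c).PosSemidef),
      ∃ (J : Type) (_ : Fintype J) (_ : DecidableEq J) (Gm : ι → Matrix J d ℂ),
        (∀ c, (Gm c)ᴴ * Gm c = S c) ∧
        ∀ (π : ι → ℝ) (c₀ : ι), (∀ c, 0 ≤ π c) → ∑ c, π c = 1 → S c₀ = ∑ c, ((π c : ℝ) : ℂ) • S c →
          ((∑ c, ((π c : ℝ) : ℂ) • xlog (S c)) - xlog (S c₀)
            - ∑ c, ((π c : ℝ) : ℂ) • ((Gm c - Gm c₀)ᴴ * (Gm c - Gm c₀))).PosSemidef)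
    (G : Game) (hnA : 0 < G.nA) (hnB : 0 < G.nB)
    (ψ : Fin dA × Fin dB → ℂ) (w : Ω → ℝ) (hw : ∀ ω, 0 ≤ w ω)
    (T : Fin G.nX → Ω → Fin G.nA → Matrix (Fin dA) (Fin dA) ℂ)
    (S : Fin G.nY → Ω → Fin G.nB → Matrix (Fin dB) (Fin dB) ℂ)
    (hT : ∀ x ω a, (T x ω a).PosSemidef) (hS : ∀ y ω b, (S y ω b).PosSemidef)
    (hZ : 0 < coordZ (G := G) ψ w T S) :
    ∃ (I J : Type) (_ : Fintype I) (_ : Fintype J) (_ : DecidableEq I) (_ : DecidableEq J)
      (Ex : Fin G.nX → Fin G.nA → Matrix I I ℂ) (Ey : Fin G.nY → Fin G.nB → Matrix J J ℂ)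
      (K : Fin G.nX → Fin G.nY → I × J → ℂ) (L : Fin G.nX → I × J → ℂ) (M : Fin G.nY → I × J → ℂ),
      (∀ x, IsPOVM (Ex x)) ∧ (∀ y, IsPOVM (Ey y)) ∧
      (∀ x y, nsq (K x y) = coordMass (G := G) ψ w T S x y / coordZ (G := G) ψ w T S) ∧
      (∑ x, ∑ y, G.prob x y * nsq (K x y - L x) ≤ aTerm (G := G) ψ w T S / coordZ (G := G) ψ w T S) ∧
      (∑ x, ∑ y, G.prob x y * nsq (K x y - M y) ≤ bTerm (G := G) ψ w T S / coordZ (G := G) ψ w T S) ∧
      (∑ x, ∑ y, G.prob x y * wq G Ex Ey x y (K x y)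
        = coordWin (G := G) ψ w T S / coordZ (G := G) ψ w T S) := by
  classical
  -- Alice's family
  let SA : (Fin G.nX × Ω) ⊕ (Fin G.nY × Ω) → Matrix (Fin dA) (Fin dA) ℂ :=
    Sum.elim (fun p => sumA T p.1 p.2) (fun p => barT T p.1 p.2)
  have hSA : ∀ c, (SA c).PosSemidef := by
    rintro (⟨x, ω⟩ | ⟨y, ω⟩)
    · exact sumA_posSemidef hT x ω
    · show (∑ x, ((condX G y x : ℝ) : ℂ) • sumA T x ω).PosSemidef
      refine Matrix.posSemidef_sum _ fun x _ => ?_
      exact (sumA_posSemidef hT x ω).smul (Complex.zero_le_real.2 (condX_nonneg G y x))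
  let SB : (Fin G.nY × Ω) ⊕ (Fin G.nX × Ω) → Matrix (Fin dB) (Fin dB) ℂ :=
    Sum.elim (fun p => sumB S p.1 p.2) (fun p => barS S p.1 p.2)
  have hSB : ∀ c, (SB c).PosSemidef := by
    rintro (⟨y, ω⟩ | ⟨x, ω⟩)
    · exact sumB_posSemidef hS y ω
    · show (∑ y, ((condY G x y : ℝ) : ℂ) • sumB S y ω).PosSemidef
      refine Matrix.posSemidef_sum _ fun y _ => ?_
      exact (sumB_posSemidef hS y ω).smul (Complex.zero_le_real.2 (condY_nonneg G x y))
  obtain ⟨JA, iA1, iA2, GA, hGA1, hGA2⟩ := hgauge SA hSA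
  obtain ⟨JB, iB1, iB2, GB, hGB1, hGB2⟩ := hgauge SB hSB
  refine core G hnA hnB ψ w hw T S hT hS hZ
    (fun x ω => GA (Sum.inl (x, ω))) (fun y ω => GA (Sum.inr (y, ω)))
    (fun y ω => GB (Sum.inl (y, ω))) (fun x ω => GB (Sum.inr (x, ω)))
    (fun x ω => hGA1 (Sum.inl (x, ω))) (fun y ω => hGB1 (Sum.inl (y, ω))) ?_ ?_
  · intro x ω hpos
    have hsum : ∑ y, condY G x y = 1 := by
      simp only [condY]
      rw [← Finset.sum_div]
      exact div_self hpos.ne'
    have := hGB2 (Sum.elim (fun p : Fin G.nY × Ω => if p.2 = ω then condY G x p.1 else 0)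
      (fun _ => 0)) (Sum.inr (x, ω)) ?_ ?_ ?_
    · simp only [sum_pi_aux] at this
      simpa [SB] using this
    · rintro (⟨y, ω'⟩ | c)
      · simp only [Sum.elim_inl]
        split_ifs
        · exact condY_nonneg G x y
        · exact le_rfl
      · simp
    · rw [Fintype.sum_sum_type, Fintype.sum_prod_type]
      simp only [Sum.elim_inl, Sum.elim_inr, Finset.sum_const_zero, add_zero]
      rw [← hsum]
      refine Finset.sum_congr rfl fun y _ => ?_
      rw [Finset.sum_eq_single ω]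
      · simp
      · intro b _ hb
        simp [hb]
      · simp
    · rw [sum_pi_aux]
      rfl
  · intro y ω hpos
    have hsum : ∑ x, condX G y x = 1 := by
      simp only [condX]
      rw [← Finset.sum_div]
      exact div_self hpos.ne'
    have := hGA2 (Sum.elim (fun p : Fin G.nX × Ω => if p.2 = ω then condX G y p.1 else 0)
      (fun _ => 0)) (Sum.inr (y, ω)) ?_ ?_ ?_
    · simp only [sum_pi_aux] at this
      simpa [SA] using this
    · rintro (⟨x, ω'⟩ | c)
      · simp only [Sum.elim_inl]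
        split_ifs
        · exact condX_nonneg G y x
        · exact le_rfl
      · simp
    · rw [Fintype.sum_sum_type, Fintype.sum_prod_type]
      simp only [Sum.elim_inl, Sum.elim_inr, Finset.sum_const_zero, add_zero]
      rw [← hsum]
      refine Finset.sum_congr rfl fun x _ => ?_
      rw [Finset.sum_eq_single ω]
      · simp
      · intro b _ hb
        simp [hb]
      · simp
    · rw [sum_pi_aux]
      rfl

end wrapper

end Crest.Agent.PR.VectorsCore
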