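import Crest.Agent.PR.Gauge
import Crest.Agent.PR.VectorsCore

/-! `gauge_vectors`: the core theorem of `VectorsCore` applied to the gauge. -/

namespace Crest.Agent.PR

open Crest.MathPhysics.NonlocalGame Matrix
open scoped Kronecker ComplexOrder

/-- From operators on the original state to big vectors. -/
theorem gauge_vectors (G : Game) (hnA : 0 < G.nA) (hnB : 0 < G.nB) {dA dB : ℕ} {Ω : Type} [Fintype Ω] [DecidableEq Ω]
    (ψ : Fin dA × Fin dB → ℂ) (w : Ω → ℝ) (hw : ∀ ω, 0 ≤ w ω)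
    (T : Fin G.nX → Ω → Fin G.nA → Matrix (Fin dA) (Fin dA) ℂ)
    (S : Fin G.nY → Ω → Fin G.nB → Matrix (Fin dB) (Fin dB) ℂ)
    (hT : ∀ x ω a, (T x ω a).PosSemidef) (hS : ∀ y ω b, (S y ω b).PosSemidef)
    (hZ : 0 < coordZ (G := G) ψ w T S) :
    ∃ (I J : Type) (_ : Fintype I) (_ : Fintype J) (_ : DecidableEq I) (_ : DecidableEq J)
      (Ex : Fin G.nX → Fin G.nA → Matrix I I ℂ) (Ey : Fin G.nY → Fin G.nB → Matrix J J ℂ)
      (K : Fin G.nX → Fin G.nY → I × J → ℂ) (L : Fin G.nX → I × J → ℂ) (M : Fin G.nY → I × J → ℂ),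
      (∀ x, IsPOVM (Ex x)) ∧ (∀ y, IsPOVM (Ey y)) ∧
      (∀ x y, nsq (K x y) = coordMass (G := G) ψ w T S x y / coordZ (G := G) ψ w T S) ∧
      (∑ x, ∑ y, G.prob x y * nsq (K x y - L x) ≤ aTerm (G := G) ψ w T S / coordZ (G := G) ψ w T S) ∧
      (∑ x, ∑ y, G.prob x y * nsq (K x y - M y) ≤ bTerm (G := G) ψ w T S / coordZ (G := G) ψ w T S) ∧
      (∑ x, ∑ y, G.prob x y * wq G Ex Ey x y (K x y) = coordWin (G := G) ψ w T S / coordZ (G := G) ψ w T S) :=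
  VectorsCore.gauge_vectors_of_gauge (fun S hS => gauge_exists S hS) G hnA hnB ψ w hw T S hT hS hZ

end Crest.Agent.PR
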