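import Crest.Agent.PR.Defs
import Crest.Agent.PR.Strat
import Crest.Agent.PR.PartA
import Crest.Agent.PR.VectorsFinal
import Crest.Agent.PR.RoundPaths
import Crest.Agent.PR.RoundQCS
import Crest.Agent.PR.Chain

/-!
# Main Lemma: assembly of chain, gauge and rounding.
-/

namespace Crest.Agent.PR

open Crest.MathPhysics.NonlocalGame Matrix
open scoped Kronecker ComplexOrder

section

variable {G : Game} {k dA dB : ℕ}

/-- `nrm` is the square root of `nsq`. -/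
theorem ml_nrm_sq_eq {ι : Type} [Fintype ι] (v : ι → ℂ) : nrm v ^ 2 = nsq v := by
  unfold nrm
  exact Real.sq_sqrt (Finset.sum_nonneg fun _ _ => by positivity)

/-- Cauchy-Schwarz for a sum of square roots. -/
theorem ml_sum_sqrt_le {ι : Type} (s : Finset ι) (X : ι → ℝ) (hX : ∀ i ∈ s, 0 ≤ X i) :
    ∑ i ∈ s, Real.sqrt (X i) ≤ Real.sqrt ((s.card : ℝ) * ∑ i ∈ s, X i) := by
  apply Real.le_sqrt_of_sq_le
  calc (∑ i ∈ s, Real.sqrt (X i)) ^ 2 ≤ (s.card : ℝ) * ∑ i ∈ s, Real.sqrt (X i) ^ 2 :=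
        sq_sum_le_card_mul_sum_sq
    _ = (s.card : ℝ) * ∑ i ∈ s, X i := by
        congr 1
        exact Finset.sum_congr rfl fun i hi => Real.sq_sqrt (hX i hi)

/-- The per-coordinate data after the gauge, packaged: the facts `round_*` need. -/
theorem coord_facts (hnA : 0 < G.nA) (hnB : 0 < G.nB) {Ω : Type} [Fintype Ω] [DecidableEq Ω]
    (ψ : Fin dA × Fin dB → ℂ) (w : Ω → ℝ) (hw : ∀ ω, 0 ≤ w ω)
    (T : Fin G.nX → Ω → Fin G.nA → Matrix (Fin dA) (Fin dA) ℂ)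
    (S : Fin G.nY → Ω → Fin G.nB → Matrix (Fin dB) (Fin dB) ℂ)
    (hT : ∀ x ω a, (T x ω a).PosSemidef) (hS : ∀ y ω b, (S y ω b).PosSemidef)
    (hZ : 0 < coordZ (G := G) ψ w T S) :
    ∃ (I J : Type) (_ : Fintype I) (_ : Fintype J) (_ : DecidableEq I) (_ : DecidableEq J)
      (Ex : Fin G.nX → Fin G.nA → Matrix I I ℂ) (Ey : Fin G.nY → Fin G.nB → Matrix J J ℂ)
      (K : Fin G.nX → Fin G.nY → I × J → ℂ) (L : Fin G.nX → I × J → ℂ) (M : Fin G.nY → I × J → ℂ),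
      Nonempty (I × J) ∧ (∀ x, IsPOVM (Ex x)) ∧ (∀ y, IsPOVM (Ey y)) ∧
      (∑ x, ∑ y, G.prob x y * nsq (K x y) = 1) ∧
      (∑ x, ∑ y, G.prob x y * (nsq (K x y - L x) + nsq (K x y - M y))
        ≤ (aTerm (G := G) ψ w T S + bTerm (G := G) ψ w T S) / coordZ (G := G) ψ w T S) ∧
      (∑ x, ∑ y, G.prob x y * (nrm (K x y) - 1) ^ 2
        = ∑ x, ∑ y, G.prob x y *
            (Real.sqrt (coordMass (G := G) ψ w T S x y / coordZ (G := G) ψ w T S) - 1) ^ 2) ∧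
      (∑ x, ∑ y, G.prob x y * wq G Ex Ey x y (K x y) = coordWin (G := G) ψ w T S / coordZ (G := G) ψ w T S) := by
  obtain ⟨I, J, i1, i2, i3, i4, Ex, Ey, K, L, M, hEx, hEy, hK, hA, hB, hW⟩ :=
    gauge_vectors G hnA hnB ψ w hw T S hT hS hZ
  have hK1 : ∑ x, ∑ y, G.prob x y * nsq (K x y) = 1 := by
    have : ∑ x, ∑ y, G.prob x y * nsq (K x y)
        = (∑ x, ∑ y, G.prob x y * coordMass (G := G) ψ w T S x y) / coordZ (G := G) ψ w T S := by
      rw [Finset.sum_div]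
      refine Finset.sum_congr rfl fun x _ => ?_
      rw [Finset.sum_div]
      refine Finset.sum_congr rfl fun y _ => ?_
      rw [hK x y, mul_div_assoc]
    rw [this]
    exact div_self hZ.ne'
  refine ⟨I, J, i1, i2, i3, i4, Ex, Ey, K, L, M, ?_, hEx, hEy, hK1, ?_, ?_, hW⟩
  · by_contra hne
    rw [not_nonempty_iff] at hne
    have h0 : ∀ v : I × J → ℂ, nsq v = 0 := fun v => by
      unfold nsq
      exact Finset.sum_of_isEmpty _
    simp only [h0, mul_zero, Finset.sum_const_zero] at hK1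
    exact zero_ne_one hK1
  · have hsplit : ∑ x, ∑ y, G.prob x y * (nsq (K x y - L x) + nsq (K x y - M y))
        = (∑ x, ∑ y, G.prob x y * nsq (K x y - L x)) + ∑ x, ∑ y, G.prob x y * nsq (K x y - M y) := by
      rw [← Finset.sum_add_distrib]
      refine Finset.sum_congr rfl fun x _ => ?_
      rw [← Finset.sum_add_distrib]
      refine Finset.sum_congr rfl fun y _ => ?_
      ring
    rw [hsplit, add_div]
    exact add_le_add hA hB
  · refine Finset.sum_congr rfl fun x _ => Finset.sum_congr rfl fun y _ => ?_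
    rw [← hK x y]
    rfl


/-- Per-coordinate scalars produced by the chain, the summation over the coordinates (S0537). -/
theorem ml_sum_paths {ι : Type} (s : Finset ι) (Z v κ B lg : ℝ) (hZ : 0 < Z) (hκ : 0 ≤ κ) (hn : 0 < s.card)
    (f a D : ι → ℝ) (hD0 : ∀ i ∈ s, 0 ≤ D i) (ha0 : ∀ i ∈ s, 0 ≤ a i)
    (hf : ∀ i ∈ s, f i / Z ≤ v + 2 * Real.sqrt (κ * (a i / Z) + 2 * D i))
    (hsa : ∑ i ∈ s, a i ≤ 2 * Z * B) (hsD : ∑ i ∈ s, D i ≤ lg) (hlgB : lg ≤ B) :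
    ∑ i ∈ s, f i ≤ (s.card : ℝ) * Z * (v + 0 + 2 * Real.sqrt (2 * (1 + κ)) * Real.sqrt (B / (s.card : ℝ))) := by
  have hn' : (0 : ℝ) < s.card := by exact_mod_cast hn
  have hlg0 : 0 ≤ lg := le_trans (Finset.sum_nonneg hD0) hsD
  have hB0 : 0 ≤ B := le_trans hlg0 hlgB
  have hX0 : ∀ i ∈ s, 0 ≤ κ * (a i / Z) + 2 * D i := fun i hi =>
    add_nonneg (mul_nonneg hκ (div_nonneg (ha0 i hi) hZ.le)) (mul_nonneg (by norm_num) (hD0 i hi))
  have hsum : ∑ i ∈ s, (κ * (a i / Z) + 2 * D i) ≤ 2 * (1 + κ) * B := by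
    rw [Finset.sum_add_distrib, ← Finset.mul_sum, ← Finset.mul_sum, ← Finset.sum_div]
    have h1 : (∑ i ∈ s, a i) / Z ≤ 2 * B := by
      rw [div_le_iff₀ hZ]; linarith
    have h2 := mul_le_mul_of_nonneg_left h1 hκ
    nlinarith
  have hcs := ml_sum_sqrt_le s (fun i => κ * (a i / Z) + 2 * D i) hX0
  have hcs2 : ∑ i ∈ s, Real.sqrt (κ * (a i / Z) + 2 * D i)
      ≤ (s.card : ℝ) * (Real.sqrt (2 * (1 + κ)) * Real.sqrt (B / (s.card : ℝ))) := by
    refine hcs.trans ?_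
    have : Real.sqrt ((s.card : ℝ) * ∑ i ∈ s, (κ * (a i / Z) + 2 * D i))
        ≤ Real.sqrt ((s.card : ℝ) ^ 2 * (2 * (1 + κ) * (B / (s.card : ℝ)))) := by
      apply Real.sqrt_le_sqrt
      have : (s.card : ℝ) ^ 2 * (2 * (1 + κ) * (B / (s.card : ℝ))) = (s.card : ℝ) * (2 * (1 + κ) * B) := by
        field_simp
      rw [this]
      exact mul_le_mul_of_nonneg_left hsum hn'.le
    refine this.trans (le_of_eq ?_)
    rw [Real.sqrt_mul (by positivity), Real.sqrt_sq hn'.le, Real.sqrt_mul (by positivity)]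
  have hsumf : ∑ i ∈ s, f i / Z ≤ (s.card : ℝ) * v + 2 * ∑ i ∈ s, Real.sqrt (κ * (a i / Z) + 2 * D i) := by
    calc ∑ i ∈ s, f i / Z ≤ ∑ i ∈ s, (v + 2 * Real.sqrt (κ * (a i / Z) + 2 * D i)) := Finset.sum_le_sum hf
      _ = _ := by rw [Finset.sum_add_distrib, ← Finset.mul_sum]; simp
  rw [← Finset.sum_div, div_le_iff₀ hZ] at hsumf
  have h3 : ((s.card : ℝ) * v + 2 * ∑ i ∈ s, Real.sqrt (κ * (a i / Z) + 2 * D i)) * Z
      ≤ ((s.card : ℝ) * v + 2 * ((s.card : ℝ) * (Real.sqrt (2 * (1 + κ)) * Real.sqrt (B / (s.card : ℝ))))) * Z := by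
    apply mul_le_mul_of_nonneg_right _ hZ.le
    linarith
  calc ∑ i ∈ s, f i ≤ _ := hsumf
    _ ≤ _ := h3
    _ = _ := by ring

/-- Per-coordinate scalars produced by the chain, the summation over the coordinates (S0536). -/
theorem ml_sum_qcs {ι : Type} (s : Finset ι) (Z v B lg : ℝ) (K' : ℕ) (hK' : 1 ≤ K') (hZ : 0 < Z) (hn : 0 < s.card)
    (f a D : ι → ℝ) (hD0 : ∀ i ∈ s, 0 ≤ D i) (ha0 : ∀ i ∈ s, 0 ≤ a i)
    (hf : ∀ i ∈ s, f i / Z ≤ v + 2 * Real.sqrt (D i) + 12 / (K' : ℝ) + 95 * K' * Real.sqrt (a i / Z))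
    (hsa : ∑ i ∈ s, a i ≤ 2 * Z * B) (hsD : ∑ i ∈ s, D i ≤ lg) (hlgB : lg ≤ B) :
    ∑ i ∈ s, f i ≤ (s.card : ℝ) * Z * (v + 12 / (K' : ℝ) + 137 * K' * Real.sqrt (B / (s.card : ℝ))) := by
  have hn' : (0 : ℝ) < s.card := by exact_mod_cast hn
  have hlg0 : 0 ≤ lg := le_trans (Finset.sum_nonneg hD0) hsD
  have hB0 : 0 ≤ B := le_trans hlg0 hlgB
  have hK1 : (1 : ℝ) ≤ K' := by exact_mod_cast hK'
  set E := Real.sqrt (B / (s.card : ℝ)) with hE
  have hE0 : 0 ≤ E := Real.sqrt_nonneg _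
  -- `∑ √X_i ≤ n √(c B / n)` if `∑ X_i ≤ c B`
  have key : ∀ (c : ℝ) (X : ι → ℝ), 0 ≤ c → (∀ i ∈ s, 0 ≤ X i) → ∑ i ∈ s, X i ≤ c * B →
      ∑ i ∈ s, Real.sqrt (X i) ≤ (s.card : ℝ) * (Real.sqrt c * E) := by
    intro c X hc hX hsum
    refine (ml_sum_sqrt_le s X hX).trans ?_
    have : Real.sqrt ((s.card : ℝ) * ∑ i ∈ s, X i)
        ≤ Real.sqrt ((s.card : ℝ) ^ 2 * (c * (B / (s.card : ℝ)))) := by
      apply Real.sqrt_le_sqrt
      have : (s.card : ℝ) ^ 2 * (c * (B / (s.card : ℝ))) = (s.card : ℝ) * (c * B) := by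
        field_simp
      rw [this]
      exact mul_le_mul_of_nonneg_left hsum hn'.le
    refine this.trans (le_of_eq ?_)
    rw [Real.sqrt_mul (by positivity), Real.sqrt_sq hn'.le, Real.sqrt_mul hc]
  have h1 : ∑ i ∈ s, Real.sqrt (D i) ≤ (s.card : ℝ) * (Real.sqrt 1 * E) :=
    key 1 D zero_le_one hD0 (by linarith)
  have h2 : ∑ i ∈ s, Real.sqrt (a i / Z) ≤ (s.card : ℝ) * (Real.sqrt 2 * E) := by
    refine key 2 (fun i => a i / Z) zero_le_two (fun i hi => div_nonneg (ha0 i hi) hZ.le) ?_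
    rw [← Finset.sum_div, div_le_iff₀ hZ]
    linarith
  have hs2 : Real.sqrt 2 ≤ 1.42 := by
    rw [Real.sqrt_le_left (by norm_num)]
    norm_num
  rw [Real.sqrt_one, one_mul] at h1
  have hsumf : ∑ i ∈ s, f i / Z ≤ (s.card : ℝ) * (v + 12 / (K' : ℝ))
      + 2 * ∑ i ∈ s, Real.sqrt (D i) + 95 * K' * ∑ i ∈ s, Real.sqrt (a i / Z) := by
    calc ∑ i ∈ s, f i / Z
        ≤ ∑ i ∈ s, (v + 2 * Real.sqrt (D i) + 12 / (K' : ℝ) + 95 * K' * Real.sqrt (a i / Z)) :=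
          Finset.sum_le_sum hf
      _ = _ := by
        simp only [Finset.sum_add_distrib, ← Finset.mul_sum, Finset.sum_const, nsmul_eq_mul]
        ring
  have h2' : 95 * (K' : ℝ) * ∑ i ∈ s, Real.sqrt (a i / Z) ≤ 95 * K' * ((s.card : ℝ) * (1.42 * E)) := by
    apply mul_le_mul_of_nonneg_left _ (by positivity)
    refine h2.trans ?_
    apply mul_le_mul_of_nonneg_left _ hn'.le
    exact mul_le_mul_of_nonneg_right hs2 hE0
  have hfin : ∑ i ∈ s, f i / Z ≤ (s.card : ℝ) * (v + 12 / (K' : ℝ) + 137 * K' * E) := by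
    have hKE : 0 ≤ (K' : ℝ) * ((s.card : ℝ) * E) := by positivity
    have hE1 : (s.card : ℝ) * E ≤ K' * ((s.card : ℝ) * E) := by
      have := mul_nonneg hn'.le hE0
      nlinarith
    nlinarith
  rw [← Finset.sum_div, div_le_iff₀ hZ] at hfin
  calc ∑ i ∈ s, f i ≤ _ := hfin
    _ = _ := by ring


theorem log_nAnB_nonneg (hnA : 0 < G.nA) (hnB : 0 < G.nB) : 0 ≤ Real.log ((G.nA * G.nB : ℕ) : ℝ) := by
  apply Real.log_nonneg
  have : 1 ≤ G.nA * G.nB := Nat.mul_pos hnA hnB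
  exact_mod_cast this

theorem card_compl_cast (C : Finset (Fin k)) : (((Cᶜ).card : ℕ) : ℝ) = (k : ℝ) - C.card := by
  have h1 : C.card ≤ k := by simpa using Finset.card_le_univ C
  rw [Finset.card_compl, Fintype.card_fin, Nat.cast_sub h1]

/-- Main Lemma for S0537. -/
theorem main_lemma_paths (v : ℝ)
    (hv : ∀ (dA dB : ℕ) (S : Strategy G 1 dA dB), S.probWinsAtLeast 1 ≤ v) (κ : ℝ) (hκ0 : 0 ≤ κ)
    (hκ : ∀ z : Fin G.nX × Fin G.nY, 0 < G.prob z.1 z.2 → ∀ w ∈ G.supportComponent z,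
      8 * ((G.supportComponent z).card - 1 : ℝ) * (∑ u ∈ G.supportComponent z, G.prob u.1 u.2)
        ≤ κ * G.prob w.1 w.2)
    (St : Strategy G k dA dB) (hnA : 0 < G.nA) (hnB : 0 < G.nB)
    (C : Finset (Fin k)) (hcard : C.card < k) (hZ : 0 < winSub St C) :
    ∑ i ∈ Cᶜ, winSub St (insert i C) ≤ ((k : ℝ) - C.card) * winSub St C *
      (v + 0 + 2 * Real.sqrt (2 * (1 + κ)) * Real.sqrt (((C.card : ℝ) * Real.log ((G.nA * G.nB : ℕ) : ℝ)
        + Real.log (1 / winSub St C)) / ((k : ℝ) - C.card))) := by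
  obtain ⟨Ω, i1, i2, w, T, S, hw, hT, hS, hZi, hWi, hsa, hsD⟩ := chain_main St C hnA hnB hZ
  have hn : 0 < (Cᶜ).card := by
    rw [Finset.card_compl, Fintype.card_fin]; omega
  have hs := log_nAnB_nonneg (G := G) hnA hnB
  have := ml_sum_paths (Cᶜ) (winSub St C) v κ
    ((C.card : ℝ) * Real.log ((G.nA * G.nB : ℕ) : ℝ) + Real.log (1 / winSub St C))
    (Real.log (1 / winSub St C)) hZ hκ0 hn
    (fun i => winSub St (insert i C))
    (fun i => aTerm (G := G) St.ψ (w i) (T i) (S i) + bTerm (G := G) St.ψ (w i) (T i) (S i))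
    (fun i => ∑ x, ∑ y, G.prob x y *
      (Real.sqrt (coordMass (G := G) St.ψ (w i) (T i) (S i) x y / winSub St C) - 1) ^ 2)
    ?_ ?_ ?_ hsa hsD ?_
  · rwa [card_compl_cast] at this
  · intro i _
    exact Finset.sum_nonneg fun x _ => Finset.sum_nonneg fun y _ =>
      mul_nonneg (G.prob_nonneg x y) (sq_nonneg _)
  · intro i hi
    have hi' : i ∉ C := by simpa using hi
    have hZ' : 0 < coordZ (G := G) St.ψ (w i) (T i) (S i) := by rw [hZi i hi']; exact hZ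
    obtain ⟨I, J, j1, j2, j3, j4, Ex, Ey, K, L, M, hne, hEx, hEy, hK1, hA, _, _⟩ :=
      coord_facts hnA hnB St.ψ (w i) (hw i) (T i) (S i) (hT i) (hS i) hZ'
    have hA0 : 0 ≤ ∑ x, ∑ y, G.prob x y * (nsq (K x y - L x) + nsq (K x y - M y)) :=
      Finset.sum_nonneg fun x _ => Finset.sum_nonneg fun y _ =>
        mul_nonneg (G.prob_nonneg x y) (add_nonneg (nsq_nonneg _) (nsq_nonneg _))
    have := hA0.trans hA
    rw [hZi i hi'] at this
    exact (div_nonneg_iff.mp this).elim (fun h => h.1) (fun h => absurd h.2 (not_le.mpr hZ))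
  · intro i hi
    have hi' : i ∉ C := by simpa using hi
    have hZ' : 0 < coordZ (G := G) St.ψ (w i) (T i) (S i) := by rw [hZi i hi']; exact hZ
    obtain ⟨I, J, j1, j2, j3, j4, Ex, Ey, K, L, M, hne, hEx, hEy, hK1, hA, hD, hW⟩ :=
      coord_facts hnA hnB St.ψ (w i) (hw i) (T i) (S i) (hT i) (hS i) hZ'
    have hr := round_paths G v hv κ hκ Ex Ey hEx hEy K L M hK1
    rw [hW, hZi i hi', hWi i hi', hD, hZi i hi'] at hr
    rw [hZi i hi'] at hA
    refine hr.trans ?_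
    have hmono := mul_le_mul_of_nonneg_left hA hκ0
    gcongr
  · have : 0 ≤ (C.card : ℝ) * Real.log ((G.nA * G.nB : ℕ) : ℝ) := mul_nonneg (Nat.cast_nonneg _) hs
    linarith

/-- Main Lemma for S0536. -/
theorem main_lemma_qcs (v : ℝ) (hv0 : 0 ≤ v)
    (hv : ∀ (dA dB : ℕ) (S : Strategy G 1 dA dB), S.probWinsAtLeast 1 ≤ v)
    (St : Strategy G k dA dB) (hnA : 0 < G.nA) (hnB : 0 < G.nB) (K' : ℕ) (hK' : 1 ≤ K')
    (C : Finset (Fin k)) (hcard : C.card < k) (hZ : 0 < winSub St C) :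
    ∑ i ∈ Cᶜ, winSub St (insert i C) ≤ ((k : ℝ) - C.card) * winSub St C *
      (v + 12 / (K' : ℝ) + 137 * K' * Real.sqrt (((C.card : ℝ) * Real.log ((G.nA * G.nB : ℕ) : ℝ)
        + Real.log (1 / winSub St C)) / ((k : ℝ) - C.card))) := by
  obtain ⟨Ω, i1, i2, w, T, S, hw, hT, hS, hZi, hWi, hsa, hsD⟩ := chain_main St C hnA hnB hZ
  have hn : 0 < (Cᶜ).card := by
    rw [Finset.card_compl, Fintype.card_fin]; omega
  have hs := log_nAnB_nonneg (G := G) hnA hnB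
  have := ml_sum_qcs (Cᶜ) (winSub St C) v
    ((C.card : ℝ) * Real.log ((G.nA * G.nB : ℕ) : ℝ) + Real.log (1 / winSub St C))
    (Real.log (1 / winSub St C)) K' hK' hZ hn
    (fun i => winSub St (insert i C))
    (fun i => aTerm (G := G) St.ψ (w i) (T i) (S i) + bTerm (G := G) St.ψ (w i) (T i) (S i))
    (fun i => ∑ x, ∑ y, G.prob x y *
      (Real.sqrt (coordMass (G := G) St.ψ (w i) (T i) (S i) x y / winSub St C) - 1) ^ 2)
    ?_ ?_ ?_ hsa hsD ?_
  · rwa [card_compl_cast] at this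
  · intro i _
    exact Finset.sum_nonneg fun x _ => Finset.sum_nonneg fun y _ =>
      mul_nonneg (G.prob_nonneg x y) (sq_nonneg _)
  · intro i hi
    have hi' : i ∉ C := by simpa using hi
    have hZ' : 0 < coordZ (G := G) St.ψ (w i) (T i) (S i) := by rw [hZi i hi']; exact hZ
    obtain ⟨I, J, j1, j2, j3, j4, Ex, Ey, K, L, M, hne, hEx, hEy, hK1, hA, _, _⟩ :=
      coord_facts hnA hnB St.ψ (w i) (hw i) (T i) (S i) (hT i) (hS i) hZ'
    have hA0 : 0 ≤ ∑ x, ∑ y, G.prob x y * (nsq (K x y - L x) + nsq (K x y - M y)) :=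
      Finset.sum_nonneg fun x _ => Finset.sum_nonneg fun y _ =>
        mul_nonneg (G.prob_nonneg x y) (add_nonneg (nsq_nonneg _) (nsq_nonneg _))
    have := hA0.trans hA
    rw [hZi i hi'] at this
    exact (div_nonneg_iff.mp this).elim (fun h => h.1) (fun h => absurd h.2 (not_le.mpr hZ))
  · intro i hi
    have hi' : i ∉ C := by simpa using hi
    have hZ' : 0 < coordZ (G := G) St.ψ (w i) (T i) (S i) := by rw [hZi i hi']; exact hZ
    obtain ⟨I, J, j1, j2, j3, j4, Ex, Ey, K, L, M, hne, hEx, hEy, hK1, hA, hD, hW⟩ :=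
      coord_facts hnA hnB St.ψ (w i) (hw i) (T i) (S i) (hT i) (hS i) hZ'
    have hr := round_qcs G v hv0 hv hnA hnB Ex Ey hEx hEy K L M hK1 K' hK'
    rw [hW, hZi i hi', hWi i hi', hD, hZi i hi'] at hr
    rw [hZi i hi'] at hA
    refine hr.trans ?_
    gcongr
  · have : 0 ≤ (C.card : ℝ) * Real.log ((G.nA * G.nB : ℕ) : ℝ) := mul_nonneg (Nat.cast_nonneg _) hs
    linarith


/-- The statement S0537, proved here. -/
theorem s0537_final (G : Game) (v : ℝ)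
    (hv : ∀ (dA dB : ℕ) (S : Strategy G 1 dA dB), S.probWinsAtLeast 1 ≤ v) (κ : ℝ)
    (hκ : ∀ z : Fin G.nX × Fin G.nY, 0 < G.prob z.1 z.2 → ∀ w ∈ G.supportComponent z,
      8 * ((G.supportComponent z).card - 1 : ℝ) * (∑ u ∈ G.supportComponent z, G.prob u.1 u.2)
        ≤ κ * G.prob w.1 w.2)
    (δ : ℝ) (hδ : 0 < δ) (hδv : δ < 1 - v) (k dA dB : ℕ) (S : Strategy G k dA dB) (hk : 1 ≤ k) :
    S.probWinsAtLeast ((v + δ) * k) ≤
      Real.exp (-(δ ^ 3 / (16384 * (1 + κ) * (1 + Real.log ((G.nA * G.nB : ℕ) : ℝ))) * k)) := by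
  obtain ⟨hv0, hnA, hnB⟩ := v_nonneg hv S hk
  have hδ1 : δ < 1 := by linarith
  -- `κ ≥ 0`
  have hκ0 : 0 ≤ κ := by
    have hex : ∃ z : Fin G.nX × Fin G.nY, 0 < G.prob z.1 z.2 := by
      by_contra hne
      have hne' : ∀ z : Fin G.nX × Fin G.nY, G.prob z.1 z.2 ≤ 0 := fun z => not_lt.mp fun h => hne ⟨z, h⟩
      have h0 : ∑ x, ∑ y, G.prob x y ≤ 0 :=
        Finset.sum_nonpos fun x _ => Finset.sum_nonpos fun y _ => hne' (x, y)
      rw [G.prob_sum] at h0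
      linarith
    obtain ⟨z, hz⟩ := hex
    have hmem : z ∈ G.supportComponent z := by
      classical
      unfold Game.supportComponent
      simp [Finset.mem_filter]
    have h := hκ z hz z hmem
    have hcard : (1 : ℝ) ≤ ((G.supportComponent z).card : ℝ) := by
      have : 0 < (G.supportComponent z).card := Finset.card_pos.mpr ⟨z, hmem⟩
      exact_mod_cast this
    have hmass : 0 ≤ ∑ u ∈ G.supportComponent z, G.prob u.1 u.2 :=
      Finset.sum_nonneg fun u _ => G.prob_nonneg _ _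
    have hl : 0 ≤ 8 * ((G.supportComponent z).card - 1 : ℝ) * (∑ u ∈ G.supportComponent z, G.prob u.1 u.2) := by
      apply mul_nonneg _ hmass
      linarith
    have := hl.trans h
    by_contra hneg
    have hneg' : κ < 0 := not_le.mp hneg
    have := mul_neg_of_neg_of_pos hneg' hz
    linarith
  have hκ1 : 0 < 1 + κ := by linarith
  set ε₀ : ℝ := δ ^ 2 / (32 * (1 + κ)) with hε
  have hε₀ : 0 < ε₀ := by positivity
  have hε₀δ : ε₀ ≤ δ / 16 := by
    rw [hε, div_le_iff₀ (by positivity)]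
    nlinarith [mul_pos hδ hδ, mul_nonneg hδ.le hκ0]
  have hc : 0 + 2 * Real.sqrt (2 * (1 + κ)) * Real.sqrt ε₀ ≤ δ / 2 := by
    have h1 : Real.sqrt (2 * (1 + κ)) * Real.sqrt ε₀ = δ / 4 := by
      rw [← Real.sqrt_mul (by positivity)]
      have : 2 * (1 + κ) * ε₀ = (δ / 4) ^ 2 := by
        rw [hε]; field_simp; ring
      rw [this, Real.sqrt_sq (by positivity)]
    nlinarith
  have hmain := partA S hk hnA hnB v δ 0 (2 * Real.sqrt (2 * (1 + κ))) ε₀ hv0 hδ hδv le_rfl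
    (by positivity) hε₀ hε₀δ hc
    (fun C hC hZ => main_lemma_paths v hv κ hκ0 hκ S hnA hnB C hC hZ)
  refine hmain.trans (Real.exp_le_exp.mpr ?_)
  have hs := log_nAnB_nonneg (G := G) hnA hnB
  set s := Real.log ((G.nA * G.nB : ℕ) : ℝ) with hsdef
  have hk' : (0 : ℝ) ≤ k := Nat.cast_nonneg _
  have hs1 : 0 < 1 + s := by linarith
  have e1 : 3 / 32 * δ * ε₀ * k / (1 + s) = (3 / 1024) * (δ ^ 3 / ((1 + κ) * (1 + s)) * k) := by
    rw [hε]; field_simp; ring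
  have e2 : δ ^ 3 / (16384 * (1 + κ) * (1 + s)) * k = (1 / 16384) * (δ ^ 3 / ((1 + κ) * (1 + s)) * k) := by
    field_simp
  rw [e1, e2]
  have h0 : 0 ≤ δ ^ 3 / ((1 + κ) * (1 + s)) * k := by positivity
  linarith

/-- The statement S0536, proved here. -/
theorem s0536_final :
    ∃ κ₀ : ℝ, 0 < κ₀ ∧ ∀ (G : Game) (v : ℝ),
      (∀ (dA dB : ℕ) (S : Strategy G 1 dA dB), S.probWinsAtLeast 1 ≤ v) →
      ∀ δ : ℝ, 0 < δ → δ < 1 - v → ∀ (k dA dB : ℕ) (S : Strategy G k dA dB), 1 ≤ k →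
        S.probWinsAtLeast ((v + δ) * k) ≤
          Real.exp (-(κ₀ * δ ^ 5 / (1 + Real.log ((G.nA * G.nB : ℕ) : ℝ)) * k)) := by
  refine ⟨1 / 10000000000, by norm_num, ?_⟩
  intro G v hv δ hδ hδv k dA dB S hk
  obtain ⟨hv0, hnA, hnB⟩ := v_nonneg hv S hk
  have hδ1 : δ < 1 := by linarith
  -- the integer parameter of the buckets
  obtain ⟨K', hK1, hK2⟩ : ∃ K' : ℕ, 48 / δ ≤ (K' : ℝ) ∧ (K' : ℝ) ≤ 49 / δ := by
    refine ⟨⌈48 / δ⌉₊, Nat.le_ceil _, ?_⟩
    have h1 := (Nat.ceil_lt_add_one (a := 48 / δ) (by positivity)).le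
    have h2 : (1 : ℝ) ≤ 1 / δ := by
      rw [le_div_iff₀ hδ]; linarith
    have h3 : 49 / δ = 48 / δ + 1 / δ := by ring
    rw [h3]
    linarith
  have hK0 : (0 : ℝ) < K' := lt_of_lt_of_le (by positivity) hK1
  have hK' : 1 ≤ K' := by
    have : 0 < K' := by exact_mod_cast hK0
    omega
  set ε₀ : ℝ := δ ^ 4 / 730000000 with hε
  have hε₀ : 0 < ε₀ := by positivity
  have hδ4 : δ ^ 4 ≤ δ := by
    calc δ ^ 4 = δ * δ ^ 3 := by ring
      _ ≤ δ * 1 := by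
        apply mul_le_mul_of_nonneg_left _ hδ.le
        exact pow_le_one₀ hδ.le hδ1.le
      _ = δ := mul_one δ
  have hε₀δ : ε₀ ≤ δ / 16 := by
    rw [hε]
    have : δ ^ 4 / 730000000 ≤ δ / 730000000 := by gcongr
    have h2 : δ / 730000000 ≤ δ / 16 := by
      apply div_le_div_of_nonneg_left hδ.le (by norm_num) (by norm_num)
    linarith
  have hc1 : 12 / (K' : ℝ) ≤ δ / 4 := by
    rw [div_le_iff₀ hK0]
    have : 48 ≤ (K' : ℝ) * δ := by
      rw [div_le_iff₀ hδ] at hK1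
      exact hK1
    nlinarith
  have hsq : Real.sqrt ε₀ ≤ δ ^ 2 / 27018 := by
    apply Real.sqrt_le_iff.mpr
    constructor
    · positivity
    · rw [hε, div_pow]
      have : (δ ^ 2) ^ 2 = δ ^ 4 := by ring
      rw [this]
      have h0 : 0 ≤ δ ^ 4 := by positivity
      rw [div_le_div_iff₀ (by norm_num) (by norm_num)]
      nlinarith
  have hc2 : 137 * (K' : ℝ) * Real.sqrt ε₀ ≤ δ / 4 := by
    have h1 : 137 * (K' : ℝ) * Real.sqrt ε₀ ≤ 137 * (49 / δ) * (δ ^ 2 / 27018) := by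
      gcongr
    have h2 : 137 * (49 / δ) * (δ ^ 2 / 27018) = (6713 / 27018) * δ := by
      field_simp
      ring
    rw [h2] at h1
    have : (6713 / 27018 : ℝ) * δ ≤ δ / 4 := by nlinarith
    linarith
  have hc : 12 / (K' : ℝ) + 137 * (K' : ℝ) * Real.sqrt ε₀ ≤ δ / 2 := by linarith
  have hmain := partA S hk hnA hnB v δ (12 / (K' : ℝ)) (137 * (K' : ℝ)) ε₀ hv0 hδ hδv
    (by positivity) (by positivity) hε₀ hε₀δ hc
    (fun C hC hZ => main_lemma_qcs v hv0 hv S hnA hnB K' hK' C hC hZ)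
  refine hmain.trans (Real.exp_le_exp.mpr ?_)
  have hs := log_nAnB_nonneg (G := G) hnA hnB
  set s := Real.log ((G.nA * G.nB : ℕ) : ℝ) with hsdef
  have hk' : (0 : ℝ) ≤ k := Nat.cast_nonneg _
  have hs1 : 0 < 1 + s := by linarith
  have e1 : 3 / 32 * δ * ε₀ * k / (1 + s) = (3 / 23360000000) * (δ ^ 5 / (1 + s) * k) := by
    rw [hε]; field_simp; ring
  have e2 : 1 / 10000000000 * δ ^ 5 / (1 + s) * k = (1 / 10000000000) * (δ ^ 5 / (1 + s) * k) := by
    ring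
  rw [e1, e2]
  have h0 : 0 ≤ δ ^ 5 / (1 + s) * k := by positivity
  have : (1 / 10000000000 : ℝ) ≤ 3 / 23360000000 := by norm_num
  nlinarith

end

end Crest.Agent.PR
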